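import Mathlib

/-!
Independence of contractions from the choice of an orthonormal basis.
-/

namespace Vale.Agent.Lib.P098

open Finset
open scoped InnerProductSpace

variable {E : Type*} [NormedAddCommGroup E] [InnerProductSpace ℝ E] [FiniteDimensional ℝ E]
variable {ι ι' : Type*} [Fintype ι] [Fintype ι']

theorem contr1_riesz (d : OrthonormalBasis ι ℝ E)
    (f g : E → ℝ) (hf : IsLinearMap ℝ f) (hg : IsLinearMap ℝ g) :
    ∑ i, f (d i) * g (d i)
      = ⟪(InnerProductSpace.toDual ℝ E).symm (LinearMap.toContinuousLinearMap (hf.mk' f)),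
        (InnerProductSpace.toDual ℝ E).symm (LinearMap.toContinuousLinearMap (hg.mk' g))⟫_ℝ := by
  rw [← d.sum_inner_mul_inner]
  refine Finset.sum_congr rfl fun i _ => ?_
  rw [InnerProductSpace.toDual_symm_apply, real_inner_comm, InnerProductSpace.toDual_symm_apply]
  rfl

/-- One index contraction of two linear functionals. -/
theorem contr1 (b : OrthonormalBasis ι ℝ E) (c : OrthonormalBasis ι' ℝ E)
    (f g : E → ℝ) (hf : IsLinearMap ℝ f) (hg : IsLinearMap ℝ g) :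
    ∑ i, f (b i) * g (b i) = ∑ j, f (c j) * g (c j) := by
  rw [contr1_riesz b f g hf hg, contr1_riesz c f g hf hg]

/-- Expansion of a linear functional in an orthonormal basis. -/
theorem expand1 (c : OrthonormalBasis ι ℝ E) (f : E → ℝ) (hf : IsLinearMap ℝ f) (x : E) :
    f x = ∑ j, ⟪c j, x⟫_ℝ * f (c j) := by
  have h : f x = (hf.mk' f) (∑ j, ⟪c j, x⟫_ℝ • c j) := by
    rw [c.sum_repr' x]
    rfl
  rw [h, map_sum]
  refine Finset.sum_congr rfl fun j _ => ?_
  rw [map_smul]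
  rfl

/-- Two index contraction of two bilinear forms. -/
theorem contr2 (b : OrthonormalBasis ι ℝ E) (c : OrthonormalBasis ι' ℝ E)
    (B C : E → E → ℝ)
    (hB1 : ∀ y, IsLinearMap ℝ (B y)) (hB2 : ∀ w, IsLinearMap ℝ (fun y => B y w))
    (hC1 : ∀ y, IsLinearMap ℝ (C y)) (hC2 : ∀ w, IsLinearMap ℝ (fun y => C y w)) :
    ∑ i, ∑ j, B (b i) (b j) * C (b i) (b j) = ∑ i, ∑ j, B (c i) (c j) * C (c i) (c j) := by
  calc ∑ i, ∑ j, B (b i) (b j) * C (b i) (b j)
      = ∑ i, ∑ j, B (b i) (c j) * C (b i) (c j) :=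
        Finset.sum_congr rfl fun i _ => contr1 b c _ _ (hB1 (b i)) (hC1 (b i))
    _ = ∑ j, ∑ i, B (b i) (c j) * C (b i) (c j) := Finset.sum_comm
    _ = ∑ j, ∑ i, B (c i) (c j) * C (c i) (c j) :=
        Finset.sum_congr rfl fun j _ => contr1 b c _ _ (hB2 (c j)) (hC2 (c j))
    _ = ∑ i, ∑ j, B (c i) (c j) * C (c i) (c j) := Finset.sum_comm

/-- Three index contraction of two trilinear forms. -/
theorem contr3 (b : OrthonormalBasis ι ℝ E) (c : OrthonormalBasis ι' ℝ E)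
    (S T : E → E → E → ℝ)
    (hS1 : ∀ y w, IsLinearMap ℝ (S y w)) (hS2 : ∀ y z, IsLinearMap ℝ (fun w => S y w z))
    (hS3 : ∀ w z, IsLinearMap ℝ (fun y => S y w z))
    (hT1 : ∀ y w, IsLinearMap ℝ (T y w)) (hT2 : ∀ y z, IsLinearMap ℝ (fun w => T y w z))
    (hT3 : ∀ w z, IsLinearMap ℝ (fun y => T y w z)) :
    ∑ i, ∑ j, ∑ k, S (b i) (b j) (b k) * T (b i) (b j) (b k)
      = ∑ i, ∑ j, ∑ k, S (c i) (c j) (c k) * T (c i) (c j) (c k) := by
  calc ∑ i, ∑ j, ∑ k, S (b i) (b j) (b k) * T (b i) (b j) (b k)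
      = ∑ i, ∑ j, ∑ k, S (b i) (c j) (c k) * T (b i) (c j) (c k) :=
        Finset.sum_congr rfl fun i _ =>
          contr2 b c _ _ (fun w => hS1 (b i) w) (fun z => hS2 (b i) z)
            (fun w => hT1 (b i) w) (fun z => hT2 (b i) z)
    _ = ∑ j, ∑ i, ∑ k, S (b i) (c j) (c k) * T (b i) (c j) (c k) := Finset.sum_comm
    _ = ∑ j, ∑ k, ∑ i, S (b i) (c j) (c k) * T (b i) (c j) (c k) :=
        Finset.sum_congr rfl fun j _ => Finset.sum_comm
    _ = ∑ j, ∑ k, ∑ i, S (c i) (c j) (c k) * T (c i) (c j) (c k) :=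
        Finset.sum_congr rfl fun j _ => Finset.sum_congr rfl fun k _ =>
          contr1 b c _ _ (hS3 (c j) (c k)) (hT3 (c j) (c k))
    _ = ∑ j, ∑ i, ∑ k, S (c i) (c j) (c k) * T (c i) (c j) (c k) :=
        Finset.sum_congr rfl fun j _ => Finset.sum_comm
    _ = ∑ i, ∑ j, ∑ k, S (c i) (c j) (c k) * T (c i) (c j) (c k) := Finset.sum_comm

/-- Trace of a bilinear form is independent of the orthonormal basis. -/
theorem trace_indep (b : OrthonormalBasis ι ℝ E) (c : OrthonormalBasis ι' ℝ E)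
    (B : E → E → ℝ)
    (hB1 : ∀ y, IsLinearMap ℝ (B y)) (hB2 : ∀ w, IsLinearMap ℝ (fun y => B y w)) :
    ∑ i, B (b i) (b i) = ∑ j, B (c j) (c j) := by
  have h1 : ∀ i, B (b i) (b i) = ∑ j, ⟪c j, b i⟫_ℝ * B (b i) (c j) :=
    fun i => expand1 c (B (b i)) (hB1 (b i)) (b i)
  have h2 : ∀ j, B (c j) (c j) = ∑ i, ⟪b i, c j⟫_ℝ * B (b i) (c j) :=
    fun j => expand1 b (fun y => B y (c j)) (hB2 (c j)) (c j)
  simp only [h1, h2]
  rw [Finset.sum_comm]
  refine Finset.sum_congr rfl fun j _ => Finset.sum_congr rfl fun i _ => ?_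
  rw [real_inner_comm]

end Vale.Agent.Lib.P098
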