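import Vale.Agent.Lib.P098.Basis

/-!
Boundary algebra: the contraction of the Hessian `A` with the normal derivative `B` of the
Hessian at a free boundary point.
-/

namespace Vale.Agent.Lib.P098

open Finset
open scoped InnerProductSpace

variable {E : Type*} [NormedAddCommGroup E] [InnerProductSpace ℝ E] [FiniteDimensional ℝ E]

theorem bdry_alg {ι : Type*} [Fintype ι] (b : OrthonormalBasis ι ℝ E)
    (A B : E →L[ℝ] E →L[ℝ] ℝ) (hAs : ∀ y z, A y z = A z y) (hBs : ∀ y z, B y z = B z y)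
    (ν : E) (hν : ‖ν‖ = 1) (H : ℝ)
    (h1 : ∀ y, A ν y = -H * ⟪ν, y⟫_ℝ)
    (h2 : ∀ τ, ⟪ν, τ⟫_ℝ = 0 → B τ τ = -H * A τ τ - ∑ i, A τ (b i) ^ 2)
    (h3 : ∑ i, B (b i) (b i) = 0) (h4 : ∑ i, A (b i) (b i) = 0) :
    ∑ i, ∑ j, A (b i) (b j) * B (b i) (b j)
      = -2 * H * (∑ i, ∑ j, A (b i) (b j) ^ 2)
        - ∑ i, ∑ j, ∑ l, A (b i) (b j) * A (b j) (b l) * A (b l) (b i) := by
  set C : E → E → ℝ := fun y z => B y z + H * A y z + ∑ i, A y (b i) * A z (b i) with hC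
  have hCs : ∀ y z, C y z = C z y := by
    intro y z
    simp only [hC]
    rw [hBs y z, hAs y z]
    congr 1
    refine Finset.sum_congr rfl fun i _ => ?_
    ring
  have hCadd : ∀ y y' z, C (y + y') z = C y z + C y' z := by
    intro y y' z
    simp only [hC, map_add, add_apply, add_mul, Finset.sum_add_distrib]
    ring
  have hCsmul : ∀ (t : ℝ) y z, C (t • y) z = t * C y z := by
    intro t y z
    simp only [hC, map_smul, smul_apply, smul_eq_mul, mul_add,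
      Finset.mul_sum]
    congr 1
    · ring
    · refine Finset.sum_congr rfl fun i _ => ?_
      ring
  have hCadd' : ∀ y z z', C y (z + z') = C y z + C y z' := by
    intro y z z'
    rw [hCs, hCadd, hCs z y, hCs z' y]
  have hCsmul' : ∀ (t : ℝ) y z, C y (t • z) = t * C y z := by
    intro t y z
    rw [hCs, hCsmul, hCs z y]
  have hC0 : ∀ τ, ⟪ν, τ⟫_ℝ = 0 → C τ τ = 0 := by
    intro τ hτ
    simp only [hC]
    rw [h2 τ hτ]
    have : ∑ i, A τ (b i) * A τ (b i) = ∑ i, A τ (b i) ^ 2 :=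
      Finset.sum_congr rfl fun i _ => by ring
    rw [this]
    ring
  have hC00 : ∀ τ σ, ⟪ν, τ⟫_ℝ = 0 → ⟪ν, σ⟫_ℝ = 0 → C τ σ = 0 := by
    intro τ σ hτ hσ
    have h := hC0 (τ + σ) (by rw [inner_add_right, hτ, hσ, add_zero])
    rw [hCadd, hCadd', hCadd', hC0 τ hτ, hC0 σ hσ, hCs σ τ] at h
    linarith
  have hνν : ⟪ν, ν⟫_ℝ = 1 := by rw [real_inner_self_eq_norm_sq, hν]; norm_num
  -- the structure of C
  have hstar : ∀ y z, C y z = ⟪ν, z⟫_ℝ * C y ν + ⟪ν, y⟫_ℝ * C ν z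
      - ⟪ν, y⟫_ℝ * ⟪ν, z⟫_ℝ * C ν ν := by
    intro y z
    have hy : ⟪ν, y + (-⟪ν, y⟫_ℝ) • ν⟫_ℝ = 0 := by
      rw [inner_add_right, inner_smul_right, hνν]; ring
    have hz : ⟪ν, z + (-⟪ν, z⟫_ℝ) • ν⟫_ℝ = 0 := by
      rw [inner_add_right, inner_smul_right, hνν]; ring
    have h := hC00 _ _ hy hz
    rw [hCadd, hCadd', hCadd', hCsmul, hCsmul', hCsmul', hCsmul] at h
    linarith
  -- coordinates
  have linCν : IsLinearMap ℝ (fun z => C ν z) :=
    ⟨fun y z => hCadd' ν y z, fun t y => by simp [hCsmul']⟩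
  have E2 : ∑ i, ⟪b i, ν⟫_ℝ * C ν (b i) = C ν ν := (expand1 b (fun z => C ν z) linCν ν).symm
  have E3 : ∑ i, ⟪b i, ν⟫_ℝ * ⟪b i, ν⟫_ℝ = 1 := by
    have linν : IsLinearMap ℝ (fun z => ⟪ν, z⟫_ℝ) :=
      ⟨fun y z => inner_add_right _ _ _, fun t y => by simp [inner_smul_right]⟩
    have h := (expand1 b (fun z => ⟪ν, z⟫_ℝ) linν ν).symm
    rw [hνν] at h
    rw [← h]
    refine Finset.sum_congr rfl fun i _ => ?_
    rw [real_inner_comm ν (b i)]
  have E4 : ∀ i, ∑ j, A (b i) (b j) * ⟪b j, ν⟫_ℝ = -H * ⟪b i, ν⟫_ℝ := by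
    intro i
    have lin : IsLinearMap ℝ (fun z => A (b i) z) := ⟨fun y z => by simp, fun t y => by simp⟩
    have h := (expand1 b (fun z => A (b i) z) lin ν).symm
    rw [hAs (b i) ν, h1, real_inner_comm] at h
    rw [← h]
    refine Finset.sum_congr rfl fun j _ => ?_
    ring
  have E1 : ∀ i j, C (b i) (b j) = ⟪b j, ν⟫_ℝ * C ν (b i) + ⟪b i, ν⟫_ℝ * C ν (b j)
      - ⟪b i, ν⟫_ℝ * ⟪b j, ν⟫_ℝ * C ν ν := by
    intro i j
    rw [hstar (b i) (b j), hCs (b i) ν, real_inner_comm ν (b j), real_inner_comm ν (b i)]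
  -- trace of C
  have htrC : ∑ i, C (b i) (b i) = C ν ν := by
    simp only [E1]
    rw [Finset.sum_sub_distrib, Finset.sum_add_distrib, E2, ← Finset.sum_mul, E3]
    ring
  have htrC' : ∑ i, C (b i) (b i) = ∑ i, ∑ j, A (b i) (b j) ^ 2 := by
    simp only [hC, Finset.sum_add_distrib, ← Finset.mul_sum]
    rw [h3, h4]
    simp only [pow_two]
    ring
  -- contraction of A with C
  have hAC : ∑ i, ∑ j, A (b i) (b j) * C (b i) (b j) = -H * C ν ν := by
    have p1 : ∑ i, ∑ j, A (b i) (b j) * (⟪b j, ν⟫_ℝ * C ν (b i)) = -H * C ν ν := by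
      have : ∀ i, ∑ j, A (b i) (b j) * (⟪b j, ν⟫_ℝ * C ν (b i))
          = C ν (b i) * (-H * ⟪b i, ν⟫_ℝ) := by
        intro i
        rw [← E4 i, Finset.mul_sum]
        refine Finset.sum_congr rfl fun j _ => ?_
        ring
      simp only [this]
      rw [← E2, Finset.mul_sum]
      refine Finset.sum_congr rfl fun i _ => ?_
      ring
    have p2 : ∑ i, ∑ j, A (b i) (b j) * (⟪b i, ν⟫_ℝ * C ν (b j)) = -H * C ν ν := by
      rw [Finset.sum_comm, ← p1]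
      refine Finset.sum_congr rfl fun j _ => Finset.sum_congr rfl fun i _ => ?_
      rw [hAs (b i) (b j)]
    have p3 : ∑ i, ∑ j, A (b i) (b j) * (⟪b i, ν⟫_ℝ * ⟪b j, ν⟫_ℝ * C ν ν) = -H * C ν ν := by
      have : ∀ i, ∑ j, A (b i) (b j) * (⟪b i, ν⟫_ℝ * ⟪b j, ν⟫_ℝ * C ν ν)
          = C ν ν * ⟪b i, ν⟫_ℝ * (-H * ⟪b i, ν⟫_ℝ) := by
        intro i
        rw [← E4 i, Finset.mul_sum]
        refine Finset.sum_congr rfl fun j _ => ?_
        ring
      simp only [this]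
      have e : ∀ i, C ν ν * ⟪b i, ν⟫_ℝ * (-H * ⟪b i, ν⟫_ℝ)
          = (-H * C ν ν) * (⟪b i, ν⟫_ℝ * ⟪b i, ν⟫_ℝ) := fun i => by ring
      simp only [e]
      rw [← Finset.mul_sum, E3]
      ring
    simp only [E1, mul_sub, mul_add, Finset.sum_sub_distrib, Finset.sum_add_distrib]
    rw [p1, p2, p3]
    ring
  have hAC' : ∑ i, ∑ j, A (b i) (b j) * C (b i) (b j)
      = ∑ i, ∑ j, A (b i) (b j) * B (b i) (b j) + H * ∑ i, ∑ j, A (b i) (b j) ^ 2
        + ∑ i, ∑ j, ∑ l, A (b i) (b j) * A (b j) (b l) * A (b l) (b i) := by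
    simp only [hC, mul_add, Finset.sum_add_distrib, Finset.mul_sum]
    congr 1
    · congr 1
      refine Finset.sum_congr rfl fun i _ => Finset.sum_congr rfl fun j _ => ?_
      ring
    · refine Finset.sum_congr rfl fun i _ => Finset.sum_congr rfl fun j _ =>
        Finset.sum_congr rfl fun l _ => ?_
      rw [hAs (b l) (b i)]
      ring
  rw [hAC, htrC.symm.trans htrC'] at hAC'
  linarith

end Vale.Agent.Lib.P098
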