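import Vale.Agent.Lib.P098.FreeBdry

/-!
The free boundary identity for the normal derivative of the Hessian test function.
-/

namespace Vale.Agent.Lib.P098

open Finset
open scoped Topology InnerProductSpace

variable {E : Type*} [NormedAddCommGroup E] [InnerProductSpace ℝ E] [FiniteDimensional ℝ E]
variable {ι : Type*} [Fintype ι]
variable {U : Set E} {u : E → ℝ}

theorem bdry_final (b : OrthonormalBasis ι ℝ E) (hU : IsOpen U) (h0 : (0 : E) ∉ U)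
    (hu : ContDiffOn ℝ 4 u U) (hhom : ∀ x ∈ U, ∀ t : ℝ, 0 < t → u (t • x) = t * u x)
    (hharm : ∀ x ∈ U, 0 < u x → Laplacian.laplacian u x = 0)
    (hfb : ∀ x ∈ U, u x = 0 → ‖gradient u x‖ = 1)
    {x0 : E} (hx0 : x0 ∈ U) (hu0 : u x0 = 0)
    (hax : ∑ i, ∑ j, fderiv ℝ (fderiv ℝ u) x0 (b i) (b j) ^ 2 ≠ 0) (p q : ℝ) :
    fderiv ℝ (fun z => (∑ i, ∑ j, fderiv ℝ (fderiv ℝ u) z (b i) (b j) ^ 2) ^ (p / 2)
          * ‖z‖ ^ q) x0 (gradient u x0)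
      + (-(fderiv ℝ (fderiv ℝ u) x0 (gradient u x0) (gradient u x0)))
          * ((∑ i, ∑ j, fderiv ℝ (fderiv ℝ u) x0 (b i) (b j) ^ 2) ^ (p / 2) * ‖x0‖ ^ q)
      = ((∑ i, ∑ j, fderiv ℝ (fderiv ℝ u) x0 (b i) (b j) ^ 2) ^ (p / 2) * ‖x0‖ ^ q)
          * ((1 - 2 * p) * (-(fderiv ℝ (fderiv ℝ u) x0 (gradient u x0) (gradient u x0)))
                * (∑ i, ∑ j, fderiv ℝ (fderiv ℝ u) x0 (b i) (b j) ^ 2)
              - p * ∑ i, ∑ j, ∑ l, fderiv ℝ (fderiv ℝ u) x0 (b i) (b j)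
                  * fderiv ℝ (fderiv ℝ u) x0 (b j) (b l) * fderiv ℝ (fderiv ℝ u) x0 (b l) (b i))
            / (∑ i, ∑ j, fderiv ℝ (fderiv ℝ u) x0 (b i) (b j) ^ 2) := by
  have hu2 : ContDiffOn ℝ 2 u U := hu.of_le (by norm_num)
  have hhom' : HomOn 1 u U := fun y hy t ht => by
    rw [zpow_one]
    exact hhom y hy t ht
  have hharm' : ∀ y ∈ U, 0 < u y → lap b u y = 0 := fun y hy hp => by
    rw [← laplacian_eq_lap b hU hu2 hy]
    exact hharm y hy hp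
  have hgrad : ∀ (y w : E), pd w u y = ⟪gradient u y, w⟫_ℝ := fun y w =>
    (inner_gradient_left (𝕜 := ℝ)).symm
  have hfb' : ∀ y ∈ U, u y = 0 → ∑ i, pd (b i) u y ^ 2 = 1 := fun y hy hy0 => by
    simp only [hgrad]
    rw [sum_inner_sq b, hfb y hy hy0]
    norm_num
  have hν : ∀ w, pd w u x0 = ⟪gradient u x0, w⟫_ℝ := fun w => hgrad x0 w
  have hAe : ∀ v w, fderiv ℝ (fderiv ℝ u) x0 v w = pd v (pd w u) x0 :=
    fun v w => D2_eq hU hu2 hx0 v w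
  have hax' : ∑ i, ∑ j, pd (b i) (pd (b j) u) x0 ^ 2 ≠ 0 := by
    rw [← hessSq_eq b hU hu hx0]
    exact hax
  have hN : IsOpen {y ∈ U | ∑ i, ∑ j, pd (b i) (pd (b j) u) y ^ 2 ≠ 0} := nzSet_open b hU hu
  have hxN : x0 ∈ {y ∈ U | ∑ i, ∑ j, pd (b i) (pd (b j) u) y ^ 2 ≠ 0} := ⟨hx0, hax'⟩
  have hform : ∀ y ∈ {y ∈ U | ∑ i, ∑ j, pd (b i) (pd (b j) u) y ^ 2 ≠ 0},
      (∑ i, ∑ j, fderiv ℝ (fderiv ℝ u) y (b i) (b j) ^ 2) ^ (p / 2) * ‖y‖ ^ q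
        = Real.exp (p / 2 * Real.log (∑ i, ∑ j, pd (b i) (pd (b j) u) y ^ 2)
          + q / 2 * Real.log (‖y‖ ^ 2)) :=
    fun y hy => testFn_eq b hU hu p q hy.1 (fun h => h0 (h ▸ hy.1)) hy.2
  have hev : (fun z => (∑ i, ∑ j, fderiv ℝ (fderiv ℝ u) z (b i) (b j) ^ 2) ^ (p / 2)
        * ‖z‖ ^ q) =ᶠ[𝓝 x0]
      (fun z => Real.exp (p / 2 * Real.log (∑ i, ∑ j, pd (b i) (pd (b j) u) z ^ 2)
          + q / 2 * Real.log (‖z‖ ^ 2))) :=
    Filter.eventuallyEq_of_mem (hN.mem_nhds hxN) hform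
  have hx00 : x0 ≠ 0 := fun h => h0 (h ▸ hx0)
  have hρ0 : ‖x0‖ ^ 2 ≠ 0 := pow_ne_zero 2 (norm_ne_zero_iff.2 hx00)
  have hda : DifferentiableAt ℝ (fun z => ∑ i, ∑ j, pd (b i) (pd (b j) u) z ^ 2) x0 :=
    diffAt hU (hessSq_contDiffOn b hU hu) (by norm_num) hx0
  have hdρ : DifferentiableAt ℝ (fun z : E => ‖z‖ ^ 2) x0 :=
    ((contDiff_norm_sq ℝ).contDiffAt (n := 2)).differentiableAt (by norm_num)
  have hdla : DifferentiableAt ℝ
      (fun z => Real.log (∑ i, ∑ j, pd (b i) (pd (b j) u) z ^ 2)) x0 := hda.log hax'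
  have hdlρ : DifferentiableAt ℝ (fun z : E => Real.log (‖z‖ ^ 2)) x0 := hdρ.log hρ0
  have hdL : DifferentiableAt ℝ (fun z => p / 2 * Real.log (∑ i, ∑ j, pd (b i) (pd (b j) u) z ^ 2)
      + q / 2 * Real.log (‖z‖ ^ 2)) x0 :=
    (hdla.const_mul (p / 2)).add (hdlρ.const_mul (q / 2))
  have hinner : ⟪x0, gradient u x0⟫_ℝ = 0 := by
    rw [real_inner_comm, ← hν x0, euler_u hU hu hhom' hx0, hu0]
  have hpdc : fderiv ℝ (fun z => (∑ i, ∑ j, fderiv ℝ (fderiv ℝ u) z (b i) (b j) ^ 2) ^ (p / 2)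
        * ‖z‖ ^ q) x0 (gradient u x0)
      = Real.exp (p / 2 * Real.log (∑ i, ∑ j, pd (b i) (pd (b j) u) x0 ^ 2)
          + q / 2 * Real.log (‖x0‖ ^ 2))
        * (p / 2 * ((∑ i, ∑ j, pd (b i) (pd (b j) u) x0 ^ 2)⁻¹
          * (2 * (2 * pd (gradient u x0) (pd (gradient u x0) u) x0
              * (∑ i, ∑ j, pd (b i) (pd (b j) u) x0 ^ 2)
            - ∑ i, ∑ j, ∑ l, pd (b i) (pd (b j) u) x0 * pd (b j) (pd (b l) u) x0
                * pd (b l) (pd (b i) u) x0)))) := by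
    rw [hev.fderiv_eq]
    have e1 := pd_comp (Real.hasDerivAt_exp _) hdL (gradient u x0)
    have e2 := pd_lin hdla hdlρ (p / 2) (q / 2) (gradient u x0)
    have e3 := pd_log hda hax' (gradient u x0)
    have e4 := pd_log hdρ hρ0 (gradient u x0)
    have e5 := sumsq_pd (A := fun i j => pd (b i) (pd (b j) u))
      (fun i j => diffAt hU (cd_pd2 hU hu (b i) (b j)) (by norm_num) hx0) (gradient u x0)
    have e6 := bdry_main b hU hu hharm' hfb' hx0 hu0 hν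
    simp only [pd] at e1 e2 e3 e4 e5 e6 ⊢
    rw [e1, e2, e3, e4, e5, e6]
    have e7 := pd_normsq (gradient u x0) x0
    simp only [pd] at e7
    rw [e7, hinner]
    ring
  rw [hpdc, hform x0 hxN]
  simp only [hAe]
  field_simp
  ring

end Vale.Agent.Lib.P098
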