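import Mathlib

/-!
Component form of the refined Kato inequality used for the interior estimate.
-/

namespace Vale.Agent.Lib.P098

open Finset

/-- Tangential refined Kato inequality: for a totally symmetric array `T` on `Fin (k+1)`
whose trace against the distinguished index `0` vanishes. -/
theorem kato_tangential (k : ℕ) (T : Fin (k + 1) → Fin (k + 1) → Fin (k + 1) → ℝ) (p : ℝ)
    (hT12 : ∀ i j l, T i j l = T j i l) (hT23 : ∀ i j l, T i j l = T i l j)
    (hTtr : ∑ i, T i i 0 = 0)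
    (hp1 : 1 / 2 ≤ p) (hp3 : (k : ℝ) - 1 ≤ p * ((k : ℝ) + 1)) :
    (2 - p) * ∑ a, ∑ b, T a b 0 ^ 2 ≤ ∑ a, ∑ b, ∑ c, T a b c ^ 2 := by
  have e1 : ∀ a : Fin k, T a.succ 0 0 = T 0 0 a.succ := fun a => by
    rw [hT12 a.succ 0 0, hT23 0 a.succ 0]
  have e2 : ∀ a : Fin k, T 0 a.succ 0 = T 0 0 a.succ := fun a => hT23 0 a.succ 0
  have e3 : ∀ a c : Fin k, T a.succ 0 c.succ = T 0 a.succ c.succ := fun a c =>
    hT12 a.succ 0 c.succ
  have e4 : ∀ a b : Fin k, T a.succ b.succ 0 = T 0 a.succ b.succ := fun a b => by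
    rw [hT23 a.succ b.succ 0, hT12 a.succ 0 b.succ]
  set X : ℝ := T 0 0 0 ^ 2 with hX
  set Y : ℝ := ∑ c : Fin k, T 0 0 c.succ ^ 2 with hY
  set Z : ℝ := ∑ b : Fin k, ∑ c : Fin k, T 0 b.succ c.succ ^ 2 with hZ
  set R : ℝ := ∑ a : Fin k, ∑ b : Fin k, ∑ c : Fin k, T a.succ b.succ c.succ ^ 2 with hR
  have hS3 : ∑ a, ∑ b, ∑ c, T a b c ^ 2 = X + 3 * Y + 3 * Z + R := by
    simp only [Fin.sum_univ_succ, e1, e2, e3, e4, Finset.sum_add_distrib]
    rw [hX, hY, hZ, hR]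
    ring
  have hσ : ∑ a, ∑ b, T a b 0 ^ 2 = X + 2 * Y + Z := by
    simp only [Fin.sum_univ_succ, e1, e2, e4, Finset.sum_add_distrib]
    rw [hX, hY, hZ]
    ring
  have htr : T 0 0 0 = -∑ a : Fin k, T 0 a.succ a.succ := by
    rw [Fin.sum_univ_succ] at hTtr
    simp only [e4] at hTtr
    linarith
  have hY0 : 0 ≤ Y := Finset.sum_nonneg fun c _ => sq_nonneg _
  have hZ0 : 0 ≤ Z := Finset.sum_nonneg fun b _ => Finset.sum_nonneg fun c _ => sq_nonneg _
  have hR0 : 0 ≤ R := Finset.sum_nonneg fun a _ => Finset.sum_nonneg fun b _ =>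
    Finset.sum_nonneg fun c _ => sq_nonneg _
  have hX0 : 0 ≤ X := sq_nonneg _
  have hdiag : ∑ a : Fin k, T 0 a.succ a.succ ^ 2 ≤ Z := by
    refine Finset.sum_le_sum fun b _ => ?_
    exact Finset.single_le_sum (f := fun c : Fin k => T 0 b.succ c.succ ^ 2)
      (fun c _ => sq_nonneg _) (Finset.mem_univ b)
  have hXZ : X ≤ (k : ℝ) * Z := by
    have h := sq_sum_le_card_mul_sum_sq (s := (Finset.univ : Finset (Fin k)))
      (f := fun a : Fin k => T 0 a.succ a.succ)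
    rw [Finset.card_univ, Fintype.card_fin] at h
    have hk : (0 : ℝ) ≤ k := Nat.cast_nonneg k
    calc X = (∑ a : Fin k, T 0 a.succ a.succ) ^ 2 := by rw [hX, htr]; ring
      _ ≤ (k : ℝ) * ∑ a : Fin k, T 0 a.succ a.succ ^ 2 := h
      _ ≤ (k : ℝ) * Z := mul_le_mul_of_nonneg_left hdiag hk
  rw [hS3, hσ]
  have hk : (0 : ℝ) ≤ k := Nat.cast_nonneg k
  rcases le_total p 1 with hp | hp
  · have h1 : 0 ≤ (1 - p) * ((k : ℝ) * Z - X) := mul_nonneg (by linarith) (by linarith)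
    have h2 : 0 ≤ (p * ((k : ℝ) + 1) - ((k : ℝ) - 1)) * Z := mul_nonneg (by linarith) hZ0
    have h3 : 0 ≤ (2 * p - 1) * Y := mul_nonneg (by linarith) hY0
    nlinarith
  · have h1 : 0 ≤ (p - 1) * X := mul_nonneg (by linarith) hX0
    have h3 : 0 ≤ (2 * p - 1) * Y := mul_nonneg (by linarith) hY0
    have h4 : 0 ≤ (1 + p) * Z := mul_nonneg (by linarith) hZ0
    nlinarith

end Vale.Agent.Lib.P098

namespace Vale.Agent.Lib.P098

open Finset

/-- Cauchy-Schwarz for double sums. -/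
theorem cs_double {m : ℕ} (x y : Fin m → Fin m → ℝ) :
    (∑ a, ∑ b, x a b * y a b) ^ 2 ≤ (∑ a, ∑ b, x a b ^ 2) * (∑ a, ∑ b, y a b ^ 2) := by
  have h := Finset.sum_mul_sq_le_sq_mul_sq (Finset.univ : Finset (Fin m × Fin m))
    (fun q => x q.1 q.2) (fun q => y q.1 q.2)
  rw [Fintype.sum_prod_type, Fintype.sum_prod_type, Fintype.sum_prod_type] at h
  exact h

/-- Component form of the interior inequality in an adapted orthonormal frame: index `0` is
the radial direction, index `1` is the direction of the tangential part of `A · T`. -/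
theorem kato_components (k : ℕ) (A : Fin (k + 2) → Fin (k + 2) → ℝ)
    (T : Fin (k + 2) → Fin (k + 2) → Fin (k + 2) → ℝ) (r p : ℝ) (hr : 0 < r)
    (hAs : ∀ i j, A i j = A j i) (hA0 : ∀ j, A 0 j = 0)
    (hT12 : ∀ i j l, T i j l = T j i l) (hT23 : ∀ i j l, T i j l = T i l j)
    (hT0 : ∀ j l, T 0 j l = -A j l / r)
    (hTtr : ∑ i, T i i 1 = 0)
    (hG : ∀ l : Fin k, ∑ i, ∑ j, A i j * T i j l.succ.succ = 0)
    (hp1 : 1 / 2 ≤ p) (hp2 : p ≤ 2) (hp3 : (k : ℝ) - 1 ≤ p * ((k : ℝ) + 1)) :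
    (1 + p) * (∑ i, ∑ j, A i j ^ 2) ^ 2 / r ^ 2 ≤
      (∑ i, ∑ j, A i j ^ 2) * (∑ i, ∑ j, ∑ l, T i j l ^ 2)
        - (2 - p) * ∑ l, (∑ i, ∑ j, A i j * T i j l) ^ 2 := by
  have split : ∀ f : Fin (k + 2) → ℝ, ∑ i, f i = f 0 + ∑ a : Fin (k + 1), f a.succ :=
    fun f => Fin.sum_univ_succ f
  have hA0' : ∀ i, A i 0 = 0 := fun i => by rw [hAs i 0, hA0]
  have hTa0 : ∀ (a : Fin (k + 1)) (l : Fin (k + 2)), T a.succ 0 l = -A a.succ l / r :=
    fun a l => by rw [hT12 a.succ 0 l, hT0]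
  have hTab0 : ∀ (i j : Fin (k + 2)), T i j 0 = -A i j / r :=
    fun i j => by rw [hT23 i j 0, hT12 i 0 j, hT0]
  set a : ℝ := ∑ i, ∑ j, A i j ^ 2 with ha_def
  set S3 : ℝ := ∑ a : Fin (k + 1), ∑ b : Fin (k + 1), ∑ c : Fin (k + 1),
    T a.succ b.succ c.succ ^ 2 with hS3
  set σ : ℝ := ∑ a : Fin (k + 1), ∑ b : Fin (k + 1), T a.succ b.succ 1 ^ 2 with hσ
  set γ1 : ℝ := ∑ a : Fin (k + 1), ∑ b : Fin (k + 1), A a.succ b.succ * T a.succ b.succ 1
    with hγ1
  have ha1 : a = ∑ a : Fin (k + 1), ∑ b : Fin (k + 1), A a.succ b.succ ^ 2 := by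
    rw [ha_def]
    simp only [split, hA0, hA0']
    simp
  have ha0 : 0 ≤ a := by
    rw [ha_def]
    exact Finset.sum_nonneg fun i _ => Finset.sum_nonneg fun j _ => sq_nonneg _
  have hr2 : 0 < r ^ 2 := by positivity
  -- the full norm of T
  have hτ : ∑ i, ∑ j, ∑ l, T i j l ^ 2 = S3 + 3 * a / r ^ 2 := by
    have h0 : ∑ j, ∑ l, T 0 j l ^ 2 = a / r ^ 2 := by
      simp only [hT0, neg_div, neg_sq, div_pow]
      rw [ha_def, Finset.sum_div]
      refine Finset.sum_congr rfl fun j _ => ?_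
      rw [Finset.sum_div]
    have h1 : ∑ x : Fin (k + 1), ∑ l, T x.succ 0 l ^ 2 = a / r ^ 2 := by
      simp only [hTa0, neg_div, neg_sq, div_pow]
      rw [ha1, Finset.sum_div]
      refine Finset.sum_congr rfl fun x _ => ?_
      rw [split]
      simp only [hA0']
      rw [Finset.sum_div]
      simp
    have h2 : ∑ x : Fin (k + 1), ∑ y : Fin (k + 1), T x.succ y.succ 0 ^ 2 = a / r ^ 2 := by
      simp only [hTab0, neg_div, neg_sq, div_pow]
      rw [ha1, Finset.sum_div]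
      refine Finset.sum_congr rfl fun x _ => ?_
      rw [Finset.sum_div]
    rw [split]
    rw [h0]
    have h3 : ∀ x : Fin (k + 1), ∑ j, ∑ l, T x.succ j l ^ 2
        = ∑ l, T x.succ 0 l ^ 2 + (∑ y : Fin (k + 1), T x.succ y.succ 0 ^ 2
          + ∑ y : Fin (k + 1), ∑ c : Fin (k + 1), T x.succ y.succ c.succ ^ 2) := by
      intro x
      rw [split]
      congr 1
      rw [← Finset.sum_add_distrib]
      refine Finset.sum_congr rfl fun y _ => ?_
      rw [split]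
    simp only [h3, Finset.sum_add_distrib]
    rw [h1, h2, hS3]
    ring
  -- the contraction vector
  have hγ0 : ∑ i, ∑ j, A i j * T i j 0 = -a / r := by
    simp only [hTab0]
    rw [ha_def, neg_div, Finset.sum_div, ← Finset.sum_neg_distrib]
    refine Finset.sum_congr rfl fun i _ => ?_
    rw [Finset.sum_div, ← Finset.sum_neg_distrib]
    refine Finset.sum_congr rfl fun j _ => ?_
    ring
  have hγ1' : ∑ i, ∑ j, A i j * T i j 1 = γ1 := by
    simp only [split, hA0, hA0']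
    simp [hγ1]
  have hγ : ∑ l, (∑ i, ∑ j, A i j * T i j l) ^ 2 = a ^ 2 / r ^ 2 + γ1 ^ 2 := by
    rw [split, hγ0]
    rw [Fin.sum_univ_succ]
    simp only [Fin.succ_zero_eq_one, hγ1', hG]
    simp
    ring
  -- Cauchy-Schwarz
  have hcs : γ1 ^ 2 ≤ a * σ := by
    rw [hγ1, ha1, hσ]
    exact cs_double (fun a b => A a.succ b.succ) (fun a b => T a.succ b.succ 1)
  -- tangential Kato
  have hkato : (2 - p) * σ ≤ S3 := by
    have htr : ∑ i : Fin (k + 1), T i.succ i.succ (Fin.succ 0) = 0 := by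
      rw [split] at hTtr
      rw [hT0, hA0] at hTtr
      simpa using hTtr
    have := kato_tangential k (fun a b c => T a.succ b.succ c.succ) p
      (fun i j l => hT12 _ _ _) (fun i j l => hT23 _ _ _) htr hp1 hp3
    simpa [hσ, hS3] using this
  rw [hτ, hγ]
  have h1 : 0 ≤ a * (S3 - (2 - p) * σ) := mul_nonneg ha0 (by linarith)
  have h2 : 0 ≤ (2 - p) * (a * σ - γ1 ^ 2) := mul_nonneg (by linarith) (by linarith)
  have e : (1 + p) * a ^ 2 / r ^ 2 = a * (3 * a / r ^ 2) - (2 - p) * (a ^ 2 / r ^ 2) := by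
    field_simp
    ring
  rw [e]
  nlinarith

end Vale.Agent.Lib.P098
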