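import Vale.Agent.Lib.P098.Basis
import Vale.Agent.Lib.P098.Kato

/-!
Abstract form of the interior inequality for a symmetric bilinear form `A` and a totally
symmetric trace-free trilinear form `T` with `T x = -A`, `A x = 0`.
-/

namespace Vale.Agent.Lib.P098

open Finset
open scoped InnerProductSpace

variable {E : Type*} [NormedAddCommGroup E] [InnerProductSpace ℝ E] [FiniteDimensional ℝ E]

/-- An orthonormal basis adapted to a unit vector `e` and a vector `w` orthogonal to it. -/
theorem exists_adapted (k : ℕ) (hdim : Module.finrank ℝ E = k + 2) (e w : E) (he : ‖e‖ = 1)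
    (hw : ⟪e, w⟫_ℝ = 0) :
    ∃ c : OrthonormalBasis (Fin (k + 2)) ℝ E, c 0 = e ∧
      ∀ l : Fin k, ⟪w, c l.succ.succ⟫_ℝ = 0 := by
  have hcard : Module.finrank ℝ E = Fintype.card (Fin (k + 2)) := by simp [hdim]
  by_cases hw0 : w = 0
  · have horth : Orthonormal ℝ (({0} : Set (Fin (k + 2))).domRestrict (fun _ => e)) := by
      rw [orthonormal_iff_ite]
      intro i j
      have hij : i = j := Subsingleton.elim i j
      simp [hij, Set.domRestrict, he]
    obtain ⟨c, hc⟩ := horth.exists_orthonormalBasis_extension_of_card_eq hcard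
    exact ⟨c, hc 0 rfl, fun l => by simp [hw0]⟩
  · have hwn : ‖w‖ ≠ 0 := norm_ne_zero_iff.2 hw0
    set v' : Fin (k + 2) → E := fun i => if i = 0 then e else ‖w‖⁻¹ • w with hv'
    have horth : Orthonormal ℝ (({0, 1} : Set (Fin (k + 2))).domRestrict v') := by
      rw [orthonormal_iff_ite]
      rintro ⟨i, hi⟩ ⟨j, hj⟩
      have h01 : (1 : Fin (k + 2)) ≠ 0 := by
        intro h
        have := congrArg Fin.val h
        simp at this
      rcases hi with rfl | rfl <;> rcases hj with rfl | rfl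
      · simp [Set.domRestrict, hv', he]
      · simp [Set.domRestrict, hv', h01, h01.symm, Subtype.ext_iff, inner_smul_right, hw]
      · simp [Set.domRestrict, hv', h01, h01.symm, Subtype.ext_iff, inner_smul_left,
          real_inner_comm, hw]
      · simp only [Set.domRestrict, hv', h01, if_false, inner_smul_left, inner_smul_right,
          real_inner_self_eq_norm_sq, if_true]
        simp
        field_simp
    obtain ⟨c, hc⟩ := horth.exists_orthonormalBasis_extension_of_card_eq hcard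
    have hc0 : c 0 = e := by
      rw [hc 0 (by simp)]
      simp [hv']
    have hc1 : c 1 = ‖w‖⁻¹ • w := by
      rw [hc 1 (by simp)]
      have h01 : (1 : Fin (k + 2)) ≠ 0 := by
        intro h
        have := congrArg Fin.val h
        simp at this
      simp [hv', h01]
    refine ⟨c, hc0, fun l => ?_⟩
    have hne : (1 : Fin (k + 2)) ≠ l.succ.succ := by
      intro h
      have := congrArg Fin.val h
      simp at this
    have h1 : ⟪c 1, c l.succ.succ⟫_ℝ = 0 := c.orthonormal.2 hne
    rw [hc1, inner_smul_left] at h1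
    simp only [conj_trivial] at h1
    rcases mul_eq_zero.1 h1 with h | h
    · exact absurd (inv_eq_zero.1 h) hwn
    · exact h

/-- Abstract interior inequality. -/
theorem interior_alg (k : ℕ) (hdim : Module.finrank ℝ E = k + 2) {ι : Type*} [Fintype ι]
    (b : OrthonormalBasis ι ℝ E)
    (A : E →L[ℝ] E →L[ℝ] ℝ) (T : E →L[ℝ] E →L[ℝ] E →L[ℝ] ℝ)
    (hAs : ∀ y z, A y z = A z y)
    (hT12 : ∀ y z w, T y z w = T z y w) (hT23 : ∀ y z w, T y z w = T y w z)
    (x : E) (hx : x ≠ 0) (hAx : ∀ y, A x y = 0) (hTx : ∀ y z, T x y z = -A y z)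
    (hTtr : ∀ z, ∑ i, T (b i) (b i) z = 0)
    (p : ℝ) (hp1 : 1 / 2 ≤ p) (hp2 : p ≤ 2) (hp3 : (k : ℝ) - 1 ≤ p * ((k : ℝ) + 1)) :
    (1 + p) * (∑ i, ∑ j, A (b i) (b j) ^ 2) ^ 2 / ‖x‖ ^ 2 ≤
      (∑ i, ∑ j, A (b i) (b j) ^ 2) * (∑ i, ∑ j, ∑ l, T (b i) (b j) (b l) ^ 2)
        - (2 - p) * ∑ l, (∑ i, ∑ j, A (b i) (b j) * T (b i) (b j) (b l)) ^ 2 := by
  have hxn : 0 < ‖x‖ := norm_pos_iff.2 hx
  set G : E → ℝ := fun z => ∑ i, ∑ j, A (b i) (b j) * T (b i) (b j) z with hG
  have hGlin : IsLinearMap ℝ G :=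
    ⟨fun y z => by simp [hG, mul_add, Finset.sum_add_distrib],
      fun t y => by simp [hG, Finset.mul_sum, mul_left_comm]⟩
  set e : E := ‖x‖⁻¹ • x with he_def
  have he : ‖e‖ = 1 := by
    rw [he_def, norm_smul, norm_inv, norm_norm]
    field_simp
  set y0 : E := ∑ l, G (b l) • b l with hy0_def
  have hy0 : ∀ z, ⟪y0, z⟫_ℝ = G z := by
    intro z
    rw [hy0_def, sum_inner, expand1 b G hGlin z]
    refine Finset.sum_congr rfl fun l _ => ?_
    rw [inner_smul_left]
    simp [mul_comm]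
  set w : E := y0 - ⟪e, y0⟫_ℝ • e with hw_def
  have hw : ⟪e, w⟫_ℝ = 0 := by
    rw [hw_def, inner_sub_right, inner_smul_right, real_inner_self_eq_norm_sq, he]
    ring
  obtain ⟨c, hc0, hcw⟩ := exists_adapted k hdim e w he hw
  have hGc : ∀ l : Fin k, G (c l.succ.succ) = 0 := by
    intro l
    have h1 : y0 = w + ⟪e, y0⟫_ℝ • e := by rw [hw_def]; abel
    rw [← hy0, h1, inner_add_left, hcw l, inner_smul_left, ← hc0]
    have hne : (0 : Fin (k + 2)) ≠ l.succ.succ := by
      intro h
      have := congrArg Fin.val h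
      simp at this
    rw [c.orthonormal.2 hne]
    simp
  have linA1 : ∀ y, IsLinearMap ℝ (fun z => A y z) := fun y =>
    ⟨fun a b => by simp, fun t a => by simp⟩
  have linA2 : ∀ z, IsLinearMap ℝ (fun y => A y z) := fun z =>
    ⟨fun a b => by simp, fun t a => by simp⟩
  have linT1 : ∀ y z, IsLinearMap ℝ (fun u => T y z u) := fun y z =>
    ⟨fun a b => by simp, fun t a => by simp⟩
  have linT2 : ∀ y u, IsLinearMap ℝ (fun z => T y z u) := fun y u =>
    ⟨fun a b => by simp, fun t a => by simp⟩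
  have linT3 : ∀ z u, IsLinearMap ℝ (fun y => T y z u) := fun z u =>
    ⟨fun a b => by simp, fun t a => by simp⟩
  have ha : ∑ i, ∑ j, A (b i) (b j) ^ 2 = ∑ i, ∑ j, A (c i) (c j) ^ 2 := by
    simp only [pow_two]
    exact contr2 b c (fun y z => A y z) (fun y z => A y z) linA1 linA2 linA1 linA2
  have hτ : ∑ i, ∑ j, ∑ l, T (b i) (b j) (b l) ^ 2
      = ∑ i, ∑ j, ∑ l, T (c i) (c j) (c l) ^ 2 := by
    simp only [pow_two]
    exact contr3 b c (fun y z u => T y z u) (fun y z u => T y z u) linT1 linT2 linT3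
      linT1 linT2 linT3
  have hG' : ∀ z, G z = ∑ i, ∑ j, A (c i) (c j) * T (c i) (c j) z := by
    intro z
    rw [hG]
    exact contr2 b c (fun y u => A y u) (fun y u => T y u z) linA1 linA2
      (fun y => linT2 y z) (fun u => linT3 u z)
  have hγ : ∑ l, (∑ i, ∑ j, A (b i) (b j) * T (b i) (b j) (b l)) ^ 2
      = ∑ l, (∑ i, ∑ j, A (c i) (c j) * T (c i) (c j) (c l)) ^ 2 := by
    have h1 : ∑ l, G (b l) * G (b l) = ∑ l, G (c l) * G (c l) :=
      contr1 b c G G hGlin hGlin
    simp only [pow_two]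
    simp only [← hG']
    exact h1
  rw [ha, hτ, hγ]
  refine kato_components k (fun i j => A (c i) (c j)) (fun i j l => T (c i) (c j) (c l)) ‖x‖ p
    hxn (fun i j => hAs _ _) ?_ (fun i j l => hT12 _ _ _) (fun i j l => hT23 _ _ _) ?_ ?_ ?_
    hp1 hp2 hp3
  · intro j
    rw [hc0, he_def]
    simp [hAx]
  · intro j l
    rw [hc0, he_def]
    simp only [map_smul, smul_apply, smul_eq_mul, hTx]
    field_simp
  · rw [← trace_indep b c (fun y u => T y u (c 1)) (fun y => linT2 y (c 1))
      (fun u => linT3 u (c 1))]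
    exact hTtr (c 1)
  · intro l
    rw [← hG']
    exact hGc l

end Vale.Agent.Lib.P098
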