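import Vale.Agent.Lib.P098.Deriv
import Vale.Agent.Lib.P098.InteriorAlg

/-!
Derivative identities for a `C^4` one-homogeneous function on an open cone which is harmonic
on its positivity set.
-/

namespace Vale.Agent.Lib.P098

open Finset
open scoped Topology InnerProductSpace

variable {E : Type*} [NormedAddCommGroup E] [InnerProductSpace ℝ E] [FiniteDimensional ℝ E]
variable {ι : Type*} [Fintype ι]
variable {U : Set E} {u : E → ℝ}

omit [FiniteDimensional ℝ E] in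
theorem D2_eq (hU : IsOpen U) (hu : ContDiffOn ℝ 2 u U) {x : E} (hx : x ∈ U) (v w : E) :
    fderiv ℝ (fderiv ℝ u) x v w = pd v (pd w u) x := by
  have hcd : ContDiffAt ℝ 2 u x := hu.contDiffAt (hU.mem_nhds hx)
  have hd : DifferentiableAt ℝ (fderiv ℝ u) x :=
    (hcd.fderiv_right (m := 1) (by norm_num)).differentiableAt (by norm_num)
  exact (fderiv_apply1 hd w v).symm

omit [FiniteDimensional ℝ E] in
theorem D3_eq (hU : IsOpen U) (hu : ContDiffOn ℝ 3 u U) {x : E} (hx : x ∈ U) (y v w : E) :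
    fderiv ℝ (fderiv ℝ (fderiv ℝ u)) x y v w = pd y (pd v (pd w u)) x := by
  have hu2 : ContDiffOn ℝ 2 u U := hu.of_le (by norm_num)
  have hcd : ContDiffAt ℝ 3 u x := hu.contDiffAt (hU.mem_nhds hx)
  have hd : DifferentiableAt ℝ (fderiv ℝ (fderiv ℝ u)) x :=
    ((hcd.fderiv_right (m := 2) (by norm_num)).fderiv_right (m := 1)
      (by norm_num)).differentiableAt (by norm_num)
  have e : Set.EqOn (pd v (pd w u)) (fun x' => fderiv ℝ (fderiv ℝ u) x' v w) U :=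
    fun x' hx' => (D2_eq hU hu2 hx' v w).symm
  rw [pd_congr hU e y hx]
  exact (fderiv_apply2 hd v w y).symm

omit [FiniteDimensional ℝ E] in
theorem cd_pd1 (hU : IsOpen U) (hu : ContDiffOn ℝ 4 u U) (w : E) :
    ContDiffOn ℝ 3 (pd w u) U := pd_contDiffOn hU hu (by norm_num) w

omit [FiniteDimensional ℝ E] in
theorem cd_pd2 (hU : IsOpen U) (hu : ContDiffOn ℝ 4 u U) (v w : E) :
    ContDiffOn ℝ 2 (pd v (pd w u)) U := pd_contDiffOn hU (cd_pd1 hU hu w) (by norm_num) v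

omit [FiniteDimensional ℝ E] in
theorem cd_pd3 (hU : IsOpen U) (hu : ContDiffOn ℝ 4 u U) (y v w : E) :
    ContDiffOn ℝ 1 (pd y (pd v (pd w u))) U :=
  pd_contDiffOn hU (cd_pd2 hU hu v w) (by norm_num) y

omit [FiniteDimensional ℝ E] in
theorem posSet_open (hU : IsOpen U) (hu : ContDiffOn ℝ 4 u U) :
    IsOpen {y ∈ U | 0 < u y} := by
  have hc : ContinuousOn u U := hu.continuousOn
  have := hc.isOpen_inter_preimage hU isOpen_Ioi (t := Set.Ioi (0 : ℝ))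
  have e : {y | y ∈ U ∧ 0 < u y} = U ∩ u ⁻¹' Set.Ioi 0 := by
    ext y
    simp
  rw [e]
  exact this

omit [FiniteDimensional ℝ E] in
theorem hom1 (hU : IsOpen U) (hcone : ∀ x ∈ U, ∀ t : ℝ, 0 < t → t • x ∈ U)
    (hu : ContDiffOn ℝ 4 u U) (hhom : HomOn 1 u U) (w : E) : HomOn 0 (pd w u) U := by
  have := hom_pd hU hcone (fun x hx => diffAt hU hu (by norm_num) hx) hhom w
  simpa using this

omit [FiniteDimensional ℝ E] in
theorem hom2 (hU : IsOpen U) (hcone : ∀ x ∈ U, ∀ t : ℝ, 0 < t → t • x ∈ U)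
    (hu : ContDiffOn ℝ 4 u U) (hhom : HomOn 1 u U) (v w : E) :
    HomOn (-1) (pd v (pd w u)) U := by
  have h1 : ContDiffOn ℝ 3 (pd w u) U := pd_contDiffOn hU hu (by norm_num) w
  have := hom_pd hU hcone (fun x hx => diffAt hU h1 (by norm_num) hx)
    (hom1 hU hcone hu hhom w) v
  simpa using this

omit [FiniteDimensional ℝ E] in
theorem euler_u (hU : IsOpen U) (hu : ContDiffOn ℝ 4 u U) (hhom : HomOn 1 u U) {x : E}
    (hx : x ∈ U) : pd x u x = u x := by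
  have := euler hhom hx (diffAt hU hu (by norm_num) hx)
  simpa using this

omit [FiniteDimensional ℝ E] in
theorem euler_A (hU : IsOpen U) (hcone : ∀ x ∈ U, ∀ t : ℝ, 0 < t → t • x ∈ U)
    (hu : ContDiffOn ℝ 4 u U) (hhom : HomOn 1 u U) {x : E} (hx : x ∈ U) (w : E) :
    pd x (pd w u) x = 0 := by
  have h1 : ContDiffOn ℝ 3 (pd w u) U := pd_contDiffOn hU hu (by norm_num) w
  have := euler (hom1 hU hcone hu hhom w) hx (diffAt hU h1 (by norm_num) hx)
  simpa using this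

omit [FiniteDimensional ℝ E] in
theorem euler_T (hU : IsOpen U) (hcone : ∀ x ∈ U, ∀ t : ℝ, 0 < t → t • x ∈ U)
    (hu : ContDiffOn ℝ 4 u U) (hhom : HomOn 1 u U) {x : E} (hx : x ∈ U) (v w : E) :
    pd x (pd v (pd w u)) x = -pd v (pd w u) x := by
  have h1 : ContDiffOn ℝ 3 (pd w u) U := pd_contDiffOn hU hu (by norm_num) w
  have h2 : ContDiffOn ℝ 2 (pd v (pd w u)) U := pd_contDiffOn hU h1 (by norm_num) v
  have := euler (hom2 hU hcone hu hhom v w) hx (diffAt hU h2 (by norm_num) hx)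
  simpa using this

omit [FiniteDimensional ℝ E] in
theorem lap_pd_zero (b : OrthonormalBasis ι ℝ E) (hU : IsOpen U) (hu : ContDiffOn ℝ 4 u U)
    (hharm : ∀ x ∈ U, 0 < u x → lap b u x = 0) {x : E} (hx : x ∈ U) (hpos : 0 < u x) (z : E) :
    lap b (pd z u) x = 0 := by
  have hV := posSet_open hU hu
  have h0 : Set.EqOn (lap b u) (fun _ => 0) {y ∈ U | 0 < u y} := fun y hy => hharm y hy.1 hy.2
  rw [lap_pd b hU (hu.of_le (by norm_num)) z hx]
  exact pd_zero_of_eqOn hV h0 z ⟨hx, hpos⟩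

omit [FiniteDimensional ℝ E] in
theorem lap_A_zero (b : OrthonormalBasis ι ℝ E) (hU : IsOpen U) (hu : ContDiffOn ℝ 4 u U)
    (hharm : ∀ x ∈ U, 0 < u x → lap b u x = 0) {x : E} (hx : x ∈ U) (hpos : 0 < u x)
    (v w : E) : lap b (pd v (pd w u)) x = 0 := by
  have hV := posSet_open hU hu
  have h0 : Set.EqOn (lap b u) (fun _ => 0) {y ∈ U | 0 < u y} := fun y hy => hharm y hy.1 hy.2
  have h1 : ContDiffOn ℝ 3 (pd w u) U := pd_contDiffOn hU hu (by norm_num) w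
  rw [lap_pd b hU h1 v hx]
  have e : Set.EqOn (lap b (pd w u)) (pd w (lap b u)) U := lap_pd b hU (hu.of_le (by norm_num)) w
  rw [pd_congr hU e v hx]
  have h2 : Set.EqOn (pd w (lap b u)) (fun _ => 0) {y ∈ U | 0 < u y} := pd_zero_of_eqOn hV h0 w
  exact pd_zero_of_eqOn hV h2 v ⟨hx, hpos⟩

/-- The pointwise interior inequality for the second and third derivatives of `u`. -/
theorem interior_ineq (k : ℕ) (hdim : Module.finrank ℝ E = k + 2) (b : OrthonormalBasis ι ℝ E)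
    (hU : IsOpen U) (hcone : ∀ x ∈ U, ∀ t : ℝ, 0 < t → t • x ∈ U) (hu : ContDiffOn ℝ 4 u U)
    (hhom : HomOn 1 u U) (hharm : ∀ x ∈ U, 0 < u x → lap b u x = 0) {x : E} (hx : x ∈ U)
    (hx0 : x ≠ 0) (hpos : 0 < u x)
    (p : ℝ) (hp1 : 1 / 2 ≤ p) (hp2 : p ≤ 2) (hp3 : (k : ℝ) - 1 ≤ p * ((k : ℝ) + 1)) :
    (1 + p) * (∑ i, ∑ j, pd (b i) (pd (b j) u) x ^ 2) ^ 2 / ‖x‖ ^ 2 ≤
      (∑ i, ∑ j, pd (b i) (pd (b j) u) x ^ 2)
          * (∑ l, ∑ i, ∑ j, pd (b l) (pd (b i) (pd (b j) u)) x ^ 2)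
        - (2 - p) * ∑ l, (∑ i, ∑ j, pd (b i) (pd (b j) u) x
            * pd (b l) (pd (b i) (pd (b j) u)) x) ^ 2 := by
  have hu2 : ContDiffOn ℝ 2 u U := hu.of_le (by norm_num)
  have hu3 : ContDiffOn ℝ 3 u U := hu.of_le (by norm_num)
  have hAe : ∀ v w, fderiv ℝ (fderiv ℝ u) x v w = pd v (pd w u) x :=
    fun v w => D2_eq hU hu2 hx v w
  have hTe : ∀ y v w, fderiv ℝ (fderiv ℝ (fderiv ℝ u)) x y v w = pd y (pd v (pd w u)) x :=
    fun y v w => D3_eq hU hu3 hx y v w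
  have hAs : ∀ y z, fderiv ℝ (fderiv ℝ u) x y z = fderiv ℝ (fderiv ℝ u) x z y := fun y z => by
    rw [hAe, hAe]
    exact pd_comm hU hu2 hx y z
  have hT12 : ∀ y z w, fderiv ℝ (fderiv ℝ (fderiv ℝ u)) x y z w
      = fderiv ℝ (fderiv ℝ (fderiv ℝ u)) x z y w := fun y z w => by
    rw [hTe, hTe]
    exact pd_comm hU (pd_contDiffOn hU hu3 (by norm_num) w) hx y z
  have hT23 : ∀ y z w, fderiv ℝ (fderiv ℝ (fderiv ℝ u)) x y z w
      = fderiv ℝ (fderiv ℝ (fderiv ℝ u)) x y w z := fun y z w => by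
    rw [hTe, hTe]
    have e : Set.EqOn (pd z (pd w u)) (pd w (pd z u)) U := fun x' hx' => pd_comm hU hu2 hx' z w
    exact pd_congr hU e y hx
  have hAx : ∀ y, fderiv ℝ (fderiv ℝ u) x x y = 0 := fun y => by
    rw [hAe]
    exact euler_A hU hcone hu hhom hx y
  have hTx : ∀ y z, fderiv ℝ (fderiv ℝ (fderiv ℝ u)) x x y z = -fderiv ℝ (fderiv ℝ u) x y z :=
    fun y z => by
      rw [hTe, hAe]
      exact euler_T hU hcone hu hhom hx y z
  have hTtr : ∀ z, ∑ i, fderiv ℝ (fderiv ℝ (fderiv ℝ u)) x (b i) (b i) z = 0 := fun z => by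
    have := lap_pd_zero b hU hu hharm hx hpos z
    simp only [lap] at this
    rw [← this]
    exact Finset.sum_congr rfl fun i _ => hTe _ _ _
  have key := interior_alg k hdim b (fderiv ℝ (fderiv ℝ u) x)
    (fderiv ℝ (fderiv ℝ (fderiv ℝ u)) x) hAs hT12 hT23 x hx0 hAx hTx hTtr p hp1 hp2 hp3
  have hTperm : ∀ i j l, fderiv ℝ (fderiv ℝ (fderiv ℝ u)) x (b i) (b j) (b l)
      = pd (b l) (pd (b i) (pd (b j) u)) x := fun i j l => by
    rw [hT23, hT12, hTe]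
  have e1 : ∑ i, ∑ j, ∑ l, pd (b l) (pd (b i) (pd (b j) u)) x ^ 2
      = ∑ l, ∑ i, ∑ j, pd (b l) (pd (b i) (pd (b j) u)) x ^ 2 := by
    calc ∑ i, ∑ j, ∑ l, pd (b l) (pd (b i) (pd (b j) u)) x ^ 2
        = ∑ i, ∑ l, ∑ j, pd (b l) (pd (b i) (pd (b j) u)) x ^ 2 :=
          Finset.sum_congr rfl fun i _ => Finset.sum_comm
      _ = ∑ l, ∑ i, ∑ j, pd (b l) (pd (b i) (pd (b j) u)) x ^ 2 := Finset.sum_comm
  simp only [hTperm, hAe] at key
  rw [e1] at key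
  exact key

end Vale.Agent.Lib.P098
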