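import Vale.Agent.Lib.P098.Deriv

/-!
Curves inside a level set of a function with nonvanishing derivative, and the first and
second derivatives of a function along such a curve.
-/

namespace Vale.Agent.Lib.P098

open Finset
open scoped Topology InnerProductSpace

variable {E : Type*} [NormedAddCommGroup E] [NormedSpace ℝ E]

/-- A `C^2` curve `t ↦ x0 + t τ + ψ(t) ν` inside the level set of `u` through `x0`. -/
theorem exists_curve {U : Set E} (hU : IsOpen U) {u : E → ℝ} (hu : ContDiffOn ℝ 2 u U)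
    {x0 : E} (τ ν : E) (hx0 : x0 ∈ U) (hν : pd ν u x0 ≠ 0) :
    ∃ ψ : ℝ → ℝ, ContDiffAt ℝ 2 ψ 0 ∧ ψ 0 = 0 ∧
      ∀ᶠ t in 𝓝 (0 : ℝ), u (x0 + t • τ + ψ t • ν) = u x0 := by
  set g : ℝ × ℝ → E := fun q => x0 + q.1 • τ + q.2 • ν with hg
  set f : ℝ × ℝ → ℝ := fun q => u (g q) with hf
  have hg0 : g (0, 0) = x0 := by simp [hg]
  have hgc : ContDiff ℝ 2 g :=
    (contDiff_const.add (contDiff_fst.smul contDiff_const)).add (contDiff_snd.smul contDiff_const)
  have hux : ContDiffAt ℝ 2 u (g (0, 0)) := by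
    rw [hg0]
    exact hu.contDiffAt (hU.mem_nhds hx0)
  have cdf : ContDiffAt ℝ 2 f ((0 : ℝ), (0 : ℝ)) := hux.comp _ hgc.contDiffAt
  have hgd : HasFDerivAt g ((ContinuousLinearMap.fst ℝ ℝ ℝ).smulRight τ
      + (ContinuousLinearMap.snd ℝ ℝ ℝ).smulRight ν) ((0 : ℝ), (0 : ℝ)) := by
    have h1 : HasFDerivAt (fun q : ℝ × ℝ => q.1 • τ)
        ((ContinuousLinearMap.fst ℝ ℝ ℝ).smulRight τ) ((0 : ℝ), (0 : ℝ)) :=
      hasFDerivAt_fst.smul_const τ
    have h2 : HasFDerivAt (fun q : ℝ × ℝ => q.2 • ν)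
        ((ContinuousLinearMap.snd ℝ ℝ ℝ).smulRight ν) ((0 : ℝ), (0 : ℝ)) :=
      hasFDerivAt_snd.smul_const ν
    have h3 := ((hasFDerivAt_const x0 ((0 : ℝ), (0 : ℝ))).add h1).add h2
    simp only [zero_add] at h3
    exact h3
  have hud : HasFDerivAt u (fderiv ℝ u (g (0, 0))) (g (0, 0)) :=
    (hux.differentiableAt (by norm_num)).hasFDerivAt
  have hfd : HasFDerivAt f ((fderiv ℝ u (g (0, 0))).comp
      ((ContinuousLinearMap.fst ℝ ℝ ℝ).smulRight τ
        + (ContinuousLinearMap.snd ℝ ℝ ℝ).smulRight ν)) ((0 : ℝ), (0 : ℝ)) :=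
    hud.comp _ hgd
  have hc : pd ν u x0 ≠ 0 := hν
  have hL : ∀ s : ℝ, (fderiv ℝ f ((0 : ℝ), (0 : ℝ)) ∘L ContinuousLinearMap.inr ℝ ℝ ℝ) s
      = s * pd ν u x0 := by
    intro s
    rw [hfd.fderiv, hg0]
    simp [pd]
  have if₂ : (fderiv ℝ f ((0 : ℝ), (0 : ℝ)) ∘L ContinuousLinearMap.inr ℝ ℝ ℝ).IsInvertible := by
    refine ContinuousLinearMap.IsInvertible.of_inverse
      (g := (pd ν u x0)⁻¹ • ContinuousLinearMap.id ℝ ℝ) ?_ ?_
    · refine ContinuousLinearMap.ext fun s => ?_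
      rw [ContinuousLinearMap.comp_apply, hL]
      simp
      field_simp
    · refine ContinuousLinearMap.ext fun s => ?_
      rw [ContinuousLinearMap.comp_apply, hL]
      simp
      field_simp
  refine ⟨cdf.implicitFunction (by norm_num) if₂, ?_, ?_, ?_⟩
  · exact cdf.contDiffAt_implicitFunction (by norm_num) if₂
  · exact cdf.implicitFunction_apply_self (by norm_num) if₂
  · have h := cdf.eventually_apply_implicitFunction (by norm_num) if₂
    have e : f ((0 : ℝ), (0 : ℝ)) = u x0 := by simp [hf, hg0]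
    simp only [e] at h
    exact h

/-- First and second derivative at `0` of a function which is constant along the curve
`t ↦ x0 + t τ + ψ(t) ν`. -/
theorem curve_deriv {U : Set E} (hU : IsOpen U) {g : E → ℝ} (hg : ContDiffOn ℝ 2 g U)
    {x0 : E} (τ ν : E) (hx0 : x0 ∈ U) {ψ : ℝ → ℝ} (hψ : ContDiffAt ℝ 2 ψ 0) (hψ0 : ψ 0 = 0)
    (c : ℝ) (hz : ∀ᶠ t in 𝓝 (0 : ℝ), g (x0 + t • τ + ψ t • ν) = c) :
    pd τ g x0 + deriv ψ 0 * pd ν g x0 = 0 ∧
    pd τ (pd τ g) x0 + deriv ψ 0 * pd ν (pd τ g) x0 + (deriv (deriv ψ) 0 * pd ν g x0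
      + deriv ψ 0 * (pd τ (pd ν g) x0 + deriv ψ 0 * pd ν (pd ν g) x0)) = 0 := by
  set γ : ℝ → E := fun t => x0 + t • τ + ψ t • ν with hγ
  have hγ0 : γ 0 = x0 := by simp [hγ, hψ0]
  have hψ0d : DifferentiableAt ℝ ψ 0 := hψ.differentiableAt (by norm_num)
  have hψd : ∀ᶠ t in 𝓝 (0 : ℝ), DifferentiableAt ℝ ψ t := by
    have h := hψ.eventually (by simp)
    filter_upwards [h] with t ht using ht.differentiableAt (by norm_num)
  have hγd : ∀ t, DifferentiableAt ℝ ψ t → HasDerivAt γ (τ + deriv ψ t • ν) t := by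
    intro t ht
    have h1 : HasDerivAt (fun t : ℝ => t • τ) τ t := by
      simpa using (hasDerivAt_id t).smul_const τ
    have h2 : HasDerivAt (fun t : ℝ => ψ t • ν) (deriv ψ t • ν) t :=
      ht.hasDerivAt.smul_const ν
    have h3 := ((hasDerivAt_const t x0).add h1).add h2
    simp only [zero_add] at h3
    exact h3
  have hγc : ContinuousAt γ 0 := (hγd 0 hψ0d).continuousAt
  have hγU : ∀ᶠ t in 𝓝 (0 : ℝ), γ t ∈ U := by
    have hmem : U ∈ 𝓝 (γ 0) := by
      rw [hγ0]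
      exact hU.mem_nhds hx0
    exact hγc hmem
  have chain : ∀ (f : E → ℝ) (t : ℝ), DifferentiableAt ℝ f (γ t) → DifferentiableAt ℝ ψ t →
      HasDerivAt (fun s => f (γ s)) (pd τ f (γ t) + deriv ψ t * pd ν f (γ t)) t := by
    intro f t hf ht
    have h := hf.hasFDerivAt.comp_hasDerivAt t (hγd t ht)
    have e : fderiv ℝ f (γ t) (τ + deriv ψ t • ν)
        = pd τ f (γ t) + deriv ψ t * pd ν f (γ t) := by
      simp [pd]
    rw [e] at h
    exact h
  have hd1 : ∀ y ∈ U, DifferentiableAt ℝ g y := fun y hy => diffAt hU hg (by norm_num) hy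
  have hderiv : (deriv fun s => g (γ s)) =ᶠ[𝓝 0]
      fun t => pd τ g (γ t) + deriv ψ t * pd ν g (γ t) := by
    filter_upwards [hψd, hγU] with t ht htU
    exact (chain g t (hd1 _ htU) ht).deriv
  have hz' : (fun s => g (γ s)) =ᶠ[𝓝 0] fun _ => c := hz
  have hzd : (deriv fun s => g (γ s)) =ᶠ[𝓝 0] fun _ => (0 : ℝ) := by
    have h := hz'.deriv
    simpa using h
  have hk : (fun t => pd τ g (γ t) + deriv ψ t * pd ν g (γ t)) =ᶠ[𝓝 0] fun _ => (0 : ℝ) :=
    hderiv.symm.trans hzd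
  constructor
  · have h := hk.eq_of_nhds
    simpa [hγ0] using h
  · have hp1 : ContDiffOn ℝ 1 (pd τ g) U := pd_contDiffOn hU hg (by norm_num) τ
    have hp2 : ContDiffOn ℝ 1 (pd ν g) U := pd_contDiffOn hU hg (by norm_num) ν
    have hx0' : γ 0 ∈ U := by
      rw [hγ0]
      exact hx0
    have c1 := chain (pd τ g) 0 (diffAt hU hp1 le_rfl hx0') hψ0d
    have c2 := chain (pd ν g) 0 (diffAt hU hp2 le_rfl hx0') hψ0d
    have hψ2 : HasDerivAt (deriv ψ) (deriv (deriv ψ) 0) 0 := by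
      have h1 : DifferentiableAt ℝ (fderiv ℝ ψ) 0 :=
        (hψ.fderiv_right (m := 1) (by norm_num)).differentiableAt (by norm_num)
      have h2 : DifferentiableAt ℝ (fun t => fderiv ℝ ψ t 1) 0 := differentiableAt_apply1 h1 1
      have h3 : DifferentiableAt ℝ (deriv ψ) 0 := h2
      exact h3.hasDerivAt
    have c3 := c1.add (hψ2.mul c2)
    have h4 := hk.deriv_eq
    rw [deriv_const] at h4
    have h5 : deriv (fun t => pd τ g (γ t) + deriv ψ t * pd ν g (γ t)) 0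
        = pd τ (pd τ g) (γ 0) + deriv ψ 0 * pd ν (pd τ g) (γ 0) + (deriv (deriv ψ) 0
          * pd ν g (γ 0) + deriv ψ 0 * (pd τ (pd ν g) (γ 0)
            + deriv ψ 0 * pd ν (pd ν g) (γ 0))) := c3.deriv
    rw [h5, hγ0] at h4
    exact h4

end Vale.Agent.Lib.P098
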