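import Vale.Agent.Lib.P098.Deriv

/-!
Cutoff functions and products with compactly supported factors.
-/

namespace Vale.Agent.Lib.P098

open scoped ContDiff Topology

variable {E : Type*} [NormedAddCommGroup E] [NormedSpace ℝ E]

omit [NormedSpace ℝ E] in
/-- Product of a function continuous on an open set with a continuous function whose closed
support lies in that set. -/
theorem continuous_mul_of_tsupport {G : Set E} (hG : IsOpen G) {a b : E → ℝ}
    (ha : ContinuousOn a G) (hb : Continuous b) (hsupp : tsupport b ⊆ G) :
    Continuous (fun x => a x * b x) := by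
  rw [continuous_iff_continuousAt]
  intro x
  by_cases hx : x ∈ G
  · exact (ha.continuousAt (hG.mem_nhds hx)).mul hb.continuousAt
  · have hx' : x ∉ tsupport b := fun h => hx (hsupp h)
    have h0 : b =ᶠ[𝓝 x] 0 := notMem_tsupport_iff_eventuallyEq.1 hx'
    have h1 : (fun y => a y * b y) =ᶠ[𝓝 x] fun _ => (0 : ℝ) := by
      filter_upwards [h0] with y hy
      rw [hy]
      simp
    exact (continuousAt_const.congr h1.symm)

/-- Product of a function of class `C^n` on an open set with a `C^n` function whose closed
support lies in that set. -/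
theorem contDiff_mul_of_tsupport {n : WithTop ℕ∞} {G : Set E} (hG : IsOpen G) {a b : E → ℝ}
    (ha : ContDiffOn ℝ n a G) (hb : ContDiff ℝ n b) (hsupp : tsupport b ⊆ G) :
    ContDiff ℝ n (fun x => a x * b x) := by
  rw [contDiff_iff_contDiffAt]
  intro x
  by_cases hx : x ∈ G
  · exact (ha.contDiffAt (hG.mem_nhds hx)).mul hb.contDiffAt
  · have hx' : x ∉ tsupport b := fun h => hx (hsupp h)
    have h0 : b =ᶠ[𝓝 x] 0 := notMem_tsupport_iff_eventuallyEq.1 hx'
    have h1 : (fun y => a y * b y) =ᶠ[𝓝 x] fun _ => (0 : ℝ) := by
      filter_upwards [h0] with y hy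
      rw [hy]
      simp
    exact (contDiffAt_const.congr_of_eventuallyEq h1)

omit [NormedSpace ℝ E] in
theorem tsupport_mul_subset_right' (a b : E → ℝ) :
    tsupport (fun x => a x * b x) ⊆ tsupport b := by
  apply closure_mono
  intro x hx
  rw [Function.mem_support] at hx ⊢
  intro h
  apply hx
  rw [h, mul_zero]

omit [NormedSpace ℝ E] in
theorem hasCompactSupport_mul_of_right (a : E → ℝ) {b : E → ℝ} (hb : HasCompactSupport b) :
    HasCompactSupport (fun x => a x * b x) :=
  hb.of_isClosed_subset (isClosed_tsupport _) (tsupport_mul_subset_right' a b)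

variable [FiniteDimensional ℝ E]

/-- A smooth cutoff function equal to one on a compact set and supported in a given open
neighbourhood of it. -/
theorem exists_cutoff {K G : Set E} (hK : IsCompact K) (hG : IsOpen G) (hKG : K ⊆ G) :
    ∃ χ : E → ℝ, ContDiff ℝ ∞ χ ∧ HasCompactSupport χ ∧ tsupport χ ⊆ G ∧
      (∀ x, 0 ≤ χ x) ∧ (∀ x, χ x ≤ 1) ∧ ∀ x ∈ K, χ x = 1 := by
  obtain ⟨L, hL, hKL, hLG⟩ := exists_compact_between hK hG hKG
  obtain ⟨f, hfs, hfc, hfr⟩ :=
    (isOpen_interior (s := L)).exists_contDiff_support_eq (n := (⊤ : ℕ∞))
  have hfnn : ∀ x, 0 ≤ f x := fun x => (hfr (Set.mem_range_self x)).1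
  have hfpos : ∀ x ∈ K, 0 < f x := by
    intro x hx
    have hx' : x ∈ Function.support f := by
      rw [hfs]
      exact hKL hx
    exact lt_of_le_of_ne (hfnn x) (Ne.symm hx')
  -- a positive lower bound of `f` on `K`
  obtain ⟨m, hm, hmK⟩ : ∃ m : ℝ, 0 < m ∧ ∀ x ∈ K, m ≤ f x := by
    rcases K.eq_empty_or_nonempty with hKe | hKne
    · exact ⟨1, one_pos, fun x hx => by simp [hKe] at hx⟩
    · obtain ⟨x0, hx0, hmin⟩ := hK.exists_isMinOn hKne hfc.continuous.continuousOn
      exact ⟨f x0, hfpos x0 hx0, fun x hx => hmin hx⟩
  refine ⟨fun x => Real.smoothTransition (f x / m), ?_, ?_, ?_, ?_, ?_, ?_⟩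
  · exact Real.smoothTransition.contDiff.comp (hfc.div_const m)
  · have hsub : tsupport (fun x => Real.smoothTransition (f x / m)) ⊆ L := by
      have h1 : Function.support (fun x => Real.smoothTransition (f x / m)) ⊆ interior L := by
        intro x hx
        rw [← hfs]
        rw [Function.mem_support] at hx ⊢
        intro h
        apply hx
        simp [h]
      exact (closure_mono h1).trans ((closure_mono interior_subset).trans
        hL.isClosed.closure_subset)
    exact hL.of_isClosed_subset (isClosed_tsupport _) hsub
  · have h1 : Function.support (fun x => Real.smoothTransition (f x / m)) ⊆ interior L := by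
      intro x hx
      rw [← hfs]
      rw [Function.mem_support] at hx ⊢
      intro h
      apply hx
      simp [h]
    exact ((closure_mono h1).trans ((closure_mono interior_subset).trans
      hL.isClosed.closure_subset)).trans hLG
  · intro x
    exact Real.smoothTransition.nonneg _
  · intro x
    exact Real.smoothTransition.le_one _
  · intro x hx
    apply Real.smoothTransition.one_of_one_le
    rw [le_div_iff₀ hm, one_mul]
    exact hmK x hx

/-! ### The smooth transition function -/

theorem smoothT_differentiable : Differentiable ℝ Real.smoothTransition :=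
  (Real.smoothTransition.contDiff (n := 1)).differentiable (by norm_num)

theorem smoothT_hasDerivAt (t : ℝ) :
    HasDerivAt Real.smoothTransition (deriv Real.smoothTransition t) t :=
  (smoothT_differentiable t).hasDerivAt

theorem smoothT_deriv_continuous : Continuous (deriv Real.smoothTransition) :=
  (Real.smoothTransition.contDiff (n := 1)).continuous_deriv (by norm_num)

theorem smoothT_deriv_nonneg (t : ℝ) : 0 ≤ deriv Real.smoothTransition t :=
  Real.smoothTransition.monotone.deriv_nonneg

theorem smoothT_deriv_zero_of_nonpos {t : ℝ} (ht : t ≤ 0) :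
    deriv Real.smoothTransition t = 0 := by
  have hmin : IsLocalMin Real.smoothTransition t := by
    apply Filter.Eventually.of_forall
    intro s
    rw [Real.smoothTransition.zero_of_nonpos ht]
    exact Real.smoothTransition.nonneg s
  exact hmin.deriv_eq_zero

theorem smoothT_deriv_zero_of_one_le {t : ℝ} (ht : 1 ≤ t) :
    deriv Real.smoothTransition t = 0 := by
  have hmax : IsLocalMax Real.smoothTransition t := by
    apply Filter.Eventually.of_forall
    intro s
    rw [Real.smoothTransition.one_of_one_le ht]
    exact Real.smoothTransition.le_one s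
  exact hmax.deriv_eq_zero

theorem smoothT_deriv_bound : ∃ M : ℝ, 0 ≤ M ∧ ∀ t, deriv Real.smoothTransition t ≤ M := by
  have hc : HasCompactSupport (deriv Real.smoothTransition) := by
    apply HasCompactSupport.intro (isCompact_Icc (a := (0 : ℝ)) (b := 1))
    intro t ht
    rw [Set.mem_Icc, not_and_or, not_le, not_le] at ht
    rcases ht with h | h
    · exact smoothT_deriv_zero_of_nonpos h.le
    · exact smoothT_deriv_zero_of_one_le h.le
  obtain ⟨C, hC⟩ := smoothT_deriv_continuous.bounded_above_of_compact_support hc
  refine ⟨max C 0, le_max_right _ _, fun t => ?_⟩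
  exact ((le_abs_self _).trans (hC t)).trans (le_max_left _ _)

end Vale.Agent.Lib.P098
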