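import Mathlib

/-!
Directional derivatives `pd v f` of scalar functions and their calculus on open sets:
commutation, homogeneity, Euler relations.
-/

namespace Vale.Agent.Lib.P098

open Finset
open scoped Topology InnerProductSpace

section apply_lemmas

variable {E F F' G : Type*} [NormedAddCommGroup E] [NormedSpace ℝ E]
  [NormedAddCommGroup F] [NormedSpace ℝ F] [NormedAddCommGroup F'] [NormedSpace ℝ F']
  [NormedAddCommGroup G] [NormedSpace ℝ G]

theorem fderiv_apply1 {c : E → F →L[ℝ] G} {x : E} (hc : DifferentiableAt ℝ c x) (v : F)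
    (y : E) : fderiv ℝ (fun x' => c x' v) x y = fderiv ℝ c x y v := by
  rw [fderiv_clm_apply hc (differentiableAt_const v)]
  simp

theorem differentiableAt_apply1 {c : E → F →L[ℝ] G} {x : E} (hc : DifferentiableAt ℝ c x)
    (v : F) : DifferentiableAt ℝ (fun x' => c x' v) x :=
  hc.clm_apply (differentiableAt_const v)

theorem fderiv_apply2 {c : E → F →L[ℝ] F' →L[ℝ] G} {x : E} (hc : DifferentiableAt ℝ c x)
    (v : F) (w : F') (y : E) : fderiv ℝ (fun x' => c x' v w) x y = fderiv ℝ c x y v w := by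
  rw [fderiv_apply1 (differentiableAt_apply1 hc v) w y, fderiv_apply1 hc v y]

end apply_lemmas

section pd

variable {E : Type*} [NormedAddCommGroup E] [NormedSpace ℝ E]

/-- Directional derivative of a scalar function. -/
noncomputable def pd (v : E) (f : E → ℝ) : E → ℝ := fun x => fderiv ℝ f x v

theorem pd_contDiffOn {U : Set E} (hU : IsOpen U) {f : E → ℝ} {n m : WithTop ℕ∞}
    (hf : ContDiffOn ℝ n f U) (hmn : m + 1 ≤ n) (v : E) : ContDiffOn ℝ m (pd v f) U :=
  (hf.fderiv_of_isOpen hU hmn).clm_apply contDiffOn_const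

theorem diffAt {U : Set E} (hU : IsOpen U) {f : E → ℝ} {n : WithTop ℕ∞}
    (hf : ContDiffOn ℝ n f U) (hn : 1 ≤ n) {x : E} (hx : x ∈ U) : DifferentiableAt ℝ f x :=
  (hf.contDiffAt (hU.mem_nhds hx)).differentiableAt (by
    intro h
    rw [h] at hn
    simp at hn)

theorem pd_add_dir (v w : E) (f : E → ℝ) (x : E) : pd (v + w) f x = pd v f x + pd w f x := by
  simp [pd]

theorem pd_smul_dir (t : ℝ) (v : E) (f : E → ℝ) (x : E) : pd (t • v) f x = t * pd v f x := by
  simp [pd]

theorem pd_congr {U : Set E} (hU : IsOpen U) {f g : E → ℝ} (h : Set.EqOn f g U) (v : E) :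
    Set.EqOn (pd v f) (pd v g) U := by
  intro x hx
  have h' : f =ᶠ[𝓝 x] g := Filter.eventuallyEq_of_mem (hU.mem_nhds hx) h
  simp only [pd, h'.fderiv_eq]

theorem pd_comm {U : Set E} (hU : IsOpen U) {f : E → ℝ} (hf : ContDiffOn ℝ 2 f U) {x : E}
    (hx : x ∈ U) (v w : E) : pd v (pd w f) x = pd w (pd v f) x := by
  have hcd : ContDiffAt ℝ 2 f x := hf.contDiffAt (hU.mem_nhds hx)
  have hd : DifferentiableAt ℝ (fderiv ℝ f) x :=
    (hcd.fderiv_right (m := 1) (by norm_num)).differentiableAt (by norm_num)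
  have h1 : pd v (pd w f) x = fderiv ℝ (fderiv ℝ f) x v w := fderiv_apply1 hd w v
  have h2 : pd w (pd v f) x = fderiv ℝ (fderiv ℝ f) x w v := fderiv_apply1 hd v w
  rw [h1, h2]
  exact (hcd.isSymmSndFDerivAt (by simp)).eq v w

theorem pd_const (v : E) (c : ℝ) (x : E) : pd v (fun _ => c) x = 0 := by
  simp [pd]

theorem pd_add {f g : E → ℝ} {x : E} (hf : DifferentiableAt ℝ f x)
    (hg : DifferentiableAt ℝ g x) (v : E) :
    pd v (fun y => f y + g y) x = pd v f x + pd v g x := by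
  have h : HasFDerivAt (fun y => f y + g y) (fderiv ℝ f x + fderiv ℝ g x) x :=
    hf.hasFDerivAt.add hg.hasFDerivAt
  simp [pd, h.fderiv]

theorem pd_const_mul {f : E → ℝ} {x : E} (hf : DifferentiableAt ℝ f x) (c : ℝ) (v : E) :
    pd v (fun y => c * f y) x = c * pd v f x := by
  have h : HasFDerivAt (fun y => c * f y) (c • fderiv ℝ f x) x := hf.hasFDerivAt.const_mul c
  simp [pd, h.fderiv]

theorem pd_mul {f g : E → ℝ} {x : E} (hf : DifferentiableAt ℝ f x)
    (hg : DifferentiableAt ℝ g x) (v : E) :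
    pd v (fun y => f y * g y) x = pd v f x * g x + f x * pd v g x := by
  have h : HasFDerivAt (fun y => f y * g y) (f x • fderiv ℝ g x + g x • fderiv ℝ f x) x :=
    hf.hasFDerivAt.mul hg.hasFDerivAt
  simp [pd, h.fderiv]
  ring

theorem pd_comp {f : E → ℝ} {x : E} {φ : ℝ → ℝ} {φ' : ℝ} (hφ : HasDerivAt φ φ' (f x))
    (hf : DifferentiableAt ℝ f x) (v : E) :
    pd v (fun y => φ (f y)) x = φ' * pd v f x := by
  have h : HasFDerivAt (fun y => φ (f y)) (φ' • fderiv ℝ f x) x :=
    hφ.comp_hasFDerivAt x hf.hasFDerivAt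
  simp [pd, h.fderiv]

theorem pd_sum {ι : Type*} (s : Finset ι) {f : ι → E → ℝ} {x : E}
    (hf : ∀ i ∈ s, DifferentiableAt ℝ (f i) x) (v : E) :
    pd v (fun y => ∑ i ∈ s, f i y) x = ∑ i ∈ s, pd v (f i) x := by
  have h : HasFDerivAt (fun y => ∑ i ∈ s, f i y) (∑ i ∈ s, fderiv ℝ (f i) x) x :=
    HasFDerivAt.fun_sum fun i hi => (hf i hi).hasFDerivAt
  simp [pd, h.fderiv]

theorem diffAt_sum {ι : Type*} (s : Finset ι) {f : ι → E → ℝ} {x : E}
    (hf : ∀ i ∈ s, DifferentiableAt ℝ (f i) x) :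
    DifferentiableAt ℝ (fun y => ∑ i ∈ s, f i y) x :=
  (HasFDerivAt.fun_sum fun i hi => (hf i hi).hasFDerivAt).differentiableAt

end pd

section hom

variable {E : Type*} [NormedAddCommGroup E] [NormedSpace ℝ E]

/-- Positive homogeneity of integer degree on a set. -/
def HomOn (m : ℤ) (f : E → ℝ) (U : Set E) : Prop :=
  ∀ x ∈ U, ∀ t : ℝ, 0 < t → f (t • x) = t ^ m * f x

theorem hom_pd {U : Set E} (hU : IsOpen U) (hcone : ∀ x ∈ U, ∀ t : ℝ, 0 < t → t • x ∈ U)
    {f : E → ℝ} (hd : ∀ x ∈ U, DifferentiableAt ℝ f x) {m : ℤ} (hf : HomOn m f U) (v : E) :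
    HomOn (m - 1) (pd v f) U := by
  intro x hx t ht
  have hx' := hcone x hx t ht
  have h1 : HasFDerivAt (fun y : E => f (t • y))
      ((fderiv ℝ f (t • x)).comp (t • ContinuousLinearMap.id ℝ E)) x := by
    have hin : HasFDerivAt (fun y : E => t • y) (t • ContinuousLinearMap.id ℝ E) x :=
      (hasFDerivAt_id x).const_smul t
    exact (hd _ hx').hasFDerivAt.comp x hin
  have h2 : HasFDerivAt (fun y : E => t ^ m * f y) (t ^ m • fderiv ℝ f x) x :=
    (hd x hx).hasFDerivAt.const_mul (t ^ m)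
  have heq : (fun y : E => f (t • y)) =ᶠ[𝓝 x] (fun y => t ^ m * f y) := by
    filter_upwards [hU.mem_nhds hx] with y hy
    exact hf y hy t ht
  have h3 := h1.unique (h2.congr_of_eventuallyEq heq)
  have h4 := congrArg (fun L : E →L[ℝ] ℝ => L v) h3
  simp only [ContinuousLinearMap.comp_apply, smul_apply,
    ContinuousLinearMap.id_apply, map_smul, smul_eq_mul] at h4
  simp only [pd]
  rw [zpow_sub_one₀ ht.ne']
  field_simp
  linarith

theorem euler {U : Set E} {f : E → ℝ} {m : ℤ} (hf : HomOn m f U) {x : E} (hx : x ∈ U)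
    (hd : DifferentiableAt ℝ f x) : pd x f x = m * f x := by
  have h1 : HasDerivAt (fun t : ℝ => f (t • x)) (fderiv ℝ f x x) 1 := by
    have hc : HasDerivAt (fun t : ℝ => t • x) x 1 := by
      simpa using (hasDerivAt_id (1 : ℝ)).smul_const x
    have hd' : HasFDerivAt f (fderiv ℝ f x) ((1 : ℝ) • x) := by simpa using hd.hasFDerivAt
    exact hd'.comp_hasDerivAt 1 hc
  have h2 : HasDerivAt (fun t : ℝ => t ^ m * f x) (m * (1 : ℝ) ^ (m - 1) * f x) 1 :=
    (hasDerivAt_zpow m 1 (Or.inl one_ne_zero)).mul_const (f x)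
  have heq : (fun t : ℝ => f (t • x)) =ᶠ[𝓝 1] (fun t => t ^ m * f x) := by
    filter_upwards [lt_mem_nhds (zero_lt_one (α := ℝ))] with t ht
    exact hf x hx t ht
  have h3 := h1.unique (h2.congr_of_eventuallyEq heq)
  simpa [pd] using h3

end hom

section lap

variable {E : Type*} [NormedAddCommGroup E] [InnerProductSpace ℝ E] [FiniteDimensional ℝ E]
variable {ι : Type*} [Fintype ι]

/-- Sum of the second pure directional derivatives along an orthonormal basis. -/
noncomputable def lap (b : OrthonormalBasis ι ℝ E) (f : E → ℝ) : E → ℝ :=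
  fun x => ∑ k, pd (b k) (pd (b k) f) x

theorem laplacian_eq_lap (b : OrthonormalBasis ι ℝ E) {U : Set E} (hU : IsOpen U) {f : E → ℝ}
    (hf : ContDiffOn ℝ 2 f U) {x : E} (hx : x ∈ U) :
    Laplacian.laplacian f x = lap b f x := by
  have hcd : ContDiffAt ℝ 2 f x := hf.contDiffAt (hU.mem_nhds hx)
  have hd : DifferentiableAt ℝ (fderiv ℝ f) x :=
    (hcd.fderiv_right (m := 1) (by norm_num)).differentiableAt (by norm_num)
  rw [InnerProductSpace.laplacian_eq_iteratedFDeriv_orthonormalBasis f b]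
  simp only [lap]
  refine Finset.sum_congr rfl fun k _ => ?_
  rw [iteratedFDeriv_two_apply]
  simp only [Matrix.cons_val_zero, Matrix.cons_val_one]
  exact (fderiv_apply1 hd (b k) (b k)).symm

omit [FiniteDimensional ℝ E] in
theorem lap_pd (b : OrthonormalBasis ι ℝ E) {U : Set E} (hU : IsOpen U) {f : E → ℝ}
    (hf : ContDiffOn ℝ 3 f U) (v : E) : Set.EqOn (lap b (pd v f)) (pd v (lap b f)) U := by
  intro x hx
  have hf2 : ContDiffOn ℝ 2 f U := hf.of_le (by norm_num)
  have hsum : pd v (lap b f) x = ∑ k, pd v (pd (b k) (pd (b k) f)) x := by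
    refine pd_sum Finset.univ (fun k _ => ?_) v
    have h1 : ContDiffOn ℝ 2 (pd (b k) f) U := pd_contDiffOn hU hf (by norm_num) (b k)
    have h2 : ContDiffOn ℝ 1 (pd (b k) (pd (b k) f)) U := pd_contDiffOn hU h1 (by norm_num) (b k)
    exact diffAt hU h2 le_rfl hx
  rw [hsum]
  simp only [lap]
  refine Finset.sum_congr rfl fun k _ => ?_
  have e1 : Set.EqOn (pd (b k) (pd v f)) (pd v (pd (b k) f)) U :=
    fun y hy => pd_comm hU hf2 hy (b k) v
  rw [pd_congr hU e1 (b k) hx]
  exact pd_comm hU (pd_contDiffOn hU hf (by norm_num) (b k)) hx (b k) v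

omit [FiniteDimensional ℝ E] in
theorem pd_zero_of_eqOn {U : Set E} (hU : IsOpen U) {f : E → ℝ}
    (h : Set.EqOn f (fun _ => 0) U) (v : E) : Set.EqOn (pd v f) (fun _ => 0) U := by
  intro x hx
  rw [pd_congr hU h v hx]
  exact pd_const v 0 x

end lap

end Vale.Agent.Lib.P098
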