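import Vale.Agent.Lib.P098.Cutoff

/-!
A one-sided divergence theorem on a superlevel set `{u > 0}`: if a compactly supported `C^1`
vector field `F` satisfies `F · ∇u ≥ 0` on `{u = 0}` (where `∇u ≠ 0`), then
`∫_{u > 0} div F ≤ 0`.  The proof multiplies `F` by cutoffs `T(a u)` and lets `a → ∞`.
-/

namespace Vale.Agent.Lib.P098

open Finset MeasureTheory
open scoped ContDiff Topology

variable {E : Type*} [NormedAddCommGroup E] [InnerProductSpace ℝ E] [FiniteDimensional ℝ E]
  [MeasurableSpace E] [BorelSpace E]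
variable {ι : Type*} [Fintype ι]

omit [FiniteDimensional ℝ E] [MeasurableSpace E] [BorelSpace E] in
theorem tsupport_pd_subset (v : E) (f : E → ℝ) : tsupport (pd v f) ⊆ tsupport f := by
  refine (closure_mono ?_).trans (tsupport_fderiv_subset ℝ (f := f))
  intro x hx
  rw [Function.mem_support] at hx ⊢
  intro h
  apply hx
  simp [pd, h]

omit [FiniteDimensional ℝ E] [MeasurableSpace E] [BorelSpace E] in
theorem pd_continuous {f : E → ℝ} (hf : ContDiff ℝ 1 f) (v : E) : Continuous (pd v f) :=
  (hf.continuous_fderiv one_ne_zero).clm_apply continuous_const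

omit [FiniteDimensional ℝ E] [MeasurableSpace E] [BorelSpace E] in
theorem pd_hasCompactSupport {f : E → ℝ} (hf : HasCompactSupport f) (v : E) :
    HasCompactSupport (pd v f) :=
  hf.of_isClosed_subset (isClosed_tsupport _) (tsupport_pd_subset v f)

/-- Integrability of the product of a function continuous on an open set `G` and a continuous
function with compact support inside `G`. -/
theorem integrable_mul_of_tsupport {G : Set E} (hG : IsOpen G) {a c : E → ℝ}
    (ha : ContinuousOn a G) (hc : Continuous c) (hcc : HasCompactSupport c)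
    (hsupp : tsupport c ⊆ G) : Integrable (fun x => a x * c x) :=
  (continuous_mul_of_tsupport hG ha hc hsupp).integrable_of_hasCompactSupport
    (hasCompactSupport_mul_of_right a hcc)

/-- Integration by parts against the cutoff `T(a u)`. -/
theorem cutoff_ibp {G : Set E} (hG : IsOpen G) {u : E → ℝ} (hu : ContDiffOn ℝ 2 u G)
    (b : OrthonormalBasis ι ℝ E) (F : ι → E → ℝ) (hF : ∀ i, ContDiff ℝ 1 (F i))
    (hFc : ∀ i, HasCompactSupport (F i)) (hFG : ∀ i, tsupport (F i) ⊆ G) (a : ℝ) :
    ∫ x, Real.smoothTransition (a * u x) * ∑ i, pd (b i) (F i) x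
      = - ∫ x, a * deriv Real.smoothTransition (a * u x) * ∑ i, F i x * pd (b i) u x := by
  have hfG : ContDiffOn ℝ 2 (fun x => Real.smoothTransition (a * u x)) G :=
    (Real.smoothTransition.contDiff (n := 2)).comp_contDiffOn (contDiffOn_const.mul hu)
  have hfc : ContinuousOn (fun x => Real.smoothTransition (a * u x)) G := hfG.continuousOn
  have hdiff : ∀ x ∈ G, DifferentiableAt ℝ (fun x => Real.smoothTransition (a * u x)) x :=
    fun x hx => diffAt hG hfG (by norm_num) hx
  have hpf : ∀ i, ContinuousOn (pd (b i) (fun x => Real.smoothTransition (a * u x))) G :=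
    fun i => (pd_contDiffOn hG hfG (m := 1) (by norm_num) (b i)).continuousOn
  -- integration by parts in each coordinate direction
  have hi : ∀ i, ∫ x, Real.smoothTransition (a * u x) * pd (b i) (F i) x
      = - ∫ x, pd (b i) (fun x => Real.smoothTransition (a * u x)) x * F i x := by
    intro i
    refine integral_mul_fderiv_eq_neg_fderiv_mul_of_integrable
      (f := fun x => Real.smoothTransition (a * u x)) (g := F i) (v := b i) ?_ ?_ ?_ ?_ ?_
    · exact integrable_mul_of_tsupport hG (hpf i) (hF i).continuous (hFc i) (hFG i)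
    · exact integrable_mul_of_tsupport hG hfc (pd_continuous (hF i) (b i))
        (pd_hasCompactSupport (hFc i) (b i)) ((tsupport_pd_subset (b i) (F i)).trans (hFG i))
    · exact integrable_mul_of_tsupport hG hfc (hF i).continuous (hFc i) (hFG i)
    · intro x hx
      exact hdiff x (hFG i hx)
    · intro x _
      exact (hF i).differentiable (by norm_num) x
  have hsum1 : ∫ x, Real.smoothTransition (a * u x) * ∑ i, pd (b i) (F i) x
      = ∑ i, ∫ x, Real.smoothTransition (a * u x) * pd (b i) (F i) x := by
    rw [← integral_finsetSum]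
    · congr 1
      funext x
      rw [Finset.mul_sum]
    · intro i _
      exact integrable_mul_of_tsupport hG hfc (pd_continuous (hF i) (b i))
        (pd_hasCompactSupport (hFc i) (b i)) ((tsupport_pd_subset (b i) (F i)).trans (hFG i))
  have hsum2 : ∫ x, a * deriv Real.smoothTransition (a * u x) * ∑ i, F i x * pd (b i) u x
      = ∑ i, ∫ x, pd (b i) (fun x => Real.smoothTransition (a * u x)) x * F i x := by
    rw [← integral_finsetSum]
    · congr 1
      funext x
      by_cases hx : x ∈ G
      · rw [Finset.mul_sum]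
        refine Finset.sum_congr rfl fun i _ => ?_
        have hud : DifferentiableAt ℝ u x := diffAt hG hu (by norm_num) hx
        have h1 : pd (b i) (fun y => Real.smoothTransition (a * u y)) x
            = deriv Real.smoothTransition (a * u x) * pd (b i) (fun y => a * u y) x :=
          pd_comp (f := fun y => a * u y) (φ := Real.smoothTransition)
            (smoothT_hasDerivAt (a * u x)) (hud.const_mul a) (b i)
        rw [h1, pd_const_mul hud]
        ring
      · have hz : ∀ i, F i x = 0 := fun i =>
          image_eq_zero_of_notMem_tsupport (fun h => hx (hFG i h))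
        simp [hz]
    · intro i _
      exact integrable_mul_of_tsupport hG (hpf i) (hF i).continuous (hFc i) (hFG i)
  rw [hsum1, hsum2, ← Finset.sum_neg_distrib]
  exact Finset.sum_congr rfl fun i _ => hi i

/-- One-sided divergence theorem on `{u > 0}`. -/
theorem div_integral_le {G : Set E} (hG : IsOpen G) {u : E → ℝ} (hu : ContDiffOn ℝ 2 u G)
    (b : OrthonormalBasis ι ℝ E) (F : ι → E → ℝ) (hF : ∀ i, ContDiff ℝ 1 (F i))
    (hFc : ∀ i, HasCompactSupport (F i)) (hFG : ∀ i, tsupport (F i) ⊆ G)
    (hgrad : ∀ x ∈ G, u x = 0 → 0 < ∑ i, pd (b i) u x ^ 2)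
    (hsign : ∀ x ∈ G, u x = 0 → 0 ≤ ∑ i, F i x * pd (b i) u x) :
    ∫ x in {x ∈ G | 0 < u x}, ∑ i, pd (b i) (F i) x ≤ 0 := by
  classical
  have hKc : IsCompact (⋃ i, tsupport (F i)) := isCompact_iUnion fun i => hFc i
  have hKG : (⋃ i, tsupport (F i)) ⊆ G := Set.iUnion_subset hFG
  obtain ⟨χ, hχs, hχc, hχG, hχ0, hχ1, hχK⟩ := exists_cutoff hKc hG hKG
  have hucont : ContinuousOn u G := hu.continuousOn
  have hpdu : ∀ i, ContDiffOn ℝ 1 (pd (b i) u) G :=
    fun i => pd_contDiffOn hG hu (by norm_num) (b i)
  have hFzero : ∀ i x, x ∉ (⋃ i, tsupport (F i)) → F i x = 0 := fun i x hx =>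
    image_eq_zero_of_notMem_tsupport (fun h => hx (Set.mem_iUnion.2 ⟨i, h⟩))
  -- the divergence `D` and the normal component `g`
  have hDcont : Continuous (fun x => ∑ i, pd (b i) (F i) x) :=
    continuous_finsetSum _ fun i _ => pd_continuous (hF i) (b i)
  have hDK : ∀ x, x ∉ (⋃ i, tsupport (F i)) → ∑ i, pd (b i) (F i) x = 0 := by
    intro x hx
    refine Finset.sum_eq_zero fun i _ => ?_
    exact image_eq_zero_of_notMem_tsupport
      (fun h => hx (Set.mem_iUnion.2 ⟨i, tsupport_pd_subset (b i) (F i) h⟩))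
  have hDsupp : tsupport (fun x => ∑ i, pd (b i) (F i) x) ⊆ ⋃ i, tsupport (F i) := by
    refine closure_minimal ?_ hKc.isClosed
    intro x hx
    by_contra hxK
    exact hx (hDK x hxK)
  have hDc : HasCompactSupport (fun x => ∑ i, pd (b i) (F i) x) :=
    hKc.of_isClosed_subset (isClosed_tsupport _) hDsupp
  have hDint : Integrable (fun x => ∑ i, pd (b i) (F i) x) :=
    hDcont.integrable_of_hasCompactSupport hDc
  have hgcont : Continuous (fun x => ∑ i, F i x * pd (b i) u x) := by
    refine continuous_finsetSum _ fun i _ => ?_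
    have := continuous_mul_of_tsupport hG (hpdu i).continuousOn (hF i).continuous (hFG i)
    simpa [mul_comm] using this
  have hgK : ∀ x, x ∉ (⋃ i, tsupport (F i)) → ∑ i, F i x * pd (b i) u x = 0 := by
    intro x hx
    refine Finset.sum_eq_zero fun i _ => ?_
    rw [hFzero i x hx, zero_mul]
  have hgsupp : tsupport (fun x => ∑ i, F i x * pd (b i) u x) ⊆ ⋃ i, tsupport (F i) := by
    refine closure_minimal ?_ hKc.isClosed
    intro x hx
    by_contra hxK
    exact hx (hgK x hxK)
  have hgc : HasCompactSupport (fun x => ∑ i, F i x * pd (b i) u x) :=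
    hKc.of_isClosed_subset (isClosed_tsupport _) hgsupp
  -- the auxiliary field `χ ∇u`
  have hF' : ∀ i, ContDiff ℝ 1 (fun x => pd (b i) u x * χ x) := fun i =>
    contDiff_mul_of_tsupport hG (hpdu i) (hχs.of_le (WithTop.coe_le_coe.2 le_top)) hχG
  have hF'c : ∀ i, HasCompactSupport (fun x => pd (b i) u x * χ x) :=
    fun i => hasCompactSupport_mul_of_right _ hχc
  have hF'G : ∀ i, tsupport (fun x => pd (b i) u x * χ x) ⊆ G :=
    fun i => (tsupport_mul_subset_right' _ _).trans hχG
  have hD'cont : Continuous (fun x => ∑ i, pd (b i) (fun x => pd (b i) u x * χ x) x) :=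
    continuous_finsetSum _ fun i _ => pd_continuous (hF' i) (b i)
  have hD'supp : tsupport (fun x => ∑ i, pd (b i) (fun x => pd (b i) u x * χ x) x)
      ⊆ tsupport χ := by
    refine closure_minimal ?_ (isClosed_tsupport _)
    intro x hx
    by_contra hxK
    apply hx
    refine Finset.sum_eq_zero fun i _ => ?_
    exact image_eq_zero_of_notMem_tsupport (fun h => hxK
      (tsupport_mul_subset_right' _ _ (tsupport_pd_subset (b i) _ h)))
  have hD'c : HasCompactSupport (fun x => ∑ i, pd (b i) (fun x => pd (b i) u x * χ x) x) :=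
    hχc.of_isClosed_subset (isClosed_tsupport _) hD'supp
  have hD'int : Integrable (fun x => ∑ i, pd (b i) (fun x => pd (b i) u x * χ x) x) :=
    hD'cont.integrable_of_hasCompactSupport hD'c
  -- the function `|∇u|² χ`
  have hSχcont : Continuous (fun x => (∑ i, pd (b i) u x ^ 2) * χ x) :=
    continuous_mul_of_tsupport hG
      (continuousOn_finsetSum _ fun i _ => ((hpdu i).continuousOn).pow 2)
      hχs.continuous hχG
  have hSχsupp : tsupport (fun x => (∑ i, pd (b i) u x ^ 2) * χ x) ⊆ G :=
    (tsupport_mul_subset_right' _ _).trans hχG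
  have hSχc : HasCompactSupport (fun x => (∑ i, pd (b i) u x ^ 2) * χ x) :=
    hasCompactSupport_mul_of_right _ hχc
  have hTcont : ∀ a : ℝ, ContinuousOn (fun x => a * deriv Real.smoothTransition (a * u x)) G :=
    fun a => continuousOn_const.mul
      (smoothT_deriv_continuous.comp_continuousOn (continuousOn_const.mul hucont))
  -- the layer bound
  have hlayer : ∀ a : ℝ, 0 ≤ a →
      ∫ x, a * deriv Real.smoothTransition (a * u x) * ((∑ i, pd (b i) u x ^ 2) * χ x)
        ≤ ∫ x, ‖∑ i, pd (b i) (fun x => pd (b i) u x * χ x) x‖ := by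
    intro a ha
    have hid := cutoff_ibp hG hu b (fun i x => pd (b i) u x * χ x) hF' hF'c hF'G a
    have he : (fun x => a * deriv Real.smoothTransition (a * u x)
          * ∑ i, (pd (b i) u x * χ x) * pd (b i) u x)
        = fun x => a * deriv Real.smoothTransition (a * u x)
          * ((∑ i, pd (b i) u x ^ 2) * χ x) := by
      funext x
      congr 1
      rw [Finset.sum_mul]
      refine Finset.sum_congr rfl fun i _ => ?_
      ring
    rw [he] at hid
    have h2 : ∫ x, a * deriv Real.smoothTransition (a * u x) * ((∑ i, pd (b i) u x ^ 2) * χ x)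
        = ∫ x, -(Real.smoothTransition (a * u x)
          * ∑ i, pd (b i) (fun x => pd (b i) u x * χ x) x) := by
      rw [integral_neg, hid, neg_neg]
    rw [h2]
    have hTD'int : Integrable (fun x => Real.smoothTransition (a * u x)
          * ∑ i, pd (b i) (fun x => pd (b i) u x * χ x) x) :=
      integrable_mul_of_tsupport hG
        (Real.smoothTransition.continuous.comp_continuousOn (continuousOn_const.mul hucont))
        hD'cont hD'c (hD'supp.trans hχG)
    refine integral_mono hTD'int.neg hD'int.norm ?_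
    intro x
    have h0 := Real.smoothTransition.nonneg (a * u x)
    have h1 := Real.smoothTransition.le_one (a * u x)
    show -(Real.smoothTransition (a * u x)
          * ∑ i, pd (b i) (fun x => pd (b i) u x * χ x) x)
        ≤ ‖∑ i, pd (b i) (fun x => pd (b i) u x * χ x) x‖
    rw [Real.norm_eq_abs]
    have h2 := neg_abs_le (∑ i, pd (b i) (fun x => pd (b i) u x * χ x) x)
    have h3 := abs_nonneg (∑ i, pd (b i) (fun x => pd (b i) u x * χ x) x)
    nlinarith [mul_nonneg h0 (by linarith : 0 ≤ |∑ i, pd (b i) (fun x => pd (b i) u x * χ x) x|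
        + ∑ i, pd (b i) (fun x => pd (b i) u x * χ x) x),
      mul_nonneg (by linarith : 0 ≤ 1 - Real.smoothTransition (a * u x)) h3]
  -- smallness of the negative part of `g` near the zero set
  have hC : ∀ δ : ℝ, 0 < δ → ∃ ε₁ : ℝ, 0 < ε₁ ∧ ∀ x ∈ (⋃ i, tsupport (F i)), 0 < u x →
      u x < ε₁ → -(∑ i, F i x * pd (b i) u x) ≤ δ * ∑ i, pd (b i) u x ^ 2 := by
    intro δ hδ
    have hh : ContinuousOn
        (fun x => δ * (∑ i, pd (b i) u x ^ 2) + ∑ i, F i x * pd (b i) u x)
        (⋃ i, tsupport (F i)) :=
      ((continuousOn_const.mul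
        (continuousOn_finsetSum _ fun i _ => ((hpdu i).continuousOn).pow 2)).add
          hgcont.continuousOn).mono hKG
    have hAcl : IsClosed ((⋃ i, tsupport (F i)) ∩
        (fun x => δ * (∑ i, pd (b i) u x ^ 2) + ∑ i, F i x * pd (b i) u x) ⁻¹' Set.Iic 0) :=
      hh.preimage_isClosed_of_isClosed hKc.isClosed isClosed_Iic
    have hAc := hKc.of_isClosed_subset hAcl Set.inter_subset_left
    have hAu : ∀ x ∈ ((⋃ i, tsupport (F i)) ∩
        (fun x => δ * (∑ i, pd (b i) u x ^ 2) + ∑ i, F i x * pd (b i) u x) ⁻¹' Set.Iic 0),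
        u x ≠ 0 := by
      intro x hx hux
      have hxG := hKG hx.1
      have h1 := hgrad x hxG hux
      have h2 := hsign x hxG hux
      have h3 : δ * (∑ i, pd (b i) u x ^ 2) + ∑ i, F i x * pd (b i) u x ≤ 0 := hx.2
      nlinarith [mul_pos hδ h1]
    rcases ((⋃ i, tsupport (F i)) ∩
        (fun x => δ * (∑ i, pd (b i) u x ^ 2) + ∑ i, F i x * pd (b i) u x) ⁻¹'
          Set.Iic 0).eq_empty_or_nonempty with hAe | hAne
    · refine ⟨1, one_pos, fun x hx _ _ => ?_⟩
      have hxA : ¬ (δ * (∑ i, pd (b i) u x ^ 2) + ∑ i, F i x * pd (b i) u x ≤ 0) := by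
        intro h
        have hmem : x ∈ ((⋃ i, tsupport (F i)) ∩
            (fun x => δ * (∑ i, pd (b i) u x ^ 2) + ∑ i, F i x * pd (b i) u x) ⁻¹'
              Set.Iic 0) := ⟨hx, h⟩
        rw [hAe] at hmem
        exact hmem
      linarith
    · obtain ⟨x0, hx0, hmin⟩ := hAc.exists_isMinOn hAne
        ((hucont.mono (fun x hx => hKG hx.1)).abs)
      refine ⟨|u x0|, abs_pos.2 (hAu x0 hx0), fun x hx hpos hlt => ?_⟩
      have hxA : ¬ (δ * (∑ i, pd (b i) u x ^ 2) + ∑ i, F i x * pd (b i) u x ≤ 0) := by
        intro h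
        have hmem : x ∈ ((⋃ i, tsupport (F i)) ∩
            (fun x => δ * (∑ i, pd (b i) u x ^ 2) + ∑ i, F i x * pd (b i) u x) ⁻¹'
              Set.Iic 0) := ⟨hx, h⟩
        have h4 : |u x0| ≤ |u x| := isMinOn_iff.1 hmin x hmem
        rw [abs_of_pos hpos] at h4
        linarith
      linarith
  -- measurability of the positive phase
  have hΩopen : IsOpen {x ∈ G | 0 < u x} := by
    have h := hucont.isOpen_inter_preimage hG (isOpen_Ioi (a := (0 : ℝ)))
    have e : {x ∈ G | 0 < u x} = G ∩ u ⁻¹' Set.Ioi 0 := by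
      ext x
      simp
    rw [e]
    exact h
  have hΩmeas : MeasurableSet {x ∈ G | 0 < u x} := hΩopen.measurableSet
  -- convergence of the cut-off integrals
  have hlim : Filter.Tendsto
      (fun n : ℕ => ∫ x, Real.smoothTransition (((n : ℝ) + 1) * u x) * ∑ i, pd (b i) (F i) x)
      Filter.atTop (𝓝 (∫ x in {x ∈ G | 0 < u x}, ∑ i, pd (b i) (F i) x)) := by
    rw [← integral_indicator hΩmeas]
    refine tendsto_integral_of_dominated_convergence (fun x => ‖∑ i, pd (b i) (F i) x‖)
      ?_ hDint.norm ?_ ?_
    · intro n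
      exact (continuous_mul_of_tsupport hG
        (Real.smoothTransition.continuous.comp_continuousOn (continuousOn_const.mul hucont))
        hDcont (hDsupp.trans hKG)).aestronglyMeasurable
    · intro n
      refine Filter.Eventually.of_forall fun x => ?_
      rw [norm_mul, Real.norm_eq_abs, abs_of_nonneg (Real.smoothTransition.nonneg _)]
      exact mul_le_of_le_one_left (norm_nonneg _) (Real.smoothTransition.le_one _)
    · refine Filter.Eventually.of_forall fun x => ?_
      by_cases hx : x ∈ {x ∈ G | 0 < u x}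
      · rw [Set.indicator_of_mem hx]
        refine tendsto_const_nhds.congr' ?_
        obtain ⟨N, hN⟩ := exists_nat_gt (1 / u x)
        filter_upwards [Filter.eventually_ge_atTop N] with n hn
        have hpos : 0 < u x := hx.2
        have hone : 1 ≤ ((n : ℝ) + 1) * u x := by
          have h1 : 1 / u x < (n : ℝ) + 1 := by
            have h2 : (N : ℝ) ≤ n := by exact_mod_cast hn
            linarith
          rw [div_lt_iff₀ hpos] at h1
          linarith
        rw [Real.smoothTransition.one_of_one_le hone, one_mul]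
      · rw [Set.indicator_of_notMem hx]
        have hz : ∀ n : ℕ, Real.smoothTransition (((n : ℝ) + 1) * u x)
            * ∑ i, pd (b i) (F i) x = 0 := by
          intro n
          by_cases hxG : x ∈ G
          · have hle : u x ≤ 0 := not_lt.1 (fun h => hx ⟨hxG, h⟩)
            have hnp : ((n : ℝ) + 1) * u x ≤ 0 :=
              mul_nonpos_of_nonneg_of_nonpos (by positivity) hle
            rw [Real.smoothTransition.zero_of_nonpos hnp, zero_mul]
          · rw [hDK x (fun h => hxG (hKG h)), mul_zero]
        simp only [hz]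
        exact tendsto_const_nhds
  -- for every `δ > 0` the integral is at most `δ C₁`
  have hbound : ∀ δ : ℝ, 0 < δ → ∫ x in {x ∈ G | 0 < u x}, ∑ i, pd (b i) (F i) x
      ≤ δ * ∫ x, ‖∑ i, pd (b i) (fun x => pd (b i) u x * χ x) x‖ := by
    intro δ hδ
    obtain ⟨ε₁, hε₁, hC'⟩ := hC δ hδ
    refine le_of_tendsto hlim ?_
    obtain ⟨N, hN⟩ := exists_nat_gt (1 / ε₁)
    filter_upwards [Filter.eventually_ge_atTop N] with n hn
    have han : (0 : ℝ) < (n : ℝ) + 1 := by positivity
    have hsmall : 1 / ((n : ℝ) + 1) < ε₁ := by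
      have h2 : (N : ℝ) ≤ n := by exact_mod_cast hn
      have h3 : 1 / ε₁ < (n : ℝ) + 1 := by linarith
      rw [div_lt_iff₀ hε₁] at h3
      rw [div_lt_iff₀ han]
      linarith
    rw [cutoff_ibp hG hu b F hF hFc hFG ((n : ℝ) + 1), ← integral_neg]
    have hint1 : Integrable (fun x => ((n : ℝ) + 1)
        * deriv Real.smoothTransition (((n : ℝ) + 1) * u x)
        * ∑ i, F i x * pd (b i) u x) :=
      integrable_mul_of_tsupport hG (hTcont _) hgcont hgc (hgsupp.trans hKG)
    have hint2 : Integrable (fun x => ((n : ℝ) + 1)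
        * deriv Real.smoothTransition (((n : ℝ) + 1) * u x)
        * ((∑ i, pd (b i) u x ^ 2) * χ x)) :=
      integrable_mul_of_tsupport hG (hTcont _) hSχcont hSχc hSχsupp
    have hstep : ∫ x, -(((n : ℝ) + 1) * deriv Real.smoothTransition (((n : ℝ) + 1) * u x)
          * ∑ i, F i x * pd (b i) u x)
        ≤ ∫ x, δ * (((n : ℝ) + 1) * deriv Real.smoothTransition (((n : ℝ) + 1) * u x)
          * ((∑ i, pd (b i) u x ^ 2) * χ x)) := by
      refine integral_mono hint1.neg (hint2.const_mul δ) ?_
      intro x
      show -(((n : ℝ) + 1) * deriv Real.smoothTransition (((n : ℝ) + 1) * u x)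
          * ∑ i, F i x * pd (b i) u x)
        ≤ δ * (((n : ℝ) + 1) * deriv Real.smoothTransition (((n : ℝ) + 1) * u x)
          * ((∑ i, pd (b i) u x ^ 2) * χ x))
      have ht0 := smoothT_deriv_nonneg (((n : ℝ) + 1) * u x)
      have hS0 : 0 ≤ ∑ i, pd (b i) u x ^ 2 := Finset.sum_nonneg fun i _ => sq_nonneg _
      by_cases ht : deriv Real.smoothTransition (((n : ℝ) + 1) * u x) = 0
      · rw [ht]
        simp
      · have h1 : 0 < ((n : ℝ) + 1) * u x := by
          by_contra hcon
          exact ht (smoothT_deriv_zero_of_nonpos (not_lt.1 hcon))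
        have h2 : ((n : ℝ) + 1) * u x < 1 := by
          by_contra hcon
          exact ht (smoothT_deriv_zero_of_one_le (not_lt.1 hcon))
        have hpos : 0 < u x := by
          by_contra hcon
          have := mul_nonpos_of_nonneg_of_nonpos han.le (not_lt.1 hcon)
          linarith
        have hlt : u x < ε₁ := by
          have h3 : u x < 1 / ((n : ℝ) + 1) := by
            rw [lt_div_iff₀ han]
            linarith
          linarith
        by_cases hxK : x ∈ (⋃ i, tsupport (F i))
        · have h4 := hC' x hxK hpos hlt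
          rw [hχK x hxK, mul_one]
          have h5 := mul_le_mul_of_nonneg_left h4 (mul_nonneg han.le ht0)
          linarith
        · rw [hgK x hxK, mul_zero, neg_zero]
          exact mul_nonneg hδ.le (mul_nonneg (mul_nonneg han.le ht0)
            (mul_nonneg hS0 (hχ0 x)))
    refine hstep.trans ?_
    rw [integral_const_mul]
    exact mul_le_mul_of_nonneg_left (hlayer _ han.le) hδ.le
  -- conclusion
  have hC1 : 0 ≤ ∫ x, ‖∑ i, pd (b i) (fun x => pd (b i) u x * χ x) x‖ :=
    integral_nonneg fun x => norm_nonneg _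
  by_contra hI
  rw [not_le] at hI
  have h1 := hbound
    ((∫ x in {x ∈ G | 0 < u x}, ∑ i, pd (b i) (F i) x)
      / (2 * ((∫ x, ‖∑ i, pd (b i) (fun x => pd (b i) u x * χ x) x‖) + 1)))
    (by positivity)
  have h2 : (∫ x in {x ∈ G | 0 < u x}, ∑ i, pd (b i) (F i) x)
      / (2 * ((∫ x, ‖∑ i, pd (b i) (fun x => pd (b i) u x * χ x) x‖) + 1))
      * (∫ x, ‖∑ i, pd (b i) (fun x => pd (b i) u x * χ x) x‖)
      ≤ (∫ x in {x ∈ G | 0 < u x}, ∑ i, pd (b i) (F i) x) / 2 := by
    rw [div_mul_eq_mul_div, div_le_div_iff₀ (by positivity) (by norm_num)]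
    nlinarith
  linarith

end Vale.Agent.Lib.P098
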