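import Vale.Agent.Lib.P098.Interior

/-!
The interior differential inequality for the test function built from the Hessian of a
one-homogeneous harmonic function.
-/

namespace Vale.Agent.Lib.P098

open Finset
open scoped Topology InnerProductSpace

variable {E : Type*} [NormedAddCommGroup E] [InnerProductSpace ℝ E] [FiniteDimensional ℝ E]
variable {ι : Type*} [Fintype ι]
variable {U : Set E} {u : E → ℝ}

omit [FiniteDimensional ℝ E] in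
theorem hessSq_contDiffOn (b : OrthonormalBasis ι ℝ E) (hU : IsOpen U)
    (hu : ContDiffOn ℝ 4 u U) :
    ContDiffOn ℝ 2 (fun z => ∑ i, ∑ j, pd (b i) (pd (b j) u) z ^ 2) U :=
  ContDiffOn.sum fun i _ => ContDiffOn.sum fun j _ => (cd_pd2 hU hu (b i) (b j)).pow 2

omit [FiniteDimensional ℝ E] in
theorem nzSet_open (b : OrthonormalBasis ι ℝ E) (hU : IsOpen U) (hu : ContDiffOn ℝ 4 u U) :
    IsOpen {y ∈ U | ∑ i, ∑ j, pd (b i) (pd (b j) u) y ^ 2 ≠ 0} := by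
  have hc : ContinuousOn (fun z => ∑ i, ∑ j, pd (b i) (pd (b j) u) z ^ 2) U :=
    (hessSq_contDiffOn b hU hu).continuousOn
  have := hc.isOpen_inter_preimage hU (isOpen_compl_singleton (x := (0 : ℝ)))
  have e : {y ∈ U | ∑ i, ∑ j, pd (b i) (pd (b j) u) y ^ 2 ≠ 0}
      = U ∩ (fun z => ∑ i, ∑ j, pd (b i) (pd (b j) u) z ^ 2) ⁻¹' {0}ᶜ := by
    ext y
    simp
  rw [e]
  exact this

theorem interior_main (k : ℕ) (hdim : Module.finrank ℝ E = k + 2) (b : OrthonormalBasis ι ℝ E)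
    (hU : IsOpen U) (hcone : ∀ x ∈ U, ∀ t : ℝ, 0 < t → t • x ∈ U) (h0 : (0 : E) ∉ U)
    (hu : ContDiffOn ℝ 4 u U) (hhom : HomOn 1 u U)
    (hharm : ∀ x ∈ U, 0 < u x → lap b u x = 0) {x : E} (hx : x ∈ U) (hpos : 0 < u x)
    (hax : ∑ i, ∑ j, pd (b i) (pd (b j) u) x ^ 2 ≠ 0)
    (p : ℝ) (hp1 : 1 / 2 ≤ p) (hp2 : p ≤ 2) (hp3 : (k : ℝ) - 1 ≤ p * ((k : ℝ) + 1)) :
    (p * ((k : ℝ) + 1) - (k : ℝ) ^ 2 / 4) / ‖x‖ ^ 2
        * Real.exp (p / 2 * Real.log (∑ i, ∑ j, pd (b i) (pd (b j) u) x ^ 2)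
          + (p - (k : ℝ) / 2) / 2 * Real.log (‖x‖ ^ 2))
      ≤ lap b (fun z => Real.exp (p / 2 * Real.log (∑ i, ∑ j, pd (b i) (pd (b j) u) z ^ 2)
          + (p - (k : ℝ) / 2) / 2 * Real.log (‖z‖ ^ 2))) x := by
  have hA : ∀ i j, ContDiffOn ℝ 2 (pd (b i) (pd (b j) u)) U := fun i j =>
    cd_pd2 hU hu (b i) (b j)
  have hN : IsOpen ({y ∈ U | 0 < u y} ∩ {y ∈ U | ∑ i, ∑ j, pd (b i) (pd (b j) u) y ^ 2 ≠ 0}) :=
    (posSet_open hU hu).inter (nzSet_open b hU hu)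
  have hxN : x ∈ {y ∈ U | 0 < u y} ∩ {y ∈ U | ∑ i, ∑ j, pd (b i) (pd (b j) u) y ^ 2 ≠ 0} :=
    ⟨⟨hx, hpos⟩, ⟨hx, hax⟩⟩
  have hx0 : x ≠ 0 := fun h => h0 (h ▸ hx)
  have hcard : (Fintype.card ι : ℝ) = 2 * (p - (p - (k : ℝ) / 2)) + 2 := by
    have h1 : Module.finrank ℝ E = Fintype.card ι := Module.finrank_eq_card_basis b.toBasis
    have h2 : Fintype.card ι = k + 2 := by omega
    rw [h2]
    push_cast
    ring
  rw [interior_calc b hN (fun i j => pd (b i) (pd (b j) u))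
    (fun i j => (hA i j).mono (fun y hy => hy.1.1)) (fun y hy => hy.2.2)
    (fun y hy h => h0 (h ▸ hy.1.1)) hxN
    (fun i j => lap_A_zero b hU hu hharm hx hpos (b i) (b j))
    (fun i j => euler_T hU hcone hu hhom hx (b i) (b j)) p (p - (k : ℝ) / 2) hcard]
  have key := interior_ineq k hdim b hU hcone hu hhom hharm hx hx0 hpos p hp1 hp2 hp3
  have hxn : 0 < ‖x‖ ^ 2 := by positivity
  have hS2 : 0 < (∑ i, ∑ j, pd (b i) (pd (b j) u) x ^ 2) ^ 2 := by positivity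
  have hp0 : 0 < p := by linarith
  rw [div_le_iff₀ hxn] at key
  have h1 : p * (1 + p) / ‖x‖ ^ 2 ≤
      p * ((∑ i, ∑ j, pd (b i) (pd (b j) u) x ^ 2)
          * (∑ l, ∑ i, ∑ j, pd (b l) (pd (b i) (pd (b j) u)) x ^ 2)
        - (2 - p) * ∑ l, (∑ i, ∑ j, pd (b i) (pd (b j) u) x
            * pd (b l) (pd (b i) (pd (b j) u)) x) ^ 2)
        / (∑ i, ∑ j, pd (b i) (pd (b j) u) x ^ 2) ^ 2 := by
    rw [div_le_div_iff₀ hxn hS2]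
    nlinarith
  have hE : 0 < Real.exp (p / 2 * Real.log (∑ i, ∑ j, pd (b i) (pd (b j) u) x ^ 2)
      + (p - (k : ℝ) / 2) / 2 * Real.log (‖x‖ ^ 2)) := Real.exp_pos _
  rw [mul_comm]
  refine mul_le_mul_of_nonneg_left ?_ hE.le
  have h2 : (p * ((k : ℝ) + 1) - (k : ℝ) ^ 2 / 4) / ‖x‖ ^ 2
      = p * (1 + p) / ‖x‖ ^ 2 - (p - (k : ℝ) / 2) ^ 2 / ‖x‖ ^ 2 := by
    field_simp
    ring
  rw [h2]
  linarith

omit [FiniteDimensional ℝ E] in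
theorem hessSq_eq (b : OrthonormalBasis ι ℝ E) (hU : IsOpen U) (hu : ContDiffOn ℝ 4 u U)
    {y : E} (hy : y ∈ U) :
    ∑ i, ∑ j, fderiv ℝ (fderiv ℝ u) y (b i) (b j) ^ 2
      = ∑ i, ∑ j, pd (b i) (pd (b j) u) y ^ 2 := by
  simp only [D2_eq hU (hu.of_le (by norm_num)) hy]

omit [FiniteDimensional ℝ E] in
theorem testFn_eq (b : OrthonormalBasis ι ℝ E) (hU : IsOpen U) (hu : ContDiffOn ℝ 4 u U)
    (p q : ℝ) {y : E} (hy : y ∈ U) (hy0 : y ≠ 0)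
    (hne : ∑ i, ∑ j, pd (b i) (pd (b j) u) y ^ 2 ≠ 0) :
    (∑ i, ∑ j, fderiv ℝ (fderiv ℝ u) y (b i) (b j) ^ 2) ^ (p / 2) * ‖y‖ ^ q
      = Real.exp (p / 2 * Real.log (∑ i, ∑ j, pd (b i) (pd (b j) u) y ^ 2)
          + q / 2 * Real.log (‖y‖ ^ 2)) := by
  have ha : 0 < ∑ i, ∑ j, pd (b i) (pd (b j) u) y ^ 2 :=
    lt_of_le_of_ne (Finset.sum_nonneg fun i _ => Finset.sum_nonneg fun j _ => sq_nonneg _)
      (Ne.symm hne)
  have hn : 0 < ‖y‖ := norm_pos_iff.2 hy0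
  rw [hessSq_eq b hU hu hy, Real.rpow_def_of_pos ha, Real.rpow_def_of_pos hn, ← Real.exp_add,
    Real.log_pow]
  congr 1
  push_cast
  ring

/-- Interior inequality in terms of Fréchet derivatives and the Laplacian. -/
theorem interior_final (k : ℕ) (hdim : Module.finrank ℝ E = k + 2) (b : OrthonormalBasis ι ℝ E)
    (hU : IsOpen U) (hcone : ∀ x ∈ U, ∀ t : ℝ, 0 < t → t • x ∈ U) (h0 : (0 : E) ∉ U)
    (hu : ContDiffOn ℝ 4 u U) (hhom : ∀ x ∈ U, ∀ t : ℝ, 0 < t → u (t • x) = t * u x)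
    (hharm : ∀ x ∈ U, 0 < u x → Laplacian.laplacian u x = 0) {x : E} (hx : x ∈ U)
    (hpos : 0 < u x)
    (hax : ∑ i, ∑ j, fderiv ℝ (fderiv ℝ u) x (b i) (b j) ^ 2 ≠ 0)
    (p : ℝ) (hp1 : 1 / 2 ≤ p) (hp2 : p ≤ 2) (hp3 : (k : ℝ) - 1 ≤ p * ((k : ℝ) + 1)) :
    (p * ((k : ℝ) + 1) - (k : ℝ) ^ 2 / 4) / ‖x‖ ^ 2
        * ((∑ i, ∑ j, fderiv ℝ (fderiv ℝ u) x (b i) (b j) ^ 2) ^ (p / 2)
          * ‖x‖ ^ (p - (k : ℝ) / 2))
      ≤ Laplacian.laplacian (fun z => (∑ i, ∑ j, fderiv ℝ (fderiv ℝ u) z (b i) (b j) ^ 2) ^ (p / 2)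
          * ‖z‖ ^ (p - (k : ℝ) / 2)) x := by
  have hu2 : ContDiffOn ℝ 2 u U := hu.of_le (by norm_num)
  have hhom' : HomOn 1 u U := fun y hy t ht => by
    rw [zpow_one]
    exact hhom y hy t ht
  have hharm' : ∀ y ∈ U, 0 < u y → lap b u y = 0 := fun y hy hp => by
    rw [← laplacian_eq_lap b hU hu2 hy]
    exact hharm y hy hp
  have hax' : ∑ i, ∑ j, pd (b i) (pd (b j) u) x ^ 2 ≠ 0 := by
    rw [← hessSq_eq b hU hu hx]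
    exact hax
  have hN : IsOpen ({y ∈ U | 0 < u y} ∩ {y ∈ U | ∑ i, ∑ j, pd (b i) (pd (b j) u) y ^ 2 ≠ 0}) :=
    (posSet_open hU hu).inter (nzSet_open b hU hu)
  have hxN : x ∈ {y ∈ U | 0 < u y} ∩ {y ∈ U | ∑ i, ∑ j, pd (b i) (pd (b j) u) y ^ 2 ≠ 0} :=
    ⟨⟨hx, hpos⟩, ⟨hx, hax'⟩⟩
  have hform : ∀ y ∈ {y ∈ U | 0 < u y} ∩ {y ∈ U | ∑ i, ∑ j, pd (b i) (pd (b j) u) y ^ 2 ≠ 0},
      (∑ i, ∑ j, fderiv ℝ (fderiv ℝ u) y (b i) (b j) ^ 2) ^ (p / 2) * ‖y‖ ^ (p - (k : ℝ) / 2)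
        = Real.exp (p / 2 * Real.log (∑ i, ∑ j, pd (b i) (pd (b j) u) y ^ 2)
          + (p - (k : ℝ) / 2) / 2 * Real.log (‖y‖ ^ 2)) :=
    fun y hy => testFn_eq b hU hu p (p - (k : ℝ) / 2) hy.1.1 (fun h => h0 (h ▸ hy.1.1)) hy.2.2
  have hcd := explog_contDiffOn
    ((hessSq_contDiffOn b hU hu).mono (fun y hy => hy.1.1))
    (fun y hy => hy.2.2) (fun y hy h => h0 (h ▸ hy.1.1)) (p / 2) ((p - (k : ℝ) / 2) / 2)
    (N := {y ∈ U | 0 < u y} ∩ {y ∈ U | ∑ i, ∑ j, pd (b i) (pd (b j) u) y ^ 2 ≠ 0})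
  have hev : (fun z => (∑ i, ∑ j, fderiv ℝ (fderiv ℝ u) z (b i) (b j) ^ 2) ^ (p / 2)
        * ‖z‖ ^ (p - (k : ℝ) / 2)) =ᶠ[𝓝 x]
      (fun z => Real.exp (p / 2 * Real.log (∑ i, ∑ j, pd (b i) (pd (b j) u) z ^ 2)
          + (p - (k : ℝ) / 2) / 2 * Real.log (‖z‖ ^ 2))) :=
    Filter.eventuallyEq_of_mem (hN.mem_nhds hxN) hform
  rw [(InnerProductSpace.laplacian_congr_nhds hev).eq_of_nhds, laplacian_eq_lap b hN hcd hxN,
    hform x hxN]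
  exact interior_main k hdim b hU hcone h0 hu hhom' hharm' hx hpos hax' p hp1 hp2 hp3

end Vale.Agent.Lib.P098
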