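import Vale.Agent.Lib.P098.Curve
import Vale.Agent.Lib.P098.InteriorMain
import Vale.Agent.Lib.P098.BdryAlg

/-!
Identities on the free boundary `{u = 0}` of a function with `|∇u| = 1` there.
-/

namespace Vale.Agent.Lib.P098

open Finset
open scoped Topology InnerProductSpace

section closure

variable {E : Type*} [NormedAddCommGroup E] [NormedSpace ℝ E]

omit [NormedSpace ℝ E] in
theorem zero_of_closure {U V : Set E} (hU : IsOpen U) {f : E → ℝ} (hf : ContinuousOn f U)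
    (hV : ∀ y ∈ V, f y = 0) {x0 : E} (hx0 : x0 ∈ U) (hcl : x0 ∈ closure V) : f x0 = 0 := by
  by_contra h
  have hc : ContinuousAt f x0 := hf.continuousAt (hU.mem_nhds hx0)
  have hne : ∀ᶠ y in 𝓝 x0, f y ≠ 0 := hc.eventually_ne h
  obtain ⟨y, hy1, hy2⟩ := mem_closure_iff_nhds.1 hcl _ hne
  exact hy1 (hV y hy2)

theorem mem_closure_pos {U : Set E} (hU : IsOpen U) {u : E → ℝ} {x0 : E} (hx0 : x0 ∈ U)
    (hd : DifferentiableAt ℝ u x0) (hu0 : u x0 = 0) (ν : E) (hν : 0 < pd ν u x0) :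
    x0 ∈ closure {y ∈ U | 0 < u y} := by
  have hγ : HasDerivAt (fun t : ℝ => x0 + t • ν) ν 0 := by
    have h1 : HasDerivAt (fun t : ℝ => t • ν) ν 0 := by
      simpa using (hasDerivAt_id (0 : ℝ)).smul_const ν
    have h2 := (hasDerivAt_const (0 : ℝ) x0).add h1
    simp only [zero_add] at h2
    exact h2
  have hφ : HasDerivAt (fun t : ℝ => u (x0 + t • ν)) (pd ν u x0) 0 := by
    have hd' : HasFDerivAt u (fderiv ℝ u x0) (x0 + (0 : ℝ) • ν) := by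
      simpa using hd.hasFDerivAt
    exact hd'.comp_hasDerivAt 0 hγ
  have hlo := hasDerivAt_iff_isLittleO.1 hφ
  have hb := hlo.def (half_pos hν)
  have hcont : ContinuousAt (fun t : ℝ => x0 + t • ν) 0 := hγ.continuousAt
  have hU' : ∀ᶠ t in 𝓝 (0 : ℝ), x0 + t • ν ∈ U := hcont (by simpa using hU.mem_nhds hx0)
  have hev : ∀ᶠ t in 𝓝[>] (0 : ℝ), x0 + t • ν ∈ {y ∈ U | 0 < u y} := by
    filter_upwards [nhdsWithin_le_nhds hb, nhdsWithin_le_nhds hU', self_mem_nhdsWithin]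
      with t h1 h2 h3
    refine ⟨h2, ?_⟩
    have ht : (0 : ℝ) < t := h3
    simp only [zero_smul, add_zero, hu0, sub_zero, smul_eq_mul, Real.norm_eq_abs] at h1
    rw [abs_of_pos ht] at h1
    have h4 := abs_le.1 h1
    nlinarith [h4.1]
  have ht : Filter.Tendsto (fun t : ℝ => x0 + t • ν) (𝓝[>] 0) (𝓝 x0) := by
    have h := hcont.tendsto.mono_left (nhdsWithin_le_nhds (s := Set.Ioi (0 : ℝ)))
    simpa using h
  exact mem_closure_of_tendsto ht hev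

theorem sumsq1_pd {ι : Type*} [Fintype ι] {f : ι → E → ℝ} {x : E}
    (hf : ∀ i, DifferentiableAt ℝ (f i) x) (v : E) :
    pd v (fun z => ∑ i, f i z ^ 2) x = 2 * ∑ i, f i x * pd v (f i) x := by
  rw [pd_sum (f := fun i z => f i z ^ 2) Finset.univ (fun i _ => (hf i).pow 2) v, Finset.mul_sum]
  refine Finset.sum_congr rfl fun i _ => ?_
  have e : (fun z => f i z ^ 2) = fun z => f i z * f i z := by
    funext z
    ring
  rw [e, pd_mul (hf i) (hf i) v]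
  ring

theorem sumsq1_pd2 {ι : Type*} [Fintype ι] {N : Set E} (hN : IsOpen N) {f : ι → E → ℝ}
    (hf : ∀ i, ContDiffOn ℝ 2 (f i) N) {x : E} (hx : x ∈ N) (v : E) :
    pd v (pd v (fun z => ∑ i, f i z ^ 2)) x
      = 2 * ∑ i, (pd v (f i) x ^ 2 + f i x * pd v (pd v (f i)) x) := by
  have hd : ∀ y ∈ N, ∀ i, DifferentiableAt ℝ (f i) y :=
    fun y hy i => diffAt hN (hf i) (by norm_num) hy
  have hd' : ∀ i, DifferentiableAt ℝ (pd v (f i)) x :=
    fun i => diffAt hN (pd_contDiffOn hN (hf i) (by norm_num) v) le_rfl hx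
  have e : Set.EqOn (pd v (fun z => ∑ i, f i z ^ 2))
      (fun z => 2 * ∑ i, f i z * pd v (f i) z) N :=
    fun y hy => sumsq1_pd (hd y hy) v
  rw [pd_congr hN e v hx]
  have hds : DifferentiableAt ℝ (fun z => ∑ i, f i z * pd v (f i) z) x :=
    diffAt_sum Finset.univ fun i _ => (hd x hx i).mul (hd' i)
  rw [pd_const_mul hds 2 v,
    pd_sum (f := fun i z => f i z * pd v (f i) z) Finset.univ
      (fun i _ => (hd x hx i).mul (hd' i)) v]
  congr 1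
  refine Finset.sum_congr rfl fun i _ => ?_
  rw [pd_mul (hd x hx i) (hd' i) v]
  ring

end closure

section fb

variable {E : Type*} [NormedAddCommGroup E] [InnerProductSpace ℝ E] [FiniteDimensional ℝ E]
variable {ι : Type*} [Fintype ι]
variable {U : Set E} {u : E → ℝ}

/-- First and second order consequences of `|∇u| = 1` on `{u = 0}` at a point `x0` of that
set, for a direction `τ` tangent to it. -/
theorem fb_facts (b : OrthonormalBasis ι ℝ E) (hU : IsOpen U) (hu : ContDiffOn ℝ 4 u U)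
    (hfb : ∀ y ∈ U, u y = 0 → ∑ i, pd (b i) u y ^ 2 = 1) {x0 : E} (hx0 : x0 ∈ U)
    (hu0 : u x0 = 0) {ν : E} (hν : ∀ w, pd w u x0 = ⟪ν, w⟫_ℝ) (hν1 : ‖ν‖ = 1) {τ : E}
    (hτ : ⟪ν, τ⟫_ℝ = 0) :
    pd τ (pd ν u) x0 = 0 ∧
    pd τ (pd τ (pd ν u)) x0
      = pd ν (pd ν u) x0 * pd τ (pd τ u) x0 - ∑ i, pd τ (pd (b i) u) x0 ^ 2 := by
  have hu2 : ContDiffOn ℝ 2 u U := hu.of_le (by norm_num)
  have hu3 : ContDiffOn ℝ 3 u U := hu.of_le (by norm_num)
  have hνν : pd ν u x0 = 1 := by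
    rw [hν, real_inner_self_eq_norm_sq, hν1]
    norm_num
  have hτu : pd τ u x0 = 0 := by rw [hν, hτ]
  obtain ⟨ψ, hψ, hψ0, hev⟩ := exists_curve hU hu2 τ ν hx0 (by rw [hνν]; exact one_ne_zero)
  have c := curve_deriv hU hu2 τ ν hx0 hψ hψ0 (u x0) hev
  have hψ1 : deriv ψ 0 = 0 := by
    have h := c.1
    rw [hτu, hνν] at h
    linarith
  have hψ2 : deriv (deriv ψ) 0 = -pd τ (pd τ u) x0 := by
    have h := c.2
    rw [hψ1, hνν] at h
    linarith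
  have hGc : ContDiffOn ℝ 2 (fun y => ∑ i, pd (b i) u y ^ 2) U :=
    ContDiffOn.sum fun i _ => ((cd_pd1 hU hu (b i)).of_le (by norm_num)).pow 2
  have hGev : ∀ᶠ t in 𝓝 (0 : ℝ), (fun y => ∑ i, pd (b i) u y ^ 2) (x0 + t • τ + ψ t • ν) = 1 := by
    have hγc : ContinuousAt (fun t : ℝ => x0 + t • τ + ψ t • ν) 0 :=
      (continuousAt_const.add (continuousAt_id.smul continuousAt_const)).add
        (hψ.continuousAt.smul continuousAt_const)
    have hγU : ∀ᶠ t in 𝓝 (0 : ℝ), x0 + t • τ + ψ t • ν ∈ U :=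
      hγc (by simpa [hψ0] using hU.mem_nhds hx0)
    filter_upwards [hev, hγU] with t h1 h2
    exact hfb _ h2 (h1.trans hu0)
  have cG := curve_deriv hU hGc τ ν hx0 hψ hψ0 1 hGev
  have hlin : ∀ w : E, ∑ i, ⟪ν, b i⟫_ℝ * pd w (pd (b i) u) x0 = pd w (pd ν u) x0 := by
    intro w
    have h1 := expand1 b (fun v => fderiv ℝ (fderiv ℝ u) x0 w v)
      (fderiv ℝ (fderiv ℝ u) x0 w).toLinearMap.isLinear ν
    simp only [D2_eq hU hu2 hx0] at h1
    rw [h1]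
    refine Finset.sum_congr rfl fun i _ => ?_
    rw [real_inner_comm]
  have hlin3 : ∑ i, ⟪ν, b i⟫_ℝ * pd τ (pd τ (pd (b i) u)) x0 = pd τ (pd τ (pd ν u)) x0 := by
    have h1 := expand1 b (fun v => fderiv ℝ (fderiv ℝ (fderiv ℝ u)) x0 τ τ v)
      (fderiv ℝ (fderiv ℝ (fderiv ℝ u)) x0 τ τ).toLinearMap.isLinear ν
    simp only [D3_eq hU hu3 hx0] at h1
    rw [h1]
    refine Finset.sum_congr rfl fun i _ => ?_
    rw [real_inner_comm]
  have hd1 : ∀ i, DifferentiableAt ℝ (pd (b i) u) x0 :=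
    fun i => diffAt hU (cd_pd1 hU hu (b i)) (by norm_num) hx0
  have hG1 : ∀ w : E, pd w (fun y => ∑ i, pd (b i) u y ^ 2) x0 = 2 * pd w (pd ν u) x0 := by
    intro w
    rw [sumsq1_pd hd1 w, ← hlin w]
    simp only [hν]
  have hG2 : pd τ (pd τ (fun y => ∑ i, pd (b i) u y ^ 2)) x0
      = 2 * ∑ i, pd τ (pd (b i) u) x0 ^ 2 + 2 * pd τ (pd τ (pd ν u)) x0 := by
    rw [sumsq1_pd2 hU (fun i => (cd_pd1 hU hu (b i)).of_le (by norm_num)) hx0 τ, ← hlin3]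
    simp only [hν, Finset.sum_add_distrib, mul_add]
  have r1 := cG.1
  have r2 := cG.2
  rw [hψ1, hG1] at r1
  rw [hψ1, hψ2, hG2, hG1] at r2
  constructor
  · linarith
  · linarith

/-- The contraction of the Hessian with its normal derivative at a free boundary point. -/
theorem bdry_main (b : OrthonormalBasis ι ℝ E) (hU : IsOpen U) (hu : ContDiffOn ℝ 4 u U)
    (hharm : ∀ x ∈ U, 0 < u x → lap b u x = 0)
    (hfb : ∀ y ∈ U, u y = 0 → ∑ i, pd (b i) u y ^ 2 = 1) {x0 : E} (hx0 : x0 ∈ U)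
    (hu0 : u x0 = 0) {ν : E} (hν : ∀ w, pd w u x0 = ⟪ν, w⟫_ℝ) :
    ∑ i, ∑ j, pd (b i) (pd (b j) u) x0 * pd ν (pd (b i) (pd (b j) u)) x0
      = 2 * pd ν (pd ν u) x0 * (∑ i, ∑ j, pd (b i) (pd (b j) u) x0 ^ 2)
        - ∑ i, ∑ j, ∑ l, pd (b i) (pd (b j) u) x0 * pd (b j) (pd (b l) u) x0
            * pd (b l) (pd (b i) u) x0 := by
  have hu2 : ContDiffOn ℝ 2 u U := hu.of_le (by norm_num)
  have hu3 : ContDiffOn ℝ 3 u U := hu.of_le (by norm_num)
  have hν1 : ‖ν‖ = 1 := by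
    have h1 := hfb x0 hx0 hu0
    simp only [hν] at h1
    rw [sum_inner_sq b ν] at h1
    exact (pow_eq_one_iff_of_nonneg (norm_nonneg ν) two_ne_zero).1 h1
  have hνν : pd ν u x0 = 1 := by
    rw [hν, real_inner_self_eq_norm_sq, hν1]
    norm_num
  have hAe : ∀ v w, fderiv ℝ (fderiv ℝ u) x0 v w = pd v (pd w u) x0 :=
    fun v w => D2_eq hU hu2 hx0 v w
  have hTe : ∀ y v w, fderiv ℝ (fderiv ℝ (fderiv ℝ u)) x0 y v w = pd y (pd v (pd w u)) x0 :=
    fun y v w => D3_eq hU hu3 hx0 y v w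
  have hAs : ∀ y z, fderiv ℝ (fderiv ℝ u) x0 y z = fderiv ℝ (fderiv ℝ u) x0 z y := fun y z => by
    rw [hAe, hAe]
    exact pd_comm hU hu2 hx0 y z
  have hT12 : ∀ y z w, fderiv ℝ (fderiv ℝ (fderiv ℝ u)) x0 y z w
      = fderiv ℝ (fderiv ℝ (fderiv ℝ u)) x0 z y w := fun y z w => by
    rw [hTe, hTe]
    exact pd_comm hU (pd_contDiffOn hU hu3 (by norm_num) w) hx0 y z
  have hT23 : ∀ y z w, fderiv ℝ (fderiv ℝ (fderiv ℝ u)) x0 y z w
      = fderiv ℝ (fderiv ℝ (fderiv ℝ u)) x0 y w z := fun y z w => by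
    rw [hTe, hTe]
    have e : Set.EqOn (pd z (pd w u)) (pd w (pd z u)) U := fun x' hx' => pd_comm hU hu2 hx' z w
    exact pd_congr hU e y hx0
  have hcl : x0 ∈ closure {y ∈ U | 0 < u y} :=
    mem_closure_pos hU hx0 (diffAt hU hu (by norm_num) hx0) hu0 ν (by rw [hνν]; exact one_pos)
  have hV := posSet_open hU hu
  have hlapc : ContDiffOn ℝ 2 (lap b u) U :=
    ContDiffOn.sum fun k _ => cd_pd2 hU hu (b k) (b k)
  have h4 : ∑ i, fderiv ℝ (fderiv ℝ u) x0 (b i) (b i) = 0 := by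
    simp only [hAe]
    exact zero_of_closure hU hlapc.continuousOn (fun y hy => hharm y hy.1 hy.2) hx0 hcl
  have h3 : ∑ i, fderiv ℝ (fderiv ℝ (fderiv ℝ u)) x0 ν (b i) (b i) = 0 := by
    simp only [hTe]
    have h0 : Set.EqOn (lap b u) (fun _ => 0) {y ∈ U | 0 < u y} := fun y hy => hharm y hy.1 hy.2
    have hz : ∀ y ∈ {y ∈ U | 0 < u y}, pd ν (lap b u) y = 0 := pd_zero_of_eqOn hV h0 ν
    have hc : ContinuousOn (pd ν (lap b u)) U :=
      (pd_contDiffOn hU hlapc (m := 1) (by norm_num) ν).continuousOn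
    have hz0 := zero_of_closure hU hc hz hx0 hcl
    rw [← hz0]
    exact (pd_sum Finset.univ (fun k _ => diffAt hU (cd_pd2 hU hu (b k) (b k)) (by norm_num) hx0)
      ν).symm
  have h1 : ∀ y, fderiv ℝ (fderiv ℝ u) x0 ν y
      = -(-(fderiv ℝ (fderiv ℝ u) x0 ν ν)) * ⟪ν, y⟫_ℝ := by
    intro y
    have hτ : ⟪ν, y - ⟪ν, y⟫_ℝ • ν⟫_ℝ = 0 := by
      rw [inner_sub_right, inner_smul_right, real_inner_self_eq_norm_sq, hν1]
      ring
    have f1 := (fb_facts b hU hu hfb hx0 hu0 hν hν1 hτ).1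
    rw [← hAe, hAs] at f1
    have e : y = (y - ⟪ν, y⟫_ℝ • ν) + ⟪ν, y⟫_ℝ • ν := by abel
    conv_lhs => rw [e]
    rw [map_add, map_smul, f1]
    simp
    ring
  have h2 : ∀ τ, ⟪ν, τ⟫_ℝ = 0 → fderiv ℝ (fderiv ℝ (fderiv ℝ u)) x0 ν τ τ
      = -(-(fderiv ℝ (fderiv ℝ u) x0 ν ν)) * fderiv ℝ (fderiv ℝ u) x0 τ τ
        - ∑ i, fderiv ℝ (fderiv ℝ u) x0 τ (b i) ^ 2 := by
    intro τ hτ
    have f2 := (fb_facts b hU hu hfb hx0 hu0 hν hν1 hτ).2
    rw [hT12, hT23, hTe, f2]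
    simp only [hAe]
    ring
  have key := bdry_alg b (fderiv ℝ (fderiv ℝ u) x0) (fderiv ℝ (fderiv ℝ (fderiv ℝ u)) x0 ν)
    hAs (fun y z => hT23 ν y z) ν hν1 (-(fderiv ℝ (fderiv ℝ u) x0 ν ν)) h1 h2 h3 h4
  simp only [hAe, hTe] at key
  rw [key]
  ring

end fb

end Vale.Agent.Lib.P098
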