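import Vale.Agent.Lib.P098.Cone

/-!
Second derivatives of `exp (α log a + β log ‖x‖²)` and of sums of squares.
-/

namespace Vale.Agent.Lib.P098

open Finset
open scoped Topology InnerProductSpace

section calc1

variable {E : Type*} [NormedAddCommGroup E] [InnerProductSpace ℝ E]

theorem pd_normsq (v x : E) : pd v (fun z : E => ‖z‖ ^ 2) x = 2 * ⟪x, v⟫_ℝ := by
  have h := (hasStrictFDerivAt_norm_sq x).hasFDerivAt
  simp [pd, h.fderiv]

theorem pd2_normsq (v x : E) : pd v (pd v (fun z : E => ‖z‖ ^ 2)) x = 2 * ‖v‖ ^ 2 := by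
  have e : pd v (fun z : E => ‖z‖ ^ 2) = fun z => 2 * ⟪v, z⟫_ℝ := by
    funext z
    rw [pd_normsq, real_inner_comm]
  rw [e]
  have h1 : HasFDerivAt (fun z : E => ⟪v, z⟫_ℝ) (innerSL ℝ v) x := (innerSL ℝ v).hasFDerivAt
  have h : HasFDerivAt (fun z : E => 2 * ⟪v, z⟫_ℝ) ((2 : ℝ) • (innerSL ℝ v)) x := h1.const_mul 2
  simp [pd, h.fderiv]

theorem pd_sq {f : E → ℝ} {x : E} (hf : DifferentiableAt ℝ f x) (v : E) :
    pd v (fun z => f z ^ 2) x = 2 * f x * pd v f x := by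
  have e : (fun z => f z ^ 2) = fun z => f z * f z := by
    funext z
    ring
  rw [e, pd_mul hf hf v]
  ring

theorem pd_lin {f g : E → ℝ} {x : E} (hf : DifferentiableAt ℝ f x)
    (hg : DifferentiableAt ℝ g x) (α β : ℝ) (v : E) :
    pd v (fun z => α * f z + β * g z) x = α * pd v f x + β * pd v g x := by
  have h1 : DifferentiableAt ℝ (fun z => α * f z) x := hf.const_mul α
  have h2 : DifferentiableAt ℝ (fun z => β * g z) x := hg.const_mul β
  rw [pd_add h1 h2 v, pd_const_mul hf α v, pd_const_mul hg β v]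

theorem pd2_lin {N : Set E} (hN : IsOpen N) {f g : E → ℝ} (hf : ContDiffOn ℝ 2 f N)
    (hg : ContDiffOn ℝ 2 g N) (α β : ℝ) {x : E} (hx : x ∈ N) (v : E) :
    pd v (pd v (fun z => α * f z + β * g z)) x
      = α * pd v (pd v f) x + β * pd v (pd v g) x := by
  have e : Set.EqOn (pd v (fun z => α * f z + β * g z))
      (fun z => α * pd v f z + β * pd v g z) N :=
    fun y hy => pd_lin (diffAt hN hf (by norm_num) hy) (diffAt hN hg (by norm_num) hy) α β v
  rw [pd_congr hN e v hx]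
  exact pd_lin (diffAt hN (pd_contDiffOn hN hf (by norm_num) v) le_rfl hx)
    (diffAt hN (pd_contDiffOn hN hg (by norm_num) v) le_rfl hx) α β v

theorem pd2_exp {N : Set E} (hN : IsOpen N) {L : E → ℝ} (hL : ContDiffOn ℝ 2 L N) {x : E}
    (hx : x ∈ N) (v : E) :
    pd v (pd v (fun z => Real.exp (L z))) x
      = Real.exp (L x) * (pd v L x ^ 2 + pd v (pd v L) x) := by
  have hd : ∀ y ∈ N, DifferentiableAt ℝ L y := fun y hy => diffAt hN hL (by norm_num) hy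
  have e : Set.EqOn (pd v (fun z => Real.exp (L z))) (fun z => Real.exp (L z) * pd v L z) N :=
    fun y hy => pd_comp (Real.hasDerivAt_exp (L y)) (hd y hy) v
  rw [pd_congr hN e v hx]
  have hd1 : DifferentiableAt ℝ (fun z => Real.exp (L z)) x := (hd x hx).exp
  have hd2 : DifferentiableAt ℝ (pd v L) x :=
    diffAt hN (pd_contDiffOn hN hL (by norm_num) v) le_rfl hx
  rw [pd_mul hd1 hd2 v, e hx]
  ring

theorem pd_log {f : E → ℝ} {x : E} (hf : DifferentiableAt ℝ f x) (hne : f x ≠ 0) (v : E) :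
    pd v (fun z => Real.log (f z)) x = (f x)⁻¹ * pd v f x :=
  pd_comp (Real.hasDerivAt_log hne) hf v

theorem pd2_log {N : Set E} (hN : IsOpen N) {f : E → ℝ} (hf : ContDiffOn ℝ 2 f N)
    (hne : ∀ y ∈ N, f y ≠ 0) {x : E} (hx : x ∈ N) (v : E) :
    pd v (pd v (fun z => Real.log (f z))) x
      = pd v (pd v f) x / f x - pd v f x ^ 2 / f x ^ 2 := by
  have hd : ∀ y ∈ N, DifferentiableAt ℝ f y := fun y hy => diffAt hN hf (by norm_num) hy
  have e : Set.EqOn (pd v (fun z => Real.log (f z))) (fun z => (f z)⁻¹ * pd v f z) N :=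
    fun y hy => pd_log (hd y hy) (hne y hy) v
  rw [pd_congr hN e v hx]
  have hd1 : DifferentiableAt ℝ (fun z => (f z)⁻¹) x := (hd x hx).inv (hne x hx)
  have hd2 : DifferentiableAt ℝ (pd v f) x :=
    diffAt hN (pd_contDiffOn hN hf (by norm_num) v) le_rfl hx
  rw [pd_mul hd1 hd2 v]
  have h3 : pd v (fun z => (f z)⁻¹) x = -(f x ^ 2)⁻¹ * pd v f x :=
    pd_comp (hasDerivAt_inv (hne x hx)) (hd x hx) v
  rw [h3]
  have := hne x hx
  field_simp
  ring

theorem pd_sum2 {ι : Type*} [Fintype ι] {F : ι → ι → E → ℝ} {x : E}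
    (hF : ∀ i j, DifferentiableAt ℝ (F i j) x) (v : E) :
    pd v (fun z => ∑ i, ∑ j, F i j z) x = ∑ i, ∑ j, pd v (F i j) x := by
  rw [pd_sum Finset.univ (fun i _ => diffAt_sum Finset.univ (fun j _ => hF i j)) v]
  exact Finset.sum_congr rfl fun i _ => pd_sum Finset.univ (fun j _ => hF i j) v

theorem sumsq_pd {ι : Type*} [Fintype ι] {A : ι → ι → E → ℝ} {x : E}
    (hA : ∀ i j, DifferentiableAt ℝ (A i j) x) (v : E) :
    pd v (fun z => ∑ i, ∑ j, A i j z ^ 2) x = 2 * ∑ i, ∑ j, A i j x * pd v (A i j) x := by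
  rw [pd_sum2 (F := fun i j z => A i j z ^ 2) (fun i j => (hA i j).pow 2) v, Finset.mul_sum]
  refine Finset.sum_congr rfl fun i _ => ?_
  rw [Finset.mul_sum]
  refine Finset.sum_congr rfl fun j _ => ?_
  rw [pd_sq (hA i j) v]
  ring

theorem sumsq_pd2 {ι : Type*} [Fintype ι] {N : Set E} (hN : IsOpen N) {A : ι → ι → E → ℝ}
    (hA : ∀ i j, ContDiffOn ℝ 2 (A i j) N) {x : E} (hx : x ∈ N) (v : E) :
    pd v (pd v (fun z => ∑ i, ∑ j, A i j z ^ 2)) x
      = 2 * ∑ i, ∑ j, (pd v (A i j) x ^ 2 + A i j x * pd v (pd v (A i j)) x) := by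
  have hd : ∀ y ∈ N, ∀ i j, DifferentiableAt ℝ (A i j) y :=
    fun y hy i j => diffAt hN (hA i j) (by norm_num) hy
  have hd' : ∀ i j, DifferentiableAt ℝ (pd v (A i j)) x :=
    fun i j => diffAt hN (pd_contDiffOn hN (hA i j) (by norm_num) v) le_rfl hx
  have e : Set.EqOn (pd v (fun z => ∑ i, ∑ j, A i j z ^ 2))
      (fun z => 2 * ∑ i, ∑ j, A i j z * pd v (A i j) z) N :=
    fun y hy => sumsq_pd (hd y hy) v
  rw [pd_congr hN e v hx]
  have hds : DifferentiableAt ℝ (fun z => ∑ i, ∑ j, A i j z * pd v (A i j) z) x :=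
    diffAt_sum Finset.univ fun i _ => diffAt_sum Finset.univ fun j _ =>
      (hd x hx i j).mul (hd' i j)
  rw [pd_const_mul hds 2 v,
    pd_sum2 (F := fun i j z => A i j z * pd v (A i j) z)
      (fun i j => (hd x hx i j).mul (hd' i j)) v]
  congr 1
  refine Finset.sum_congr rfl fun i _ => Finset.sum_congr rfl fun j _ => ?_
  rw [pd_mul (hd x hx i j) (hd' i j) v]
  ring

end calc1

section calc2

variable {E : Type*} [NormedAddCommGroup E] [InnerProductSpace ℝ E]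
variable {ι : Type*} [Fintype ι]

theorem sum_pd_inner (b : OrthonormalBasis ι ℝ E) (f : E → ℝ) (x : E) :
    ∑ k, pd (b k) f x * ⟪x, b k⟫_ℝ = pd x f x := by
  have h : pd x f x = fderiv ℝ f x (∑ k, ⟪b k, x⟫_ℝ • b k) := by
    rw [b.sum_repr' x]
    rfl
  rw [h, map_sum]
  refine Finset.sum_congr rfl fun k _ => ?_
  rw [map_smul, real_inner_comm]
  simp [pd, mul_comm]

theorem sum_inner_sq (b : OrthonormalBasis ι ℝ E) (x : E) :
    ∑ k, ⟪x, b k⟫_ℝ ^ 2 = ‖x‖ ^ 2 := by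
  rw [← real_inner_self_eq_norm_sq, ← b.sum_inner_mul_inner x x]
  refine Finset.sum_congr rfl fun k _ => ?_
  rw [real_inner_comm x (b k)]
  ring

theorem explog_contDiffOn {N : Set E} {a : E → ℝ}
    (ha : ContDiffOn ℝ 2 a N) (hne : ∀ y ∈ N, a y ≠ 0) (h0 : ∀ y ∈ N, y ≠ 0) (α β : ℝ) :
    ContDiffOn ℝ 2 (fun z => Real.exp (α * Real.log (a z) + β * Real.log (‖z‖ ^ 2))) N := by
  have hρ : ContDiffOn ℝ 2 (fun z : E => ‖z‖ ^ 2) N := (contDiff_norm_sq ℝ).contDiffOn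
  have hρne : ∀ y ∈ N, ‖y‖ ^ 2 ≠ 0 := fun y hy => pow_ne_zero 2 (norm_ne_zero_iff.2 (h0 y hy))
  exact ((contDiffOn_const.mul (ha.log hne)).add (contDiffOn_const.mul (hρ.log hρne))).exp

/-- Laplacian of `exp (α log a + β log ‖x‖²)`. -/
theorem lap_explog (b : OrthonormalBasis ι ℝ E) {N : Set E} (hN : IsOpen N) {a : E → ℝ}
    (ha : ContDiffOn ℝ 2 a N) (hne : ∀ y ∈ N, a y ≠ 0) (h0 : ∀ y ∈ N, y ≠ 0) (α β : ℝ)
    {x : E} (hx : x ∈ N) :
    lap b (fun z => Real.exp (α * Real.log (a z) + β * Real.log (‖z‖ ^ 2))) x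
      = Real.exp (α * Real.log (a x) + β * Real.log (‖x‖ ^ 2)) *
        ((α ^ 2 - α) * (∑ k, pd (b k) a x ^ 2) / a x ^ 2
          + 4 * α * β * pd x a x / (a x * ‖x‖ ^ 2) + α * lap b a x / a x
          + (4 * β ^ 2 + 2 * β * (Fintype.card ι : ℝ) - 4 * β) / ‖x‖ ^ 2) := by
  have hρ : ContDiffOn ℝ 2 (fun z : E => ‖z‖ ^ 2) N := (contDiff_norm_sq ℝ).contDiffOn
  have hρne : ∀ y ∈ N, ‖y‖ ^ 2 ≠ 0 := fun y hy => pow_ne_zero 2 (norm_ne_zero_iff.2 (h0 y hy))
  have hla : ContDiffOn ℝ 2 (fun z => Real.log (a z)) N := ha.log hne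
  have hlρ : ContDiffOn ℝ 2 (fun z : E => Real.log (‖z‖ ^ 2)) N := hρ.log hρne
  have hL : ContDiffOn ℝ 2 (fun z => α * Real.log (a z) + β * Real.log (‖z‖ ^ 2)) N :=
    (contDiffOn_const.mul hla).add (contDiffOn_const.mul hlρ)
  have hax := hne x hx
  have hρx := hρne x hx
  have hxn : ‖x‖ ≠ 0 := norm_ne_zero_iff.2 (h0 x hx)
  have hda : DifferentiableAt ℝ a x := diffAt hN ha (by norm_num) hx
  have hdρ : DifferentiableAt ℝ (fun z : E => ‖z‖ ^ 2) x := diffAt hN hρ (by norm_num) hx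
  have term : ∀ k, pd (b k) (pd (b k)
      (fun z => Real.exp (α * Real.log (a z) + β * Real.log (‖z‖ ^ 2)))) x
      = Real.exp (α * Real.log (a x) + β * Real.log (‖x‖ ^ 2)) *
        ((α ^ 2 - α) / a x ^ 2 * pd (b k) a x ^ 2
          + 4 * α * β / (a x * ‖x‖ ^ 2) * (pd (b k) a x * ⟪x, b k⟫_ℝ)
          + α / a x * pd (b k) (pd (b k) a) x
          + (4 * β ^ 2 - 4 * β) / (‖x‖ ^ 2) ^ 2 * ⟪x, b k⟫_ℝ ^ 2 + 2 * β / ‖x‖ ^ 2) := by
    intro k
    rw [pd2_exp hN hL hx (b k)]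
    congr 1
    rw [pd_lin (diffAt hN hla (by norm_num) hx) (diffAt hN hlρ (by norm_num) hx) α β (b k),
      pd2_lin hN hla hlρ α β hx (b k), pd_log hda hax (b k), pd_log hdρ hρx (b k),
      pd2_log hN ha hne hx (b k), pd2_log hN hρ hρne hx (b k), pd_normsq, pd2_normsq]
    have hb : ‖b k‖ = 1 := b.orthonormal.1 k
    rw [hb]
    field_simp
    ring
  simp only [lap]
  rw [Finset.sum_congr rfl fun k _ => term k, ← Finset.mul_sum]
  congr 1
  simp only [Finset.sum_add_distrib, ← Finset.mul_sum, Finset.sum_const, Finset.card_univ,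
    nsmul_eq_mul]
  rw [sum_pd_inner b a x, sum_inner_sq b x]
  field_simp
  ring

/-- Laplacian of `(∑ A_ij²)^(p/2) ‖x‖^q` written with `exp` and `log`, when each `A_ij` is
harmonic at `x` and satisfies the Euler relation of degree `-1` at `x`. -/
theorem interior_calc (b : OrthonormalBasis ι ℝ E) {N : Set E} (hN : IsOpen N)
    (A : ι → ι → E → ℝ) (hA : ∀ i j, ContDiffOn ℝ 2 (A i j) N)
    (hne : ∀ y ∈ N, ∑ i, ∑ j, A i j y ^ 2 ≠ 0) (h0 : ∀ y ∈ N, y ≠ 0) {x : E} (hx : x ∈ N)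
    (hlap : ∀ i j, lap b (A i j) x = 0) (heul : ∀ i j, pd x (A i j) x = -A i j x)
    (p q : ℝ) (hq : (Fintype.card ι : ℝ) = 2 * (p - q) + 2) :
    lap b (fun z => Real.exp (p / 2 * Real.log (∑ i, ∑ j, A i j z ^ 2)
        + q / 2 * Real.log (‖z‖ ^ 2))) x
      = Real.exp (p / 2 * Real.log (∑ i, ∑ j, A i j x ^ 2) + q / 2 * Real.log (‖x‖ ^ 2)) *
        (p * ((∑ i, ∑ j, A i j x ^ 2) * (∑ l, ∑ i, ∑ j, pd (b l) (A i j) x ^ 2)
            - (2 - p) * ∑ l, (∑ i, ∑ j, A i j x * pd (b l) (A i j) x) ^ 2)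
            / (∑ i, ∑ j, A i j x ^ 2) ^ 2
          - q ^ 2 / ‖x‖ ^ 2) := by
  have ha : ContDiffOn ℝ 2 (fun z => ∑ i, ∑ j, A i j z ^ 2) N :=
    ContDiffOn.sum fun i _ => ContDiffOn.sum fun j _ => (hA i j).pow 2
  rw [lap_explog b hN ha hne h0 (p / 2) (q / 2) hx]
  congr 1
  have hd : ∀ i j, DifferentiableAt ℝ (A i j) x :=
    fun i j => diffAt hN (hA i j) (by norm_num) hx
  have e1 : ∀ k, pd (b k) (fun z => ∑ i, ∑ j, A i j z ^ 2) x
      = 2 * ∑ i, ∑ j, A i j x * pd (b k) (A i j) x := fun k => sumsq_pd hd (b k)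
  have e2 : pd x (fun z => ∑ i, ∑ j, A i j z ^ 2) x = -2 * ∑ i, ∑ j, A i j x ^ 2 := by
    rw [sumsq_pd hd x]
    simp only [heul]
    have : ∑ i, ∑ j, A i j x * -A i j x = -∑ i, ∑ j, A i j x ^ 2 := by
      rw [← Finset.sum_neg_distrib]
      refine Finset.sum_congr rfl fun i _ => ?_
      rw [← Finset.sum_neg_distrib]
      refine Finset.sum_congr rfl fun j _ => ?_
      ring
    rw [this]
    ring
  have e3 : lap b (fun z => ∑ i, ∑ j, A i j z ^ 2) x
      = 2 * ∑ l, ∑ i, ∑ j, pd (b l) (A i j) x ^ 2 := by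
    have hz : ∑ l, ∑ i, ∑ j, A i j x * pd (b l) (pd (b l) (A i j)) x = 0 := by
      calc ∑ l, ∑ i, ∑ j, A i j x * pd (b l) (pd (b l) (A i j)) x
          = ∑ i, ∑ l, ∑ j, A i j x * pd (b l) (pd (b l) (A i j)) x := Finset.sum_comm
        _ = ∑ i, ∑ j, ∑ l, A i j x * pd (b l) (pd (b l) (A i j)) x :=
            Finset.sum_congr rfl fun i _ => Finset.sum_comm
        _ = ∑ i, ∑ j, A i j x * lap b (A i j) x := by
            refine Finset.sum_congr rfl fun i _ => Finset.sum_congr rfl fun j _ => ?_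
            rw [lap, Finset.mul_sum]
        _ = 0 := by simp [hlap]
    simp only [lap]
    rw [Finset.sum_congr rfl fun l _ => sumsq_pd2 hN hA hx (b l), ← Finset.mul_sum]
    congr 1
    simp only [Finset.sum_add_distrib]
    rw [hz, add_zero]
  have e4 : ∑ k, pd (b k) (fun z => ∑ i, ∑ j, A i j z ^ 2) x ^ 2
      = 4 * ∑ l, (∑ i, ∑ j, A i j x * pd (b l) (A i j) x) ^ 2 := by
    rw [Finset.mul_sum]
    refine Finset.sum_congr rfl fun k _ => ?_
    rw [e1 k]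
    ring
  rw [e2, e3, e4, hq]
  have hS := hne x hx
  have hxn : ‖x‖ ≠ 0 := norm_ne_zero_iff.2 (h0 x hx)
  field_simp
  ring

end calc2

end Vale.Agent.Lib.P098
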