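import Mathlib

/-!
Change of variables for the one-phase energy of `w ∘ Φ⁻¹`, `Φ` a diffeomorphism.
-/

namespace Vale.Agent.Lib.P098

open MeasureTheory
open scoped InnerProductSpace

variable {E : Type*} [NormedAddCommGroup E] [InnerProductSpace ℝ E] [FiniteDimensional ℝ E]
  [MeasurableSpace E] [BorelSpace E]

omit [MeasurableSpace E] [BorelSpace E] in
theorem gradient_pullback (Φ : E ≃ₜ E) (Φ' : E → E →L[ℝ] E)
    (hΦ : ∀ x, HasFDerivAt Φ (Φ' x) x) (hunit : ∀ x, IsUnit (Φ' x))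
    {w : E → ℝ} {x : E} (hw : DifferentiableAt ℝ w x) (z : E) :
    ⟪gradient (w ∘ Φ.symm) (Φ x), Φ' x z⟫_ℝ = ⟪gradient w x, z⟫_ℝ := by
  let e : E ≃L[ℝ] E := ContinuousLinearEquiv.ofUnit (hunit x).unit
  have he : (e : E →L[ℝ] E) = Φ' x := rfl
  have hsymm : HasFDerivAt Φ.symm (e.symm : E →L[ℝ] E) (Φ x) := by
    have h1 : HasFDerivAt Φ (e : E →L[ℝ] E) (Φ.symm (Φ x)) := by
      rw [Φ.symm_apply_apply, he]
      exact hΦ x
    exact HasFDerivAt.of_local_left_inverse Φ.symm.continuous.continuousAt h1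
      (Filter.Eventually.of_forall (fun y => Φ.apply_symm_apply y))
  have hw' : HasFDerivAt w (fderiv ℝ w x) (Φ.symm (Φ x)) := by
    rw [Φ.symm_apply_apply]
    exact hw.hasFDerivAt
  have hcomp : HasFDerivAt (w ∘ Φ.symm) ((fderiv ℝ w x).comp (e.symm : E →L[ℝ] E)) (Φ x) :=
    hw'.comp (Φ x) hsymm
  rw [inner_gradient_left, inner_gradient_left, hcomp.fderiv]
  have hz : e.symm (Φ' x z) = z := by
    rw [← he]
    exact e.symm_apply_apply z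
  show fderiv ℝ w x (e.symm (Φ' x z)) = fderiv ℝ w x z
  rw [hz]

theorem energy_change_of_variables (Φ : E ≃ₜ E) (Φ' : E → E →L[ℝ] E)
    (hΦ : ∀ x, HasFDerivAt Φ (Φ' x) x)
    {Ω : Set E} (hΩ : IsOpen Ω) {w : E → ℝ} (hpos : {x | 0 < w x} = Ω)
    {B : Set E} (hB : MeasurableSet B) (hBΦ : Φ '' B = B) :
    (∫ y in B ∩ {y | 0 < (w ∘ Φ.symm) y}, (‖gradient (w ∘ Φ.symm) y‖ ^ 2 + 1))
      = ∫ x in B ∩ Ω, |(Φ' x).det| * (‖gradient (w ∘ Φ.symm) (Φ x)‖ ^ 2 + 1) := by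
  have hset : B ∩ {y | 0 < (w ∘ Φ.symm) y} = Φ '' (B ∩ Ω) := by
    ext y
    constructor
    · rintro ⟨hyB, hy⟩
      rw [← hBΦ] at hyB
      obtain ⟨x, hxB, rfl⟩ := hyB
      refine ⟨x, ⟨hxB, ?_⟩, rfl⟩
      rw [← hpos]
      have hy' : 0 < w (Φ.symm (Φ x)) := hy
      rw [Φ.symm_apply_apply] at hy'
      exact hy'
    · rintro ⟨x, ⟨hxB, hxΩ⟩, rfl⟩
      refine ⟨?_, ?_⟩
      · rw [← hBΦ]
        exact ⟨x, hxB, rfl⟩
      · rw [← hpos] at hxΩ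
        show 0 < w (Φ.symm (Φ x))
        rw [Φ.symm_apply_apply]
        exact hxΩ
  rw [hset]
  have h := MeasureTheory.integral_image_eq_integral_abs_det_fderiv_smul volume
    (hB.inter hΩ.measurableSet) (fun x _ => (hΦ x).hasFDerivWithinAt) Φ.injective.injOn
    (fun y => ‖gradient (w ∘ Φ.symm) y‖ ^ 2 + 1)
  rw [h]
  rfl

end Vale.Agent.Lib.P098
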