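import Mathlib

/-!
Definitions for the second inner variation of the one-phase energy: the first and second order
coefficients in `t` of `|det (1 + t A)| (‖W‖² + 1)`, where `W + t A† W = ξ`.
-/

namespace Vale.Agent.Lib.P098

open scoped InnerProductSpace

variable {E : Type*} [NormedAddCommGroup E] [InnerProductSpace ℝ E] [FiniteDimensional ℝ E]

/-- The trace of a continuous linear endomorphism. -/
noncomputable def ctr (A : E →L[ℝ] E) : ℝ := LinearMap.trace ℝ E (A : E →ₗ[ℝ] E)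

/-- First order coefficient. -/
noncomputable def lform (A : E →L[ℝ] E) (ξ : E) : ℝ :=
  (‖ξ‖ ^ 2 + 1) * ctr A - 2 * ⟪A ξ, ξ⟫_ℝ

/-- Second order coefficient. -/
noncomputable def qform (A : E →L[ℝ] E) (ξ : E) : ℝ :=
  (‖ξ‖ ^ 2 + 1) * ((ctr A ^ 2 - ctr (A * A)) / 2) - 2 * ⟪A ξ, ξ⟫_ℝ * ctr A
    + ‖ContinuousLinearMap.adjoint A ξ‖ ^ 2 + 2 * ⟪A (A ξ), ξ⟫_ℝ

end Vale.Agent.Lib.P098
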