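import Vale.Agent.Lib.P098.NMDefs

/-!
Second order expansion of `det (1 + t A)` with a uniform cubic remainder.
-/

namespace Vale.Agent.Lib.P098

open scoped InnerProductSpace

variable {E : Type*} [NormedAddCommGroup E] [InnerProductSpace ℝ E] [FiniteDimensional ℝ E]

section Mat

open Polynomial Matrix

variable {n : Type*} [Fintype n] [DecidableEq n]

/-- the coefficients of the polynomial `det (1 + X M)` -/
noncomputable def nmdet_coeff (M : Matrix n n ℝ) (k : ℕ) : ℝ :=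
  (det (1 + (X : ℝ[X]) • M.map C)).coeff k

lemma nmdet_eval (M : Matrix n n ℝ) (t : ℝ) :
    (det (1 + (X : ℝ[X]) • M.map C)).eval t = det (1 + t • M) := by
  have h := RingHom.map_det (Polynomial.evalRingHom t) (1 + (X : ℝ[X]) • M.map C)
  rw [Polynomial.coe_evalRingHom] at h
  rw [h]
  congr 1
  ext i j
  simp only [RingHom.mapMatrix_apply, Matrix.map_apply, Matrix.add_apply, Matrix.smul_apply,
    Matrix.one_apply, smul_eq_mul, Polynomial.coe_evalRingHom, Polynomial.eval_add,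
    Polynomial.eval_mul, Polynomial.eval_X, Polynomial.eval_C]
  split_ifs <;> simp

lemma nmdet_coeff_eq_minors (M : Matrix n n ℝ) (k : ℕ) :
    nmdet_coeff M k = ∑ s ∈ Finset.univ.powersetCard k,
      (M.submatrix (Subtype.val : s → n) (Subtype.val : s → n)).det :=
  Matrix.coeff_det_one_add_X_smul_eq_sum_minors M k

lemma nmdet_coeff_continuous (k : ℕ) :
    Continuous (fun M : Matrix n n ℝ => nmdet_coeff M k) := by
  simp_rw [nmdet_coeff_eq_minors]
  exact continuous_finsetSum _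
    (fun s _ => Continuous.matrix_det (Continuous.matrix_submatrix continuous_id _ _))

lemma nmdet_coeff_eq_zero (M : Matrix n n ℝ) {k : ℕ} (hk : Fintype.card n < k) :
    nmdet_coeff M k = 0 := by
  rw [nmdet_coeff_eq_minors, Finset.powersetCard_eq_empty.2 (by simpa using hk),
    Finset.sum_empty]

lemma nmdet_expand (M : Matrix n n ℝ) (t : ℝ) :
    det (1 + t • M) = ∑ k ∈ Finset.range (3 + Fintype.card n), nmdet_coeff M k * t ^ k := by
  rw [← nmdet_eval]
  apply Polynomial.eval_eq_sum_range'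
  have h : (det (1 + (X : ℝ[X]) • M.map C)).natDegree ≤ Fintype.card n :=
    Polynomial.natDegree_le_iff_coeff_eq_zero.2 (fun N hN => nmdet_coeff_eq_zero M hN)
  omega

lemma nmdet_coeff_zero (M : Matrix n n ℝ) : nmdet_coeff M 0 = 1 := by
  unfold nmdet_coeff
  rw [Polynomial.coeff_zero_eq_eval_zero, nmdet_eval]
  simp

lemma nmdet_coeff_one (M : Matrix n n ℝ) : nmdet_coeff M 1 = M.trace :=
  Matrix.coeff_det_one_add_X_smul_one M

lemma nmdet_mul (M : Matrix n n ℝ) (t : ℝ) :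
    det (1 + t • M) * det (1 + (-t) • M) = det (1 + (-(t ^ 2)) • (M * M)) := by
  rw [← Matrix.det_mul]
  congr 1
  simp only [add_mul, mul_add, one_mul, mul_one, Matrix.smul_mul, Matrix.mul_smul, smul_smul,
    neg_smul, mul_neg]
  rw [pow_two]
  abel

lemma nmdet_coeff_two (M : Matrix n n ℝ) :
    nmdet_coeff M 2 = (M.trace ^ 2 - (M * M).trace) / 2 := by
  obtain ⟨Q, hQ⟩ : ∃ Q : ℝ[X], Q = (det (1 + (X : ℝ[X]) • M.map C)).divX.divX := ⟨_, rfl⟩
  obtain ⟨Q2, hQ2⟩ : ∃ Q2 : ℝ[X], Q2 = (det (1 + (X : ℝ[X]) • (M * M).map C)).divX.divX :=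
    ⟨_, rfl⟩
  have hc : nmdet_coeff M 2 = Q.eval 0 := by
    rw [← Polynomial.coeff_zero_eq_eval_zero, hQ, Polynomial.coeff_divX, Polynomial.coeff_divX]
    rfl
  have h1 : ∀ t : ℝ, det (1 + t • M) = 1 + M.trace * t + Q.eval t * t ^ 2 := by
    intro t
    rw [hQ]
    exact Matrix.det_one_add_smul t M
  have h3 : ∀ t : ℝ, det (1 + (-(t ^ 2)) • (M * M))
      = 1 + (M * M).trace * (-(t ^ 2)) + Q2.eval (-(t ^ 2)) * (-(t ^ 2)) ^ 2 := by
    intro t
    rw [hQ2]
    exact Matrix.det_one_add_smul _ _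
  obtain ⟨φ, hφ⟩ : ∃ φ : ℝ → ℝ, φ = fun t => Q.eval t + Q.eval (-t) - M.trace ^ 2
      + (M * M).trace + M.trace * t * (Q.eval (-t) - Q.eval t)
      + Q.eval t * Q.eval (-t) * t ^ 2 - Q2.eval (-(t ^ 2)) * t ^ 2 := ⟨_, rfl⟩
  have hQc : Continuous (fun t : ℝ => Q.eval t) := Q.continuous
  have hQn : Continuous (fun t : ℝ => Q.eval (-t)) := Q.continuous.comp continuous_neg
  have hQ2c : Continuous (fun t : ℝ => Q2.eval (-(t ^ 2))) :=
    Q2.continuous.comp (continuous_pow 2).neg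
  have hφc : Continuous φ := by
    rw [hφ]
    exact ((((((hQc.add hQn).sub continuous_const).add continuous_const).add
      ((continuous_const.mul continuous_id).mul (hQn.sub hQc))).add
      ((hQc.mul hQn).mul (continuous_pow 2))).sub (hQ2c.mul (continuous_pow 2)))
  have hφ0 : ∀ t : ℝ, t ≠ 0 → φ t = 0 := by
    intro t ht
    have h := nmdet_mul M t
    rw [h1 t, h1 (-t), h3 t] at h
    have h2 : t ^ 2 * φ t = 0 := by
      rw [hφ]
      linear_combination h
    exact (mul_eq_zero.1 h2).resolve_left (pow_ne_zero 2 ht)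
  have hzero : φ 0 = 0 := by
    have hcl : IsClosed {t : ℝ | φ t = 0} := isClosed_eq hφc continuous_const
    have hsub : ({0}ᶜ : Set ℝ) ⊆ {t : ℝ | φ t = 0} := fun t ht => hφ0 t ht
    have h := closure_minimal hsub hcl
    rw [(dense_compl_singleton (0 : ℝ)).closure_eq] at h
    exact h (Set.mem_univ 0)
  rw [hc]
  rw [hφ] at hzero
  simp only [neg_zero] at hzero
  linarith

end Mat

/-- the matrix of a continuous endomorphism in a fixed basis -/
noncomputable def nmdet_mat (A : E →L[ℝ] E) :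
    Matrix (Fin (Module.finrank ℝ E)) (Fin (Module.finrank ℝ E)) ℝ :=
  LinearMap.toMatrix (Module.finBasis ℝ E) (Module.finBasis ℝ E) (A : E →ₗ[ℝ] E)

lemma nmdet_mat_continuous : Continuous (nmdet_mat (E := E)) := by
  have h : Continuous ((LinearMap.toMatrix (Module.finBasis ℝ E)
      (Module.finBasis ℝ E)).toLinearMap ∘ₗ (ContinuousLinearMap.coeLM ℝ :
        (E →L[ℝ] E) →ₗ[ℝ] (E →ₗ[ℝ] E))) :=
    LinearMap.continuous_of_finiteDimensional _
  exact h

lemma nmdet_det (A : E →L[ℝ] E) (t : ℝ) :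
    (1 + t • A).det = Matrix.det (1 + t • nmdet_mat A) := by
  unfold nmdet_mat
  rw [← LinearMap.toMatrix_one (Module.finBasis ℝ E), ← map_smul, ← map_add,
    LinearMap.det_toMatrix]
  rfl

lemma nmdet_ctr (A : E →L[ℝ] E) : ctr A = Matrix.trace (nmdet_mat A) :=
  LinearMap.trace_eq_matrix_trace ℝ (Module.finBasis ℝ E) _

lemma nmdet_ctr_mul (A : E →L[ℝ] E) : ctr (A * A) = Matrix.trace (nmdet_mat A * nmdet_mat A) := by
  unfold nmdet_mat
  rw [← LinearMap.toMatrix_mul]
  exact LinearMap.trace_eq_matrix_trace ℝ (Module.finBasis ℝ E) _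

theorem det_expansion (L : ℝ) : ∃ C : ℝ, 0 ≤ C ∧ ∀ (A : E →L[ℝ] E) (t : ℝ), ‖A‖ ≤ L → |t| ≤ 1 →
    |(1 + t • A).det - (1 + t * ctr A + t ^ 2 * ((ctr A ^ 2 - ctr (A * A)) / 2))|
      ≤ C * |t| ^ 3 := by
  have hS : Continuous (fun A : E →L[ℝ] E =>
      ∑ k ∈ Finset.range (Module.finrank ℝ E), |nmdet_coeff (nmdet_mat A) (3 + k)|) :=
    continuous_finsetSum _
      (fun k _ => ((nmdet_coeff_continuous (3 + k)).comp nmdet_mat_continuous).abs)
  obtain ⟨C, hC⟩ := (isCompact_closedBall (0 : E →L[ℝ] E) L).exists_bound_of_continuousOn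
    hS.continuousOn
  refine ⟨max C 0, le_max_right _ _, ?_⟩
  intro A t hA ht
  have hAmem : A ∈ Metric.closedBall (0 : E →L[ℝ] E) L := by
    rw [mem_closedBall_zero_iff]
    exact hA
  have hb : ∑ k ∈ Finset.range (Module.finrank ℝ E), |nmdet_coeff (nmdet_mat A) (3 + k)|
      ≤ max C 0 :=
    le_trans (le_trans (le_abs_self _) (hC A hAmem)) (le_max_left _ _)
  have hexp : (1 + t • A).det - (1 + t * ctr A + t ^ 2 * ((ctr A ^ 2 - ctr (A * A)) / 2))
      = ∑ k ∈ Finset.range (Module.finrank ℝ E),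
          nmdet_coeff (nmdet_mat A) (3 + k) * t ^ (3 + k) := by
    rw [nmdet_det, nmdet_ctr, nmdet_ctr_mul, nmdet_expand, Fintype.card_fin,
      Finset.sum_range_add]
    simp only [Finset.sum_range_succ, Finset.sum_range_zero, nmdet_coeff_zero, nmdet_coeff_one,
      nmdet_coeff_two]
    ring
  rw [hexp]
  calc |∑ k ∈ Finset.range (Module.finrank ℝ E),
          nmdet_coeff (nmdet_mat A) (3 + k) * t ^ (3 + k)|
      ≤ ∑ k ∈ Finset.range (Module.finrank ℝ E),
          |nmdet_coeff (nmdet_mat A) (3 + k) * t ^ (3 + k)| := Finset.abs_sum_le_sum_abs _ _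
    _ ≤ ∑ k ∈ Finset.range (Module.finrank ℝ E),
          |nmdet_coeff (nmdet_mat A) (3 + k)| * |t| ^ 3 := by
        apply Finset.sum_le_sum
        intro k _
        rw [abs_mul, abs_pow]
        exact mul_le_mul_of_nonneg_left
          (pow_le_pow_of_le_one (abs_nonneg t) ht (Nat.le_add_right 3 k)) (abs_nonneg _)
    _ = (∑ k ∈ Finset.range (Module.finrank ℝ E),
          |nmdet_coeff (nmdet_mat A) (3 + k)|) * |t| ^ 3 := (Finset.sum_mul _ _ _).symm
    _ ≤ max C 0 * |t| ^ 3 := mul_le_mul_of_nonneg_right hb (by positivity)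

theorem ctr_bound (L : ℝ) : ∃ C : ℝ, 0 ≤ C ∧ ∀ (A : E →L[ℝ] E), ‖A‖ ≤ L →
    |ctr A| ≤ C ∧ |ctr (A * A)| ≤ C := by
  have h1 : Continuous (fun A : E →L[ℝ] E => ctr A) := by
    have h : Continuous ((LinearMap.trace ℝ E) ∘ₗ (ContinuousLinearMap.coeLM ℝ :
        (E →L[ℝ] E) →ₗ[ℝ] (E →ₗ[ℝ] E))) :=
      LinearMap.continuous_of_finiteDimensional _
    exact h
  have h2 : Continuous (fun A : E →L[ℝ] E => ctr (A * A)) :=
    h1.comp (continuous_id.mul continuous_id)
  obtain ⟨C1, hC1⟩ := (isCompact_closedBall (0 : E →L[ℝ] E) L).exists_bound_of_continuousOn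
    h1.continuousOn
  obtain ⟨C2, hC2⟩ := (isCompact_closedBall (0 : E →L[ℝ] E) L).exists_bound_of_continuousOn
    h2.continuousOn
  refine ⟨max (max C1 C2) 0, le_max_right _ _, ?_⟩
  intro A hA
  have hAmem : A ∈ Metric.closedBall (0 : E →L[ℝ] E) L := by
    rw [mem_closedBall_zero_iff]
    exact hA
  constructor
  · exact le_trans (hC1 A hAmem) (le_trans (le_max_left _ _) (le_max_left _ _))
  · exact le_trans (hC2 A hAmem) (le_trans (le_max_right _ _) (le_max_left _ _))

end Vale.Agent.Lib.P098
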