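import Mathlib

/-!
A compactly supported `C^1` vector field `X` generates, for small `t`, the bi-Lipschitz
homeomorphism `x ↦ x + t X(x)` with invertible derivative `1 + t DX`.
-/

namespace Vale.Agent.Lib.P098

variable {E : Type*} [NormedAddCommGroup E] [InnerProductSpace ℝ E] [FiniteDimensional ℝ E]

omit [FiniteDimensional ℝ E] in
/-- The perturbation of the identity stays within half of the distance. -/
theorem nmdiffeo_close {X : E → E} {L t : ℝ} (hLip : ∀ x y, ‖X x - X y‖ ≤ L * ‖x - y‖)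
    (ht : |t| * L ≤ 1 / 2) (x y : E) :
    ‖(x + t • X x) - (y + t • X y) - (x - y)‖ ≤ 1 / 2 * ‖x - y‖ := by
  have h1 : (x + t • X x) - (y + t • X y) - (x - y) = t • (X x - X y) := by
    rw [smul_sub]
    abel
  rw [h1, norm_smul, Real.norm_eq_abs]
  calc |t| * ‖X x - X y‖ ≤ |t| * (L * ‖x - y‖) :=
        mul_le_mul_of_nonneg_left (hLip x y) (abs_nonneg t)
    _ = (|t| * L) * ‖x - y‖ := by ring
    _ ≤ 1 / 2 * ‖x - y‖ := mul_le_mul_of_nonneg_right ht (norm_nonneg _)

theorem exists_diffeo {X : E → E} (hX : ContDiff ℝ 1 X) (hXc : HasCompactSupport X) :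
    ∃ L : ℝ, 0 ≤ L ∧ (∀ x, ‖fderiv ℝ X x‖ ≤ L) ∧ (∀ x, ‖X x‖ ≤ L) ∧
      ∀ t : ℝ, |t| * L ≤ 1 / 2 → ∃ Φ : E ≃ₜ E, (∀ x, Φ x = x + t • X x) ∧
        (∀ x, HasFDerivAt Φ (1 + t • fderiv ℝ X x) x) ∧
        (∀ x, IsUnit (1 + t • fderiv ℝ X x)) ∧
        LipschitzWith 2 Φ ∧ LipschitzWith 2 Φ.symm := by
  have : CompleteSpace E := FiniteDimensional.complete ℝ E
  obtain ⟨C1, hC1⟩ := (hX.continuous_fderiv one_ne_zero).bounded_above_of_compact_support
    (hXc.fderiv (𝕜 := ℝ))
  obtain ⟨C2, hC2⟩ := hX.continuous.bounded_above_of_compact_support hXc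
  have hdiff : Differentiable ℝ X := hX.differentiable one_ne_zero
  refine ⟨max (max C1 C2) 0, le_max_right _ _,
    fun x => (hC1 x).trans ((le_max_left _ _).trans (le_max_left _ _)),
    fun x => (hC2 x).trans ((le_max_right _ _).trans (le_max_left _ _)), ?_⟩
  set L : ℝ := max (max C1 C2) 0 with hLdef
  have hL0 : 0 ≤ L := le_max_right _ _
  have hD : ∀ x, ‖fderiv ℝ X x‖ ≤ L :=
    fun x => (hC1 x).trans ((le_max_left _ _).trans (le_max_left _ _))
  have hLip : ∀ x y, ‖X x - X y‖ ≤ L * ‖x - y‖ := by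
    intro x y
    exact Convex.norm_image_sub_le_of_norm_fderiv_le (fun z _ => hdiff z)
      (fun z _ => hD z) convex_univ (Set.mem_univ y) (Set.mem_univ x)
  intro t ht
  have happ : ApproximatesLinearOn (fun x : E => x + t • X x)
      ((ContinuousLinearEquiv.refl ℝ E : E ≃L[ℝ] E) : E →L[ℝ] E) Set.univ (1 / 2 : NNReal) := by
    intro x _ y _
    have h1 := nmdiffeo_close hLip ht x y
    simpa using h1
  have hc : Subsingleton E ∨ (1 / 2 : NNReal)
      < ‖(((ContinuousLinearEquiv.refl ℝ E : E ≃L[ℝ] E).symm : E ≃L[ℝ] E) : E →L[ℝ] E)‖₊⁻¹ := by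
    rcases subsingleton_or_nontrivial E with hE | hE
    · exact Or.inl hE
    · right
      have h1 : ‖(((ContinuousLinearEquiv.refl ℝ E : E ≃L[ℝ] E).symm : E ≃L[ℝ] E) : E →L[ℝ] E)‖₊
          = 1 := by
        have h2 : (((ContinuousLinearEquiv.refl ℝ E : E ≃L[ℝ] E).symm : E ≃L[ℝ] E) : E →L[ℝ] E)
            = ContinuousLinearMap.id ℝ E := rfl
        rw [h2]
        exact ContinuousLinearMap.nnnorm_id
      rw [h1, inv_one]
      norm_num
  have hΦ : ∀ x, (happ.toHomeomorph (fun x : E => x + t • X x) hc) x = x + t • X x :=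
    fun x => rfl
  have hup : ∀ x y : E, ‖(x + t • X x) - (y + t • X y)‖ ≤ 2 * ‖x - y‖ := by
    intro x y
    have h1 := nmdiffeo_close hLip ht x y
    have h2 : ‖(x + t • X x) - (y + t • X y)‖
        ≤ ‖(x + t • X x) - (y + t • X y) - (x - y)‖ + ‖x - y‖ := by
      have := norm_add_le ((x + t • X x) - (y + t • X y) - (x - y)) (x - y)
      rwa [sub_add_cancel] at this
    have h3 := norm_nonneg (x - y)
    linarith
  have hlow : ∀ x y : E, ‖x - y‖ ≤ 2 * ‖(x + t • X x) - (y + t • X y)‖ := by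
    intro x y
    have h1 := nmdiffeo_close hLip ht x y
    have h2 : ‖x - y‖ ≤ ‖(x + t • X x) - (y + t • X y) - (x - y)‖
        + ‖(x + t • X x) - (y + t • X y)‖ := by
      have := norm_sub_le ((x + t • X x) - (y + t • X y))
        ((x + t • X x) - (y + t • X y) - (x - y))
      rw [sub_sub_cancel] at this
      linarith
    linarith
  refine ⟨happ.toHomeomorph (fun x : E => x + t • X x) hc, hΦ, ?_, ?_, ?_, ?_⟩
  · intro x
    have h1 : HasFDerivAt (fun y : E => y + t • X y)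
        (ContinuousLinearMap.id ℝ E + t • fderiv ℝ X x) x :=
      (hasFDerivAt_id x).add ((hdiff x).hasFDerivAt.const_smul t)
    exact h1
  · intro x
    have h1 : ‖-(t • fderiv ℝ X x)‖ < 1 := by
      rw [norm_neg, norm_smul, Real.norm_eq_abs]
      have h2 : |t| * ‖fderiv ℝ X x‖ ≤ |t| * L :=
        mul_le_mul_of_nonneg_left (hD x) (abs_nonneg t)
      linarith
    have h3 := isUnit_one_sub_of_norm_lt_one h1
    rwa [sub_neg_eq_add] at h3
  · refine LipschitzWith.of_dist_le_mul (fun x y => ?_)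
    rw [dist_eq_norm, dist_eq_norm, hΦ, hΦ]
    exact_mod_cast hup x y
  · refine LipschitzWith.of_dist_le_mul (fun a b => ?_)
    rw [dist_eq_norm, dist_eq_norm]
    have h1 := hlow ((happ.toHomeomorph (fun x : E => x + t • X x) hc).symm a)
      ((happ.toHomeomorph (fun x : E => x + t • X x) hc).symm b)
    rw [← hΦ, ← hΦ, Homeomorph.apply_symm_apply, Homeomorph.apply_symm_apply] at h1
    exact_mod_cast h1

end Vale.Agent.Lib.P098
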