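import Vale.Agent.Lib.P098.NMDefs

/-!
Second order expansion of `‖W‖²` for the solution `W` of `W + t A† W = ξ`.
-/

namespace Vale.Agent.Lib.P098

open scoped InnerProductSpace

variable {E : Type*} [NormedAddCommGroup E] [InnerProductSpace ℝ E] [FiniteDimensional ℝ E]

/-- A polynomial bound used for the remainder. -/
theorem nmneumann_poly {a : ℝ} (ha : 0 ≤ a) : 8 * a ^ 3 + 4 * a ^ 4 ≤ 40 * (1 + a) ^ 6 := by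
  have key : (1 + a) ^ 6
      = 1 + 6 * a + 15 * a ^ 2 + 20 * a ^ 3 + 15 * a ^ 4 + 6 * a ^ 5 + a ^ 6 := by ring
  rw [key]
  linarith [pow_nonneg ha 2, pow_nonneg ha 3, pow_nonneg ha 4, pow_nonneg ha 5, pow_nonneg ha 6]

/-- The remainder estimate, in terms of real numbers. -/
theorem nmneumann_real {a n τ t x y z : ℝ} (ha : 0 ≤ a) (_hn : 0 ≤ n) (hτ : 0 ≤ τ)
    (hτ1 : τ ≤ 1) (ht : |t| = τ) (hx : |x| ≤ n * (2 * a ^ 3 * n))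
    (hy : |y| ≤ (a * n) * (2 * a ^ 2 * n)) (hz0 : 0 ≤ z) (hz : z ≤ (2 * a ^ 2 * n) ^ 2) :
    |-2 * t ^ 3 * x - 2 * t ^ 3 * y + t ^ 4 * z| ≤ 40 * (1 + a) ^ 6 * n ^ 2 * τ ^ 3 := by
  have e : -2 * t ^ 3 * x - 2 * t ^ 3 * y + t ^ 4 * z
      = (-2 * t ^ 3 * x) + (-2 * t ^ 3 * y) + t ^ 4 * z := by ring
  have h1 : |-2 * t ^ 3 * x| = 2 * τ ^ 3 * |x| := by
    rw [abs_mul, abs_mul, abs_neg, abs_two, abs_pow, ht]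
  have h2 : |-2 * t ^ 3 * y| = 2 * τ ^ 3 * |y| := by
    rw [abs_mul, abs_mul, abs_neg, abs_two, abs_pow, ht]
  have h3 : |t ^ 4 * z| = τ ^ 4 * z := by
    rw [abs_mul, abs_pow, ht, abs_of_nonneg hz0]
  have hτ3 : 0 ≤ τ ^ 3 := pow_nonneg hτ 3
  have hτ4 : τ ^ 4 ≤ τ ^ 3 := by
    have : τ ^ 4 = τ ^ 3 * τ := by ring
    rw [this]
    exact mul_le_of_le_one_right hτ3 hτ1
  have s1 : 2 * τ ^ 3 * |x| ≤ 2 * τ ^ 3 * (n * (2 * a ^ 3 * n)) :=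
    mul_le_mul_of_nonneg_left hx (by positivity)
  have s2 : 2 * τ ^ 3 * |y| ≤ 2 * τ ^ 3 * ((a * n) * (2 * a ^ 2 * n)) :=
    mul_le_mul_of_nonneg_left hy (by positivity)
  have s3 : τ ^ 4 * z ≤ τ ^ 3 * (2 * a ^ 2 * n) ^ 2 :=
    mul_le_mul hτ4 hz hz0 hτ3
  have hnt : 0 ≤ n ^ 2 * τ ^ 3 := by positivity
  have s4 := mul_le_mul_of_nonneg_right (nmneumann_poly ha) hnt
  rw [e]
  calc |(-2 * t ^ 3 * x) + (-2 * t ^ 3 * y) + t ^ 4 * z|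
      ≤ |-2 * t ^ 3 * x| + |-2 * t ^ 3 * y| + |t ^ 4 * z| := abs_add_three _ _ _
    _ = 2 * τ ^ 3 * |x| + 2 * τ ^ 3 * |y| + τ ^ 4 * z := by rw [h1, h2, h3]
    _ ≤ 40 * (1 + a) ^ 6 * n ^ 2 * τ ^ 3 := by linarith

/-- The expansion for a solution of the iterated equations. -/
theorem nmneumann_core (A : E →L[ℝ] E) (ξ W u v w : E) (t : ℝ) (ht1 : |t| ≤ 1)
    (hWu : W = ξ - t • u) (hu : u = ContinuousLinearMap.adjoint A ξ - t • v)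
    (hv : v = ContinuousLinearMap.adjoint A (ContinuousLinearMap.adjoint A ξ) - t • w)
    (hTξ : ‖ContinuousLinearMap.adjoint A ξ‖ ≤ ‖A‖ * ‖ξ‖)
    (hvb : ‖v‖ ≤ 2 * ‖A‖ ^ 2 * ‖ξ‖) (hwb : ‖w‖ ≤ 2 * ‖A‖ ^ 3 * ‖ξ‖) :
    |‖W‖ ^ 2 - (‖ξ‖ ^ 2 - 2 * t * ⟪A ξ, ξ⟫_ℝ
        + t ^ 2 * (‖ContinuousLinearMap.adjoint A ξ‖ ^ 2 + 2 * ⟪A (A ξ), ξ⟫_ℝ))|
      ≤ 40 * (1 + ‖A‖) ^ 6 * ‖ξ‖ ^ 2 * |t| ^ 3 := by
  have ha : 0 ≤ ‖A‖ := norm_nonneg A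
  have hn : 0 ≤ ‖ξ‖ := norm_nonneg ξ
  have e1 : ‖W‖ ^ 2 = ‖ξ‖ ^ 2 - 2 * t * ⟪ξ, u⟫_ℝ + t ^ 2 * ‖u‖ ^ 2 := by
    rw [hWu, norm_sub_sq_real, real_inner_smul_right, norm_smul, Real.norm_eq_abs, mul_pow,
      sq_abs]
    ring
  have e2 : ⟪ξ, u⟫_ℝ = ⟪ξ, ContinuousLinearMap.adjoint A ξ⟫_ℝ - t * ⟪ξ, v⟫_ℝ := by
    rw [hu, inner_sub_right, real_inner_smul_right]
  have e3 : ⟪ξ, v⟫_ℝ
      = ⟪ξ, ContinuousLinearMap.adjoint A (ContinuousLinearMap.adjoint A ξ)⟫_ℝ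
        - t * ⟪ξ, w⟫_ℝ := by
    rw [hv, inner_sub_right, real_inner_smul_right]
  have e4 : ‖u‖ ^ 2 = ‖ContinuousLinearMap.adjoint A ξ‖ ^ 2
      - 2 * t * ⟪ContinuousLinearMap.adjoint A ξ, v⟫_ℝ + t ^ 2 * ‖v‖ ^ 2 := by
    rw [hu, norm_sub_sq_real, real_inner_smul_right, norm_smul, Real.norm_eq_abs, mul_pow,
      sq_abs]
    ring
  have e5 : ⟪ξ, ContinuousLinearMap.adjoint A ξ⟫_ℝ = ⟪A ξ, ξ⟫_ℝ :=
    ContinuousLinearMap.adjoint_inner_right A ξ ξ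
  have e6 : ⟪ξ, ContinuousLinearMap.adjoint A (ContinuousLinearMap.adjoint A ξ)⟫_ℝ
      = ⟪A (A ξ), ξ⟫_ℝ := by
    rw [ContinuousLinearMap.adjoint_inner_right, ContinuousLinearMap.adjoint_inner_right]
  have erem : ‖W‖ ^ 2 - (‖ξ‖ ^ 2 - 2 * t * ⟪A ξ, ξ⟫_ℝ
        + t ^ 2 * (‖ContinuousLinearMap.adjoint A ξ‖ ^ 2 + 2 * ⟪A (A ξ), ξ⟫_ℝ))
      = -2 * t ^ 3 * ⟪ξ, w⟫_ℝ - 2 * t ^ 3 * ⟪ContinuousLinearMap.adjoint A ξ, v⟫_ℝ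
        + t ^ 4 * ‖v‖ ^ 2 := by
    linear_combination e1 - 2 * t * e2 + 2 * t ^ 2 * e3 + t ^ 2 * e4 - 2 * t * e5
      + 2 * t ^ 2 * e6
  rw [erem]
  have hx : |⟪ξ, w⟫_ℝ| ≤ ‖ξ‖ * (2 * ‖A‖ ^ 3 * ‖ξ‖) :=
    (abs_real_inner_le_norm ξ w).trans (mul_le_mul_of_nonneg_left hwb hn)
  have hy : |⟪ContinuousLinearMap.adjoint A ξ, v⟫_ℝ|
      ≤ (‖A‖ * ‖ξ‖) * (2 * ‖A‖ ^ 2 * ‖ξ‖) :=
    (abs_real_inner_le_norm _ v).trans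
      (mul_le_mul hTξ hvb (norm_nonneg v) (mul_nonneg ha hn))
  have hz : ‖v‖ ^ 2 ≤ (2 * ‖A‖ ^ 2 * ‖ξ‖) ^ 2 := pow_le_pow_left₀ (norm_nonneg v) hvb 2
  exact nmneumann_real ha hn (abs_nonneg t) ht1 rfl hx hy (sq_nonneg _) hz

theorem neumann_expansion (A : E →L[ℝ] E) (ξ W : E) (t : ℝ) (ht : |t| * ‖A‖ ≤ 1 / 2)
    (ht1 : |t| ≤ 1) (hW : W + t • (ContinuousLinearMap.adjoint A W) = ξ) :
    ‖W‖ ≤ 2 * ‖ξ‖ ∧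
    |‖W‖ ^ 2 - (‖ξ‖ ^ 2 - 2 * t * ⟪A ξ, ξ⟫_ℝ
        + t ^ 2 * (‖ContinuousLinearMap.adjoint A ξ‖ ^ 2 + 2 * ⟪A (A ξ), ξ⟫_ℝ))|
      ≤ 40 * (1 + ‖A‖) ^ 6 * ‖ξ‖ ^ 2 * |t| ^ 3 := by
  have hT : ∀ x : E, ‖ContinuousLinearMap.adjoint A x‖ ≤ ‖A‖ * ‖x‖ := by
    intro x
    have h := (ContinuousLinearMap.adjoint A).le_opNorm x
    rwa [LinearIsometryEquiv.norm_map] at h
  have ha : 0 ≤ ‖A‖ := norm_nonneg A
  have hτ : 0 ≤ |t| := abs_nonneg t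
  have hWu : W = ξ - t • ContinuousLinearMap.adjoint A W := eq_sub_of_add_eq hW
  have hWb : ‖W‖ ≤ 2 * ‖ξ‖ := by
    have h1 : ‖W‖ ≤ ‖ξ‖ + ‖t • ContinuousLinearMap.adjoint A W‖ := by
      conv_lhs => rw [hWu]
      exact norm_sub_le _ _
    have h2 : ‖t • ContinuousLinearMap.adjoint A W‖ ≤ |t| * (‖A‖ * ‖W‖) := by
      rw [norm_smul, Real.norm_eq_abs]
      exact mul_le_mul_of_nonneg_left (hT W) hτ
    have h3 : |t| * (‖A‖ * ‖W‖) ≤ 1 / 2 * ‖W‖ := by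
      rw [← mul_assoc]
      exact mul_le_mul_of_nonneg_right ht (norm_nonneg W)
    linarith
  refine ⟨hWb, ?_⟩
  have hu : ContinuousLinearMap.adjoint A W = ContinuousLinearMap.adjoint A ξ
      - t • ContinuousLinearMap.adjoint A (ContinuousLinearMap.adjoint A W) := by
    conv_lhs => rw [hWu]
    rw [map_sub, map_smul]
  have hv : ContinuousLinearMap.adjoint A (ContinuousLinearMap.adjoint A W)
      = ContinuousLinearMap.adjoint A (ContinuousLinearMap.adjoint A ξ)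
        - t • ContinuousLinearMap.adjoint A
          (ContinuousLinearMap.adjoint A (ContinuousLinearMap.adjoint A W)) := by
    conv_lhs => rw [hu]
    rw [map_sub, map_smul]
  have hub : ‖ContinuousLinearMap.adjoint A W‖ ≤ 2 * ‖A‖ * ‖ξ‖ :=
    calc ‖ContinuousLinearMap.adjoint A W‖ ≤ ‖A‖ * ‖W‖ := hT W
      _ ≤ ‖A‖ * (2 * ‖ξ‖) := mul_le_mul_of_nonneg_left hWb ha
      _ = 2 * ‖A‖ * ‖ξ‖ := by ring
  have hvb : ‖ContinuousLinearMap.adjoint A (ContinuousLinearMap.adjoint A W)‖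
      ≤ 2 * ‖A‖ ^ 2 * ‖ξ‖ :=
    calc ‖ContinuousLinearMap.adjoint A (ContinuousLinearMap.adjoint A W)‖
        ≤ ‖A‖ * ‖ContinuousLinearMap.adjoint A W‖ := hT _
      _ ≤ ‖A‖ * (2 * ‖A‖ * ‖ξ‖) := mul_le_mul_of_nonneg_left hub ha
      _ = 2 * ‖A‖ ^ 2 * ‖ξ‖ := by ring
  have hwb : ‖ContinuousLinearMap.adjoint A
      (ContinuousLinearMap.adjoint A (ContinuousLinearMap.adjoint A W))‖
      ≤ 2 * ‖A‖ ^ 3 * ‖ξ‖ :=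
    calc ‖ContinuousLinearMap.adjoint A
          (ContinuousLinearMap.adjoint A (ContinuousLinearMap.adjoint A W))‖
        ≤ ‖A‖ * ‖ContinuousLinearMap.adjoint A (ContinuousLinearMap.adjoint A W)‖ := hT _
      _ ≤ ‖A‖ * (2 * ‖A‖ ^ 2 * ‖ξ‖) := mul_le_mul_of_nonneg_left hvb ha
      _ = 2 * ‖A‖ ^ 3 * ‖ξ‖ := by ring
  exact nmneumann_core A ξ W _ _ _ t ht1 hWu hu hv (hT ξ) hvb hwb

end Vale.Agent.Lib.P098
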