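import Vale.Agent.Lib.P098.NMDet
import Vale.Agent.Lib.P098.NMNeumann

/-!
Second order expansion of the pulled back energy density `|det (1 + t A)| (‖W‖² + 1)`.
-/

namespace Vale.Agent.Lib.P098

open scoped InnerProductSpace

variable {E : Type*} [NormedAddCommGroup E] [InnerProductSpace ℝ E] [FiniteDimensional ℝ E]

/-- The real algebra behind the expansion: multiply the two second order expansions and bound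
the remainder. -/
theorem nmexpand_real (τ σ g P1 P2 N D t Tb Sb P1b P2b Nb CD CW : ℝ)
    (hτ : |τ| ≤ Tb) (hσ : |σ| ≤ Sb) (hP1 : |P1| ≤ P1b) (hP2 : |P2| ≤ P2b)
    (hN0 : 0 ≤ N) (hN : N ≤ Nb) (ht : |t| ≤ 1) (hCD : 0 ≤ CD)
    (hD : |D - (1 + t * τ + t ^ 2 * σ)| ≤ CD * |t| ^ 3)
    (hW : |N - (g + t * P1 + t ^ 2 * P2)| ≤ CW * |t| ^ 3)
    (hD0 : 0 ≤ D) :
    |D| * (N + 1) ≤ (g + 1) + t * ((g + 1) * τ + P1) + t ^ 2 * ((g + 1) * σ + P1 * τ + P2)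
      + (Tb * P2b + Sb * P1b + Sb * P2b + CD * (Nb + 1) + (1 + Tb + Sb) * CW) * |t| ^ 3 := by
  rw [abs_of_nonneg hD0]
  have hTb : 0 ≤ Tb := (abs_nonneg _).trans hτ
  have hSb : 0 ≤ Sb := (abs_nonneg _).trans hσ
  have hP1b : 0 ≤ P1b := (abs_nonneg _).trans hP1
  have hP2b : 0 ≤ P2b := (abs_nonneg _).trans hP2
  have ht0 : 0 ≤ |t| := abs_nonneg t
  have ht3 : 0 ≤ |t| ^ 3 := by positivity
  obtain ⟨eD, heD⟩ : ∃ eD, eD = D - (1 + t * τ + t ^ 2 * σ) := ⟨_, rfl⟩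
  obtain ⟨eW, heW⟩ : ∃ eW, eW = N - (g + t * P1 + t ^ 2 * P2) := ⟨_, rfl⟩
  rw [← heD] at hD
  rw [← heW] at hW
  have key : D * (N + 1) = (g + 1) + t * ((g + 1) * τ + P1)
      + t ^ 2 * ((g + 1) * σ + P1 * τ + P2)
      + (t ^ 3 * (τ * P2 + σ * P1) + t ^ 4 * (σ * P2) + eD * (N + 1)
        + (1 + t * τ + t ^ 2 * σ) * eW) := by
    rw [heD, heW]; ring
  have b1 : t ^ 3 * (τ * P2 + σ * P1) ≤ (Tb * P2b + Sb * P1b) * |t| ^ 3 := by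
    have h1 : |τ * P2 + σ * P1| ≤ Tb * P2b + Sb * P1b := by
      calc |τ * P2 + σ * P1| ≤ |τ * P2| + |σ * P1| := abs_add_le _ _
        _ = |τ| * |P2| + |σ| * |P1| := by rw [abs_mul, abs_mul]
        _ ≤ Tb * P2b + Sb * P1b := by gcongr
    calc t ^ 3 * (τ * P2 + σ * P1) ≤ |t ^ 3 * (τ * P2 + σ * P1)| := le_abs_self _
      _ = |t| ^ 3 * |τ * P2 + σ * P1| := by rw [abs_mul, abs_pow]
      _ ≤ |t| ^ 3 * (Tb * P2b + Sb * P1b) := mul_le_mul_of_nonneg_left h1 ht3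
      _ = (Tb * P2b + Sb * P1b) * |t| ^ 3 := by ring
  have b2 : t ^ 4 * (σ * P2) ≤ (Sb * P2b) * |t| ^ 3 := by
    calc t ^ 4 * (σ * P2) ≤ |t ^ 4 * (σ * P2)| := le_abs_self _
      _ = |t| ^ 3 * |t| * (|σ| * |P2|) := by rw [abs_mul, abs_pow, abs_mul]; ring
      _ ≤ |t| ^ 3 * 1 * (Sb * P2b) := by gcongr
      _ = (Sb * P2b) * |t| ^ 3 := by ring
  have b3 : eD * (N + 1) ≤ CD * (Nb + 1) * |t| ^ 3 := by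
    have hN1 : 0 ≤ N + 1 := by linarith
    calc eD * (N + 1) ≤ |eD| * (N + 1) := mul_le_mul_of_nonneg_right (le_abs_self _) hN1
      _ ≤ (CD * |t| ^ 3) * (Nb + 1) := by gcongr
      _ = CD * (Nb + 1) * |t| ^ 3 := by ring
  have b4 : (1 + t * τ + t ^ 2 * σ) * eW ≤ (1 + Tb + Sb) * CW * |t| ^ 3 := by
    have h1 : |1 + t * τ + t ^ 2 * σ| ≤ 1 + Tb + Sb := by
      calc |1 + t * τ + t ^ 2 * σ| ≤ |1 + t * τ| + |t ^ 2 * σ| := abs_add_le _ _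
        _ ≤ |(1:ℝ)| + |t * τ| + |t ^ 2 * σ| := by gcongr; exact abs_add_le _ _
        _ = 1 + |t| * |τ| + |t| ^ 2 * |σ| := by rw [abs_one, abs_mul, abs_mul, abs_pow]
        _ ≤ 1 + 1 * Tb + 1 ^ 2 * Sb := by gcongr
        _ = 1 + Tb + Sb := by ring
    calc (1 + t * τ + t ^ 2 * σ) * eW ≤ |(1 + t * τ + t ^ 2 * σ) * eW| := le_abs_self _
      _ = |1 + t * τ + t ^ 2 * σ| * |eW| := abs_mul _ _
      _ ≤ (1 + Tb + Sb) * (CW * |t| ^ 3) := by gcongr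
      _ = (1 + Tb + Sb) * CW * |t| ^ 3 := by ring
  rw [key]; linarith

/-- Nonnegativity of a quantity close to one. -/
theorem nmexpand_pos (D τ σ t CT Sb CD : ℝ) (hτ : |τ| ≤ CT) (hσ : |σ| ≤ Sb) (hSb0 : 0 ≤ Sb)
    (hCD0 : 0 ≤ CD) (ht1 : |t| ≤ 1) (hsmall : |t| * (CT + Sb + CD) ≤ 1 / 2)
    (hD : |D - (1 + t * τ + t ^ 2 * σ)| ≤ CD * |t| ^ 3) : 0 ≤ D := by
  have ht0 : 0 ≤ |t| := abs_nonneg t
  have h1 := (abs_le.mp hD).1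
  have h2 : -(|t| * CT) ≤ t * τ := by
    have : |t * τ| ≤ |t| * CT := by
      rw [abs_mul]; exact mul_le_mul_of_nonneg_left hτ ht0
    exact (abs_le.mp this).1
  have ht2 : |t| ^ 2 ≤ |t| := by nlinarith
  have h3 : -(|t| * Sb) ≤ t ^ 2 * σ := by
    have : |t ^ 2 * σ| ≤ |t| * Sb := by
      rw [abs_mul, abs_pow]
      calc |t| ^ 2 * |σ| ≤ |t| ^ 2 * Sb := mul_le_mul_of_nonneg_left hσ (by positivity)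
        _ ≤ |t| * Sb := mul_le_mul_of_nonneg_right ht2 hSb0
    exact (abs_le.mp this).1
  have h4 : CD * |t| ^ 3 ≤ |t| * CD := by
    have h5 : |t| ^ 3 ≤ |t| := by nlinarith
    nlinarith
  nlinarith

omit [FiniteDimensional ℝ E] in
theorem nmexpand_inner1 (A : E →L[ℝ] E) (ξ : E) (L' X' : ℝ) (hA : ‖A‖ ≤ L') (hξ : ‖ξ‖ ≤ X') :
    |⟪A ξ, ξ⟫_ℝ| ≤ L' * X' ^ 2 := by
  have hA0 : 0 ≤ ‖A‖ := norm_nonneg A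
  have hξ0 : 0 ≤ ‖ξ‖ := norm_nonneg ξ
  have hL0 : 0 ≤ L' := hA0.trans hA
  have hX0 : 0 ≤ X' := hξ0.trans hξ
  calc |⟪A ξ, ξ⟫_ℝ| ≤ ‖A ξ‖ * ‖ξ‖ := abs_real_inner_le_norm _ _
    _ ≤ (‖A‖ * ‖ξ‖) * ‖ξ‖ := mul_le_mul_of_nonneg_right (A.le_opNorm ξ) hξ0
    _ ≤ (L' * X') * X' := by gcongr
    _ = L' * X' ^ 2 := by ring

omit [FiniteDimensional ℝ E] in
theorem nmexpand_inner2 (A : E →L[ℝ] E) (ξ : E) (L' X' : ℝ) (hA : ‖A‖ ≤ L') (hξ : ‖ξ‖ ≤ X') :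
    |⟪A (A ξ), ξ⟫_ℝ| ≤ L' ^ 2 * X' ^ 2 := by
  have hA0 : 0 ≤ ‖A‖ := norm_nonneg A
  have hξ0 : 0 ≤ ‖ξ‖ := norm_nonneg ξ
  have hL0 : 0 ≤ L' := hA0.trans hA
  have hX0 : 0 ≤ X' := hξ0.trans hξ
  have h1 : ‖A (A ξ)‖ ≤ ‖A‖ * (‖A‖ * ‖ξ‖) :=
    (A.le_opNorm _).trans (mul_le_mul_of_nonneg_left (A.le_opNorm ξ) hA0)
  calc |⟪A (A ξ), ξ⟫_ℝ| ≤ ‖A (A ξ)‖ * ‖ξ‖ := abs_real_inner_le_norm _ _
    _ ≤ (‖A‖ * (‖A‖ * ‖ξ‖)) * ‖ξ‖ := mul_le_mul_of_nonneg_right h1 hξ0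
    _ ≤ (L' * (L' * X')) * X' := by gcongr
    _ = L' ^ 2 * X' ^ 2 := by ring

theorem nmexpand_adj (A : E →L[ℝ] E) (ξ : E) (L' X' : ℝ) (hA : ‖A‖ ≤ L') (hξ : ‖ξ‖ ≤ X') :
    ‖ContinuousLinearMap.adjoint A ξ‖ ^ 2 ≤ L' ^ 2 * X' ^ 2 := by
  have hA0 : 0 ≤ ‖A‖ := norm_nonneg A
  have hξ0 : 0 ≤ ‖ξ‖ := norm_nonneg ξ
  have hL0 : 0 ≤ L' := hA0.trans hA
  have hX0 : 0 ≤ X' := hξ0.trans hξ
  have h0 : ‖ContinuousLinearMap.adjoint A‖ = ‖A‖ := LinearIsometryEquiv.norm_map _ A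
  have h1 : ‖ContinuousLinearMap.adjoint A ξ‖ ≤ ‖A‖ * ‖ξ‖ := by
    rw [← h0]
    exact ContinuousLinearMap.le_opNorm _ ξ
  have h2 : ‖ContinuousLinearMap.adjoint A ξ‖ ≤ L' * X' := h1.trans (by gcongr)
  calc ‖ContinuousLinearMap.adjoint A ξ‖ ^ 2 ≤ (L' * X') ^ 2 := by gcongr
    _ = L' ^ 2 * X' ^ 2 := by ring

/-- The coefficient bounds for the Neumann side. -/
theorem nmexpand_coeffs (A : E →L[ℝ] E) (ξ : E) (L' X' : ℝ) (hA : ‖A‖ ≤ L') (hξ : ‖ξ‖ ≤ X') :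
    |-2 * ⟪A ξ, ξ⟫_ℝ| ≤ 2 * (L' * X' ^ 2) ∧
    |‖ContinuousLinearMap.adjoint A ξ‖ ^ 2 + 2 * ⟪A (A ξ), ξ⟫_ℝ| ≤ 3 * (L' ^ 2 * X' ^ 2) := by
  have h1 := nmexpand_inner1 A ξ L' X' hA hξ
  have h2 := abs_le.mp (nmexpand_inner2 A ξ L' X' hA hξ)
  have h3 := nmexpand_adj A ξ L' X' hA hξ
  constructor
  · rw [abs_mul, abs_neg, abs_of_pos (by norm_num : (0:ℝ) < 2)]
    linarith
  · rw [abs_le]
    constructor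
    · nlinarith [sq_nonneg ‖ContinuousLinearMap.adjoint A ξ‖]
    · nlinarith

/-- The Neumann expansion with uniform constants. -/
theorem nmexpand_neumann (A : E →L[ℝ] E) (ξ W : E) (t L' X' : ℝ) (hA : ‖A‖ ≤ L')
    (hξ : ‖ξ‖ ≤ X') (ht : |t| * ‖A‖ ≤ 1 / 2)
    (ht1 : |t| ≤ 1) (hW : W + t • (ContinuousLinearMap.adjoint A W) = ξ) :
    ‖W‖ ^ 2 ≤ 4 * X' ^ 2 ∧
    |‖W‖ ^ 2 - (‖ξ‖ ^ 2 + t * (-2 * ⟪A ξ, ξ⟫_ℝ)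
      + t ^ 2 * (‖ContinuousLinearMap.adjoint A ξ‖ ^ 2 + 2 * ⟪A (A ξ), ξ⟫_ℝ))|
      ≤ 40 * (1 + L') ^ 6 * X' ^ 2 * |t| ^ 3 := by
  have hA0 : 0 ≤ ‖A‖ := norm_nonneg A
  have hξ0 : 0 ≤ ‖ξ‖ := norm_nonneg ξ
  have hL0 : 0 ≤ L' := hA0.trans hA
  have hX0 : 0 ≤ X' := hξ0.trans hξ
  obtain ⟨hWn, hWexp⟩ := neumann_expansion A ξ W t ht ht1 hW
  constructor
  · have : ‖W‖ ≤ 2 * X' := hWn.trans (by linarith)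
    calc ‖W‖ ^ 2 ≤ (2 * X') ^ 2 := by gcongr
      _ = 4 * X' ^ 2 := by ring
  · have e : ‖ξ‖ ^ 2 + t * (-2 * ⟪A ξ, ξ⟫_ℝ)
        + t ^ 2 * (‖ContinuousLinearMap.adjoint A ξ‖ ^ 2 + 2 * ⟪A (A ξ), ξ⟫_ℝ)
        = ‖ξ‖ ^ 2 - 2 * t * ⟪A ξ, ξ⟫_ℝ
        + t ^ 2 * (‖ContinuousLinearMap.adjoint A ξ‖ ^ 2 + 2 * ⟪A (A ξ), ξ⟫_ℝ) := by ring
    rw [e]
    refine hWexp.trans ?_
    gcongr

theorem pullback_expansion (L Ξ : ℝ) : ∃ C t0 : ℝ, 0 ≤ C ∧ 0 < t0 ∧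
    ∀ (A : E →L[ℝ] E) (ξ W : E) (t : ℝ), ‖A‖ ≤ L → ‖ξ‖ ≤ Ξ → |t| ≤ t0 →
      W + t • (ContinuousLinearMap.adjoint A W) = ξ →
      |(1 + t • A).det| * (‖W‖ ^ 2 + 1)
        ≤ (‖ξ‖ ^ 2 + 1) + t * lform A ξ + t ^ 2 * qform A ξ + C * |t| ^ 3 := by
  obtain ⟨CD, hCD0, hCD⟩ := det_expansion (E := E) L
  obtain ⟨CT, hCT0, hCT⟩ := ctr_bound (E := E) L
  obtain ⟨L', hL'⟩ : ∃ L', L' = max L 0 := ⟨_, rfl⟩
  obtain ⟨X', hX'⟩ : ∃ X', X' = max Ξ 0 := ⟨_, rfl⟩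
  have hL'0 : 0 ≤ L' := by rw [hL']; exact le_max_right _ _
  have hX'0 : 0 ≤ X' := by rw [hX']; exact le_max_right _ _
  have hLL' : L ≤ L' := by rw [hL']; exact le_max_left _ _
  have hXX' : Ξ ≤ X' := by rw [hX']; exact le_max_left _ _
  obtain ⟨Sb, hSb⟩ : ∃ Sb, Sb = (CT ^ 2 + CT) / 2 := ⟨_, rfl⟩
  have hSb0 : 0 ≤ Sb := by rw [hSb]; positivity
  obtain ⟨K, hK⟩ : ∃ K, K = 2 * (L' + CT + Sb + CD) + 1 := ⟨_, rfl⟩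
  have hK1 : 1 ≤ K := by rw [hK]; linarith
  have hK0 : 0 < K := by linarith
  refine ⟨CT * (3 * (L' ^ 2 * X' ^ 2)) + Sb * (2 * (L' * X' ^ 2)) + Sb * (3 * (L' ^ 2 * X' ^ 2))
    + CD * (4 * X' ^ 2 + 1) + (1 + CT + Sb) * (40 * (1 + L') ^ 6 * X' ^ 2), 1 / K,
    by positivity, by positivity, ?_⟩
  intro A ξ W t hA hξ ht hW
  have ht0 : 0 ≤ |t| := abs_nonneg t
  have htK : |t| * K ≤ 1 := by
    rw [le_div_iff₀ hK0] at ht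
    exact ht
  have e1 : 0 ≤ |t| * L' := mul_nonneg ht0 hL'0
  have e2 : 0 ≤ |t| * CT := mul_nonneg ht0 hCT0
  have e3 : 0 ≤ |t| * Sb := mul_nonneg ht0 hSb0
  have e4 : 0 ≤ |t| * CD := mul_nonneg ht0 hCD0
  have hexp : |t| * K = 2 * (|t| * L') + 2 * (|t| * CT) + 2 * (|t| * Sb) + 2 * (|t| * CD)
      + |t| := by rw [hK]; ring
  have ht1 : |t| ≤ 1 := by linarith
  have hAL' : ‖A‖ ≤ L' := hA.trans hLL'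
  have hξX' : ‖ξ‖ ≤ X' := hξ.trans hXX'
  have htA : |t| * ‖A‖ ≤ 1 / 2 := by
    have : |t| * ‖A‖ ≤ |t| * L' := mul_le_mul_of_nonneg_left hAL' ht0
    linarith
  obtain ⟨hτ, hκ⟩ := hCT A hA
  have hσ : |(ctr A ^ 2 - ctr (A * A)) / 2| ≤ Sb := by
    rw [abs_div, abs_of_pos (by norm_num : (0:ℝ) < 2), hSb]
    apply div_le_div_of_nonneg_right _ (by norm_num : (0:ℝ) ≤ 2)
    calc |ctr A ^ 2 - ctr (A * A)| ≤ |ctr A ^ 2| + |ctr (A * A)| := abs_sub _ _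
      _ = |ctr A| ^ 2 + |ctr (A * A)| := by rw [abs_pow]
      _ ≤ CT ^ 2 + CT := by gcongr
  have hDexp := hCD A t hA ht1
  have hsmall : |t| * (CT + Sb + CD) ≤ 1 / 2 := by
    have : |t| * (CT + Sb + CD) = |t| * CT + |t| * Sb + |t| * CD := by ring
    linarith
  have hD0 : 0 ≤ (1 + t • A).det :=
    nmexpand_pos _ _ _ t CT Sb CD hτ hσ hSb0 hCD0 ht1 hsmall hDexp
  obtain ⟨hP1, hP2⟩ := nmexpand_coeffs A ξ L' X' hAL' hξX'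
  obtain ⟨hN, hWexp⟩ := nmexpand_neumann A ξ W t L' X' hAL' hξX' htA ht1 hW
  have main := nmexpand_real (ctr A) ((ctr A ^ 2 - ctr (A * A)) / 2) (‖ξ‖ ^ 2)
    (-2 * ⟪A ξ, ξ⟫_ℝ) (‖ContinuousLinearMap.adjoint A ξ‖ ^ 2 + 2 * ⟪A (A ξ), ξ⟫_ℝ)
    (‖W‖ ^ 2) ((1 + t • A).det) t CT Sb _ _ _ CD _ hτ hσ hP1 hP2 (by positivity) hN ht1
    hCD0 hDexp hWexp hD0
  refine main.trans (le_of_eq ?_)
  unfold lform qform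
  ring

end Vale.Agent.Lib.P098
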