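import Vale.Agent.Lib.P098.NMMain

/-!
Unstable classical cones are not minimizers: from a test function with negative second
variation we build an explicit competitor `u⁺ ∘ Φ⁻¹` with strictly smaller energy on every
large ball.
-/

namespace Vale.Agent.Lib.P098

open Finset MeasureTheory
open scoped ContDiff Topology InnerProductSpace

variable {E : Type*} [NormedAddCommGroup E] [InnerProductSpace ℝ E] [FiniteDimensional ℝ E]
variable {ι : Type*} [Fintype ι]
variable {U : Set E} {u : E → ℝ}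
variable [MeasurableSpace E] [BorelSpace E]

theorem unstable_not_minimizing (b : OrthonormalBasis ι ℝ E)
    (hU : IsOpen U) (h0 : (0 : E) ∉ U) (hcone : ∀ x ∈ U, ∀ t : ℝ, 0 < t → t • x ∈ U)
    (hu : ContDiffOn ℝ 4 u U) (hhom : ∀ x ∈ U, ∀ t : ℝ, 0 < t → u (t • x) = t * u x)
    (hharm : ∀ x ∈ U, 0 < u x → lap b u x = 0)
    (hfb : ∀ x ∈ U, u x = 0 → ∑ i, pd (b i) u x ^ 2 = 1)
    (hcl : closure {x ∈ U | 0 < u x} ⊆ insert 0 U)
    {φ : E → ℝ} (hφ : ContDiff ℝ 2 φ) (hφc : HasCompactSupport φ)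
    (hφ0 : (0 : E) ∉ tsupport φ)
    (hneg : (∫ x in {x ∈ U | 0 < u x}, ∑ i, pd (b i) φ x ^ 2)
        + (∫ x in {x ∈ U | 0 < u x},
            ∑ i, pd (b i) (fun y => φ y ^ 2 * hmFn u y) x * pd (b i) u x) < 0) :
    ∃ (Φ : E ≃ₜ E) (R : ℝ), LipschitzWith 2 Φ ∧ LipschitzWith 2 Φ.symm ∧
      (∀ x, R ≤ ‖x‖ → Φ x = x) ∧
      ∀ r : ℝ, R < r →
        IntegrableOn (fun y => ‖gradient (solFn U u ∘ Φ.symm) y‖ ^ 2 + 1)
          (Metric.ball 0 r ∩ {y | 0 < (solFn U u ∘ Φ.symm) y}) ∧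
        IntegrableOn (fun x => ‖gradient (solFn U u) x‖ ^ 2 + 1)
          (Metric.ball 0 r ∩ {x ∈ U | 0 < u x}) ∧
        (∫ y in Metric.ball 0 r ∩ {y | 0 < (solFn U u ∘ Φ.symm) y},
            (‖gradient (solFn U u ∘ Φ.symm) y‖ ^ 2 + 1))
          < ∫ x in Metric.ball 0 r ∩ {x ∈ U | 0 < u x}, (‖gradient (solFn U u) x‖ ^ 2 + 1) := by
  have hhom' : HomOn 1 u U := fun y hy t ht => by
    rw [zpow_one]
    exact hhom y hy t ht
  have hΩ : IsOpen {x ∈ U | 0 < u x} := posSet_open hU hu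
  have hg : ContDiffOn ℝ 3 (gradSq b u) U := gradSq_contDiffOn b hU hu
  have hU' : IsOpen {x ∈ U | gradSq b u x ≠ 0} := by
    have h := hg.continuousOn.isOpen_inter_preimage hU (isOpen_compl_singleton (x := (0 : ℝ)))
    have e : {x ∈ U | gradSq b u x ≠ 0} = U ∩ gradSq b u ⁻¹' {0}ᶜ := by
      ext x
      simp
    rw [e]
    exact h
  have hU'U : {x ∈ U | gradSq b u x ≠ 0} ⊆ U := fun x hx => hx.1
  have hK0c : IsCompact (closure {x ∈ U | 0 < u x} ∩ tsupport φ) :=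
    IsCompact.inter_left hφc isClosed_closure
  have hK0U' : closure {x ∈ U | 0 < u x} ∩ tsupport φ ⊆ {x ∈ U | gradSq b u x ≠ 0} := by
    intro x hx
    have hx0 : x ≠ 0 := fun h => hφ0 (h ▸ hx.2)
    have hxU : x ∈ U := by
      rcases hcl hx.1 with h | h
      · exact absurd h hx0
      · exact h
    exact ⟨hxU, gradSq_ne_zero b hU hu hhom' hfb hx.1 hxU⟩
  obtain ⟨χ, hχ, hχc, hχU', hχ0, hχ1, hχK⟩ := exists_cutoff hK0c hU' hK0U'
  -- the function ρ
  obtain ⟨ρ, hρdef⟩ : ∃ ρ : E → ℝ, ρ = fun y => (gradSq b u y)⁻¹ * (-(φ y * χ y)) := ⟨_, rfl⟩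
  have hbC : ContDiff ℝ 2 (fun y => -(φ y * χ y)) :=
    (hφ.mul (hχ.of_le (WithTop.coe_le_coe.2 le_top))).neg
  have hbsupp : tsupport (fun y => -(φ y * χ y)) ⊆ tsupport χ := by
    apply closure_mono
    intro y hy
    rw [Function.mem_support] at hy ⊢
    intro h
    apply hy
    rw [h, mul_zero, neg_zero]
  have hginv : ContDiffOn ℝ 2 (fun y => (gradSq b u y)⁻¹) {x ∈ U | gradSq b u x ≠ 0} :=
    ((hg.of_le (by norm_num)).mono hU'U).inv (fun x hx => hx.2)
  have hρ : ContDiff ℝ 2 ρ := by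
    rw [hρdef]
    exact contDiff_mul_of_tsupport hU' hginv hbC (hbsupp.trans hχU')
  have hρsupp : tsupport ρ ⊆ tsupport χ := by
    rw [hρdef]
    exact (tsupport_mul_subset_right' _ _).trans hbsupp
  have hρc : HasCompactSupport ρ :=
    IsCompact.of_isClosed_subset hχc (isClosed_tsupport _) hρsupp
  have hρU : tsupport ρ ⊆ U := hρsupp.trans (hχU'.trans hU'U)
  have hs : ∀ y ∈ {x ∈ U | 0 < u x}, gradSq b u y * ρ y = -φ y := by
    intro y hy
    have hyU' : gradSq b u y ≠ 0 := gradSq_ne_zero b hU hu hhom' hfb (subset_closure hy) hy.1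
    rw [hρdef]
    show gradSq b u y * ((gradSq b u y)⁻¹ * (-(φ y * χ y))) = -φ y
    rw [← mul_assoc, mul_inv_cancel₀ hyU', one_mul]
    by_cases hyφ : y ∈ tsupport φ
    · rw [hχK y ⟨subset_closure hy, hyφ⟩, mul_one]
    · rw [image_eq_zero_of_notMem_tsupport hyφ]
      simp
  obtain ⟨hqint, hqeq⟩ := second_variation b hU hu hharm hfb hρ hρc hρU
  have e1 : (∫ x in {x ∈ U | 0 < u x}, ∑ i, pd (b i) (fun y => gradSq b u y * ρ y) x ^ 2)
      = ∫ x in {x ∈ U | 0 < u x}, ∑ i, pd (b i) φ x ^ 2 := by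
    refine setIntegral_congr_fun hΩ.measurableSet fun x hx => ?_
    refine Finset.sum_congr rfl fun i _ => ?_
    have h : pd (b i) (fun y => gradSq b u y * ρ y) x = pd (b i) (fun y => -φ y) x :=
      pd_congr hΩ hs (b i) hx
    rw [h, pd_neg]
    ring
  have e2 : (∫ x in {x ∈ U | 0 < u x},
        ∑ i, pd (b i) (fun y => (gradSq b u y * ρ y) ^ 2 * hmFn u y) x * pd (b i) u x)
      = ∫ x in {x ∈ U | 0 < u x},
        ∑ i, pd (b i) (fun y => φ y ^ 2 * hmFn u y) x * pd (b i) u x := by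
    refine setIntegral_congr_fun hΩ.measurableSet fun x hx => ?_
    refine Finset.sum_congr rfl fun i _ => ?_
    have hEq : Set.EqOn (fun y => (gradSq b u y * ρ y) ^ 2 * hmFn u y)
        (fun y => φ y ^ 2 * hmFn u y) {x ∈ U | 0 < u x} := by
      intro y hy
      show (gradSq b u y * ρ y) ^ 2 * hmFn u y = φ y ^ 2 * hmFn u y
      rw [hs y hy]
      ring
    have h : pd (b i) (fun y => (gradSq b u y * ρ y) ^ 2 * hmFn u y) x
        = pd (b i) (fun y => φ y ^ 2 * hmFn u y) x := pd_congr hΩ hEq (b i) hx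
    rw [h]
  rw [e1, e2] at hqeq
  -- the vector field
  have hX : ContDiff ℝ 2 (nmX b u ρ) := nmX_contDiff b hU hu hρ hρU
  have hXsupp : tsupport (nmX b u ρ) ⊆ tsupport ρ := nmX_tsupport b u ρ
  have hXc : HasCompactSupport (nmX b u ρ) :=
    IsCompact.of_isClosed_subset hρc (isClosed_tsupport _) hXsupp
  obtain ⟨R0, hR0⟩ := (Metric.isBounded_iff_subset_closedBall (0 : E)).1 hXc.isBounded
  -- continuity of the gradient and the bound
  have hgradc : ContinuousOn (fun x => gradient u x) U := by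
    have h1 : ContinuousOn (fderiv ℝ u) U :=
      hu.continuousOn_fderiv_of_isOpen hU (by norm_num)
    exact (LinearIsometryEquiv.continuous _).comp_continuousOn h1
  obtain ⟨M, hM0, hM⟩ := gradSq_bound b hU h0 hcone hu hhom' hcl
  have hΞ : ∀ x ∈ {x ∈ U | 0 < u x}, ‖gradient (solFn U u) x‖ ≤ Real.sqrt M := by
    intro x hx
    rw [solFn_gradient hΩ hx]
    have h1 : ‖gradient u x‖ ^ 2 ≤ M := by
      rw [norm_gradient_sq b u x]
      exact hM x hx
    have h2 := Real.abs_le_sqrt h1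
    rwa [abs_of_nonneg (norm_nonneg _)] at h2
  have hwd : ∀ x ∈ {x ∈ U | 0 < u x}, DifferentiableAt ℝ (solFn U u) x := fun x hx =>
    solFn_differentiableAt hΩ hx (diffAt hU hu (by norm_num) hx.1)
  -- integrability of the first order term
  have hlc : ContinuousOn (fun x => lform (fderiv ℝ (nmX b u ρ) x) (gradient u x)) U :=
    lform_continuousOn (hX.continuous_fderiv (by norm_num)).continuousOn hgradc
  have hlint : Integrable (fun x => lform (fderiv ℝ (nmX b u ρ) x) (gradient u x)) := by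
    have hsupp : Function.support (fun x => lform (fderiv ℝ (nmX b u ρ) x) (gradient u x))
        ⊆ tsupport ρ := by
      intro x hx
      by_contra hxρ
      apply hx
      show lform (fderiv ℝ (nmX b u ρ) x) (gradient u x) = 0
      rw [nmX_fderiv_zero b u hxρ, lform_zero]
    rw [← integrableOn_iff_integrable_of_support_subset hsupp]
    exact (hlc.mono hρU).integrableOn_compact hρc
  have hl : IntegrableOn (fun x => lform (fderiv ℝ (nmX b u ρ) x) (gradient (solFn U u) x))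
      {x ∈ U | 0 < u x} := by
    refine IntegrableOn.congr_fun hlint.integrableOn ?_ hΩ.measurableSet
    intro x hx
    show lform (fderiv ℝ (nmX b u ρ) x) (gradient u x)
      = lform (fderiv ℝ (nmX b u ρ) x) (gradient (solFn U u) x)
    rw [solFn_gradient hΩ hx]
  have hq : IntegrableOn (fun x => qform (fderiv ℝ (nmX b u ρ) x) (gradient (solFn U u) x))
      {x ∈ U | 0 < u x} := by
    refine IntegrableOn.congr_fun hqint ?_ hΩ.measurableSet
    intro x hx
    show qform (fderiv ℝ (nmX b u ρ) x) (gradient u x)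
      = qform (fderiv ℝ (nmX b u ρ) x) (gradient (solFn U u) x)
    rw [solFn_gradient hΩ hx]
  have hqeq' : (∫ x in {x ∈ U | 0 < u x},
        qform (fderiv ℝ (nmX b u ρ) x) (gradient (solFn U u) x))
      = ∫ x in {x ∈ U | 0 < u x}, qform (fderiv ℝ (nmX b u ρ) x) (gradient u x) := by
    refine setIntegral_congr_fun hΩ.measurableSet fun x hx => ?_
    show qform (fderiv ℝ (nmX b u ρ) x) (gradient (solFn U u) x)
      = qform (fderiv ℝ (nmX b u ρ) x) (gradient u x)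
    rw [solFn_gradient hΩ hx]
  obtain ⟨C, τ, hC0, hτ, hmain⟩ := inner_variation_bound hΩ (w := solFn U u) solFn_pos_set hwd hΞ
    (hX.of_le (by norm_num)) hXc hR0 hl hq
  -- the two integrals
  obtain ⟨E1, hE1⟩ : ∃ E1 : ℝ, E1 = ∫ x in {x ∈ U | 0 < u x},
      lform (fderiv ℝ (nmX b u ρ) x) (gradient (solFn U u) x) := ⟨_, rfl⟩
  obtain ⟨Q, hQ⟩ : ∃ Q : ℝ, Q = ∫ x in {x ∈ U | 0 < u x},
      qform (fderiv ℝ (nmX b u ρ) x) (gradient (solFn U u) x) := ⟨_, rfl⟩
  have hQneg : Q < 0 := by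
    rw [hQ, hqeq', hqeq]
    exact hneg
  -- the choice of the parameter
  obtain ⟨τ', hτ'def⟩ : ∃ τ' : ℝ, τ' = min τ (-Q / (2 * (C + 1))) := ⟨_, rfl⟩
  have hτ'pos : 0 < τ' := by
    rw [hτ'def]
    exact lt_min hτ (div_pos (neg_pos.2 hQneg) (by linarith))
  have hτ'le : τ' ≤ τ := by
    rw [hτ'def]
    exact min_le_left _ _
  have h3 : C * τ' ^ 3 ≤ τ' ^ 2 * (-Q / 2) := by
    have h4 : τ' ≤ -Q / (2 * (C + 1)) := by
      rw [hτ'def]
      exact min_le_right _ _
    have hC1 : 0 < C + 1 := by linarith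
    have h5 : C * τ' ≤ -Q / 2 := by
      have h6 : C * τ' ≤ C * (-Q / (2 * (C + 1))) := mul_le_mul_of_nonneg_left h4 hC0
      have h7 : C * (-Q / (2 * (C + 1))) = (C / (C + 1)) * (-Q / 2) := by
        field_simp
      have h8 : C / (C + 1) ≤ 1 := by
        rw [div_le_one hC1]
        linarith
      have h9 : (C / (C + 1)) * (-Q / 2) ≤ 1 * (-Q / 2) :=
        mul_le_mul_of_nonneg_right h8 (by linarith)
      linarith
    calc C * τ' ^ 3 = τ' ^ 2 * (C * τ') := by ring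
      _ ≤ τ' ^ 2 * (-Q / 2) := mul_le_mul_of_nonneg_left h5 (sq_nonneg _)
  obtain ⟨t, htabs, htE⟩ : ∃ t : ℝ, |t| = τ' ∧ t * E1 ≤ 0 := by
    by_cases hE : 0 ≤ E1
    · refine ⟨-τ', ?_, ?_⟩
      · rw [abs_neg, abs_of_pos hτ'pos]
      · have := mul_nonneg hτ'pos.le hE
        linarith
    · refine ⟨τ', abs_of_pos hτ'pos, ?_⟩
      have hE' : E1 ≤ 0 := (not_le.1 hE).le
      exact mul_nonpos_of_nonneg_of_nonpos hτ'pos.le hE'
  obtain ⟨Φ, hLip, hLipS, hΦid, hΦr⟩ := hmain t (by rw [htabs]; exact hτ'le)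
  refine ⟨Φ, R0 + 1, hLip, hLipS, hΦid, ?_⟩
  intro r hr
  obtain ⟨hI1, hI2, hle⟩ := hΦr r hr
  refine ⟨hI1, hI2, ?_⟩
  rw [← hE1, ← hQ, htabs] at hle
  have ht2 : t ^ 2 = τ' ^ 2 := by
    rw [← htabs, sq_abs]
  rw [ht2] at hle
  have h10 : τ' ^ 2 * Q + C * τ' ^ 3 < 0 := by
    have h11 : 0 < τ' ^ 2 := by positivity
    nlinarith
  linarith

end Vale.Agent.Lib.P098
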