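import Vale.Agent.Lib.P098.NMSol

/-!
The global solution `u⁺` attached to a classical cone is continuous and globally Lipschitz.
-/

namespace Vale.Agent.Lib.P098

open Finset MeasureTheory
open scoped ContDiff Topology InnerProductSpace

variable {E : Type*} [NormedAddCommGroup E] [InnerProductSpace ℝ E] [FiniteDimensional ℝ E]
variable {ι : Type*} [Fintype ι]
variable {U : Set E} {u : E → ℝ}

theorem u_le_norm (h0 : (0 : E) ∉ U)
    (hcone : ∀ x ∈ U, ∀ t : ℝ, 0 < t → t • x ∈ U) (hc : ContinuousOn u U)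
    (hhom : ∀ x ∈ U, ∀ t : ℝ, 0 < t → u (t • x) = t * u x)
    (hcl : closure {x ∈ U | 0 < u x} ⊆ insert 0 U) :
    ∃ M : ℝ, 0 ≤ M ∧ ∀ x ∈ {x ∈ U | 0 < u x}, u x ≤ M * ‖x‖ := by
  have hKc : IsCompact (closure {x ∈ U | 0 < u x} ∩ Metric.sphere (0 : E) 1) :=
    (isCompact_sphere (0 : E) 1).inter_left isClosed_closure
  have hKU : closure {x ∈ U | 0 < u x} ∩ Metric.sphere (0 : E) 1 ⊆ U := by
    intro x hx
    rcases hcl hx.1 with h | h
    · exfalso
      have h1 : ‖x‖ = 1 := mem_sphere_zero_iff_norm.1 hx.2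
      rw [h, norm_zero] at h1
      exact zero_ne_one h1
    · exact h
  obtain ⟨M, hM⟩ := (hKc.image_of_continuousOn (hc.mono hKU)).bddAbove
  refine ⟨max M 0, le_max_right _ _, ?_⟩
  intro x hx
  have hx0 : x ≠ 0 := fun h => h0 (h ▸ hx.1)
  have hn : 0 < ‖x‖ := norm_pos_iff.2 hx0
  have ht : 0 < ‖x‖⁻¹ := inv_pos.2 hn
  have hyU : ‖x‖⁻¹ • x ∈ U := hcone x hx.1 _ ht
  have hyu : u (‖x‖⁻¹ • x) = ‖x‖⁻¹ * u x := hhom x hx.1 _ ht
  have hyΩ : ‖x‖⁻¹ • x ∈ {x ∈ U | 0 < u x} := by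
    refine ⟨hyU, ?_⟩
    rw [hyu]
    exact mul_pos ht hx.2
  have hys : ‖x‖⁻¹ • x ∈ Metric.sphere (0 : E) 1 := by
    rw [mem_sphere_zero_iff_norm, norm_smul, norm_inv, norm_norm, inv_mul_cancel₀ hn.ne']
  have hle : u (‖x‖⁻¹ • x) ≤ M := hM ⟨_, ⟨subset_closure hyΩ, hys⟩, rfl⟩
  rw [hyu] at hle
  have h1 : u x = ‖x‖ * (‖x‖⁻¹ * u x) := by
    rw [← mul_assoc, mul_inv_cancel₀ hn.ne', one_mul]
  rw [h1, mul_comm (max M 0)]
  exact mul_le_mul_of_nonneg_left (hle.trans (le_max_left _ _)) hn.le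

theorem solFn_continuous (hU : IsOpen U) (h0 : (0 : E) ∉ U)
    (hcone : ∀ x ∈ U, ∀ t : ℝ, 0 < t → t • x ∈ U) (hc : ContinuousOn u U)
    (hhom : ∀ x ∈ U, ∀ t : ℝ, 0 < t → u (t • x) = t * u x)
    (hcl : closure {x ∈ U | 0 < u x} ⊆ insert 0 U) : Continuous (solFn U u) := by
  have hΩ : IsOpen {x ∈ U | 0 < u x} := by
    have h := hc.isOpen_inter_preimage hU (isOpen_Ioi (a := (0 : ℝ)))
    have e : {x ∈ U | 0 < u x} = U ∩ u ⁻¹' Set.Ioi 0 := by
      ext x
      simp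
    rw [e]
    exact h
  obtain ⟨M, hM0, hM⟩ := u_le_norm h0 hcone hc hhom hcl
  rw [continuous_iff_continuousAt]
  intro x
  by_cases hxΩ : x ∈ {x ∈ U | 0 < u x}
  · exact (hc.continuousAt (hU.mem_nhds hxΩ.1)).congr (solFn_eventuallyEq hΩ hxΩ).symm
  by_cases hxcl : x ∈ closure {x ∈ U | 0 < u x}
  · rcases hcl hxcl with hx0 | hxU
    · have hsol0 : solFn U u x = 0 := solFn_of_notMem hxΩ
      have hb : ∀ y, ‖solFn U u y‖ ≤ M * ‖y‖ := by
        intro y
        by_cases hy : y ∈ {x ∈ U | 0 < u x}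
        · rw [solFn_of_mem hy, Real.norm_eq_abs, abs_of_pos hy.2]
          exact hM y hy
        · rw [solFn_of_notMem hy, norm_zero]
          positivity
      unfold ContinuousAt
      rw [hsol0, hx0]
      refine squeeze_zero_norm hb ?_
      have h1 : Filter.Tendsto (fun y : E => M * ‖y‖) (𝓝 0) (𝓝 (M * ‖(0 : E)‖)) :=
        (continuous_const.mul continuous_norm).tendsto 0
      rw [norm_zero, mul_zero] at h1
      exact h1
    · have heq : solFn U u =ᶠ[𝓝 x] fun y => max (u y) 0 := by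
        filter_upwards [hU.mem_nhds hxU] with y hyU
        by_cases hy : y ∈ {x ∈ U | 0 < u x}
        · rw [solFn_of_mem hy, max_eq_left hy.2.le]
        · rw [solFn_of_notMem hy, max_eq_right (not_lt.1 fun h => hy ⟨hyU, h⟩)]
      have hmax : ContinuousAt (fun y => max (u y) 0) x :=
        (hc.continuousAt (hU.mem_nhds hxU)).max continuousAt_const
      exact hmax.congr heq.symm
  · have heq : solFn U u =ᶠ[𝓝 x] fun _ => (0 : ℝ) := by
      filter_upwards [isClosed_closure.isOpen_compl.mem_nhds hxcl] with y hy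
      exact solFn_of_notMem fun h => hy (subset_closure h)
    have hconst : ContinuousAt (fun _ : E => (0 : ℝ)) x := continuousAt_const
    exact hconst.congr heq.symm

/-- Along a segment leaving the positive phase, `u` is controlled by the gradient bound. -/
theorem u_le_dist {Ξ : ℝ} (hΩ : IsOpen {x ∈ U | 0 < u x}) (hsc : Continuous (solFn U u))
    (hd : ∀ x ∈ {x ∈ U | 0 < u x}, DifferentiableAt ℝ u x)
    (hΞ : ∀ x ∈ {x ∈ U | 0 < u x}, ‖fderiv ℝ u x‖ ≤ Ξ) {x z : E}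
    (hx : x ∈ {x ∈ U | 0 < u x}) (hz : z ∉ {x ∈ U | 0 < u x}) : u x ≤ Ξ * ‖z - x‖ := by
  have hΞ0 : 0 ≤ Ξ := (norm_nonneg _).trans (hΞ x hx)
  obtain ⟨γ, hγ⟩ : ∃ γ : ℝ → E, γ = fun s => x + s • (z - x) := ⟨_, rfl⟩
  have hγc : Continuous γ := by
    rw [hγ]
    exact continuous_const.add (continuous_id.smul continuous_const)
  have hγ0 : γ 0 = x := by
    rw [hγ]
    simp
  have hγ1 : γ 1 = z := by
    rw [hγ]
    simp
  obtain ⟨S, hS⟩ : ∃ S : Set ℝ, S = Set.Icc 0 1 ∩ γ ⁻¹' {x ∈ U | 0 < u x}ᶜ := ⟨_, rfl⟩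
  have hSclosed : IsClosed S := by
    rw [hS]
    exact isClosed_Icc.inter (hΩ.isClosed_compl.preimage hγc)
  have h1S : (1 : ℝ) ∈ S := by
    rw [hS]
    refine ⟨⟨zero_le_one, le_rfl⟩, ?_⟩
    show γ 1 ∉ {x ∈ U | 0 < u x}
    rw [hγ1]
    exact hz
  have hSb : BddBelow S := ⟨0, fun s hs => by
    rw [hS] at hs
    exact hs.1.1⟩
  have hs0S : sInf S ∈ S := hSclosed.csInf_mem ⟨1, h1S⟩ hSb
  obtain ⟨s0, hs0⟩ : ∃ s0 : ℝ, s0 = sInf S := ⟨_, rfl⟩
  rw [← hs0] at hs0S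
  have hs0S' : s0 ∈ Set.Icc (0 : ℝ) 1 ∩ γ ⁻¹' {x ∈ U | 0 < u x}ᶜ := by
    rw [← hS]
    exact hs0S
  have hs0pos : 0 < s0 := by
    rcases hs0S'.1.1.lt_or_eq with h | h
    · exact h
    · exfalso
      have h2 : γ s0 ∉ {x ∈ U | 0 < u x} := hs0S'.2
      rw [← h, hγ0] at h2
      exact h2 hx
  have hin : ∀ s, 0 ≤ s → s < s0 → γ s ∈ {x ∈ U | 0 < u x} := by
    intro s hs hlt
    by_contra hn
    have h2 : s ∈ S := by
      rw [hS]
      exact ⟨⟨hs, hlt.le.trans hs0S'.1.2⟩, hn⟩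
    have h3 := csInf_le hSb h2
    rw [← hs0] at h3
    exact absurd h3 (not_le.2 hlt)
  have hbound : ∀ s, 0 ≤ s → s < s0 → u x ≤ solFn U u (γ s) + Ξ * ‖z - x‖ := by
    intro s hs hlt
    have hs1 : s ≤ 1 := hlt.le.trans hs0S'.1.2
    have hseg : ∀ p ∈ segment ℝ x (γ s), p ∈ {x ∈ U | 0 < u x} := by
      intro p hp
      rw [segment_eq_image_lineMap] at hp
      obtain ⟨θ, hθ, rfl⟩ := hp
      have h2 : AffineMap.lineMap x (γ s) θ = γ (θ * s) := by
        rw [hγ]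
        simp only [AffineMap.lineMap_apply, vsub_eq_sub, vadd_eq_add, add_sub_cancel_left]
        rw [smul_smul, add_comm]
      rw [h2]
      exact hin _ (mul_nonneg hθ.1 hs)
        (lt_of_le_of_lt (mul_le_of_le_one_left hs hθ.2) hlt)
    have h1 := Convex.norm_image_sub_le_of_norm_fderiv_le (𝕜 := ℝ) (f := u)
      (fun p hp => hd p (hseg p hp)) (fun p hp => hΞ p (hseg p hp))
      (convex_segment x (γ s)) (left_mem_segment ℝ x (γ s)) (right_mem_segment ℝ x (γ s))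
    have h2 : ‖γ s - x‖ ≤ ‖z - x‖ := by
      have h3 : γ s - x = s • (z - x) := by
        rw [hγ]
        simp
      rw [h3, norm_smul, Real.norm_eq_abs, abs_of_nonneg hs]
      exact mul_le_of_le_one_left (norm_nonneg _) hs1
    have h3 : solFn U u (γ s) = u (γ s) := solFn_of_mem (hin s hs hlt)
    rw [Real.norm_eq_abs] at h1
    have h4 := (abs_le.1 h1).1
    have h5 : Ξ * ‖γ s - x‖ ≤ Ξ * ‖z - x‖ := mul_le_mul_of_nonneg_left h2 hΞ0
    rw [h3]
    linarith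
  have hlim : Filter.Tendsto (fun s => solFn U u (γ s) + Ξ * ‖z - x‖) (𝓝[<] s0)
      (𝓝 (solFn U u (γ s0) + Ξ * ‖z - x‖)) :=
    (((hsc.comp hγc).add continuous_const).tendsto s0).mono_left nhdsWithin_le_nhds
  have hsol0 : solFn U u (γ s0) = 0 := solFn_of_notMem hs0S'.2
  rw [hsol0, zero_add] at hlim
  refine ge_of_tendsto hlim ?_
  filter_upwards [Ioo_mem_nhdsLT hs0pos] with s hs
  exact hbound s hs.1.le hs.2

theorem solFn_dist_le {Ξ : ℝ} (hΞ0 : 0 ≤ Ξ) (hΩ : IsOpen {x ∈ U | 0 < u x})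
    (hsc : Continuous (solFn U u))
    (hd : ∀ x ∈ {x ∈ U | 0 < u x}, DifferentiableAt ℝ u x)
    (hΞ : ∀ x ∈ {x ∈ U | 0 < u x}, ‖fderiv ℝ u x‖ ≤ Ξ) (x y : E) :
    |solFn U u x - solFn U u y| ≤ Ξ * ‖x - y‖ := by
  by_cases hx : x ∈ {x ∈ U | 0 < u x}
  · by_cases hy : y ∈ {x ∈ U | 0 < u x}
    · rw [solFn_of_mem hx, solFn_of_mem hy]
      by_cases hseg : segment ℝ x y ⊆ {x ∈ U | 0 < u x}
      · have h1 := Convex.norm_image_sub_le_of_norm_fderiv_le (𝕜 := ℝ) (f := u)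
          (fun p hp => hd p (hseg hp)) (fun p hp => hΞ p (hseg hp))
          (convex_segment x y) (right_mem_segment ℝ x y) (left_mem_segment ℝ x y)
        rwa [Real.norm_eq_abs] at h1
      · obtain ⟨z, hz, hzΩ⟩ := Set.not_subset.1 hseg
        have h1 := u_le_dist hΩ hsc hd hΞ hx hzΩ
        have h2 := u_le_dist hΩ hsc hd hΞ hy hzΩ
        have h3 := dist_add_dist_of_mem_segment hz
        rw [dist_eq_norm, dist_eq_norm, dist_eq_norm] at h3
        have h4 : ‖z - x‖ ≤ ‖x - y‖ := by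
          rw [norm_sub_rev]
          linarith [norm_nonneg (z - y)]
        have h5 : ‖z - y‖ ≤ ‖x - y‖ := by
          linarith [norm_nonneg (x - z)]
        have h6 := mul_le_mul_of_nonneg_left h4 hΞ0
        have h7 := mul_le_mul_of_nonneg_left h5 hΞ0
        have hx2 : 0 < u x := hx.2
        have hy2 : 0 < u y := hy.2
        rw [abs_le]
        constructor
        · linarith
        · linarith
    · rw [solFn_of_mem hx, solFn_of_notMem hy, sub_zero, abs_of_pos hx.2]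
      have h1 := u_le_dist hΩ hsc hd hΞ hx hy
      rwa [norm_sub_rev] at h1
  · by_cases hy : y ∈ {x ∈ U | 0 < u x}
    · rw [solFn_of_notMem hx, solFn_of_mem hy, zero_sub, abs_neg, abs_of_pos hy.2]
      exact u_le_dist hΩ hsc hd hΞ hy hx
    · rw [solFn_of_notMem hx, solFn_of_notMem hy, sub_zero, abs_zero]
      positivity

/-- The global solution attached to a classical cone is Lipschitz. -/
theorem solFn_lipschitz (b : OrthonormalBasis ι ℝ E) (hU : IsOpen U) (h0 : (0 : E) ∉ U)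
    (hcone : ∀ x ∈ U, ∀ t : ℝ, 0 < t → t • x ∈ U) (hu : ContDiffOn ℝ 4 u U)
    (hhom : ∀ x ∈ U, ∀ t : ℝ, 0 < t → u (t • x) = t * u x)
    (hcl : closure {x ∈ U | 0 < u x} ⊆ insert 0 U) :
    ∃ K : NNReal, LipschitzWith K (solFn U u) := by
  have hhom' : HomOn 1 u U := fun y hy t ht => by
    rw [zpow_one]
    exact hhom y hy t ht
  have hΩ : IsOpen {x ∈ U | 0 < u x} := posSet_open hU hu
  have hsc := solFn_continuous hU h0 hcone hu.continuousOn hhom hcl
  obtain ⟨M, hM0, hM⟩ := gradSq_bound b hU h0 hcone hu hhom' hcl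
  have hΞ : ∀ x ∈ {x ∈ U | 0 < u x}, ‖fderiv ℝ u x‖ ≤ Real.sqrt M := by
    intro x hx
    have h0' : ‖fderiv ℝ u x‖ = ‖gradient u x‖ := by
      unfold gradient
      simp
    have h1 : ‖gradient u x‖ ^ 2 ≤ M := by
      rw [norm_gradient_sq b u x]
      exact hM x hx
    have h2 := Real.abs_le_sqrt h1
    rw [abs_of_nonneg (norm_nonneg _)] at h2
    rw [h0']
    exact h2
  refine ⟨Real.toNNReal (Real.sqrt M), LipschitzWith.of_dist_le_mul fun x y => ?_⟩
  rw [Real.dist_eq, dist_eq_norm, Real.coe_toNNReal _ (Real.sqrt_nonneg M)]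
  exact solFn_dist_le (Real.sqrt_nonneg M) hΩ hsc
    (fun p hp => diffAt hU hu (by norm_num) hp.1) hΞ x y

end Vale.Agent.Lib.P098
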