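import Vale.Agent.Lib.P098.NMSol
import Vale.Agent.Lib.P098.NMExpand
import Vale.Agent.Lib.P098.NMDiffeo
import Vale.Agent.Lib.P098.NMChange

/-!
The second inner variation bound: for a compactly supported `C¹` vector field `X` and
`Φ_t = id + t X`, the one-phase energy of `w ∘ Φ_t⁻¹` on a large ball is at most the energy
of `w` plus `t ∫ lform + t² ∫ qform + C |t|³`.
-/

namespace Vale.Agent.Lib.P098

open Finset MeasureTheory
open scoped ContDiff Topology InnerProductSpace

variable {E : Type*} [NormedAddCommGroup E] [InnerProductSpace ℝ E] [FiniteDimensional ℝ E]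

theorem ctr_zero : ctr (0 : E →L[ℝ] E) = 0 := by
  simp [ctr]

theorem lform_zero (ξ : E) : lform (0 : E →L[ℝ] E) ξ = 0 := by
  simp [lform, ctr_zero]

theorem qform_zero (ξ : E) : qform (0 : E →L[ℝ] E) ξ = 0 := by
  simp [qform, ctr_zero]

theorem det_one_add_zero (t : ℝ) : ((1 : E →L[ℝ] E) + t • (0 : E →L[ℝ] E)).det = 1 := by
  simp [ContinuousLinearMap.det]

theorem ctr_continuous : Continuous (fun A : E →L[ℝ] E => ctr A) :=
  LinearMap.continuous_of_finiteDimensional
    ((LinearMap.trace ℝ E).comp (ContinuousLinearMap.coeLM ℝ))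

theorem lform_continuousOn {S : Set E} {A : E → E →L[ℝ] E} {ξ : E → E} (hA : ContinuousOn A S)
    (hξ : ContinuousOn ξ S) : ContinuousOn (fun x => lform (A x) (ξ x)) S := by
  unfold lform
  exact (((hξ.norm.pow 2).add continuousOn_const).mul (ctr_continuous.comp_continuousOn hA)).sub
    (continuousOn_const.mul ((hA.clm_apply hξ).inner hξ))

variable [MeasurableSpace E] [BorelSpace E]

/-- The image of the positive phase of `w` in a `Φ`-invariant set is the positive phase of
`w ∘ Φ⁻¹` in that set. -/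
theorem pos_set_image (Φ : E ≃ₜ E) {Ω : Set E} {w : E → ℝ} (hpos : {x | 0 < w x} = Ω)
    {B : Set E} (hBΦ : Φ '' B = B) :
    B ∩ {y | 0 < (w ∘ Φ.symm) y} = Φ '' (B ∩ Ω) := by
  ext y
  constructor
  · rintro ⟨hyB, hy⟩
    rw [← hBΦ] at hyB
    obtain ⟨x, hxB, rfl⟩ := hyB
    refine ⟨x, ⟨hxB, ?_⟩, rfl⟩
    rw [← hpos]
    have hy' : 0 < w (Φ.symm (Φ x)) := hy
    rw [Φ.symm_apply_apply] at hy'
    exact hy'
  · rintro ⟨x, ⟨hxB, hxΩ⟩, rfl⟩
    refine ⟨?_, ?_⟩
    · rw [← hBΦ]
      exact ⟨x, hxB, rfl⟩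
    · rw [← hpos] at hxΩ
      show 0 < w (Φ.symm (Φ x))
      rw [Φ.symm_apply_apply]
      exact hxΩ

/-- The second inner variation bound. -/
theorem inner_variation_bound {Ω : Set E} (hΩ : IsOpen Ω) {w : E → ℝ}
    (hpos : {x | 0 < w x} = Ω) (hwd : ∀ x ∈ Ω, DifferentiableAt ℝ w x)
    {Ξ : ℝ} (hΞ : ∀ x ∈ Ω, ‖gradient w x‖ ≤ Ξ)
    {X : E → E} (hX : ContDiff ℝ 1 X) (hXc : HasCompactSupport X) {R0 : ℝ}
    (hR0 : tsupport X ⊆ Metric.closedBall 0 R0)
    (hl : IntegrableOn (fun x => lform (fderiv ℝ X x) (gradient w x)) Ω)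
    (hq : IntegrableOn (fun x => qform (fderiv ℝ X x) (gradient w x)) Ω) :
    ∃ C τ : ℝ, 0 ≤ C ∧ 0 < τ ∧ ∀ t : ℝ, |t| ≤ τ → ∃ Φ : E ≃ₜ E,
      LipschitzWith 2 Φ ∧ LipschitzWith 2 Φ.symm ∧ (∀ x, R0 + 1 ≤ ‖x‖ → Φ x = x) ∧
      ∀ r : ℝ, R0 + 1 < r →
        IntegrableOn (fun y => ‖gradient (w ∘ Φ.symm) y‖ ^ 2 + 1)
          (Metric.ball 0 r ∩ {y | 0 < (w ∘ Φ.symm) y}) ∧
        IntegrableOn (fun x => ‖gradient w x‖ ^ 2 + 1) (Metric.ball 0 r ∩ Ω) ∧
        (∫ y in Metric.ball 0 r ∩ {y | 0 < (w ∘ Φ.symm) y},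
            (‖gradient (w ∘ Φ.symm) y‖ ^ 2 + 1))
          ≤ (∫ x in Metric.ball 0 r ∩ Ω, (‖gradient w x‖ ^ 2 + 1))
            + t * (∫ x in Ω, lform (fderiv ℝ X x) (gradient w x))
            + t ^ 2 * (∫ x in Ω, qform (fderiv ℝ X x) (gradient w x)) + C * |t| ^ 3 := by
  obtain ⟨L, hL0, hDX, hXb, hdiff⟩ := exists_diffeo hX hXc
  obtain ⟨C, t0, hC0, ht0, hexp⟩ := pullback_expansion (E := E) L Ξ
  have hKc : IsCompact (tsupport X) := hXc
  have hKm : MeasurableSet (tsupport X) := hKc.measurableSet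
  refine ⟨C * volume.real (tsupport X), min t0 (1 / (2 * (L + 1))),
    mul_nonneg hC0 measureReal_nonneg, lt_min ht0 (by positivity), ?_⟩
  intro t ht
  have ht1 : |t| ≤ t0 := ht.trans (min_le_left _ _)
  have ht2 : |t| * L ≤ 1 / 2 := by
    have h := ht.trans (min_le_right _ _)
    have hL1 : 0 < 2 * (L + 1) := by linarith
    calc |t| * L ≤ 1 / (2 * (L + 1)) * L := mul_le_mul_of_nonneg_right h hL0
      _ ≤ 1 / 2 := by
        rw [div_mul_eq_mul_div, one_mul, div_le_div_iff₀ hL1 two_pos]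
        linarith
  obtain ⟨Φ, hΦeq, hΦd, hunit, hLip, hLipS⟩ := hdiff t ht2
  have hid : ∀ x, x ∉ tsupport X → Φ x = x := by
    intro x hx
    rw [hΦeq x, image_eq_zero_of_notMem_tsupport hx, smul_zero, add_zero]
  have hA0 : ∀ x, x ∉ tsupport X → fderiv ℝ X x = 0 := fun x hx =>
    fderiv_of_notMem_tsupport ℝ hx
  refine ⟨Φ, hLip, hLipS, ?_, ?_⟩
  · intro x hx
    apply hid
    intro hxK
    have h1 := hR0 hxK
    rw [mem_closedBall_zero_iff] at h1
    linarith
  intro r hr
  have hBm : MeasurableSet (Metric.ball (0 : E) r) := measurableSet_ball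
  have hKB : tsupport X ⊆ Metric.ball (0 : E) r := fun x hx => by
    have h1 := hR0 hx
    rw [mem_closedBall_zero_iff] at h1
    rw [mem_ball_zero_iff]
    linarith
  have hBΦ : Φ '' Metric.ball (0 : E) r = Metric.ball (0 : E) r := by
    ext y
    constructor
    · rintro ⟨x, hxB, rfl⟩
      by_cases hxK : x ∈ tsupport X
      · have h1 := hR0 hxK
        rw [mem_closedBall_zero_iff] at h1
        rw [mem_ball_zero_iff, hΦeq x]
        have h2 : ‖t • X x‖ ≤ 1 / 2 := by
          rw [norm_smul, Real.norm_eq_abs]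
          exact (mul_le_mul_of_nonneg_left (hXb x) (abs_nonneg t)).trans ht2
        calc ‖x + t • X x‖ ≤ ‖x‖ + ‖t • X x‖ := norm_add_le _ _
          _ < r := by linarith
      · rw [hid x hxK]
        exact hxB
    · intro hy
      refine ⟨Φ.symm y, ?_, Φ.apply_symm_apply y⟩
      by_cases hxK : Φ.symm y ∈ tsupport X
      · exact hKB hxK
      · have h1 := hid _ hxK
        rw [Φ.apply_symm_apply] at h1
        rw [← h1]
        exact hy
  -- the pulled-back gradient
  have hW : ∀ x ∈ Ω, gradient (w ∘ Φ.symm) (Φ x)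
      + t • ContinuousLinearMap.adjoint (fderiv ℝ X x) (gradient (w ∘ Φ.symm) (Φ x))
        = gradient w x := by
    intro x hx
    apply ext_inner_right ℝ
    intro z
    have h := gradient_pullback Φ (fun x => 1 + t • fderiv ℝ X x) hΦd hunit (hwd x hx) z
    rw [inner_add_left, real_inner_smul_left, ContinuousLinearMap.adjoint_inner_left, ← h]
    simp [inner_add_right]
  have hpt : ∀ x ∈ Ω, |(1 + t • fderiv ℝ X x).det| * (‖gradient (w ∘ Φ.symm) (Φ x)‖ ^ 2 + 1)
      ≤ (‖gradient w x‖ ^ 2 + 1) + t * lform (fderiv ℝ X x) (gradient w x)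
        + t ^ 2 * qform (fderiv ℝ X x) (gradient w x)
        + C * |t| ^ 3 * (tsupport X).indicator (fun _ => (1 : ℝ)) x := by
    intro x hx
    by_cases hxK : x ∈ tsupport X
    · rw [Set.indicator_of_mem hxK, mul_one]
      exact hexp _ _ _ t (hDX x) (hΞ x hx) ht1 (hW x hx)
    · rw [Set.indicator_of_notMem hxK, mul_zero, add_zero]
      have hA := hA0 x hxK
      have hWx := hW x hx
      rw [hA] at hWx ⊢
      simp only [map_zero, zero_apply, smul_zero, add_zero] at hWx
      rw [hWx, det_one_add_zero, lform_zero, qform_zero]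
      simp
  have hcov := energy_change_of_variables Φ (fun x => 1 + t • fderiv ℝ X x) hΦd hΩ hpos hBm hBΦ
  have hBΩm : MeasurableSet (Metric.ball (0 : E) r ∩ Ω) := hBm.inter hΩ.measurableSet
  have hfin : volume (Metric.ball (0 : E) r ∩ Ω) ≠ ⊤ :=
    ((measure_mono Set.inter_subset_left).trans_lt measure_ball_lt_top).ne
  have hF0m : Measurable (fun x => ‖gradient w x‖ ^ 2 + 1) :=
    ((measurable_gradient_norm w).pow_const 2).add_const 1
  have hF0 : IntegrableOn (fun x => ‖gradient w x‖ ^ 2 + 1) (Metric.ball (0 : E) r ∩ Ω) := by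
    refine Measure.integrableOn_of_bounded hfin hF0m.aestronglyMeasurable (M := Ξ ^ 2 + 1) ?_
    refine (ae_restrict_iff' hBΩm).2 (Filter.Eventually.of_forall fun x hx => ?_)
    rw [Real.norm_eq_abs, abs_of_nonneg (by positivity)]
    have h1 := hΞ x hx.2
    have h2 : ‖gradient w x‖ ^ 2 ≤ Ξ ^ 2 := pow_le_pow_left₀ (norm_nonneg _) h1 2
    linarith
  have hl' : IntegrableOn (fun x => lform (fderiv ℝ X x) (gradient w x))
      (Metric.ball (0 : E) r ∩ Ω) := hl.mono_set Set.inter_subset_right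
  have hq' : IntegrableOn (fun x => qform (fderiv ℝ X x) (gradient w x))
      (Metric.ball (0 : E) r ∩ Ω) := hq.mono_set Set.inter_subset_right
  have hindI : Integrable ((tsupport X).indicator (fun _ => (1 : ℝ))) :=
    (integrable_indicator_iff hKm).2 (integrableOn_const hKc.measure_lt_top.ne)
  have hind : IntegrableOn (fun x => (tsupport X).indicator (fun _ => (1 : ℝ)) x)
      (Metric.ball (0 : E) r ∩ Ω) := hindI.integrableOn
  have h1I : IntegrableOn (fun x => t * lform (fderiv ℝ X x) (gradient w x))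
      (Metric.ball (0 : E) r ∩ Ω) := hl'.const_mul t
  have h2I : IntegrableOn (fun x => t ^ 2 * qform (fderiv ℝ X x) (gradient w x))
      (Metric.ball (0 : E) r ∩ Ω) := hq'.const_mul (t ^ 2)
  have h3I : IntegrableOn (fun x => C * |t| ^ 3 * (tsupport X).indicator (fun _ => (1 : ℝ)) x)
      (Metric.ball (0 : E) r ∩ Ω) := hind.const_mul (C * |t| ^ 3)
  have h01 : IntegrableOn (fun x => (‖gradient w x‖ ^ 2 + 1)
      + t * lform (fderiv ℝ X x) (gradient w x)) (Metric.ball (0 : E) r ∩ Ω) := hF0.add h1I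
  have h012 : IntegrableOn (fun x => (‖gradient w x‖ ^ 2 + 1)
      + t * lform (fderiv ℝ X x) (gradient w x)
      + t ^ 2 * qform (fderiv ℝ X x) (gradient w x)) (Metric.ball (0 : E) r ∩ Ω) :=
    h01.add h2I
  have hG : IntegrableOn (fun x => (‖gradient w x‖ ^ 2 + 1)
      + t * lform (fderiv ℝ X x) (gradient w x)
      + t ^ 2 * qform (fderiv ℝ X x) (gradient w x)
      + C * |t| ^ 3 * (tsupport X).indicator (fun _ => (1 : ℝ)) x)
      (Metric.ball (0 : E) r ∩ Ω) := h012.add h3I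
  have hFm : Measurable (fun x => |(1 + t • fderiv ℝ X x).det|
      * (‖gradient (w ∘ Φ.symm) (Φ x)‖ ^ 2 + 1)) := by
    have h1 : Continuous (fun x => (1 + t • fderiv ℝ X x).det) :=
      ContinuousLinearMap.continuous_det.comp
        (continuous_const.add ((hX.continuous_fderiv one_ne_zero).const_smul t))
    have h2 : Measurable (fun x => ‖gradient (w ∘ Φ.symm) (Φ x)‖) :=
      (measurable_gradient_norm (w ∘ Φ.symm)).comp Φ.continuous.measurable
    exact h1.measurable.abs.mul ((h2.pow_const 2).add_const 1)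
  have hFint : IntegrableOn (fun x => |(1 + t • fderiv ℝ X x).det|
      * (‖gradient (w ∘ Φ.symm) (Φ x)‖ ^ 2 + 1)) (Metric.ball (0 : E) r ∩ Ω) := by
    refine Integrable.mono' hG hFm.aestronglyMeasurable ?_
    refine (ae_restrict_iff' hBΩm).2 (Filter.Eventually.of_forall fun x hx => ?_)
    rw [Real.norm_eq_abs, abs_of_nonneg (by positivity)]
    exact hpt x hx.2
  have hmono := setIntegral_mono_on hFint hG hBΩm (fun x hx => hpt x hx.2)
  have hsplit : (∫ x in Metric.ball (0 : E) r ∩ Ω, ((‖gradient w x‖ ^ 2 + 1)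
      + t * lform (fderiv ℝ X x) (gradient w x)
      + t ^ 2 * qform (fderiv ℝ X x) (gradient w x)
      + C * |t| ^ 3 * (tsupport X).indicator (fun _ => (1 : ℝ)) x))
      = (∫ x in Metric.ball (0 : E) r ∩ Ω, (‖gradient w x‖ ^ 2 + 1))
        + t * (∫ x in Metric.ball (0 : E) r ∩ Ω, lform (fderiv ℝ X x) (gradient w x))
        + t ^ 2 * (∫ x in Metric.ball (0 : E) r ∩ Ω, qform (fderiv ℝ X x) (gradient w x))
        + C * |t| ^ 3 * ∫ x in Metric.ball (0 : E) r ∩ Ω,
            (tsupport X).indicator (fun _ => (1 : ℝ)) x := by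
    rw [integral_add h012 h3I, integral_add h01 h2I, integral_add hF0 h1I,
      integral_const_mul, integral_const_mul, integral_const_mul]
  have hlr : (∫ x in Metric.ball (0 : E) r ∩ Ω, lform (fderiv ℝ X x) (gradient w x))
      = ∫ x in Ω, lform (fderiv ℝ X x) (gradient w x) := by
    symm
    refine setIntegral_eq_of_subset_of_forall_sdiff_eq_zero hΩ.measurableSet
      Set.inter_subset_right ?_
    intro x hx
    have hxB : x ∉ Metric.ball (0 : E) r := fun h => hx.2 ⟨h, hx.1⟩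
    rw [hA0 x (fun h => hxB (hKB h)), lform_zero]
  have hqr : (∫ x in Metric.ball (0 : E) r ∩ Ω, qform (fderiv ℝ X x) (gradient w x))
      = ∫ x in Ω, qform (fderiv ℝ X x) (gradient w x) := by
    symm
    refine setIntegral_eq_of_subset_of_forall_sdiff_eq_zero hΩ.measurableSet
      Set.inter_subset_right ?_
    intro x hx
    have hxB : x ∉ Metric.ball (0 : E) r := fun h => hx.2 ⟨h, hx.1⟩
    rw [hA0 x (fun h => hxB (hKB h)), qform_zero]
  have hvol : (∫ x in Metric.ball (0 : E) r ∩ Ω, (tsupport X).indicator (fun _ => (1 : ℝ)) x)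
      ≤ volume.real (tsupport X) := by
    have h1 := setIntegral_le_integral (s := Metric.ball (0 : E) r ∩ Ω) hindI
      (Filter.Eventually.of_forall fun x => Set.indicator_nonneg (fun _ _ => zero_le_one) x)
    have h2 : (∫ x, (tsupport X).indicator (fun _ => (1 : ℝ)) x)
        = volume.real (tsupport X) := by
      rw [integral_indicator_const (1 : ℝ) hKm, smul_eq_mul, mul_one]
    exact h1.trans h2.le
  have hset := pos_set_image Φ hpos hBΦ
  refine ⟨?_, hF0, ?_⟩
  · rw [hset, integrableOn_image_iff_integrableOn_abs_det_fderiv_smul volume hBΩm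
      (fun x _ => (hΦd x).hasFDerivWithinAt) Φ.injective.injOn]
    exact hFint
  · rw [hcov]
    refine hmono.trans ?_
    rw [hsplit, hlr, hqr]
    have h3 : C * |t| ^ 3 * (∫ x in Metric.ball (0 : E) r ∩ Ω,
        (tsupport X).indicator (fun _ => (1 : ℝ)) x)
        ≤ C * |t| ^ 3 * volume.real (tsupport X) :=
      mul_le_mul_of_nonneg_left hvol (by positivity)
    linarith

end Vale.Agent.Lib.P098
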