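import Vale.Agent.Lib.P098.NMFinal
import Vale.Agent.Lib.P098.NMLip

/-!
Nondegenerate pinched classical cones are not minimizers of the one-phase energy: an explicit
Lipschitz competitor with strictly smaller energy on every large ball.
-/

namespace Vale.Agent.Lib.P098

open Finset MeasureTheory
open scoped ContDiff Topology InnerProductSpace

variable {E : Type*} [NormedAddCommGroup E] [InnerProductSpace ℝ E] [FiniteDimensional ℝ E]
variable {ι : Type*} [Fintype ι]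
variable {U : Set E} {u : E → ℝ}
variable [MeasurableSpace E] [BorelSpace E]

/-- An unstable classical cone is not a minimizer: a Lipschitz competitor that agrees with
the solution outside a ball and has strictly smaller energy on every larger ball. -/
theorem unstable_competitor (b : OrthonormalBasis ι ℝ E)
    (hU : IsOpen U) (h0 : (0 : E) ∉ U) (hcone : ∀ x ∈ U, ∀ t : ℝ, 0 < t → t • x ∈ U)
    (hu : ContDiffOn ℝ 4 u U) (hhom : ∀ x ∈ U, ∀ t : ℝ, 0 < t → u (t • x) = t * u x)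
    (hharm : ∀ x ∈ U, 0 < u x → lap b u x = 0)
    (hfb : ∀ x ∈ U, u x = 0 → ∑ i, pd (b i) u x ^ 2 = 1)
    (hcl : closure {x ∈ U | 0 < u x} ⊆ insert 0 U)
    {φ : E → ℝ} (hφ : ContDiff ℝ 2 φ) (hφc : HasCompactSupport φ)
    (hφ0 : (0 : E) ∉ tsupport φ)
    (hneg : (∫ x in {x ∈ U | 0 < u x}, ∑ i, pd (b i) φ x ^ 2)
        + (∫ x in {x ∈ U | 0 < u x},
            ∑ i, pd (b i) (fun y => φ y ^ 2 * hmFn u y) x * pd (b i) u x) < 0) :
    ∃ (v : E → ℝ) (R : ℝ) (K : NNReal), LipschitzWith K (solFn U u) ∧ LipschitzWith K v ∧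
      (∀ x, 0 ≤ v x) ∧ (∀ x, R ≤ ‖x‖ → v x = solFn U u x) ∧
      ∀ r : ℝ, R < r →
        IntegrableOn (fun x => ‖gradient v x‖ ^ 2
          + {y | 0 < v y}.indicator (fun _ => (1 : ℝ)) x) (Metric.ball 0 r) ∧
        IntegrableOn (fun x => ‖gradient (solFn U u) x‖ ^ 2
          + {y | 0 < solFn U u y}.indicator (fun _ => (1 : ℝ)) x) (Metric.ball 0 r) ∧
        energyJ v (Metric.ball 0 r) < energyJ (solFn U u) (Metric.ball 0 r) := by
  obtain ⟨Φ, R, hLip, hLipS, hid, hr⟩ :=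
    unstable_not_minimizing b hU h0 hcone hu hhom hharm hfb hcl hφ hφc hφ0 hneg
  obtain ⟨K0, hK0⟩ := solFn_lipschitz b hU h0 hcone hu hhom hcl
  have hΩ : IsOpen {x ∈ U | 0 < u x} := posSet_open hU hu
  have hvnn : ∀ x, 0 ≤ (solFn U u ∘ Φ.symm) x := fun x => solFn_nonneg _
  have hvm : MeasurableSet {y | 0 < (solFn U u ∘ Φ.symm) y} := by
    have e : {y | 0 < (solFn U u ∘ Φ.symm) y} = Φ.symm ⁻¹' {x | 0 < solFn U u x} := rfl
    rw [e, solFn_pos_set]
    exact (hΩ.preimage Φ.symm.continuous).measurableSet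
  have hsm : MeasurableSet {y | 0 < solFn U u y} := by
    rw [solFn_pos_set]
    exact hΩ.measurableSet
  refine ⟨solFn U u ∘ Φ.symm, R, K0 * 2,
    hK0.weaken (le_mul_of_one_le_right zero_le one_le_two), hK0.comp hLipS, hvnn, ?_, ?_⟩
  · intro x hx
    have h1 : Φ x = x := hid x hx
    have h2 : Φ.symm x = x := by
      conv_lhs => rw [← h1]
      exact Φ.symm_apply_apply x
    show solFn U u (Φ.symm x) = solFn U u x
    rw [h2]
  · intro r hr'
    obtain ⟨hI1, hI2, hlt⟩ := hr r hr'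
    refine ⟨energyJ_integrableOn hvnn hvm hI1, ?_, ?_⟩
    · apply energyJ_integrableOn (fun x => solFn_nonneg x) hsm
      rw [solFn_pos_set]
      exact hI2
    · rw [energyJ_eq hvnn hvm, energyJ_eq (fun x => solFn_nonneg x) hsm, solFn_pos_set]
      exact hlt

/-- Nondegenerate pinched classical cones are not minimizers. -/
theorem pinched_not_minimizing (k : ℕ) (hdim : Module.finrank ℝ E = k + 2)
    (b : OrthonormalBasis ι ℝ E)
    (hU : IsOpen U) (h0 : (0 : E) ∉ U) (hcone : ∀ x ∈ U, ∀ t : ℝ, 0 < t → t • x ∈ U)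
    (hu : ContDiffOn ℝ 4 u U) (hhom : ∀ x ∈ U, ∀ t : ℝ, 0 < t → u (t • x) = t * u x)
    (hharm : ∀ x ∈ U, 0 < u x → Laplacian.laplacian u x = 0)
    (hfb : ∀ x ∈ U, u x = 0 → ‖gradient u x‖ = 1)
    (hcl : closure {x ∈ U | 0 < u x} ⊆ insert 0 U)
    (hne : {x ∈ U | 0 < u x}.Nonempty)
    (hnd : ∀ x ∈ closure {x ∈ U | 0 < u x}, x ≠ 0 →
      ∑ i, ∑ j, fderiv ℝ (fderiv ℝ u) x (b i) (b j) ^ 2 ≠ 0)
    (p : ℝ) (hp1 : 1 / 2 ≤ p) (hp2 : p ≤ 2) (hp3 : (k : ℝ) ^ 2 / 4 < p * ((k : ℝ) + 1))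
    (hpinch : ∀ x ∈ U, u x = 0 →
      p * ∑ i, ∑ j, ∑ l, fderiv ℝ (fderiv ℝ u) x (b i) (b j)
                  * fderiv ℝ (fderiv ℝ u) x (b j) (b l) * fderiv ℝ (fderiv ℝ u) x (b l) (b i)
        ≤ (1 - 2 * p) * (-(fderiv ℝ (fderiv ℝ u) x (gradient u x) (gradient u x)))
            * ∑ i, ∑ j, fderiv ℝ (fderiv ℝ u) x (b i) (b j) ^ 2) :
    ∃ (v : E → ℝ) (R : ℝ) (K : NNReal), LipschitzWith K (solFn U u) ∧ LipschitzWith K v ∧
      (∀ x, 0 ≤ v x) ∧ (∀ x, R ≤ ‖x‖ → v x = solFn U u x) ∧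
      ∀ r : ℝ, R < r →
        IntegrableOn (fun x => ‖gradient v x‖ ^ 2
          + {y | 0 < v y}.indicator (fun _ => (1 : ℝ)) x) (Metric.ball 0 r) ∧
        IntegrableOn (fun x => ‖gradient (solFn U u) x‖ ^ 2
          + {y | 0 < solFn U u y}.indicator (fun _ => (1 : ℝ)) x) (Metric.ball 0 r) ∧
        energyJ v (Metric.ball 0 r) < energyJ (solFn U u) (Metric.ball 0 r) := by
  obtain ⟨φ, hφ, hφc, hφ0, hneg⟩ := pinched_unstable k hdim b hU h0 hcone hu hhom hharm hfb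
    hcl hne hnd p hp1 hp2 hp3 hpinch
  have hu2 : ContDiffOn ℝ 2 u U := hu.of_le (by norm_num)
  have hharm' : ∀ y ∈ U, 0 < u y → lap b u y = 0 := fun y hy hp => by
    rw [← laplacian_eq_lap b hU hu2 hy]
    exact hharm y hy hp
  have hfb' : ∀ y ∈ U, u y = 0 → ∑ i, pd (b i) u y ^ 2 = 1 := fun y hy hy0 => by
    rw [← norm_gradient_sq b u y, hfb y hy hy0]
    norm_num
  have e1 : ∀ x, ‖gradient φ x‖ ^ 2 = ∑ i, pd (b i) φ x ^ 2 := fun x =>
    norm_gradient_sq b φ x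
  have e2 : ∀ x, ⟪gradient (fun y => φ y ^ 2
        * (-(fderiv ℝ (fderiv ℝ u) y (gradient u y) (gradient u y)))) x, gradient u x⟫_ℝ
      = ∑ i, pd (b i) (fun y => φ y ^ 2 * hmFn u y) x * pd (b i) u x := fun x =>
    inner_gradient_gradient b u _ x
  simp only [e1, e2] at hneg
  exact unstable_competitor b hU h0 hcone hu hhom hharm' hfb' hcl hφ hφc hφ0 hneg

end Vale.Agent.Lib.P098
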