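import Vale.Agent.Lib.P098.NMDefs

/-!
The second order coefficient for `A = c B + ξ ⊗ r` with `B` symmetric and trace free.
-/

namespace Vale.Agent.Lib.P098

open scoped InnerProductSpace

variable {E : Type*} [NormedAddCommGroup E] [InnerProductSpace ℝ E] [FiniteDimensional ℝ E]

omit [FiniteDimensional ℝ E] in
theorem ctr_eq_sum {ι : Type*} [Fintype ι] (b : OrthonormalBasis ι ℝ E) (A : E →L[ℝ] E) :
    ctr A = ∑ i, ⟪A (b i), b i⟫_ℝ := by
  unfold ctr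
  rw [LinearMap.trace_eq_sum_inner (A : E →ₗ[ℝ] E) b]
  refine Finset.sum_congr rfl fun i _ => ?_
  rw [real_inner_comm]
  rfl

omit [FiniteDimensional ℝ E] in
theorem ctr_mul_eq_sum {ι : Type*} [Fintype ι] (b : OrthonormalBasis ι ℝ E) (A : E →L[ℝ] E)
    (hA : ∀ v w, ⟪A v, w⟫_ℝ = ⟪v, A w⟫_ℝ) :
    ctr (A * A) = ∑ i, ∑ j, ⟪A (b i), b j⟫_ℝ ^ 2 := by
  rw [ctr_eq_sum b]
  refine Finset.sum_congr rfl fun i _ => ?_
  rw [mul_apply_eq_comp, hA, ← b.sum_inner_mul_inner (A (b i)) (A (b i))]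
  refine Finset.sum_congr rfl fun j _ => ?_
  rw [real_inner_comm (A (b i)) (b j), sq]

omit [FiniteDimensional ℝ E] in
/-- The trace is additive. -/
lemma nmqform_ctr_add (A B : E →L[ℝ] E) : ctr (A + B) = ctr A + ctr B := by
  unfold ctr
  rw [ContinuousLinearMap.toLinearMap_add, map_add]

omit [FiniteDimensional ℝ E] in
/-- The trace is homogeneous. -/
lemma nmqform_ctr_smul (c : ℝ) (A : E →L[ℝ] E) : ctr (c • A) = c * ctr A := by
  unfold ctr
  rw [ContinuousLinearMap.toLinearMap_smul, map_smul, smul_eq_mul]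

/-- The trace of a rank one operator. -/
lemma nmqform_ctr_rank_one (u v : E) : ctr ((innerSL ℝ u).smulRight v) = ⟪u, v⟫_ℝ := by
  rw [ctr_eq_sum (stdOrthonormalBasis ℝ E)]
  have h : ∀ i, ⟪((innerSL ℝ u).smulRight v) (stdOrthonormalBasis ℝ E i),
        stdOrthonormalBasis ℝ E i⟫_ℝ
      = ⟪u, stdOrthonormalBasis ℝ E i⟫_ℝ * ⟪stdOrthonormalBasis ℝ E i, v⟫_ℝ := by
    intro i
    rw [ContinuousLinearMap.smulRight_apply, innerSL_apply_apply, real_inner_smul_left,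
      real_inner_comm v]
  simp_rw [h]
  exact (stdOrthonormalBasis ℝ E).sum_inner_mul_inner u v

omit [FiniteDimensional ℝ E] in
/-- The square of `c B + ξ ⊗ r`. -/
lemma nmqform_sq (ξ r : E) (c : ℝ) (B : E →L[ℝ] E) (hB : ∀ v w, ⟪B v, w⟫_ℝ = ⟪v, B w⟫_ℝ) :
    (c • B + (innerSL ℝ r).smulRight ξ) * (c • B + (innerSL ℝ r).smulRight ξ)
      = c ^ 2 • (B * B) + c • (innerSL ℝ r).smulRight (B ξ)
        + c • (innerSL ℝ (B r)).smulRight ξ + ⟪r, ξ⟫_ℝ • (innerSL ℝ r).smulRight ξ := by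
  ext v
  simp only [mul_apply_eq_comp, add_apply,
    smul_apply, ContinuousLinearMap.smulRight_apply, innerSL_apply_apply,
    map_add, map_smul, hB r v]
  module

theorem qform_rank_one (ξ r : E) (c : ℝ) (B : E →L[ℝ] E)
    (hB : ∀ v w, ⟪B v, w⟫_ℝ = ⟪v, B w⟫_ℝ) (htr : ctr B = 0) :
    qform (c • B + (innerSL ℝ r).smulRight ξ) ξ
      = ‖ξ‖ ^ 4 * ‖r‖ ^ 2 + (3 * ‖ξ‖ ^ 2 - 1) * c * ⟪r, B ξ⟫_ℝ
        - (‖ξ‖ ^ 2 + 1) * c ^ 2 * ctr (B * B) / 2 + 3 * c ^ 2 * ‖B ξ‖ ^ 2 := by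
  have hsq := nmqform_sq ξ r c B hB
  have hctrA : ctr (c • B + (innerSL ℝ r).smulRight ξ) = ⟪r, ξ⟫_ℝ := by
    rw [nmqform_ctr_add, nmqform_ctr_smul, htr, mul_zero, zero_add, nmqform_ctr_rank_one]
  have hctrAA : ctr ((c • B + (innerSL ℝ r).smulRight ξ) * (c • B + (innerSL ℝ r).smulRight ξ))
      = c ^ 2 * ctr (B * B) + 2 * c * ⟪r, B ξ⟫_ℝ + ⟪r, ξ⟫_ℝ ^ 2 := by
    rw [hsq, nmqform_ctr_add, nmqform_ctr_add, nmqform_ctr_add, nmqform_ctr_smul,
      nmqform_ctr_smul, nmqform_ctr_smul, nmqform_ctr_smul, nmqform_ctr_rank_one,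
      nmqform_ctr_rank_one, nmqform_ctr_rank_one, hB r ξ]
    ring
  have hAξ : (c • B + (innerSL ℝ r).smulRight ξ) ξ = c • B ξ + ⟪r, ξ⟫_ℝ • ξ := by
    rw [add_apply, smul_apply,
      ContinuousLinearMap.smulRight_apply, innerSL_apply_apply]
  have hadj : ContinuousLinearMap.adjoint (c • B + (innerSL ℝ r).smulRight ξ) ξ
      = c • B ξ + ‖ξ‖ ^ 2 • r := by
    apply ext_inner_right ℝ
    intro v
    rw [ContinuousLinearMap.adjoint_inner_left, add_apply,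
      smul_apply, ContinuousLinearMap.smulRight_apply, innerSL_apply_apply,
      inner_add_right, inner_add_left, real_inner_smul_right, real_inner_smul_right,
      real_inner_smul_left, real_inner_smul_left, real_inner_self_eq_norm_sq, hB ξ v]
    ring
  have hAAξ : (c • B + (innerSL ℝ r).smulRight ξ) ((c • B + (innerSL ℝ r).smulRight ξ) ξ)
      = c ^ 2 • B (B ξ) + (c * ⟪r, ξ⟫_ℝ) • B ξ + (c * ⟪r, B ξ⟫_ℝ + ⟪r, ξ⟫_ℝ ^ 2) • ξ := by
    rw [hAξ]
    simp only [add_apply, smul_apply,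
      ContinuousLinearMap.smulRight_apply, innerSL_apply_apply, map_add, map_smul]
    module
  have hBB : ⟪B (B ξ), ξ⟫_ℝ = ‖B ξ‖ ^ 2 := by
    rw [hB, real_inner_self_eq_norm_sq]
  unfold qform
  rw [hctrA, hctrAA, hAAξ, hAξ, hadj, ← real_inner_self_eq_norm_sq (c • B ξ + ‖ξ‖ ^ 2 • r)]
  simp only [inner_add_left, inner_add_right, real_inner_smul_left, real_inner_smul_right]
  simp only [hBB, real_inner_self_eq_norm_sq]
  rw [real_inner_comm (B ξ) r]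
  ring

end Vale.Agent.Lib.P098
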