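import Vale.Agent.Lib.P098.Unstable
import Vale.Agent.Lib.P098.NMQform

/-!
The second inner variation of the one-phase energy along the vector field `X = ρ ∇u`:
its density `qform (DX) (∇u)` integrates over the positive phase to the second variation
`∫ |∇s|² + ∫ ∇(s² H) · ∇u` of `s = ρ |∇u|²`.
-/

namespace Vale.Agent.Lib.P098

open Finset MeasureTheory
open scoped ContDiff Topology InnerProductSpace

variable {E : Type*} [NormedAddCommGroup E] [InnerProductSpace ℝ E] [FiniteDimensional ℝ E]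
variable {ι : Type*} [Fintype ι]
variable {U : Set E} {u : E → ℝ}

/-- `|∇u|²` in coordinates. -/
noncomputable def gradSq (b : OrthonormalBasis ι ℝ E) (u : E → ℝ) : E → ℝ :=
  fun y => ∑ j, pd (b j) u y ^ 2

/-- The vector field `ρ ∇u` in coordinates. -/
noncomputable def nmX (b : OrthonormalBasis ι ℝ E) (u ρ : E → ℝ) : E → E :=
  fun y => ∑ i, (pd (b i) u y * ρ y) • b i

/-- The Hessian of `u` at `x` as an operator, in coordinates. -/
noncomputable def hessOp (b : OrthonormalBasis ι ℝ E) (u : E → ℝ) (x : E) : E →L[ℝ] E :=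
  ∑ i, (fderiv ℝ (pd (b i) u) x).smulRight (b i)

omit [FiniteDimensional ℝ E] in
theorem sum_pd_inner_dir (b : OrthonormalBasis ι ℝ E) (f : E → ℝ) (x w : E) :
    ∑ k, pd (b k) f x * ⟪w, b k⟫_ℝ = pd w f x := by
  have h : pd w f x = fderiv ℝ f x (∑ k, ⟪b k, w⟫_ℝ • b k) := by
    rw [b.sum_repr' w]
    rfl
  rw [h, map_sum]
  refine Finset.sum_congr rfl fun k _ => ?_
  rw [map_smul, real_inner_comm]
  simp [pd, mul_comm]

omit [FiniteDimensional ℝ E] in
theorem gradSq_contDiffOn (b : OrthonormalBasis ι ℝ E) (hU : IsOpen U)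
    (hu : ContDiffOn ℝ 4 u U) : ContDiffOn ℝ 3 (gradSq b u) U :=
  ContDiffOn.sum fun j _ => (cd_pd1 hU hu (b j)).pow 2

omit [FiniteDimensional ℝ E] in
theorem gradSq_pd (b : OrthonormalBasis ι ℝ E) (hU : IsOpen U) (hu : ContDiffOn ℝ 4 u U)
    {x : E} (hx : x ∈ U) (v : E) :
    pd v (gradSq b u) x = 2 * ∑ j, pd (b j) u x * pd v (pd (b j) u) x :=
  sumsq1_pd (fun j => diffAt hU (cd_pd1 hU hu (b j)) (by norm_num) hx) v

omit [FiniteDimensional ℝ E] in
theorem gradSq_lap (b : OrthonormalBasis ι ℝ E) (hU : IsOpen U) (hu : ContDiffOn ℝ 4 u U)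
    (hharm : ∀ x ∈ U, 0 < u x → lap b u x = 0) {x : E} (hx : x ∈ U) (hpos : 0 < u x) :
    lap b (gradSq b u) x = 2 * ∑ i, ∑ j, pd (b i) (pd (b j) u) x ^ 2 := by
  have h1 : ∀ i, pd (b i) (pd (b i) (gradSq b u)) x
      = 2 * ∑ j, (pd (b i) (pd (b j) u) x ^ 2
        + pd (b j) u x * pd (b i) (pd (b i) (pd (b j) u)) x) := fun i =>
    sumsq1_pd2 hU (fun j => (cd_pd1 hU hu (b j)).of_le (by norm_num)) hx (b i)
  simp only [lap, h1]
  rw [← Finset.mul_sum]
  congr 1
  simp only [Finset.sum_add_distrib]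
  have h2 : ∑ i, ∑ j, pd (b j) u x * pd (b i) (pd (b i) (pd (b j) u)) x = 0 := by
    rw [Finset.sum_comm]
    refine Finset.sum_eq_zero fun j _ => ?_
    rw [← Finset.mul_sum]
    have := lap_pd_zero b hU hu hharm hx hpos (b j)
    simp only [lap] at this
    rw [this, mul_zero]
  rw [h2, add_zero]

omit [FiniteDimensional ℝ E] in
theorem hessOp_apply (b : OrthonormalBasis ι ℝ E) (u : E → ℝ) (x v : E) :
    hessOp b u x v = ∑ i, pd v (pd (b i) u) x • b i := by
  simp [hessOp, pd]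

omit [FiniteDimensional ℝ E] in
theorem hessOp_inner (b : OrthonormalBasis ι ℝ E) (hU : IsOpen U) (hu : ContDiffOn ℝ 2 u U)
    {x : E} (hx : x ∈ U) (v w : E) : ⟪hessOp b u x v, w⟫_ℝ = pd w (pd v u) x := by
  rw [hessOp_apply, sum_inner, ← sum_pd_inner_dir b (pd v u) x w]
  refine Finset.sum_congr rfl fun i _ => ?_
  rw [inner_smul_left, pd_comm hU hu hx v (b i), real_inner_comm]
  simp

omit [FiniteDimensional ℝ E] in
theorem hessOp_symm (b : OrthonormalBasis ι ℝ E) (hU : IsOpen U) (hu : ContDiffOn ℝ 2 u U)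
    {x : E} (hx : x ∈ U) (v w : E) :
    ⟪hessOp b u x v, w⟫_ℝ = ⟪v, hessOp b u x w⟫_ℝ := by
  rw [hessOp_inner b hU hu hx, real_inner_comm, hessOp_inner b hU hu hx, pd_comm hU hu hx]

theorem hessOp_ctr (b : OrthonormalBasis ι ℝ E) (hU : IsOpen U) (hu : ContDiffOn ℝ 2 u U)
    {x : E} (hx : x ∈ U) : ctr (hessOp b u x) = lap b u x := by
  rw [ctr_eq_sum b]
  simp only [lap]
  refine Finset.sum_congr rfl fun i _ => ?_
  rw [hessOp_inner b hU hu hx]

theorem hessOp_ctr_sq (b : OrthonormalBasis ι ℝ E) (hU : IsOpen U) (hu : ContDiffOn ℝ 2 u U)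
    {x : E} (hx : x ∈ U) :
    ctr (hessOp b u x * hessOp b u x) = ∑ i, ∑ j, pd (b i) (pd (b j) u) x ^ 2 := by
  rw [ctr_mul_eq_sum b _ (hessOp_symm b hU hu hx), Finset.sum_comm]
  refine Finset.sum_congr rfl fun i _ => Finset.sum_congr rfl fun j _ => ?_
  rw [hessOp_inner b hU hu hx]

theorem hessOp_grad_inner (b : OrthonormalBasis ι ℝ E) (hU : IsOpen U)
    (hu : ContDiffOn ℝ 4 u U) {x : E} (hx : x ∈ U) (w : E) :
    ⟪hessOp b u x (gradient u x), w⟫_ℝ = 1 / 2 * pd w (gradSq b u) x := by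
  have hu2 : ContDiffOn ℝ 2 u U := hu.of_le (by norm_num)
  rw [hessOp_symm b hU hu2 hx, gradSq_pd b hU hu hx]
  conv_lhs => rw [gradient_expand b u x]
  rw [sum_inner]
  have : (1 : ℝ) / 2 * (2 * ∑ j, pd (b j) u x * pd w (pd (b j) u) x)
      = ∑ j, pd (b j) u x * pd w (pd (b j) u) x := by ring
  rw [this]
  refine Finset.sum_congr rfl fun j _ => ?_
  rw [inner_smul_left, real_inner_comm, hessOp_inner b hU hu2 hx, pd_comm hU hu2 hx (b j) w]
  simp

/-! ### The vector field `ρ ∇u` -/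

omit [FiniteDimensional ℝ E] in
theorem nmX_contDiff (b : OrthonormalBasis ι ℝ E) (hU : IsOpen U) (hu : ContDiffOn ℝ 4 u U)
    {ρ : E → ℝ} (hρ : ContDiff ℝ 2 ρ) (hρU : tsupport ρ ⊆ U) : ContDiff ℝ 2 (nmX b u ρ) := by
  unfold nmX
  refine ContDiff.sum fun i _ => ?_
  exact (contDiff_mul_of_tsupport hU ((cd_pd1 hU hu (b i)).of_le (by norm_num)) hρ hρU).smul
    contDiff_const

omit [FiniteDimensional ℝ E] in
theorem nmX_tsupport (b : OrthonormalBasis ι ℝ E) (u ρ : E → ℝ) :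
    tsupport (nmX b u ρ) ⊆ tsupport ρ := by
  apply closure_mono
  intro y hy
  rw [Function.mem_support] at hy ⊢
  intro h
  apply hy
  simp [nmX, h]

omit [FiniteDimensional ℝ E] in
theorem nmX_fderiv_zero (b : OrthonormalBasis ι ℝ E) (u : E → ℝ) {ρ : E → ℝ} {x : E}
    (hx : x ∉ tsupport ρ) : fderiv ℝ (nmX b u ρ) x = 0 := by
  have h : nmX b u ρ =ᶠ[𝓝 x] fun _ => (0 : E) := by
    have hopen : IsOpen (tsupport ρ)ᶜ := (isClosed_tsupport ρ).isOpen_compl
    filter_upwards [hopen.mem_nhds hx] with y hy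
    have : ρ y = 0 := image_eq_zero_of_notMem_tsupport hy
    simp [nmX, this]
  rw [h.fderiv_eq]
  simp

theorem nmX_fderiv (b : OrthonormalBasis ι ℝ E) (hU : IsOpen U) (hu : ContDiffOn ℝ 4 u U)
    {ρ : E → ℝ} (hρ : ContDiff ℝ 2 ρ) {x : E} (hx : x ∈ U) :
    fderiv ℝ (nmX b u ρ) x
      = ρ x • hessOp b u x + (innerSL ℝ (gradient ρ x)).smulRight (gradient u x) := by
  have hρd : HasFDerivAt ρ (fderiv ℝ ρ x) x := (hρ.differentiable (by norm_num) x).hasFDerivAt
  have hi : ∀ i, HasFDerivAt (pd (b i) u) (fderiv ℝ (pd (b i) u) x) x := fun i =>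
    (diffAt hU (cd_pd1 hU hu (b i)) (by norm_num) hx).hasFDerivAt
  have h : HasFDerivAt (nmX b u ρ)
      (∑ i, (pd (b i) u x • fderiv ℝ ρ x + ρ x • fderiv ℝ (pd (b i) u) x).smulRight (b i))
      x := by
    unfold nmX
    exact HasFDerivAt.fun_sum fun i _ => ((hi i).mul hρd).smul_const (b i)
  rw [h.fderiv]
  ext v
  simp only [_root_.sum_apply, ContinuousLinearMap.smulRight_apply,
    add_apply, smul_apply, hessOp_apply, innerSL_apply_apply, smul_eq_mul]
  rw [gradient_expand b u x, Finset.smul_sum, Finset.smul_sum, ← Finset.sum_add_distrib]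
  refine Finset.sum_congr rfl fun i _ => ?_
  rw [inner_gradient_left]
  simp only [pd, smul_smul]
  rw [← add_smul]
  congr 1
  ring

theorem qform_nmX (b : OrthonormalBasis ι ℝ E) (hU : IsOpen U) (hu : ContDiffOn ℝ 4 u U)
    (hharm : ∀ x ∈ U, 0 < u x → lap b u x = 0) {ρ : E → ℝ} (hρ : ContDiff ℝ 2 ρ) {x : E}
    (hx : x ∈ U) (hpos : 0 < u x) :
    qform (fderiv ℝ (nmX b u ρ) x) (gradient u x)
      = gradSq b u x ^ 2 * ∑ i, pd (b i) ρ x ^ 2
        + (3 * gradSq b u x - 1) * ρ x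
          * (1 / 2 * ∑ i, pd (b i) ρ x * pd (b i) (gradSq b u) x)
        - (gradSq b u x + 1) * ρ x ^ 2 * (∑ i, ∑ j, pd (b i) (pd (b j) u) x ^ 2) / 2
        + 3 * ρ x ^ 2 * (1 / 4 * ∑ i, pd (b i) (gradSq b u) x ^ 2) := by
  have hu2 : ContDiffOn ℝ 2 u U := hu.of_le (by norm_num)
  rw [nmX_fderiv b hU hu hρ hx,
    qform_rank_one (gradient u x) (gradient ρ x) (ρ x) (hessOp b u x) (hessOp_symm b hU hu2 hx)
      (by rw [hessOp_ctr b hU hu2 hx]; exact hharm x hx hpos)]
  have e1 : ‖gradient u x‖ ^ 2 = gradSq b u x := norm_gradient_sq b u x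
  have e0 : ‖gradient u x‖ ^ 4 = gradSq b u x ^ 2 := by
    rw [← e1]
    ring
  have e2 : ‖gradient ρ x‖ ^ 2 = ∑ i, pd (b i) ρ x ^ 2 := norm_gradient_sq b ρ x
  have e3 : ⟪gradient ρ x, hessOp b u x (gradient u x)⟫_ℝ
      = 1 / 2 * ∑ i, pd (b i) ρ x * pd (b i) (gradSq b u) x := by
    rw [real_inner_comm, hessOp_grad_inner b hU hu hx]
    congr 1
    show fderiv ℝ (gradSq b u) x (gradient ρ x) = _
    rw [fderiv_gradient b ρ (gradSq b u) x]
    exact Finset.sum_congr rfl fun i _ => mul_comm _ _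
  have e4 : ‖hessOp b u x (gradient u x)‖ ^ 2 = 1 / 4 * ∑ i, pd (b i) (gradSq b u) x ^ 2 := by
    rw [← sum_inner_sq b, Finset.mul_sum]
    refine Finset.sum_congr rfl fun i _ => ?_
    rw [hessOp_grad_inner b hU hu hx]
    ring
  rw [e0, e1, e2, e3, e4, hessOp_ctr_sq b hU hu2 hx]

/-! ### The divergence identity -/

/-- `H = -D²u(∇u, ∇u)`. -/
noncomputable def hmFn (u : E → ℝ) : E → ℝ :=
  fun y => -(fderiv ℝ (fderiv ℝ u) y (gradient u y) (gradient u y))

theorem hmFn_eq (b : OrthonormalBasis ι ℝ E) (hU : IsOpen U) (hu : ContDiffOn ℝ 2 u U)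
    {y : E} (hy : y ∈ U) :
    hmFn u y = -(∑ i, ∑ j, pd (b i) u y * pd (b j) u y * pd (b i) (pd (b j) u) y) := by
  simp only [hmFn]
  rw [hessGrad_eq b hU hu hy]

theorem hmFn_contDiffOn (b : OrthonormalBasis ι ℝ E) (hU : IsOpen U)
    (hu : ContDiffOn ℝ 4 u U) : ContDiffOn ℝ 1 (hmFn u) U := by
  have h1 : ContDiffOn ℝ 1
      (fun y => -(∑ i, ∑ j, pd (b i) u y * pd (b j) u y * pd (b i) (pd (b j) u) y)) U := by
    refine ContDiffOn.neg (ContDiffOn.sum fun i _ => ContDiffOn.sum fun j _ => ?_)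
    exact (((cd_pd1 hU hu (b i)).of_le (by norm_num)).mul
      ((cd_pd1 hU hu (b j)).of_le (by norm_num))).mul
      ((cd_pd2 hU hu (b i) (b j)).of_le (by norm_num))
  exact h1.congr fun y hy => hmFn_eq b hU (hu.of_le (by norm_num)) hy

theorem gradSq_dot (b : OrthonormalBasis ι ℝ E) (hU : IsOpen U) (hu : ContDiffOn ℝ 4 u U)
    {x : E} (hx : x ∈ U) :
    ∑ i, pd (b i) (gradSq b u) x * pd (b i) u x = -2 * hmFn u x := by
  rw [hmFn_eq b hU (hu.of_le (by norm_num)) hx]
  have h1 : ∑ i, pd (b i) (gradSq b u) x * pd (b i) u x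
      = 2 * ∑ i, ∑ j, pd (b i) u x * pd (b j) u x * pd (b i) (pd (b j) u) x := by
    rw [Finset.mul_sum]
    refine Finset.sum_congr rfl fun i _ => ?_
    rw [gradSq_pd b hU hu hx, mul_assoc, Finset.sum_mul]
    congr 1
    refine Finset.sum_congr rfl fun j _ => ?_
    ring
  rw [h1]
  ring

/-- The components of the vector field `-(1/4) ρ² (|∇u|² + 1) ∇|∇u|² - (ρ|∇u|²)² H ∇u`. -/
noncomputable def nmF (b : OrthonormalBasis ι ℝ E) (u ρ : E → ℝ) (i : ι) : E → ℝ :=
  fun y => (-(1 / 4) * ((gradSq b u y + 1) * pd (b i) (gradSq b u) y)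
    - gradSq b u y ^ 2 * hmFn u y * pd (b i) u y) * ρ y ^ 2

theorem nmF_div (b : OrthonormalBasis ι ℝ E) (hU : IsOpen U) (hu : ContDiffOn ℝ 4 u U)
    (hharm : ∀ x ∈ U, 0 < u x → lap b u x = 0) {ρ : E → ℝ} (hρ : ContDiff ℝ 2 ρ) {x : E}
    (hx : x ∈ U) (hpos : 0 < u x) :
    ∑ i, pd (b i) (nmF b u ρ i) x
      = (gradSq b u x ^ 2 * ∑ i, pd (b i) ρ x ^ 2
        + (3 * gradSq b u x - 1) * ρ x
          * (1 / 2 * ∑ i, pd (b i) ρ x * pd (b i) (gradSq b u) x)
        - (gradSq b u x + 1) * ρ x ^ 2 * (∑ i, ∑ j, pd (b i) (pd (b j) u) x ^ 2) / 2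
        + 3 * ρ x ^ 2 * (1 / 4 * ∑ i, pd (b i) (gradSq b u) x ^ 2))
        - ∑ i, pd (b i) (fun y => gradSq b u y * ρ y) x ^ 2
        - ∑ i, pd (b i) (fun y => (gradSq b u y * ρ y) ^ 2 * hmFn u y) x * pd (b i) u x := by
  have hg : ContDiffOn ℝ 3 (gradSq b u) U := gradSq_contDiffOn b hU hu
  have hgd : DifferentiableAt ℝ (gradSq b u) x := diffAt hU hg (by norm_num) hx
  have hρd : DifferentiableAt ℝ ρ x := hρ.differentiable (by norm_num) x
  have hHd : DifferentiableAt ℝ (hmFn u) x := diffAt hU (hmFn_contDiffOn b hU hu) le_rfl hx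
  have hgi : ∀ i, DifferentiableAt ℝ (pd (b i) (gradSq b u)) x := fun i =>
    diffAt hU (pd_contDiffOn hU hg (m := 2) (by norm_num) (b i)) (by norm_num) hx
  have hui : ∀ i, DifferentiableAt ℝ (pd (b i) u) x := fun i =>
    diffAt hU (cd_pd1 hU hu (b i)) (by norm_num) hx
  have hρ2 : DifferentiableAt ℝ (fun y => ρ y ^ 2) x := hρd.pow 2
  have hsd : DifferentiableAt ℝ (fun y => gradSq b u y * ρ y) x := hgd.mul hρd
  have hSd : DifferentiableAt ℝ (fun y => (gradSq b u y * ρ y) ^ 2 * hmFn u y) x :=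
    (hsd.pow 2).mul hHd
  have hPd : DifferentiableAt ℝ (fun y => ρ y ^ 2 * (gradSq b u y + 1)) x :=
    hρ2.mul (hgd.add_const 1)
  -- each component as a combination of two products
  have hform : ∀ i, nmF b u ρ i = fun y =>
      -(1 / 4) * ((ρ y ^ 2 * (gradSq b u y + 1)) * pd (b i) (gradSq b u) y)
        + -1 * (((gradSq b u y * ρ y) ^ 2 * hmFn u y) * pd (b i) u y) := by
    intro i
    funext y
    simp only [nmF]
    ring
  have hterm : ∀ i, pd (b i) (nmF b u ρ i) x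
      = -(1 / 4) * (pd (b i) (fun y => ρ y ^ 2 * (gradSq b u y + 1)) x
            * pd (b i) (gradSq b u) x
          + ρ x ^ 2 * (gradSq b u x + 1) * pd (b i) (pd (b i) (gradSq b u)) x)
        + -1 * (pd (b i) (fun y => (gradSq b u y * ρ y) ^ 2 * hmFn u y) x * pd (b i) u x
          + (gradSq b u x * ρ x) ^ 2 * hmFn u x * pd (b i) (pd (b i) u) x) := by
    intro i
    have hA : DifferentiableAt ℝ
        (fun y => (ρ y ^ 2 * (gradSq b u y + 1)) * pd (b i) (gradSq b u) y) x :=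
      hPd.mul (hgi i)
    have hB : DifferentiableAt ℝ
        (fun y => ((gradSq b u y * ρ y) ^ 2 * hmFn u y) * pd (b i) u y) x := hSd.mul (hui i)
    rw [hform i, pd_lin hA hB (-(1 / 4)) (-1) (b i), pd_mul hPd (hgi i) (b i),
      pd_mul hSd (hui i) (b i)]
  have hP : ∀ i, pd (b i) (fun y => ρ y ^ 2 * (gradSq b u y + 1)) x
      = 2 * ρ x * pd (b i) ρ x * (gradSq b u x + 1) + ρ x ^ 2 * pd (b i) (gradSq b u) x := by
    intro i
    rw [pd_mul hρ2 (hgd.add_const 1), pd_sq hρd,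
      pd_add hgd (differentiableAt_const (1 : ℝ)), pd_const]
    ring
  have hs : ∀ i, pd (b i) (fun y => gradSq b u y * ρ y) x
      = pd (b i) (gradSq b u) x * ρ x + gradSq b u x * pd (b i) ρ x := fun i =>
    pd_mul hgd hρd (b i)
  have hlapg := gradSq_lap b hU hu hharm hx hpos
  have hlapu := hharm x hx hpos
  simp only [lap] at hlapg hlapu
  simp only [hterm, hP, hs, Finset.sum_add_distrib, ← Finset.mul_sum]
  rw [hlapg, hlapu]
  have q1 : ∑ i, (2 * ρ x * pd (b i) ρ x * (gradSq b u x + 1)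
        + ρ x ^ 2 * pd (b i) (gradSq b u) x) * pd (b i) (gradSq b u) x
      = 2 * ρ x * (gradSq b u x + 1) * ∑ i, pd (b i) ρ x * pd (b i) (gradSq b u) x
        + ρ x ^ 2 * ∑ i, pd (b i) (gradSq b u) x ^ 2 := by
    rw [Finset.mul_sum, Finset.mul_sum, ← Finset.sum_add_distrib]
    refine Finset.sum_congr rfl fun i _ => ?_
    ring
  have q2 : ∑ i, (pd (b i) (gradSq b u) x * ρ x + gradSq b u x * pd (b i) ρ x) ^ 2
      = ρ x ^ 2 * ∑ i, pd (b i) (gradSq b u) x ^ 2
        + 2 * gradSq b u x * ρ x * ∑ i, pd (b i) ρ x * pd (b i) (gradSq b u) x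
        + gradSq b u x ^ 2 * ∑ i, pd (b i) ρ x ^ 2 := by
    rw [Finset.mul_sum, Finset.mul_sum, Finset.mul_sum, ← Finset.sum_add_distrib,
      ← Finset.sum_add_distrib]
    refine Finset.sum_congr rfl fun i _ => ?_
    ring
  rw [q1, q2]
  ring

/-! ### The integral identity -/

omit [InnerProductSpace ℝ E] [FiniteDimensional ℝ E] in
theorem tsupport_neg_subset (f : E → ℝ) : tsupport (fun y => -f y) ⊆ tsupport f := by
  apply closure_mono
  intro y hy
  rw [Function.mem_support] at hy ⊢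
  intro h
  apply hy
  rw [h, neg_zero]

omit [InnerProductSpace ℝ E] [FiniteDimensional ℝ E] in
theorem tsupport_sq_subset (f : E → ℝ) : tsupport (fun y => f y ^ 2) ⊆ tsupport f := by
  apply closure_mono
  intro y hy
  rw [Function.mem_support] at hy ⊢
  intro h
  apply hy
  rw [h]
  norm_num

omit [FiniteDimensional ℝ E] in
theorem pd_neg (v : E) (f : E → ℝ) (x : E) : pd v (fun y => -f y) x = -pd v f x := by
  simp [pd]

variable [MeasurableSpace E] [BorelSpace E]

/-- The second inner variation along `X = ρ ∇u` equals the second variation of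
`s = |∇u|² ρ`. -/
theorem second_variation (b : OrthonormalBasis ι ℝ E) (hU : IsOpen U)
    (hu : ContDiffOn ℝ 4 u U) (hharm : ∀ x ∈ U, 0 < u x → lap b u x = 0)
    (hfb : ∀ x ∈ U, u x = 0 → ∑ i, pd (b i) u x ^ 2 = 1)
    {ρ : E → ℝ} (hρ : ContDiff ℝ 2 ρ) (hρc : HasCompactSupport ρ) (hρU : tsupport ρ ⊆ U) :
    IntegrableOn (fun x => qform (fderiv ℝ (nmX b u ρ) x) (gradient u x))
      {x ∈ U | 0 < u x} ∧
    ∫ x in {x ∈ U | 0 < u x}, qform (fderiv ℝ (nmX b u ρ) x) (gradient u x)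
      = (∫ x in {x ∈ U | 0 < u x}, ∑ i, pd (b i) (fun y => gradSq b u y * ρ y) x ^ 2)
        + ∫ x in {x ∈ U | 0 < u x},
            ∑ i, pd (b i) (fun y => (gradSq b u y * ρ y) ^ 2 * hmFn u y) x
              * pd (b i) u x := by
  have hu2 : ContDiffOn ℝ 2 u U := hu.of_le (by norm_num)
  have hg : ContDiffOn ℝ 3 (gradSq b u) U := gradSq_contDiffOn b hU hu
  have hg1 : ContDiffOn ℝ 1 (gradSq b u) U := hg.of_le (by norm_num)
  have hH : ContDiffOn ℝ 1 (hmFn u) U := hmFn_contDiffOn b hU hu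
  have hΩopen : IsOpen {x ∈ U | 0 < u x} := posSet_open hU hu
  have hΩmeas : MeasurableSet {x ∈ U | 0 < u x} := hΩopen.measurableSet
  have hρ2 : ContDiff ℝ 1 (fun y => ρ y ^ 2) := (hρ.pow 2).of_le (by norm_num)
  have hρ2supp : tsupport (fun y => ρ y ^ 2) ⊆ tsupport ρ := tsupport_sq_subset ρ
  have hρ2c : HasCompactSupport (fun y => ρ y ^ 2) :=
    hρc.of_isClosed_subset (isClosed_tsupport _) hρ2supp
  -- the vector field
  have hstuff : ∀ i, ContDiffOn ℝ 1
      (fun y => -(1 / 4) * ((gradSq b u y + 1) * pd (b i) (gradSq b u) y)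
        - gradSq b u y ^ 2 * hmFn u y * pd (b i) u y) U := by
    intro i
    have h2 : ContDiffOn ℝ 1 (pd (b i) (gradSq b u)) U :=
      pd_contDiffOn hU hg (by norm_num) (b i)
    have h3 : ContDiffOn ℝ 1 (pd (b i) u) U := (cd_pd1 hU hu (b i)).of_le (by norm_num)
    exact (contDiffOn_const.mul ((hg1.add contDiffOn_const).mul h2)).sub
      (((hg1.pow 2).mul hH).mul h3)
  have hF : ∀ i, ContDiff ℝ 1 (nmF b u ρ i) := fun i =>
    contDiff_mul_of_tsupport hU (hstuff i) hρ2 (hρ2supp.trans hρU)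
  have hFc : ∀ i, HasCompactSupport (nmF b u ρ i) := fun i =>
    hasCompactSupport_mul_of_right _ hρ2c
  have hFU : ∀ i, tsupport (nmF b u ρ i) ⊆ U := fun i =>
    (tsupport_mul_subset_right' _ _).trans (hρ2supp.trans hρU)
  have hgrad : ∀ x ∈ U, u x = 0 → 0 < ∑ i, pd (b i) u x ^ 2 := by
    intro x hx hux
    rw [hfb x hx hux]
    exact one_pos
  have hsign0 : ∀ x ∈ U, u x = 0 → ∑ i, nmF b u ρ i x * pd (b i) u x = 0 := by
    intro x hx hux
    have hs : ∑ i, pd (b i) u x ^ 2 = 1 := hfb x hx hux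
    have hg1' : gradSq b u x = 1 := hs
    have hdot := gradSq_dot b hU hu hx
    have e : ∀ i, nmF b u ρ i x * pd (b i) u x
        = ρ x ^ 2 * (-(1 / 4) * (gradSq b u x + 1))
            * (pd (b i) (gradSq b u) x * pd (b i) u x)
          - ρ x ^ 2 * gradSq b u x ^ 2 * hmFn u x * pd (b i) u x ^ 2 := by
      intro i
      simp only [nmF]
      ring
    simp only [e]
    rw [Finset.sum_sub_distrib, ← Finset.mul_sum, ← Finset.mul_sum, hdot, hs, hg1']
    ring
  have h1 := div_integral_le hU hu2 b (nmF b u ρ) hF hFc hFU hgrad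
    (fun x hx hux => (hsign0 x hx hux).ge)
  have h2 := div_integral_le hU hu2 b (fun i y => -nmF b u ρ i y) (fun i => (hF i).neg)
    (fun i => (hFc i).of_isClosed_subset (isClosed_tsupport _) (tsupport_neg_subset _))
    (fun i => (tsupport_neg_subset _).trans (hFU i)) hgrad
    (fun x hx hux => by
      have h := hsign0 x hx hux
      have e : ∑ i, -nmF b u ρ i x * pd (b i) u x = -∑ i, nmF b u ρ i x * pd (b i) u x := by
        rw [← Finset.sum_neg_distrib]
        exact Finset.sum_congr rfl fun i _ => by ring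
      show 0 ≤ ∑ i, -nmF b u ρ i x * pd (b i) u x
      rw [e, h]
      norm_num)
  have hAint : Integrable (fun x => ∑ i, pd (b i) (nmF b u ρ i) x) :=
    integrable_finsetSum _ fun i _ =>
      (pd_continuous (hF i) (b i)).integrable_of_hasCompactSupport
        (pd_hasCompactSupport (hFc i) (b i))
  have hzero : ∫ x in {x ∈ U | 0 < u x}, ∑ i, pd (b i) (nmF b u ρ i) x = 0 := by
    have e : ∫ x in {x ∈ U | 0 < u x}, ∑ i, pd (b i) (fun y => -nmF b u ρ i y) x
        = -∫ x in {x ∈ U | 0 < u x}, ∑ i, pd (b i) (nmF b u ρ i) x := by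
      rw [← integral_neg]
      refine setIntegral_congr_fun hΩmeas fun x _ => ?_
      show ∑ i, pd (b i) (fun y => -nmF b u ρ i y) x = -∑ i, pd (b i) (nmF b u ρ i) x
      rw [← Finset.sum_neg_distrib]
      exact Finset.sum_congr rfl fun i _ => pd_neg _ _ _
    rw [e] at h2
    linarith
  -- the function s
  have hs2 : ContDiff ℝ 2 (fun y => gradSq b u y * ρ y) :=
    contDiff_mul_of_tsupport hU (hg.of_le (by norm_num)) hρ hρU
  have hs1 : ContDiff ℝ 1 (fun y => gradSq b u y * ρ y) := hs2.of_le (by norm_num)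
  have hsc : HasCompactSupport (fun y => gradSq b u y * ρ y) :=
    hasCompactSupport_mul_of_right _ hρc
  have hBint : Integrable (fun x => ∑ i, pd (b i) (fun y => gradSq b u y * ρ y) x ^ 2) :=
    integrable_finsetSum _ fun i _ =>
      ((pd_continuous hs1 (b i)).pow 2).integrable_of_hasCompactSupport
        ((pd_hasCompactSupport hsc (b i)).of_isClosed_subset (isClosed_tsupport _)
          (tsupport_sq_subset _))
  -- the function s² H
  have hSform : (fun y => (gradSq b u y * ρ y) ^ 2 * hmFn u y)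
      = fun y => (gradSq b u y ^ 2 * hmFn u y) * ρ y ^ 2 := by
    funext y
    ring
  have hS : ContDiff ℝ 1 (fun y => (gradSq b u y * ρ y) ^ 2 * hmFn u y) := by
    rw [hSform]
    exact contDiff_mul_of_tsupport hU ((hg1.pow 2).mul hH) hρ2 (hρ2supp.trans hρU)
  have hSc : HasCompactSupport (fun y => (gradSq b u y * ρ y) ^ 2 * hmFn u y) := by
    rw [hSform]
    exact hasCompactSupport_mul_of_right _ hρ2c
  have hSU : tsupport (fun y => (gradSq b u y * ρ y) ^ 2 * hmFn u y) ⊆ U := by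
    rw [hSform]
    exact (tsupport_mul_subset_right' _ _).trans (hρ2supp.trans hρU)
  have hCint : Integrable (fun x =>
      ∑ i, pd (b i) (fun y => (gradSq b u y * ρ y) ^ 2 * hmFn u y) x * pd (b i) u x) := by
    refine integrable_finsetSum _ fun i _ => ?_
    have h := integrable_mul_of_tsupport hU
      (pd_contDiffOn hU hu2 (m := 1) (by norm_num) (b i)).continuousOn
      (pd_continuous hS (b i)) (pd_hasCompactSupport hSc (b i))
      ((tsupport_pd_subset (b i) _).trans hSU)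
    have e : (fun x => pd (b i) (fun y => (gradSq b u y * ρ y) ^ 2 * hmFn u y) x
          * pd (b i) u x)
        = fun x => pd (b i) u x
          * pd (b i) (fun y => (gradSq b u y * ρ y) ^ 2 * hmFn u y) x :=
      funext fun x => mul_comm _ _
    rw [e]
    exact h
  -- the pointwise identity
  have hpt : ∀ x ∈ {x ∈ U | 0 < u x},
      qform (fderiv ℝ (nmX b u ρ) x) (gradient u x)
        = ∑ i, pd (b i) (nmF b u ρ i) x
          + ∑ i, pd (b i) (fun y => gradSq b u y * ρ y) x ^ 2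
          + ∑ i, pd (b i) (fun y => (gradSq b u y * ρ y) ^ 2 * hmFn u y) x
              * pd (b i) u x := by
    intro x hx
    rw [qform_nmX b hU hu hharm hρ hx.1 hx.2, nmF_div b hU hu hharm hρ hx.1 hx.2]
    ring
  have hAB : IntegrableOn (fun x => ∑ i, pd (b i) (nmF b u ρ i) x
      + ∑ i, pd (b i) (fun y => gradSq b u y * ρ y) x ^ 2) {x ∈ U | 0 < u x} :=
    hAint.integrableOn.add hBint.integrableOn
  have hABC : IntegrableOn (fun x => ∑ i, pd (b i) (nmF b u ρ i) x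
      + ∑ i, pd (b i) (fun y => gradSq b u y * ρ y) x ^ 2
      + ∑ i, pd (b i) (fun y => (gradSq b u y * ρ y) ^ 2 * hmFn u y) x
          * pd (b i) u x) {x ∈ U | 0 < u x} :=
    hAB.add hCint.integrableOn
  refine ⟨?_, ?_⟩
  · refine IntegrableOn.congr_fun hABC ?_ hΩmeas
    intro x hx
    exact (hpt x hx).symm
  · rw [setIntegral_congr_fun hΩmeas hpt,
      integral_add hAB hCint.integrableOn,
      integral_add hAint.integrableOn hBint.integrableOn, hzero, zero_add]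

end Vale.Agent.Lib.P098
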