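import Vale.Agent.Lib.P098.NMSecond

/-!
The global solution `u⁺` attached to a classical cone `(U, u)` (equal to `u` on the positive
phase and to zero elsewhere), and the one-phase energy.
-/

namespace Vale.Agent.Lib.P098

open Finset MeasureTheory
open scoped ContDiff Topology InnerProductSpace

variable {E : Type*} [NormedAddCommGroup E] [InnerProductSpace ℝ E] [FiniteDimensional ℝ E]
variable {ι : Type*} [Fintype ι]
variable {U : Set E} {u : E → ℝ}

/-- The global function: `u` on the positive phase, zero elsewhere. -/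
noncomputable def solFn (U : Set E) (u : E → ℝ) : E → ℝ := {x ∈ U | 0 < u x}.indicator u

theorem solFn_of_mem {x : E} (hx : x ∈ {x ∈ U | 0 < u x}) : solFn U u x = u x :=
  Set.indicator_of_mem hx u

theorem solFn_of_notMem {x : E} (hx : x ∉ {x ∈ U | 0 < u x}) : solFn U u x = 0 :=
  Set.indicator_of_notMem hx u

theorem solFn_nonneg (x : E) : 0 ≤ solFn U u x := by
  by_cases hx : x ∈ {x ∈ U | 0 < u x}
  · rw [solFn_of_mem hx]
    exact hx.2.le
  · rw [solFn_of_notMem hx]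

theorem solFn_pos_set : {x | 0 < solFn U u x} = {x ∈ U | 0 < u x} := by
  ext x
  constructor
  · intro h
    by_contra hx
    have h' : 0 < solFn U u x := h
    rw [solFn_of_notMem hx] at h'
    exact lt_irrefl _ h'
  · intro hx
    show 0 < solFn U u x
    rw [solFn_of_mem hx]
    exact hx.2

theorem solFn_eventuallyEq (hΩ : IsOpen {x ∈ U | 0 < u x}) {x : E}
    (hx : x ∈ {x ∈ U | 0 < u x}) : solFn U u =ᶠ[𝓝 x] u := by
  filter_upwards [hΩ.mem_nhds hx] with y hy
  exact solFn_of_mem hy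

theorem solFn_gradient (hΩ : IsOpen {x ∈ U | 0 < u x}) {x : E}
    (hx : x ∈ {x ∈ U | 0 < u x}) : gradient (solFn U u) x = gradient u x := by
  unfold gradient
  rw [(solFn_eventuallyEq hΩ hx).fderiv_eq]

theorem solFn_differentiableAt (hΩ : IsOpen {x ∈ U | 0 < u x}) {x : E}
    (hx : x ∈ {x ∈ U | 0 < u x}) (hd : DifferentiableAt ℝ u x) :
    DifferentiableAt ℝ (solFn U u) x :=
  hd.congr_of_eventuallyEq (solFn_eventuallyEq hΩ hx)

theorem u_nonneg_of_mem_closure (hU : IsOpen U) (hc : ContinuousOn u U) {x : E}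
    (hx : x ∈ closure {x ∈ U | 0 < u x}) (hxU : x ∈ U) : 0 ≤ u x := by
  by_contra hneg'
  have hneg : u x < 0 := not_le.1 hneg'
  have hopen : IsOpen (U ∩ u ⁻¹' Set.Iio 0) := hc.isOpen_inter_preimage hU isOpen_Iio
  obtain ⟨y, hy1, hy2⟩ := mem_closure_iff.1 hx _ hopen ⟨hxU, hneg⟩
  have h1 : u y < 0 := hy1.2
  have h2 : 0 < u y := hy2.2
  linarith

theorem gradSq_ne_zero (b : OrthonormalBasis ι ℝ E) (hU : IsOpen U) (hu : ContDiffOn ℝ 4 u U)
    (hhom : HomOn 1 u U) (hfb : ∀ x ∈ U, u x = 0 → ∑ i, pd (b i) u x ^ 2 = 1) {x : E}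
    (hx : x ∈ closure {x ∈ U | 0 < u x}) (hxU : x ∈ U) : gradSq b u x ≠ 0 := by
  have hnn := u_nonneg_of_mem_closure hU hu.continuousOn hx hxU
  rcases hnn.lt_or_eq with hpos | hzero
  · intro hg
    have hall : ∀ k, pd (b k) u x = 0 := by
      intro k
      have h1 : ∑ j, pd (b j) u x ^ 2 = 0 := hg
      have h2 := (Finset.sum_eq_zero_iff_of_nonneg
        (fun j _ => sq_nonneg (pd (b j) u x))).1 h1 k (Finset.mem_univ k)
      exact pow_eq_zero_iff (two_ne_zero) |>.1 h2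
    have he := euler_u hU hu hhom hxU
    rw [← sum_pd_inner_dir b u x x] at he
    simp only [hall, zero_mul, Finset.sum_const_zero] at he
    linarith
  · have h1 : gradSq b u x = 1 := hfb x hxU hzero.symm
    rw [h1]
    exact one_ne_zero

theorem gradSq_bound (b : OrthonormalBasis ι ℝ E) (hU : IsOpen U) (h0 : (0 : E) ∉ U)
    (hcone : ∀ x ∈ U, ∀ t : ℝ, 0 < t → t • x ∈ U) (hu : ContDiffOn ℝ 4 u U)
    (hhom : HomOn 1 u U) (hcl : closure {x ∈ U | 0 < u x} ⊆ insert 0 U) :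
    ∃ M : ℝ, 0 ≤ M ∧ ∀ x ∈ {x ∈ U | 0 < u x}, gradSq b u x ≤ M := by
  have hKc : IsCompact (closure {x ∈ U | 0 < u x} ∩ Metric.sphere (0 : E) 1) :=
    (isCompact_sphere (0 : E) 1).inter_left isClosed_closure
  have hKU : closure {x ∈ U | 0 < u x} ∩ Metric.sphere (0 : E) 1 ⊆ U := by
    intro x hx
    rcases hcl hx.1 with h | h
    · exfalso
      have h1 : ‖x‖ = 1 := mem_sphere_zero_iff_norm.1 hx.2
      rw [h, norm_zero] at h1
      exact zero_ne_one h1
    · exact h
  have hgc : ContinuousOn (gradSq b u) U := (gradSq_contDiffOn b hU hu).continuousOn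
  obtain ⟨M, hM⟩ := (hKc.image_of_continuousOn (hgc.mono hKU)).bddAbove
  refine ⟨max M 0, le_max_right _ _, ?_⟩
  intro x hx
  have hx0 : x ≠ 0 := fun h => h0 (h ▸ hx.1)
  have hn : 0 < ‖x‖ := norm_pos_iff.2 hx0
  have ht : 0 < ‖x‖⁻¹ := inv_pos.2 hn
  have hyU : ‖x‖⁻¹ • x ∈ U := hcone x hx.1 _ ht
  have hyΩ : ‖x‖⁻¹ • x ∈ {x ∈ U | 0 < u x} := by
    refine ⟨hyU, ?_⟩
    rw [hhom x hx.1 _ ht, zpow_one]
    exact mul_pos ht hx.2
  have hys : ‖x‖⁻¹ • x ∈ Metric.sphere (0 : E) 1 := by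
    rw [mem_sphere_zero_iff_norm, norm_smul, norm_inv, norm_norm, inv_mul_cancel₀ hn.ne']
  have hle : gradSq b u (‖x‖⁻¹ • x) ≤ M := hM ⟨_, ⟨subset_closure hyΩ, hys⟩, rfl⟩
  have heq : gradSq b u (‖x‖⁻¹ • x) = gradSq b u x := by
    unfold gradSq
    refine Finset.sum_congr rfl fun j _ => ?_
    have h1 := hom1 hU hcone hu hhom (b j) x hx.1 _ ht
    rw [h1]
    simp
  rw [heq] at hle
  exact hle.trans (le_max_left _ _)

/-! ### The one-phase energy -/

theorem gradient_eq_zero_of_min {v : E → ℝ} (hv : ∀ x, 0 ≤ v x) {x : E}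
    (hx : v x = 0) : gradient v x = 0 := by
  have hmin : IsLocalMin v x := Filter.Eventually.of_forall fun y => by
    rw [hx]
    exact hv y
  unfold gradient
  rw [hmin.fderiv_eq_zero, map_zero]

theorem energy_integrand_eq {v : E → ℝ} (hv : ∀ x, 0 ≤ v x) (x : E) :
    ‖gradient v x‖ ^ 2 + {y | 0 < v y}.indicator (fun _ => (1 : ℝ)) x
      = {y | 0 < v y}.indicator (fun y => ‖gradient v y‖ ^ 2 + 1) x := by
  by_cases hx : 0 < v x
  · rw [Set.indicator_of_mem (show x ∈ {y | 0 < v y} from hx),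
      Set.indicator_of_mem (show x ∈ {y | 0 < v y} from hx)]
  · rw [Set.indicator_of_notMem (show x ∉ {y | 0 < v y} from hx),
      Set.indicator_of_notMem (show x ∉ {y | 0 < v y} from hx)]
    have h0 : v x = 0 := le_antisymm (not_lt.1 hx) (hv x)
    rw [gradient_eq_zero_of_min hv h0]
    simp

variable [MeasurableSpace E] [BorelSpace E]

/-- The one-phase Bernoulli energy `∫_B (|∇v|² + 1_{v > 0})`. -/
noncomputable def energyJ (v : E → ℝ) (B : Set E) : ℝ :=
  ∫ x in B, (‖gradient v x‖ ^ 2 + {y | 0 < v y}.indicator (fun _ => (1 : ℝ)) x)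

theorem energyJ_eq {v : E → ℝ} (hv : ∀ x, 0 ≤ v x) (hm : MeasurableSet {y | 0 < v y})
    (B : Set E) :
    energyJ v B = ∫ x in B ∩ {y | 0 < v y}, (‖gradient v x‖ ^ 2 + 1) := by
  unfold energyJ
  have e : (fun x => ‖gradient v x‖ ^ 2 + {y | 0 < v y}.indicator (fun _ => (1 : ℝ)) x)
      = {y | 0 < v y}.indicator (fun y => ‖gradient v y‖ ^ 2 + 1) :=
    funext (energy_integrand_eq hv)
  rw [e, setIntegral_indicator hm]

theorem energyJ_integrableOn {v : E → ℝ} (hv : ∀ x, 0 ≤ v x)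
    (hm : MeasurableSet {y | 0 < v y}) {B : Set E}
    (h : IntegrableOn (fun x => ‖gradient v x‖ ^ 2 + 1) (B ∩ {y | 0 < v y})) :
    IntegrableOn (fun x => ‖gradient v x‖ ^ 2 + {y | 0 < v y}.indicator (fun _ => (1 : ℝ)) x)
      B := by
  have e : (fun x => ‖gradient v x‖ ^ 2 + {y | 0 < v y}.indicator (fun _ => (1 : ℝ)) x)
      = {y | 0 < v y}.indicator (fun y => ‖gradient v y‖ ^ 2 + 1) :=
    funext (energy_integrand_eq hv)
  rw [e]
  unfold IntegrableOn
  rw [integrable_indicator_iff hm]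
  unfold IntegrableOn
  rw [Measure.restrict_restrict hm, Set.inter_comm]
  exact h

theorem measurable_gradient_norm (f : E → ℝ) :
    Measurable (fun x => ‖gradient f x‖) := by
  have h : (fun x => ‖gradient f x‖) = fun x => ‖fderiv ℝ f x‖ := by
    funext x
    unfold gradient
    simp
  rw [h]
  exact (measurable_fderiv ℝ f).norm

end Vale.Agent.Lib.P098
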