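import Vale.Agent.Lib.P098.Cutoff

/-!
Radial plateau profiles in logarithmic scale and integrals of homogeneous weights over
logarithmic annuli of a cone.
-/

namespace Vale.Agent.Lib.P098

open MeasureTheory
open scoped ContDiff Topology

/-! ### The plateau profile -/

/-- The plateau profile: `0` for `t ≤ 0`, `1` on `[1, N]`, `0` for `t ≥ N + 1`. -/
noncomputable def prof (N t : ℝ) : ℝ :=
  Real.smoothTransition t * Real.smoothTransition (N + 1 - t)

/-- The derivative of the plateau profile. -/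
noncomputable def dprof (N t : ℝ) : ℝ :=
  deriv Real.smoothTransition t * Real.smoothTransition (N + 1 - t)
    - Real.smoothTransition t * deriv Real.smoothTransition (N + 1 - t)

theorem prof_hasDerivAt (N t : ℝ) : HasDerivAt (prof N) (dprof N t) t := by
  have h1 := smoothT_hasDerivAt t
  have h2 : HasDerivAt (fun s : ℝ => Real.smoothTransition (N + 1 - s))
      (deriv Real.smoothTransition (N + 1 - t) * (0 - 1)) t :=
    (smoothT_hasDerivAt (N + 1 - t)).comp t ((hasDerivAt_const t (N + 1)).sub (hasDerivAt_id t))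
  have h3 := h1.mul h2
  refine h3.congr_deriv ?_
  unfold dprof
  ring

theorem prof_contDiff (N : ℝ) : ContDiff ℝ ∞ (prof N) := by
  unfold prof
  exact Real.smoothTransition.contDiff.mul
    (Real.smoothTransition.contDiff.comp (contDiff_const.sub contDiff_id))

theorem prof_zero_of_nonpos {N t : ℝ} (ht : t ≤ 0) : prof N t = 0 := by
  unfold prof
  rw [Real.smoothTransition.zero_of_nonpos ht, zero_mul]

theorem prof_zero_of_ge {N t : ℝ} (ht : N + 1 ≤ t) : prof N t = 0 := by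
  unfold prof
  rw [Real.smoothTransition.zero_of_nonpos (by linarith : N + 1 - t ≤ 0), mul_zero]

theorem dprof_sq_le {M : ℝ} (hM : ∀ s, deriv Real.smoothTransition s ≤ M) {N : ℝ}
    (hN : 1 ≤ N) (t : ℝ) :
    dprof N t ^ 2 ≤ M ^ 2 * ((if 0 ≤ t ∧ t < 1 then 1 else 0)
      + (if N ≤ t ∧ t < N + 1 then 1 else 0)) := by
  have hM0 : 0 ≤ M := (smoothT_deriv_nonneg 0).trans (hM 0)
  have hrhs : 0 ≤ M ^ 2 * ((if 0 ≤ t ∧ t < 1 then (1 : ℝ) else 0)
      + (if N ≤ t ∧ t < N + 1 then 1 else 0)) := by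
    apply mul_nonneg (sq_nonneg M)
    apply add_nonneg <;> split_ifs <;> norm_num
  unfold dprof
  rcases lt_or_ge t 0 with h | h
  · rw [smoothT_deriv_zero_of_nonpos h.le, Real.smoothTransition.zero_of_nonpos h.le]
    simpa using hrhs
  rcases lt_or_ge t 1 with h1 | h1
  · rw [smoothT_deriv_zero_of_one_le (by linarith : 1 ≤ N + 1 - t),
      Real.smoothTransition.one_of_one_le (by linarith : 1 ≤ N + 1 - t)]
    have ha := smoothT_deriv_nonneg t
    have hb := hM t
    rw [if_pos (⟨h, h1⟩ : 0 ≤ t ∧ t < 1)]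
    have hc : deriv Real.smoothTransition t ^ 2 ≤ M ^ 2 := by nlinarith
    have hd : (0 : ℝ) ≤ (if N ≤ t ∧ t < N + 1 then (1 : ℝ) else 0) := by
      split_ifs <;> norm_num
    nlinarith [sq_nonneg M]
  rcases lt_or_ge t N with h2 | h2
  · rw [smoothT_deriv_zero_of_one_le h1,
      smoothT_deriv_zero_of_one_le (by linarith : 1 ≤ N + 1 - t)]
    simpa using hrhs
  rcases lt_or_ge t (N + 1) with h3 | h3
  · rw [smoothT_deriv_zero_of_one_le h1, Real.smoothTransition.one_of_one_le h1]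
    have ha := smoothT_deriv_nonneg (N + 1 - t)
    have hb := hM (N + 1 - t)
    rw [if_pos (⟨h2, h3⟩ : N ≤ t ∧ t < N + 1)]
    have hc : deriv Real.smoothTransition (N + 1 - t) ^ 2 ≤ M ^ 2 := by nlinarith
    have hd : (0 : ℝ) ≤ (if 0 ≤ t ∧ t < 1 then (1 : ℝ) else 0) := by
      split_ifs <;> norm_num
    nlinarith [sq_nonneg M]
  · rw [smoothT_deriv_zero_of_one_le h1,
      smoothT_deriv_zero_of_nonpos (by linarith : N + 1 - t ≤ 0)]
    simpa using hrhs

theorem prof_sq_ge {N : ℝ} (t : ℝ) :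
    (if 1 ≤ t ∧ t < N then (1 : ℝ) else 0) ≤ prof N t ^ 2 := by
  split_ifs with h
  · unfold prof
    rw [Real.smoothTransition.one_of_one_le h.1,
      Real.smoothTransition.one_of_one_le (by linarith [h.2] : 1 ≤ N + 1 - t)]
    norm_num
  · exact sq_nonneg _

/-! ### Logarithmic annuli -/

variable {E : Type*} [NormedAddCommGroup E] [InnerProductSpace ℝ E] [FiniteDimensional ℝ E]
  [MeasurableSpace E] [BorelSpace E]

/-- The annulus `{a ≤ log |x| < b}`. -/
def Ann (a b : ℝ) : Set E := (fun x : E => Real.log ‖x‖) ⁻¹' Set.Ico a b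

omit [InnerProductSpace ℝ E] [FiniteDimensional ℝ E] in
theorem measurableSet_Ann (a b : ℝ) : MeasurableSet (Ann (E := E) a b) :=
  measurableSet_Ico.preimage (Real.measurable_log.comp measurable_norm)

omit [InnerProductSpace ℝ E] [FiniteDimensional ℝ E] [MeasurableSpace E] [BorelSpace E] in
theorem mem_Ann {a b : ℝ} {x : E} : x ∈ Ann a b ↔ a ≤ Real.log ‖x‖ ∧ Real.log ‖x‖ < b :=
  Iff.rfl

omit [InnerProductSpace ℝ E] [FiniteDimensional ℝ E] [MeasurableSpace E] [BorelSpace E] in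
theorem Ann_indicator (a b : ℝ) (w : E → ℝ) (x : E) :
    (Ann a b).indicator w x
      = w x * (if a ≤ Real.log ‖x‖ ∧ Real.log ‖x‖ < b then 1 else 0) := by
  by_cases h : x ∈ Ann a b
  · rw [Set.indicator_of_mem h, if_pos (mem_Ann.1 h), mul_one]
  · rw [Set.indicator_of_notMem h, if_neg (fun h' => h (mem_Ann.2 h')), mul_zero]

/-- Scaling invariance of annular integrals of a weight of homogeneity `-dim E` on a cone. -/
theorem ann_scale {Ω : Set E} (hΩ : MeasurableSet Ω)
    (hcone : ∀ x ∈ Ω, ∀ t : ℝ, 0 < t → t • x ∈ Ω) (h0 : (0 : E) ∉ Ω) {w : E → ℝ}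
    (hw : ∀ x ∈ Ω, ∀ t : ℝ, 0 < t → w (t • x) = (t ^ Module.finrank ℝ E)⁻¹ * w x)
    (a b s : ℝ) :
    ∫ x in Ω ∩ Ann (a + s) (b + s), w x = ∫ x in Ω ∩ Ann a b, w x := by
  have hR : 0 < Real.exp s := Real.exp_pos s
  have hRd : 0 < (Real.exp s ^ Module.finrank ℝ E)⁻¹ := inv_pos.2 (pow_pos hR _)
  have hlog : ∀ x : E, x ≠ 0 → Real.log ‖Real.exp s • x‖ = Real.log ‖x‖ + s := by
    intro x hx
    rw [norm_smul, Real.norm_eq_abs, abs_of_pos hR,
      Real.log_mul hR.ne' (norm_ne_zero_iff.2 hx), Real.log_exp]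
    ring
  have key := Measure.integral_comp_smul (volume : Measure E)
    ((Ω ∩ Ann (a + s) (b + s)).indicator w) (Real.exp s)
  have hpt : (fun x => (Ω ∩ Ann (a + s) (b + s)).indicator w (Real.exp s • x))
      = (Ω ∩ Ann a b).indicator (fun x => (Real.exp s ^ Module.finrank ℝ E)⁻¹ * w x) := by
    funext x
    by_cases hx : x ∈ Ω ∩ Ann a b
    · have hx0 : x ≠ 0 := fun h => h0 (h ▸ hx.1)
      have hmem : Real.exp s • x ∈ Ω ∩ Ann (a + s) (b + s) := by
        refine ⟨hcone x hx.1 _ hR, ?_⟩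
        rw [mem_Ann, hlog x hx0]
        have := mem_Ann.1 hx.2
        constructor <;> linarith [this.1, this.2]
      rw [Set.indicator_of_mem hmem, Set.indicator_of_mem hx, hw x hx.1 _ hR]
    · have hnot : Real.exp s • x ∉ Ω ∩ Ann (a + s) (b + s) := by
        intro h
        apply hx
        have hxΩ : x ∈ Ω := by
          have h1 := hcone _ h.1 (Real.exp s)⁻¹ (inv_pos.2 hR)
          rwa [smul_smul, inv_mul_cancel₀ hR.ne', one_smul] at h1
        have hx0 : x ≠ 0 := fun h' => h0 (h' ▸ hxΩ)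
        refine ⟨hxΩ, ?_⟩
        have h2 := mem_Ann.1 h.2
        rw [hlog x hx0] at h2
        rw [mem_Ann]
        constructor <;> linarith [h2.1, h2.2]
      rw [Set.indicator_of_notMem hnot, Set.indicator_of_notMem hx]
  rw [hpt, integral_indicator (hΩ.inter (measurableSet_Ann a b)),
    integral_indicator (hΩ.inter (measurableSet_Ann (a + s) (b + s))), integral_const_mul,
    abs_of_pos hRd, smul_eq_mul] at key
  exact (mul_left_cancel₀ hRd.ne' key).symm

/-- Additivity of annular integrals. -/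
theorem ann_add {Ω : Set E} (hΩ : MeasurableSet Ω) {w : E → ℝ}
    (hint : ∀ a b : ℝ, IntegrableOn w (Ω ∩ Ann a b)) {a b c : ℝ} (hab : a ≤ b) (hbc : b ≤ c) :
    ∫ x in Ω ∩ Ann a c, w x = (∫ x in Ω ∩ Ann a b, w x) + ∫ x in Ω ∩ Ann b c, w x := by
  have hu : Ω ∩ Ann a c = (Ω ∩ Ann a b) ∪ (Ω ∩ Ann b c) := by
    unfold Ann
    rw [← Set.inter_union_distrib_left, ← Set.preimage_union, Set.Ico_union_Ico_eq_Ico hab hbc]
  have hd : Disjoint (Ω ∩ Ann a b) (Ω ∩ Ann (E := E) b c) := by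
    rw [Set.disjoint_left]
    intro x hx hx'
    have h1 := mem_Ann.1 hx.2
    have h2 := mem_Ann.1 hx'.2
    linarith [h1.2, h2.1]
  rw [hu, setIntegral_union hd (hΩ.inter (measurableSet_Ann b c)) (hint a b) (hint b c)]

/-! ### The plateau comparison function -/

/-- The comparison function for the plateau profile with plateau `[1, m + 1]`. -/
noncomputable def plateauBound (M lam : ℝ) (m : ℕ) (w : E → ℝ) (x : E) : ℝ :=
  M ^ 2 * ((Ann 0 1).indicator w x + (Ann ((m : ℝ) + 1) ((m : ℝ) + 1 + 1)).indicator w x)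
    - lam * (Ann 1 ((m : ℝ) + 1)).indicator w x

omit [InnerProductSpace ℝ E] [FiniteDimensional ℝ E] [MeasurableSpace E] [BorelSpace E] in
theorem plateau_pointwise {M : ℝ} (hM : ∀ s, deriv Real.smoothTransition s ≤ M) {lam : ℝ}
    (hlam : 0 ≤ lam) (m : ℕ) (w : E → ℝ) (x : E) (hwx : 0 ≤ w x) :
    w x * (dprof ((m : ℝ) + 1) (Real.log ‖x‖) ^ 2
        - lam * prof ((m : ℝ) + 1) (Real.log ‖x‖) ^ 2)
      ≤ plateauBound M lam m w x := by
  unfold plateauBound
  rw [Ann_indicator, Ann_indicator, Ann_indicator]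
  have hN : (1 : ℝ) ≤ (m : ℝ) + 1 := by linarith [Nat.cast_nonneg (α := ℝ) m]
  have h1 := dprof_sq_le hM hN (Real.log ‖x‖)
  have h2 := prof_sq_ge (N := (m : ℝ) + 1) (Real.log ‖x‖)
  have hA := mul_le_mul_of_nonneg_left h1 hwx
  have hB := mul_le_mul_of_nonneg_left h2 (mul_nonneg hwx hlam)
  nlinarith [hA, hB]

theorem plateau_integral {Ω : Set E} (hΩ : MeasurableSet Ω)
    (hcone : ∀ x ∈ Ω, ∀ t : ℝ, 0 < t → t • x ∈ Ω) (h0 : (0 : E) ∉ Ω) {w : E → ℝ}
    (hw : ∀ x ∈ Ω, ∀ t : ℝ, 0 < t → w (t • x) = (t ^ Module.finrank ℝ E)⁻¹ * w x)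
    (hint : ∀ a b : ℝ, IntegrableOn w (Ω ∩ Ann a b)) (M lam : ℝ) (m : ℕ) :
    IntegrableOn (plateauBound M lam m w) Ω ∧
      ∫ x in Ω, plateauBound M lam m w x
        = (2 * M ^ 2 - lam * m) * ∫ x in Ω ∩ Ann 0 1, w x := by
  have hind : ∀ a b : ℝ, IntegrableOn ((Ann a b).indicator w) Ω := by
    intro a b
    rw [IntegrableOn, integrable_indicator_iff (measurableSet_Ann a b), IntegrableOn,
      Measure.restrict_restrict (measurableSet_Ann a b), Set.inter_comm]
    exact hint a b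
  have hI : ∀ a b : ℝ, ∫ x in Ω, (Ann a b).indicator w x = ∫ x in Ω ∩ Ann a b, w x :=
    fun a b => setIntegral_indicator (measurableSet_Ann a b)
  have hsc : ∀ s : ℝ, ∫ x in Ω ∩ Ann s (s + 1), w x = ∫ x in Ω ∩ Ann 0 1, w x := by
    intro s
    have h := ann_scale hΩ hcone h0 hw 0 1 s
    rw [zero_add, add_comm 1 s] at h
    exact h
  have hplat : ∀ j : ℕ, ∫ x in Ω ∩ Ann 1 ((j : ℝ) + 1), w x
      = j * ∫ x in Ω ∩ Ann 0 1, w x := by
    intro j
    induction j with
    | zero => simp [Ann]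
    | succ j ih =>
      have hj : (0 : ℝ) ≤ (j : ℝ) := Nat.cast_nonneg j
      have hsplit := ann_add hΩ hint (a := 1) (b := (j : ℝ) + 1) (c := (j : ℝ) + 1 + 1)
        (by linarith) (by linarith)
      have hc : ((j + 1 : ℕ) : ℝ) + 1 = (j : ℝ) + 1 + 1 := by push_cast; ring
      rw [hc, hsplit, ih, hsc ((j : ℝ) + 1)]
      push_cast
      ring
  have h1 : Integrable (fun x => M ^ 2 * ((Ann 0 1).indicator w x
      + (Ann ((m : ℝ) + 1) ((m : ℝ) + 1 + 1)).indicator w x)) (volume.restrict Ω) :=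
    ((hind 0 1).add (hind _ _)).const_mul (M ^ 2)
  have h2 : Integrable (fun x => lam * (Ann 1 ((m : ℝ) + 1)).indicator w x)
      (volume.restrict Ω) := (hind 1 _).const_mul lam
  constructor
  · exact h1.sub h2
  · have h3 : Integrable (fun x => (Ann 0 1).indicator w x) (volume.restrict Ω) := hind 0 1
    have h4 : Integrable (fun x => (Ann ((m : ℝ) + 1) ((m : ℝ) + 1 + 1)).indicator w x)
        (volume.restrict Ω) := hind _ _
    unfold plateauBound
    rw [integral_sub h1 h2, integral_const_mul, integral_const_mul, integral_add h3 h4,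
      hI, hI, hI, hsc, hplat m]
    ring

end Vale.Agent.Lib.P098
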