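import Vale.Agent.Lib.P098.Interior

/-!
A zero-homogeneous strictly subharmonic barrier away from a ray:
`ψ(z) = (|z| / (|z| - ⟨z, e⟩))^m`.
-/

namespace Vale.Agent.Lib.P098

open Finset
open scoped Topology InnerProductSpace

variable {E : Type*} [NormedAddCommGroup E] [InnerProductSpace ℝ E] [FiniteDimensional ℝ E]
variable {ι : Type*} [Fintype ι]

/-- The barrier `(|z| / (|z| - ⟨z, e⟩))^m` in exponential form. -/
noncomputable def barrier (m : ℝ) (e : E) : E → ℝ :=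
  fun z => Real.exp (-m * Real.log (‖z‖ - ⟪z, e⟫_ℝ) + m / 2 * Real.log (‖z‖ ^ 2))

omit [FiniteDimensional ℝ E] in
theorem regbarrier_ne_zero (e : E) {z : E} (hz : 0 < ‖z‖ - ⟪z, e⟫_ℝ) : z ≠ 0 := by
  rintro rfl
  simp at hz

theorem barrier_open (e : E) : IsOpen {z : E | 0 < ‖z‖ - ⟪z, e⟫_ℝ} := by
  have hc : Continuous fun z : E => ‖z‖ - ⟪z, e⟫_ℝ :=
    continuous_norm.sub (continuous_id.inner continuous_const)
  exact isOpen_lt continuous_const hc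

omit [FiniteDimensional ℝ E] in
theorem regbarrier_a_contDiffOn (e : E) :
    ContDiffOn ℝ 2 (fun z : E => ‖z‖ - ⟪z, e⟫_ℝ) {z : E | 0 < ‖z‖ - ⟪z, e⟫_ℝ} := by
  intro z hz
  have h0 : z ≠ 0 := regbarrier_ne_zero e hz
  have h1 : ContDiffAt ℝ 2 (fun z : E => ‖z‖) z := contDiffAt_norm ℝ h0
  have h2 : ContDiffAt ℝ 2 (fun z : E => ⟪z, e⟫_ℝ) z :=
    (contDiff_id.inner ℝ contDiff_const).contDiffAt
  exact (h1.sub h2).contDiffWithinAt

theorem barrier_contDiffOn (m : ℝ) (e : E) :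
    ContDiffOn ℝ 2 (barrier m e) {z : E | 0 < ‖z‖ - ⟪z, e⟫_ℝ} := by
  have h := explog_contDiffOn (N := {z : E | 0 < ‖z‖ - ⟪z, e⟫_ℝ})
    (regbarrier_a_contDiffOn e) (fun y hy => ne_of_gt hy)
    (fun y hy => regbarrier_ne_zero e hy) (-m) (m / 2)
  exact h

theorem barrier_hom (m : ℝ) (e : E) {z : E} (hz : 0 < ‖z‖ - ⟪z, e⟫_ℝ) {t : ℝ} (ht : 0 < t) :
    barrier m e (t • z) = barrier m e z := by
  have h0 : z ≠ 0 := regbarrier_ne_zero e hz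
  have hn : 0 < ‖z‖ := norm_pos_iff.2 h0
  simp only [barrier]
  congr 1
  have e1 : ‖t • z‖ - ⟪t • z, e⟫_ℝ = t * (‖z‖ - ⟪z, e⟫_ℝ) := by
    rw [norm_smul, real_inner_smul_left, Real.norm_of_nonneg ht.le]
    ring
  have e2 : ‖t • z‖ ^ 2 = t ^ 2 * ‖z‖ ^ 2 := by
    rw [norm_smul, Real.norm_of_nonneg ht.le]
    ring
  rw [e1, e2, Real.log_mul ht.ne' hz.ne', Real.log_mul (pow_ne_zero 2 ht.ne')
    (pow_ne_zero 2 hn.ne'), Real.log_pow]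
  push_cast
  ring

omit [FiniteDimensional ℝ E] in
theorem regbarrier_pd_norm {x : E} (hx : x ≠ 0) (v : E) :
    pd v (fun z : E => ‖z‖) x = ⟪x, v⟫_ℝ / ‖x‖ := by
  have hn : 0 < ‖x‖ := norm_pos_iff.2 hx
  have e : (fun z : E => ‖z‖) = fun z => Real.sqrt (‖z‖ ^ 2) := by
    funext z
    rw [Real.sqrt_sq (norm_nonneg z)]
  rw [e]
  have hd : DifferentiableAt ℝ (fun z : E => ‖z‖ ^ 2) x :=
    (hasStrictFDerivAt_norm_sq x).hasFDerivAt.differentiableAt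
  have hs : HasDerivAt Real.sqrt (1 / (2 * Real.sqrt (‖x‖ ^ 2))) (‖x‖ ^ 2) :=
    Real.hasDerivAt_sqrt (pow_ne_zero 2 hn.ne')
  rw [pd_comp (f := fun z : E => ‖z‖ ^ 2) (φ := Real.sqrt) hs hd v, pd_normsq,
    Real.sqrt_sq hn.le]
  field_simp

omit [FiniteDimensional ℝ E] in
theorem regbarrier_pd_inner (e x v : E) : pd v (fun z : E => ⟪z, e⟫_ℝ) x = ⟪v, e⟫_ℝ := by
  have e' : (fun z : E => ⟪z, e⟫_ℝ) = fun z => innerSL ℝ e z := by
    funext z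
    rw [innerSL_apply_apply, real_inner_comm]
  rw [e']
  simp only [pd]
  rw [ContinuousLinearMap.fderiv, innerSL_apply_apply, real_inner_comm]

omit [FiniteDimensional ℝ E] in
theorem regbarrier_diff_norm {x : E} (hx : x ≠ 0) : DifferentiableAt ℝ (fun z : E => ‖z‖) x :=
  (contDiffAt_norm ℝ hx (n := 1)).differentiableAt (by norm_num)

omit [FiniteDimensional ℝ E] in
theorem regbarrier_diff_inner (e x : E) : DifferentiableAt ℝ (fun z : E => ⟪z, e⟫_ℝ) x :=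
  ((contDiff_id.inner ℝ contDiff_const).contDiffAt (n := 1)).differentiableAt (by norm_num)

omit [FiniteDimensional ℝ E] in
theorem regbarrier_pd_a (e : E) {x : E} (hx : x ≠ 0) (v : E) :
    pd v (fun z : E => ‖z‖ - ⟪z, e⟫_ℝ) x = ⟪x, v⟫_ℝ / ‖x‖ - ⟪v, e⟫_ℝ := by
  have h1 := regbarrier_diff_norm hx
  have h2 := regbarrier_diff_inner e x
  have h : HasFDerivAt (fun z : E => ‖z‖ - ⟪z, e⟫_ℝ)
      (fderiv ℝ (fun z : E => ‖z‖) x - fderiv ℝ (fun z : E => ⟪z, e⟫_ℝ) x) x :=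
    h1.hasFDerivAt.sub h2.hasFDerivAt
  have p1 := regbarrier_pd_norm hx v
  have p2 := regbarrier_pd_inner e x v
  simp only [pd] at p1 p2 ⊢
  rw [h.fderiv]
  simp [p1, p2]

omit [FiniteDimensional ℝ E] in
theorem regbarrier_pd2_a (e : E) {x : E} (hx : x ≠ 0) (v : E) :
    pd v (pd v (fun z : E => ‖z‖ - ⟪z, e⟫_ℝ)) x
      = ‖v‖ ^ 2 / ‖x‖ - ⟪x, v⟫_ℝ ^ 2 / ‖x‖ ^ 3 := by
  have hn : 0 < ‖x‖ := norm_pos_iff.2 hx
  have hN : IsOpen {z : E | z ≠ 0} := isOpen_ne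
  have e1 : Set.EqOn (pd v (fun z : E => ‖z‖ - ⟪z, e⟫_ℝ))
      (fun z => ⟪z, v⟫_ℝ * (‖z‖)⁻¹ + -⟪v, e⟫_ℝ) {z : E | z ≠ 0} := by
    intro y hy
    rw [regbarrier_pd_a e hy v]
    simp only
    ring
  rw [pd_congr hN e1 v hx]
  have d1 : DifferentiableAt ℝ (fun z : E => ⟪z, v⟫_ℝ) x := regbarrier_diff_inner v x
  have d2 : DifferentiableAt ℝ (fun z : E => (‖z‖)⁻¹) x := (regbarrier_diff_norm hx).inv hn.ne'
  have d3 : DifferentiableAt ℝ (fun z : E => ⟪z, v⟫_ℝ * (‖z‖)⁻¹) x := d1.mul d2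
  have d4 : DifferentiableAt ℝ (fun _ : E => -⟪v, e⟫_ℝ) x := differentiableAt_const _
  rw [pd_add d3 d4 v, pd_const, pd_mul d1 d2 v, regbarrier_pd_inner v x v]
  have h3 : pd v (fun z : E => (‖z‖)⁻¹) x = -(‖x‖ ^ 2)⁻¹ * pd v (fun z : E => ‖z‖) x :=
    pd_comp (hasDerivAt_inv hn.ne') (regbarrier_diff_norm hx) v
  rw [h3, regbarrier_pd_norm hx v, real_inner_self_eq_norm_sq]
  field_simp
  ring

omit [FiniteDimensional ℝ E] in
theorem regbarrier_lap_a (b : OrthonormalBasis ι ℝ E) (e : E) {x : E} (hx : x ≠ 0) :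
    lap b (fun z : E => ‖z‖ - ⟪z, e⟫_ℝ) x = ((Fintype.card ι : ℝ) - 1) / ‖x‖ := by
  have hn : 0 < ‖x‖ := norm_pos_iff.2 hx
  simp only [lap]
  rw [Finset.sum_congr rfl fun k _ => regbarrier_pd2_a e hx (b k)]
  have hb : ∀ k, ‖b k‖ = 1 := fun k => b.orthonormal.1 k
  simp only [hb, Finset.sum_sub_distrib, Finset.sum_const, Finset.card_univ, nsmul_eq_mul,
    ← Finset.sum_div]
  rw [sum_inner_sq b x]
  field_simp

omit [FiniteDimensional ℝ E] in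
theorem regbarrier_sum_sq (b : OrthonormalBasis ι ℝ E) (e : E) (he : ‖e‖ = 1) {x : E}
    (hx : x ≠ 0) :
    ∑ k, pd (b k) (fun z : E => ‖z‖ - ⟪z, e⟫_ℝ) x ^ 2 = 2 * (‖x‖ - ⟪x, e⟫_ℝ) / ‖x‖ := by
  have hn : 0 < ‖x‖ := norm_pos_iff.2 hx
  have t : ∀ k, pd (b k) (fun z : E => ‖z‖ - ⟪z, e⟫_ℝ) x ^ 2
      = ⟪x, b k⟫_ℝ ^ 2 / ‖x‖ ^ 2 - 2 / ‖x‖ * (⟪x, b k⟫_ℝ * ⟪b k, e⟫_ℝ) + ⟪e, b k⟫_ℝ ^ 2 := by
    intro k
    rw [regbarrier_pd_a e hx (b k), real_inner_comm e (b k)]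
    field_simp
    ring
  rw [Finset.sum_congr rfl fun k _ => t k]
  simp only [Finset.sum_add_distrib, Finset.sum_sub_distrib, ← Finset.sum_div, ← Finset.mul_sum]
  rw [sum_inner_sq b x, sum_inner_sq b e, b.sum_inner_mul_inner x e, he]
  field_simp
  ring

theorem barrier_lap_pos (b : OrthonormalBasis ι ℝ E) (hd : 2 ≤ Fintype.card ι) (e : E)
    (he : ‖e‖ = 1) {z : E} (hz : 0 < ‖z‖ - ⟪z, e⟫_ℝ) :
    0 < lap b (barrier (Fintype.card ι) e) z := by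
  have h0 : z ≠ 0 := regbarrier_ne_zero e hz
  have hn : 0 < ‖z‖ := norm_pos_iff.2 h0
  have hd' : (2 : ℝ) ≤ (Fintype.card ι : ℝ) := by exact_mod_cast hd
  have hl := lap_explog b (barrier_open e) (regbarrier_a_contDiffOn e)
    (fun y hy => ne_of_gt hy) (fun y hy => regbarrier_ne_zero e hy)
    (-(Fintype.card ι : ℝ)) ((Fintype.card ι : ℝ) / 2) (x := z) hz
  have hb : barrier (Fintype.card ι) e = fun y : E =>
      Real.exp (-(Fintype.card ι : ℝ) * Real.log (‖y‖ - ⟪y, e⟫_ℝ)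
        + (Fintype.card ι : ℝ) / 2 * Real.log (‖y‖ ^ 2)) := rfl
  rw [hb, hl]
  refine mul_pos (Real.exp_pos _) ?_
  have hpx : pd z (fun y : E => ‖y‖ - ⟪y, e⟫_ℝ) z = ‖z‖ - ⟪z, e⟫_ℝ := by
    rw [regbarrier_pd_a e h0 z, real_inner_self_eq_norm_sq]
    field_simp
  rw [regbarrier_sum_sq b e he h0, regbarrier_lap_a b e h0, hpx]
  set a := ‖z‖ - ⟪z, e⟫_ℝ with ha
  set r := ‖z‖ with hr
  set d := (Fintype.card ι : ℝ) with hdd
  have hle : a ≤ 2 * r := by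
    have h1 : |⟪z, e⟫_ℝ| ≤ ‖z‖ * ‖e‖ := abs_real_inner_le_norm z e
    rw [he, mul_one] at h1
    have h2 := neg_le_of_abs_le h1
    simp only [ha, hr]
    linarith
  have key : ((-d) ^ 2 - -d) * (2 * a / r) / a ^ 2 + 4 * -d * (d / 2) * a / (a * r ^ 2)
      + -d * ((d - 1) / r) / a + (4 * (d / 2) ^ 2 + 2 * (d / 2) * d - 4 * (d / 2)) / r ^ 2
      = d * ((d + 3) / (a * r) - 2 / r ^ 2) := by
    field_simp
    ring
  rw [key]
  refine mul_pos (by linarith) ?_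
  have h3 : 2 / r ^ 2 < (d + 3) / (a * r) := by
    rw [div_lt_div_iff₀ (by positivity) (by positivity)]
    nlinarith [mul_pos hn hn, mul_pos hz hn]
  linarith

end Vale.Agent.Lib.P098
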