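import Vale.Agent.Lib.P098.RegInterior
import Vale.Agent.Lib.P098.NMSecond

/-!
The free boundary identity for the regularised test function.
-/

namespace Vale.Agent.Lib.P098

open Finset
open scoped Topology InnerProductSpace

variable {E : Type*} [NormedAddCommGroup E] [InnerProductSpace ℝ E] [FiniteDimensional ℝ E]
variable {ι : Type*} [Fintype ι]
variable {U : Set E} {u : E → ℝ}

theorem bdry_reg (b : OrthonormalBasis ι ℝ E) (hU : IsOpen U) (h0 : (0 : E) ∉ U)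
    (hu : ContDiffOn ℝ 4 u U) (hhom : HomOn 1 u U)
    (hharm : ∀ x ∈ U, 0 < u x → lap b u x = 0)
    (hfb : ∀ x ∈ U, u x = 0 → ∑ i, pd (b i) u x ^ 2 = 1)
    {x0 : E} (hx0 : x0 ∈ U) (hu0 : u x0 = 0) (p q : ℝ) {δ : ℝ} (hδ : 0 < δ) :
    ∑ i, pd (b i) (regFn b u p q δ) x0 * pd (b i) u x0 + hmFn u x0 * regFn b u p q δ x0
      = regFn b u p q δ x0 / hreg b u δ x0
        * ((1 - 2 * p) * hmFn u x0 * hsq b u x0
          - p * (∑ i, ∑ j, ∑ l, pd (b i) (pd (b j) u) x0 * pd (b j) (pd (b l) u) x0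
              * pd (b l) (pd (b i) u) x0)
          + hmFn u x0 * (δ * (‖x0‖ ^ 2)⁻¹)) := by
  have hu2 : ContDiffOn ℝ 2 u U := hu.of_le (by norm_num)
  have hν : ∀ w, pd w u x0 = ⟪gradient u x0, w⟫_ℝ := fun w => pd_eq_inner_gradient u w x0
  have hx00 : x0 ≠ 0 := fun h => h0 (h ▸ hx0)
  have hρ0 : ‖x0‖ ^ 2 ≠ 0 := pow_ne_zero 2 (norm_ne_zero_iff.2 hx00)
  have hfpos := hreg_pos b u hδ hx00
  have hinner : ⟪x0, gradient u x0⟫_ℝ = 0 := by
    rw [real_inner_comm, ← hν x0, euler_u hU hu hhom hx0, hu0]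
  have hds : DifferentiableAt ℝ (hsq b u) x0 :=
    diffAt hU (hessSq_contDiffOn b hU hu) (by norm_num) hx0
  have hdρ : DifferentiableAt ℝ (fun z : E => ‖z‖ ^ 2) x0 :=
    ((contDiff_norm_sq ℝ).contDiffAt (n := 2)).differentiableAt (by norm_num)
  have hdr : DifferentiableAt ℝ (fun z : E => (‖z‖ ^ 2)⁻¹) x0 := hdρ.inv hρ0
  have hdf : DifferentiableAt ℝ (hreg b u δ) x0 := hds.add (hdr.const_mul δ)
  have hdla : DifferentiableAt ℝ (fun z => Real.log (hreg b u δ z)) x0 := hdf.log hfpos.ne'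
  have hdlρ : DifferentiableAt ℝ (fun z : E => Real.log (‖z‖ ^ 2)) x0 := hdρ.log hρ0
  have hdL : DifferentiableAt ℝ (fun z => p / 2 * Real.log (hreg b u δ z)
      + q / 2 * Real.log (‖z‖ ^ 2)) x0 :=
    (hdla.const_mul (p / 2)).add (hdlρ.const_mul (q / 2))
  have e1 : pd (gradient u x0) (regFn b u p q δ) x0
      = regFn b u p q δ x0 * pd (gradient u x0) (fun z => p / 2 * Real.log (hreg b u δ z)
        + q / 2 * Real.log (‖z‖ ^ 2)) x0 :=
    pd_comp (f := fun z => p / 2 * Real.log (hreg b u δ z) + q / 2 * Real.log (‖z‖ ^ 2))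
      (Real.hasDerivAt_exp _) hdL (gradient u x0)
  have e2 := pd_lin hdla hdlρ (p / 2) (q / 2) (gradient u x0)
  have e3 := pd_log hdf hfpos.ne' (gradient u x0)
  have e4 := pd_log hdρ hρ0 (gradient u x0)
  have e5 : pd (gradient u x0) (hreg b u δ) x0
      = pd (gradient u x0) (hsq b u) x0
        + δ * pd (gradient u x0) (fun z : E => (‖z‖ ^ 2)⁻¹) x0 := by
    have hform : hreg b u δ = fun z => hsq b u z + δ * (fun z : E => (‖z‖ ^ 2)⁻¹) z := rfl
    rw [hform, pd_add hds (hdr.const_mul δ) (gradient u x0),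
      pd_const_mul hdr δ (gradient u x0)]
  have e6 := pd_rinv (gradient u x0) hx00
  have e7 := pd_normsq (gradient u x0) x0
  have e8 := hsq_pd b hU hu hx0 (gradient u x0)
  have e9 : ∑ i, ∑ j, pd (b i) (pd (b j) u) x0
        * pd (gradient u x0) (pd (b i) (pd (b j) u)) x0
      = 2 * pd (gradient u x0) (pd (gradient u x0) u) x0 * hsq b u x0
        - ∑ i, ∑ j, ∑ l, pd (b i) (pd (b j) u) x0 * pd (b j) (pd (b l) u) x0
            * pd (b l) (pd (b i) u) x0 := bdry_main b hU hu hharm hfb hx0 hu0 hν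
  have e10 : hmFn u x0 = -pd (gradient u x0) (pd (gradient u x0) u) x0 := by
    unfold hmFn
    rw [D2_eq hU hu2 hx0]
  have e11 : ∑ i, pd (b i) (regFn b u p q δ) x0 * pd (b i) u x0
      = pd (gradient u x0) (regFn b u p q δ) x0 :=
    (fderiv_gradient b u (regFn b u p q δ) x0).symm
  have hf : hreg b u δ x0 = hsq b u x0 + δ * (‖x0‖ ^ 2)⁻¹ := rfl
  have hfne : hsq b u x0 + δ * (‖x0‖ ^ 2)⁻¹ ≠ 0 := by
    rw [← hf]
    exact hfpos.ne'
  rw [e11, e1, e2, e3, e4, e5, e6, e7, e8, e9, e10, hinner, hf]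
  obtain ⟨s, hs⟩ : ∃ s : ℝ, s = δ * (‖x0‖ ^ 2)⁻¹ := ⟨_, rfl⟩
  rw [← hs] at hfne ⊢
  simp only [mul_zero, neg_zero, zero_div, add_zero]
  field_simp
  ring

end Vale.Agent.Lib.P098
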