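import Vale.Agent.Lib.P098.RegMax
import Vale.Agent.Lib.P098.RegBarrier
import Vale.Agent.Lib.P098.NMSol

/-!
Free boundaries of classical one-homogeneous solutions of the one-phase problem are mean
convex: `|∇u| ≤ 1` in the positive phase by the maximum principle on the link (with a
zero-homogeneous strictly subharmonic barrier), hence `∂_ν |∇u|² ≤ 0` on the free boundary,
which is `H ≥ 0`.
-/

namespace Vale.Agent.Lib.P098

open Finset
open scoped Topology InnerProductSpace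

variable {E : Type*} [NormedAddCommGroup E] [InnerProductSpace ℝ E] [FiniteDimensional ℝ E]
variable {ι : Type*} [Fintype ι]
variable {U : Set E} {u : E → ℝ}

omit [FiniteDimensional ℝ E] in
theorem closure_cone {S : Set E} (hS : ∀ x ∈ S, ∀ t : ℝ, 0 < t → t • x ∈ S) {x : E}
    (hx : x ∈ closure S) {t : ℝ} (ht : 0 < t) : t • x ∈ closure S :=
  map_mem_closure (continuous_const_smul t) hx (fun y hy => hS y hy t ht)

omit [FiniteDimensional ℝ E] in
theorem eventually_gt_of_pd_pos {f : E → ℝ} {x0 ν : E} (hd : DifferentiableAt ℝ f x0)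
    (hν : 0 < pd ν f x0) : ∀ᶠ t in 𝓝[>] (0 : ℝ), f x0 < f (x0 + t • ν) := by
  have hd0 : DifferentiableAt ℝ f (x0 + (0 : ℝ) • ν) := by simpa using hd
  have hφ : HasDerivAt (fun t : ℝ => f (x0 + t • ν)) (pd ν f (x0 + (0 : ℝ) • ν)) 0 :=
    regmax_comp_hasDerivAt hd0
  have hφ' : HasDerivAt (fun t : ℝ => f (x0 + t • ν)) (pd ν f x0) 0 := by simpa using hφ
  have hlo := hasDerivAt_iff_isLittleO.1 hφ'
  have hb := hlo.def (half_pos hν)
  filter_upwards [nhdsWithin_le_nhds hb, self_mem_nhdsWithin] with t h1 h3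
  have ht : (0 : ℝ) < t := h3
  simp only [zero_smul, add_zero, sub_zero, smul_eq_mul, Real.norm_eq_abs] at h1
  rw [abs_of_pos ht] at h1
  have h4 := abs_le.1 h1
  nlinarith [h4.1]

/-- The gradient of `u` at `z` in coordinates. -/
noncomputable def gradVec (b : OrthonormalBasis ι ℝ E) (u : E → ℝ) (z : E) : E :=
  ∑ i, pd (b i) u z • b i

omit [FiniteDimensional ℝ E] in
theorem pd_gradVec (b : OrthonormalBasis ι ℝ E) (u f : E → ℝ) (z : E) :
    pd (gradVec b u z) f z = ∑ i, pd (b i) f z * pd (b i) u z := by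
  unfold gradVec
  show fderiv ℝ f z (∑ i, pd (b i) u z • b i) = ∑ i, pd (b i) f z * pd (b i) u z
  rw [map_sum]
  refine Finset.sum_congr rfl fun i _ => ?_
  rw [map_smul, smul_eq_mul, mul_comm]
  rfl

omit [FiniteDimensional ℝ E] in
theorem exists_neg_of_fb (b : OrthonormalBasis ι ℝ E) (hU : IsOpen U)
    (hu : ContDiffOn ℝ 4 u U) (hfb : ∀ x ∈ U, u x = 0 → ∑ i, pd (b i) u x ^ 2 = 1) {z : E}
    (hz : z ∈ U) (huz : u z = 0) : ∃ y ∈ U, u y < 0 := by
  have hd : DifferentiableAt ℝ u z := diffAt hU hu (by norm_num) hz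
  have hdn : DifferentiableAt ℝ (fun y => -u y) z := hd.neg
  have h1 : pd (gradVec b u z) u z = 1 := by
    rw [pd_gradVec, ← hfb z hz huz]
    exact Finset.sum_congr rfl fun i _ => by ring
  have h2 : 0 < pd (-(gradVec b u z)) (fun y => -u y) z := by
    have e : -(gradVec b u z) = (-1 : ℝ) • gradVec b u z := by simp
    rw [pd_neg, e, pd_smul_dir, h1]
    norm_num
  have h3 := mem_closure_pos hU hz hdn (by simp [huz]) (-(gradVec b u z)) h2
  obtain ⟨y, hy⟩ := mem_closure_iff_nhds.1 h3 U (hU.mem_nhds hz)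
  have h4 : 0 < -u y := hy.2.2
  exact ⟨y, hy.1, by linarith⟩

theorem away_dir (hU : IsOpen U) (h0 : (0 : E) ∉ U)
    (hcone : ∀ x ∈ U, ∀ t : ℝ, 0 < t → t • x ∈ U) (hc : ContinuousOn u U)
    (hhom : ∀ x ∈ U, ∀ t : ℝ, 0 < t → u (t • x) = t * u x) {y : E} (hy : y ∈ U)
    (hyneg : u y < 0) :
    ‖(‖y‖⁻¹ • y)‖ = 1 ∧ ∀ z ∈ closure {x ∈ U | 0 < u x}, z ≠ 0 →
      0 < ‖z‖ - ⟪z, ‖y‖⁻¹ • y⟫_ℝ := by
  have hy0 : y ≠ 0 := fun h => h0 (h ▸ hy)
  have hn : 0 < ‖y‖ := norm_pos_iff.2 hy0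
  have he : ‖(‖y‖⁻¹ • y)‖ = 1 := by
    rw [norm_smul, norm_inv, norm_norm, inv_mul_cancel₀ hn.ne']
  refine ⟨he, ?_⟩
  intro z hz hz0
  by_contra hcon
  have h1 : ‖z‖ ≤ ⟪z, ‖y‖⁻¹ • y⟫_ℝ := by linarith [not_lt.1 hcon]
  have h2 : ⟪z, ‖y‖⁻¹ • y⟫_ℝ ≤ ‖z‖ * ‖(‖y‖⁻¹ • y)‖ := real_inner_le_norm _ _
  rw [he, mul_one] at h2
  have h3 : ⟪z, ‖y‖⁻¹ • y⟫_ℝ = ‖z‖ * ‖(‖y‖⁻¹ • y)‖ := by
    rw [he, mul_one]
    linarith
  have h4 := (inner_eq_norm_mul_iff_real).1 h3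
  rw [he, one_smul] at h4
  have hzn : 0 < ‖z‖ := norm_pos_iff.2 hz0
  have e : ‖y‖ / ‖z‖ * ‖z‖ * ‖y‖⁻¹ = 1 := by field_simp
  have h5' : (‖y‖ / ‖z‖) • z = (‖y‖ / ‖z‖) • (‖z‖ • ‖y‖⁻¹ • y) :=
    congrArg (fun w : E => (‖y‖ / ‖z‖) • w) h4
  rw [smul_smul, smul_smul, e, one_smul] at h5'
  have h5 : y = (‖y‖ / ‖z‖) • z := h5'.symm
  have hΩcone : ∀ x ∈ {x ∈ U | 0 < u x}, ∀ t : ℝ, 0 < t → t • x ∈ {x ∈ U | 0 < u x} :=
    fun x hx t ht => ⟨hcone x hx.1 t ht, by rw [hhom x hx.1 t ht]; exact mul_pos ht hx.2⟩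
  have h6 : y ∈ closure {x ∈ U | 0 < u x} := by
    rw [h5]
    exact closure_cone hΩcone hz (div_pos hn hzn)
  have h7 := u_nonneg_of_mem_closure hU hc h6 hy
  linarith

omit [FiniteDimensional ℝ E] in
theorem gradSq_hom (b : OrthonormalBasis ι ℝ E) (hU : IsOpen U)
    (hcone : ∀ x ∈ U, ∀ t : ℝ, 0 < t → t • x ∈ U) (hu : ContDiffOn ℝ 4 u U)
    (hhom : HomOn 1 u U) {x : E} (hx : x ∈ U) {t : ℝ} (ht : 0 < t) :
    gradSq b u (t • x) = gradSq b u x := by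
  unfold gradSq
  refine Finset.sum_congr rfl fun j _ => ?_
  rw [hom1 hU hcone hu hhom (b j) x hx t ht, zpow_zero, one_mul]

/-- In the positive phase of a classical cone with nonempty free boundary, `|∇u| ≤ 1`. -/
theorem gradSq_le_one (b : OrthonormalBasis ι ℝ E) (hd : 2 ≤ Fintype.card ι)
    (hU : IsOpen U) (h0 : (0 : E) ∉ U) (hcone : ∀ x ∈ U, ∀ t : ℝ, 0 < t → t • x ∈ U)
    (hu : ContDiffOn ℝ 4 u U) (hhom : ∀ x ∈ U, ∀ t : ℝ, 0 < t → u (t • x) = t * u x)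
    (hharm : ∀ x ∈ U, 0 < u x → lap b u x = 0)
    (hfb : ∀ x ∈ U, u x = 0 → ∑ i, pd (b i) u x ^ 2 = 1)
    (hcl : closure {x ∈ U | 0 < u x} ⊆ insert 0 U)
    {y : E} (hy : y ∈ U) (hyneg : u y < 0) :
    ∀ x ∈ U, 0 < u x → gradSq b u x ≤ 1 := by
  have hhom' : HomOn 1 u U := fun y hy t ht => by
    rw [zpow_one]
    exact hhom y hy t ht
  obtain ⟨he, hN⟩ := away_dir hU h0 hcone hu.continuousOn hhom hy hyneg
  obtain ⟨e, hedef⟩ : ∃ e : E, e = ‖y‖⁻¹ • y := ⟨_, rfl⟩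
  rw [← hedef] at he hN
  have hΩopen : IsOpen {x ∈ U | 0 < u x} := posSet_open hU hu
  have hΩcone : ∀ x ∈ {x ∈ U | 0 < u x}, ∀ t : ℝ, 0 < t → t • x ∈ {x ∈ U | 0 < u x} :=
    fun x hx t ht => ⟨hcone x hx.1 t ht, by rw [hhom x hx.1 t ht]; exact mul_pos ht hx.2⟩
  have hNopen : IsOpen {z : E | 0 < ‖z‖ - ⟪z, e⟫_ℝ} := barrier_open e
  have hVopen : IsOpen (U ∩ {z : E | 0 < ‖z‖ - ⟪z, e⟫_ℝ}) := hU.inter hNopen
  have hKc : IsCompact (closure {x ∈ U | 0 < u x} ∩ Metric.sphere (0 : E) 1) :=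
    (isCompact_sphere 0 1).inter_left isClosed_closure
  have hK0 : ∀ x ∈ closure {x ∈ U | 0 < u x} ∩ Metric.sphere (0 : E) 1, x ≠ 0 := by
    intro x hx h
    have h1 : ‖x‖ = 1 := mem_sphere_zero_iff_norm.1 hx.2
    rw [h, norm_zero] at h1
    norm_num at h1
  have hKU : closure {x ∈ U | 0 < u x} ∩ Metric.sphere (0 : E) 1 ⊆ U := by
    intro x hx
    rcases hcl hx.1 with h | h
    · exact absurd h (hK0 x hx)
    · exact h
  have hKN : closure {x ∈ U | 0 < u x} ∩ Metric.sphere (0 : E) 1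
      ⊆ {z : E | 0 < ‖z‖ - ⟪z, e⟫_ℝ} := fun x hx => hN x hx.1 (hK0 x hx)
  have hnorm : ∀ x ∈ {x ∈ U | 0 < u x},
      ‖x‖⁻¹ • x ∈ closure {x ∈ U | 0 < u x} ∩ Metric.sphere (0 : E) 1 := by
    intro x hx
    have hx0 : x ≠ 0 := fun h => h0 (h ▸ hx.1)
    have hn : 0 < ‖x‖ := norm_pos_iff.2 hx0
    refine ⟨subset_closure (hΩcone x hx _ (inv_pos.2 hn)), ?_⟩
    rw [mem_sphere_zero_iff_norm, norm_smul, norm_inv, norm_norm, inv_mul_cancel₀ hn.ne']
  have hG2 : ContDiffOn ℝ 2 (gradSq b u) (U ∩ {z : E | 0 < ‖z‖ - ⟪z, e⟫_ℝ}) :=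
    ((gradSq_contDiffOn b hU hu).of_le (by norm_num)).mono Set.inter_subset_left
  have hψ2 : ContDiffOn ℝ 2 (barrier (Fintype.card ι) e)
      (U ∩ {z : E | 0 < ‖z‖ - ⟪z, e⟫_ℝ}) :=
    (barrier_contDiffOn _ e).mono Set.inter_subset_right
  have hGc : ContinuousOn (gradSq b u) U := (gradSq_contDiffOn b hU hu).continuousOn
  have hψc : ContinuousOn (barrier (Fintype.card ι) e) {z : E | 0 < ‖z‖ - ⟪z, e⟫_ℝ} :=
    (barrier_contDiffOn _ e).continuousOn
  obtain ⟨C, hC⟩ := hKc.exists_bound_of_continuousOn (hψc.mono hKN)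
  have hCle : ∀ x ∈ closure {x ∈ U | 0 < u x} ∩ Metric.sphere (0 : E) 1,
      barrier (Fintype.card ι) e x ≤ C := by
    intro x hx
    have h1 := hC x hx
    rw [Real.norm_eq_abs] at h1
    exact (le_abs_self _).trans h1
  have hψpos : ∀ x, 0 < barrier (Fintype.card ι) e x := fun x => Real.exp_pos _
  have claim : ∀ ε : ℝ, 0 < ε → ∀ x ∈ closure {x ∈ U | 0 < u x} ∩ Metric.sphere (0 : E) 1,
      gradSq b u x + ε * barrier (Fintype.card ι) e x ≤ 1 + ε * C := by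
    intro ε hε x hx
    have hWc : ContinuousOn (fun z => gradSq b u z + ε * barrier (Fintype.card ι) e z)
        (closure {x ∈ U | 0 < u x} ∩ Metric.sphere (0 : E) 1) :=
      (hGc.mono hKU).add (continuousOn_const.mul (hψc.mono hKN))
    obtain ⟨xs, hxsK, hmax⟩ := hKc.exists_isMaxOn ⟨x, hx⟩ hWc
    have hle : gradSq b u x + ε * barrier (Fintype.card ι) e x
        ≤ gradSq b u xs + ε * barrier (Fintype.card ι) e xs := hmax hx
    refine hle.trans ?_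
    have hxsU := hKU hxsK
    have hnn := u_nonneg_of_mem_closure hU hu.continuousOn hxsK.1 hxsU
    rcases hnn.lt_or_eq with hpos | hzero
    · exfalso
      have hxsΩ : xs ∈ {x ∈ U | 0 < u x} := ⟨hxsU, hpos⟩
      have hloc : IsLocalMax (fun z => gradSq b u z + ε * barrier (Fintype.card ι) e z) xs := by
        filter_upwards [hΩopen.mem_nhds hxsΩ] with z hz
        have hz0 : z ≠ 0 := fun h => h0 (h ▸ hz.1)
        have hzn : 0 < ‖z‖ := norm_pos_iff.2 hz0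
        have h1 : gradSq b u (‖z‖⁻¹ • z) + ε * barrier (Fintype.card ι) e (‖z‖⁻¹ • z)
            ≤ gradSq b u xs + ε * barrier (Fintype.card ι) e xs := hmax (hnorm z hz)
        have hzN : 0 < ‖z‖ - ⟪z, e⟫_ℝ := hN z (subset_closure hz) hz0
        rw [gradSq_hom b hU hcone hu hhom' hz.1 (inv_pos.2 hzn),
          barrier_hom _ e hzN (inv_pos.2 hzn)] at h1
        exact h1
      have hxsV : xs ∈ U ∩ {z : E | 0 < ‖z‖ - ⟪z, e⟫_ℝ} := ⟨hxsU, hKN hxsK⟩
      have hlap := lap_nonpos_of_isLocalMax b hVopen (hG2.add (contDiffOn_const.mul hψ2))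
        hxsV hloc
      have hsplit : lap b (fun z => gradSq b u z + ε * barrier (Fintype.card ι) e z) xs
          = lap b (gradSq b u) xs + ε * lap b (barrier (Fintype.card ι) e) xs := by
        simp only [lap]
        rw [Finset.mul_sum, ← Finset.sum_add_distrib]
        refine Finset.sum_congr rfl fun i _ => ?_
        have h1 := pd2_lin hVopen hG2 hψ2 1 ε hxsV (b i)
        simp only [one_mul] at h1
        exact h1
      rw [hsplit, gradSq_lap b hU hu hharm hxsU hpos] at hlap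
      have h5 := barrier_lap_pos b hd e he (hKN hxsK)
      have h6 : 0 ≤ ∑ i, ∑ j, pd (b i) (pd (b j) u) xs ^ 2 :=
        Finset.sum_nonneg fun i _ => Finset.sum_nonneg fun j _ => sq_nonneg _
      nlinarith [mul_pos hε h5]
    · have h1 : gradSq b u xs = 1 := hfb xs hxsU hzero.symm
      rw [h1]
      have h2 := hCle xs hxsK
      nlinarith [mul_le_mul_of_nonneg_left h2 hε.le]
  have hKle : ∀ x ∈ closure {x ∈ U | 0 < u x} ∩ Metric.sphere (0 : E) 1,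
      gradSq b u x ≤ 1 := by
    intro x hx
    apply le_of_forall_pos_le_add
    intro ε' hε'
    have hCabs : 0 < |C| + 1 := by positivity
    have h1 := claim (ε' / (|C| + 1)) (div_pos hε' hCabs) x hx
    have h2 : ε' / (|C| + 1) * C ≤ ε' := by
      rw [div_mul_eq_mul_div, div_le_iff₀ hCabs]
      nlinarith [le_abs_self C]
    have h3 : 0 ≤ ε' / (|C| + 1) * barrier (Fintype.card ι) e x :=
      mul_nonneg (div_pos hε' hCabs).le (hψpos x).le
    linarith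
  intro x hx hpos
  have hx0 : x ≠ 0 := fun h => h0 (h ▸ hx)
  have hn : 0 < ‖x‖ := norm_pos_iff.2 hx0
  rw [← gradSq_hom b hU hcone hu hhom' hx (inv_pos.2 hn)]
  exact hKle _ (hnorm x ⟨hx, hpos⟩)

/-- The free boundary of a classical cone is mean convex. -/
theorem hmFn_nonneg (b : OrthonormalBasis ι ℝ E) (hd : 2 ≤ Fintype.card ι)
    (hU : IsOpen U) (h0 : (0 : E) ∉ U) (hcone : ∀ x ∈ U, ∀ t : ℝ, 0 < t → t • x ∈ U)
    (hu : ContDiffOn ℝ 4 u U) (hhom : ∀ x ∈ U, ∀ t : ℝ, 0 < t → u (t • x) = t * u x)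
    (hharm : ∀ x ∈ U, 0 < u x → lap b u x = 0)
    (hfb : ∀ x ∈ U, u x = 0 → ∑ i, pd (b i) u x ^ 2 = 1)
    (hcl : closure {x ∈ U | 0 < u x} ⊆ insert 0 U) {z : E} (hz : z ∈ U) (huz : u z = 0) :
    0 ≤ hmFn u z := by
  obtain ⟨y, hy, hyneg⟩ := exists_neg_of_fb b hU hu hfb hz huz
  have hle := gradSq_le_one b hd hU h0 hcone hu hhom hharm hfb hcl hy hyneg
  by_contra hcon
  have hneg : hmFn u z < 0 := not_le.1 hcon
  have hd1 : DifferentiableAt ℝ u z := diffAt hU hu (by norm_num) hz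
  have hd2 : DifferentiableAt ℝ (gradSq b u) z :=
    diffAt hU (gradSq_contDiffOn b hU hu) (by norm_num) hz
  have h1 : pd (gradVec b u z) u z = 1 := by
    rw [pd_gradVec, ← hfb z hz huz]
    exact Finset.sum_congr rfl fun i _ => by ring
  have h2 : pd (gradVec b u z) (gradSq b u) z = -2 * hmFn u z := by
    rw [pd_gradVec, gradSq_dot b hU hu hz]
  have e1 := eventually_gt_of_pd_pos hd1 (by rw [h1]; exact one_pos)
  have e2 := eventually_gt_of_pd_pos hd2 (by rw [h2]; linarith)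
  have hcont : ContinuousAt (fun t : ℝ => z + t • gradVec b u z) 0 :=
    (regmax_line_hasDerivAt z (gradVec b u z) 0).continuousAt
  have hU' : ∀ᶠ t in 𝓝 (0 : ℝ), z + t • gradVec b u z ∈ U :=
    hcont (by simpa using hU.mem_nhds hz)
  obtain ⟨t, ht1, ht2, ht3⟩ := (e1.and (e2.and (nhdsWithin_le_nhds hU'))).exists
  rw [huz] at ht1
  have h3 := hle _ ht3 ht1
  have h4 : gradSq b u z = 1 := hfb z hz huz
  rw [h4] at ht2
  linarith

end Vale.Agent.Lib.P098
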