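import Vale.Agent.Lib.P098.RegUnstable
import Vale.Agent.Lib.P098.RegMeanConvex
import Vale.Agent.Lib.P098.NMPinched

/-!
Nonflat pinched classical cones of the one-phase problem are not minimizers; neither a
nondegeneracy assumption on the Hessian nor mean convexity of the free boundary is assumed
(the latter is proved for all classical cones).
-/

namespace Vale.Agent.Lib.P098

open Finset MeasureTheory
open scoped ContDiff Topology InnerProductSpace

variable {E : Type*} [NormedAddCommGroup E] [InnerProductSpace ℝ E] [FiniteDimensional ℝ E]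
variable {ι : Type*} [Fintype ι]
variable {U : Set E} {u : E → ℝ}
variable [MeasurableSpace E] [BorelSpace E]

/-- The free boundary of a classical cone is mean convex (coordinate-free form). -/
theorem classical_mean_convex (k : ℕ) (hdim : Module.finrank ℝ E = k + 2)
    (b : OrthonormalBasis ι ℝ E)
    (hU : IsOpen U) (h0 : (0 : E) ∉ U) (hcone : ∀ x ∈ U, ∀ t : ℝ, 0 < t → t • x ∈ U)
    (hu : ContDiffOn ℝ 4 u U) (hhom : ∀ x ∈ U, ∀ t : ℝ, 0 < t → u (t • x) = t * u x)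
    (hharm : ∀ x ∈ U, 0 < u x → Laplacian.laplacian u x = 0)
    (hfb : ∀ x ∈ U, u x = 0 → ‖gradient u x‖ = 1)
    (hcl : closure {x ∈ U | 0 < u x} ⊆ insert 0 U) :
    ∀ x ∈ U, u x = 0 → 0 ≤ hmFn u x := by
  have hu2 : ContDiffOn ℝ 2 u U := hu.of_le (by norm_num)
  have hharm' : ∀ y ∈ U, 0 < u y → lap b u y = 0 := fun y hy hp => by
    rw [← laplacian_eq_lap b hU hu2 hy]
    exact hharm y hy hp
  have hfb' : ∀ y ∈ U, u y = 0 → ∑ i, pd (b i) u y ^ 2 = 1 := fun y hy hy0 => by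
    rw [← norm_gradient_sq b u y, hfb y hy hy0]
    norm_num
  have hcard : 2 ≤ Fintype.card ι := by
    have h1 := Module.finrank_eq_card_basis b.toBasis
    omega
  exact fun x hx hux => hmFn_nonneg b hcard hU h0 hcone hu hhom hharm' hfb' hcl hx hux

/-- Nonflat pinched classical cones are not minimizers. -/
theorem nonflat_pinched_not_minimizing (k : ℕ) (hdim : Module.finrank ℝ E = k + 2)
    (b : OrthonormalBasis ι ℝ E)
    (hU : IsOpen U) (h0 : (0 : E) ∉ U) (hcone : ∀ x ∈ U, ∀ t : ℝ, 0 < t → t • x ∈ U)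
    (hu : ContDiffOn ℝ 4 u U) (hhom : ∀ x ∈ U, ∀ t : ℝ, 0 < t → u (t • x) = t * u x)
    (hharm : ∀ x ∈ U, 0 < u x → Laplacian.laplacian u x = 0)
    (hfb : ∀ x ∈ U, u x = 0 → ‖gradient u x‖ = 1)
    (hcl : closure {x ∈ U | 0 < u x} ⊆ insert 0 U)
    (hnf : ∃ x ∈ {x ∈ U | 0 < u x}, ∑ i, ∑ j, fderiv ℝ (fderiv ℝ u) x (b i) (b j) ^ 2 ≠ 0)
    (p : ℝ) (hp1 : 1 / 2 ≤ p) (hp2 : p ≤ 2) (hp3 : (k : ℝ) ^ 2 / 4 < p * ((k : ℝ) + 1))
    (hpinch : ∀ x ∈ U, u x = 0 →
      p * ∑ i, ∑ j, ∑ l, fderiv ℝ (fderiv ℝ u) x (b i) (b j)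
                  * fderiv ℝ (fderiv ℝ u) x (b j) (b l) * fderiv ℝ (fderiv ℝ u) x (b l) (b i)
        ≤ (1 - 2 * p) * (-(fderiv ℝ (fderiv ℝ u) x (gradient u x) (gradient u x)))
            * ∑ i, ∑ j, fderiv ℝ (fderiv ℝ u) x (b i) (b j) ^ 2) :
    ∃ (v : E → ℝ) (R : ℝ) (K : NNReal), LipschitzWith K (solFn U u) ∧ LipschitzWith K v ∧
      (∀ x, 0 ≤ v x) ∧ (∀ x, R ≤ ‖x‖ → v x = solFn U u x) ∧
      ∀ r : ℝ, R < r →
        IntegrableOn (fun x => ‖gradient v x‖ ^ 2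
          + {y | 0 < v y}.indicator (fun _ => (1 : ℝ)) x) (Metric.ball 0 r) ∧
        IntegrableOn (fun x => ‖gradient (solFn U u) x‖ ^ 2
          + {y | 0 < solFn U u y}.indicator (fun _ => (1 : ℝ)) x) (Metric.ball 0 r) ∧
        energyJ v (Metric.ball 0 r) < energyJ (solFn U u) (Metric.ball 0 r) := by
  have hu2 : ContDiffOn ℝ 2 u U := hu.of_le (by norm_num)
  have hharm' : ∀ y ∈ U, 0 < u y → lap b u y = 0 := fun y hy hp => by
    rw [← laplacian_eq_lap b hU hu2 hy]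
    exact hharm y hy hp
  have hfb' : ∀ y ∈ U, u y = 0 → ∑ i, pd (b i) u y ^ 2 = 1 := fun y hy hy0 => by
    rw [← norm_gradient_sq b u y, hfb y hy hy0]
    norm_num
  have hH := classical_mean_convex k hdim b hU h0 hcone hu hhom hharm hfb hcl
  obtain ⟨φ, hφ, hφc, hφ0, hneg⟩ := pinched_unstable_reg k hdim b hU h0 hcone hu hhom hharm
    hfb hcl hnf hH p hp1 hp2 hp3 hpinch
  exact unstable_competitor b hU h0 hcone hu hhom hharm' hfb' hcl hφ hφc hφ0 hneg

end Vale.Agent.Lib.P098
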