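import Vale.Agent.Lib.P098.Cone

/-!
A lower bound for the third derivatives of a one-homogeneous function by its Hessian:
`3 |D²u|² ≤ |x|² |D³u|²`.
-/

namespace Vale.Agent.Lib.P098

open Finset
open scoped Topology InnerProductSpace

variable {E : Type*} [NormedAddCommGroup E] [InnerProductSpace ℝ E] [FiniteDimensional ℝ E]
variable {ι : Type*} [Fintype ι]
variable {U : Set E} {u : E → ℝ}

/-- The algebraic core: a totally symmetric three-tensor `T` whose contraction with `X` is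
`-A`, where the symmetric `A` is annihilated by `X`, satisfies `3 |A|² ≤ |X|² |T|²`. -/
theorem regthird_alg (X : ι → ℝ) (A : ι → ι → ℝ) (T : ι → ι → ι → ℝ)
    (hAs : ∀ i j, A i j = A j i) (hT12 : ∀ l i j, T l i j = T i l j)
    (hT23 : ∀ l i j, T l i j = T l j i)
    (hTX : ∀ i j, ∑ l, T l i j * X l = -A i j)
    (hAX : ∀ j, ∑ i, A i j * X i = 0) :
    3 * (∑ i, ∑ j, A i j ^ 2) ≤ (∑ l, X l ^ 2) * ∑ l, ∑ i, ∑ j, T l i j ^ 2 := by
  have hN0 : 0 ≤ ∑ l, X l ^ 2 := Finset.sum_nonneg fun l _ => sq_nonneg _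
  -- the ten triple sums
  have s_Ta : ∑ l, ∑ i, ∑ j, T l i j * (X l * A i j) = -∑ i, ∑ j, A i j ^ 2 := by
    rw [Finset.sum_comm, ← Finset.sum_neg_distrib]
    refine Finset.sum_congr rfl fun i _ => ?_
    rw [Finset.sum_comm, ← Finset.sum_neg_distrib]
    refine Finset.sum_congr rfl fun j _ => ?_
    have : ∑ l, T l i j * (X l * A i j) = A i j * ∑ l, T l i j * X l := by
      rw [Finset.mul_sum]
      exact Finset.sum_congr rfl fun l _ => by ring
    rw [this, hTX]
    ring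
  have s_Tb : ∑ l, ∑ i, ∑ j, T l i j * (X i * A l j) = -∑ i, ∑ j, A i j ^ 2 := by
    rw [← Finset.sum_neg_distrib]
    refine Finset.sum_congr rfl fun l _ => ?_
    rw [Finset.sum_comm, ← Finset.sum_neg_distrib]
    refine Finset.sum_congr rfl fun j _ => ?_
    have : ∑ i, T l i j * (X i * A l j) = A l j * ∑ i, T i l j * X i := by
      rw [Finset.mul_sum]
      exact Finset.sum_congr rfl fun i _ => by rw [hT12 l i j]; ring
    rw [this, hTX]
    ring
  have s_Tc : ∑ l, ∑ i, ∑ j, T l i j * (X j * A l i) = -∑ i, ∑ j, A i j ^ 2 := by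
    rw [← Finset.sum_neg_distrib]
    refine Finset.sum_congr rfl fun l _ => ?_
    rw [← Finset.sum_neg_distrib]
    refine Finset.sum_congr rfl fun i _ => ?_
    have : ∑ j, T l i j * (X j * A l i) = A l i * ∑ j, T j l i * X j := by
      rw [Finset.mul_sum]
      exact Finset.sum_congr rfl fun j _ => by rw [hT23 l i j, hT12 l j i]; ring
    rw [this, hTX]
    ring
  have s_aa : ∑ l, ∑ i, ∑ j, (X l * A i j) ^ 2
      = (∑ l, X l ^ 2) * ∑ i, ∑ j, A i j ^ 2 := by
    rw [Finset.sum_mul]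
    refine Finset.sum_congr rfl fun l _ => ?_
    rw [Finset.mul_sum]
    refine Finset.sum_congr rfl fun i _ => ?_
    rw [Finset.mul_sum]
    exact Finset.sum_congr rfl fun j _ => by ring
  have s_bb : ∑ l, ∑ i, ∑ j, (X i * A l j) ^ 2
      = (∑ l, X l ^ 2) * ∑ i, ∑ j, A i j ^ 2 := by
    rw [Finset.sum_comm]
    exact s_aa
  have s_cc : ∑ l, ∑ i, ∑ j, (X j * A l i) ^ 2
      = (∑ l, X l ^ 2) * ∑ i, ∑ j, A i j ^ 2 := by
    rw [Finset.mul_sum]
    refine Finset.sum_congr rfl fun l _ => ?_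
    rw [Finset.sum_comm, Finset.sum_mul]
    refine Finset.sum_congr rfl fun j _ => ?_
    rw [Finset.mul_sum]
    exact Finset.sum_congr rfl fun i _ => by ring
  have s_ab : ∑ l, ∑ i, ∑ j, (X l * A i j) * (X i * A l j) = 0 := by
    refine Finset.sum_eq_zero fun l _ => ?_
    rw [Finset.sum_comm]
    refine Finset.sum_eq_zero fun j _ => ?_
    have : ∑ i, (X l * A i j) * (X i * A l j) = (X l * A l j) * ∑ i, A i j * X i := by
      rw [Finset.mul_sum]
      exact Finset.sum_congr rfl fun i _ => by ring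
    rw [this, hAX, mul_zero]
  have s_ac : ∑ l, ∑ i, ∑ j, (X l * A i j) * (X j * A l i) = 0 := by
    refine Finset.sum_eq_zero fun l _ => ?_
    refine Finset.sum_eq_zero fun i _ => ?_
    have : ∑ j, (X l * A i j) * (X j * A l i) = (X l * A l i) * ∑ j, A j i * X j := by
      rw [Finset.mul_sum]
      exact Finset.sum_congr rfl fun j _ => by rw [hAs i j]; ring
    rw [this, hAX, mul_zero]
  have s_bc : ∑ l, ∑ i, ∑ j, (X i * A l j) * (X j * A l i) = 0 := by
    refine Finset.sum_eq_zero fun l _ => ?_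
    refine Finset.sum_eq_zero fun i _ => ?_
    have : ∑ j, (X i * A l j) * (X j * A l i) = (X i * A l i) * ∑ j, A j l * X j := by
      rw [Finset.mul_sum]
      exact Finset.sum_congr rfl fun j _ => by rw [hAs l j]; ring
    rw [this, hAX, mul_zero]
  -- the sum of squares
  have key : ∑ l, ∑ i, ∑ j,
        ((∑ k, X k ^ 2) * T l i j + (X l * A i j + X i * A l j + X j * A l i)) ^ 2
      = (∑ l, X l ^ 2) * ((∑ l, X l ^ 2) * (∑ l, ∑ i, ∑ j, T l i j ^ 2)
          - 3 * ∑ i, ∑ j, A i j ^ 2) := by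
    have e0 : ∀ l i j,
        ((∑ k, X k ^ 2) * T l i j + (X l * A i j + X i * A l j + X j * A l i)) ^ 2
        = (∑ k, X k ^ 2) ^ 2 * T l i j ^ 2
          + 2 * (∑ k, X k ^ 2) * (T l i j * (X l * A i j))
          + 2 * (∑ k, X k ^ 2) * (T l i j * (X i * A l j))
          + 2 * (∑ k, X k ^ 2) * (T l i j * (X j * A l i))
          + (X l * A i j) ^ 2 + (X i * A l j) ^ 2 + (X j * A l i) ^ 2
          + 2 * ((X l * A i j) * (X i * A l j))
          + 2 * ((X l * A i j) * (X j * A l i))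
          + 2 * ((X i * A l j) * (X j * A l i)) := by
      intro l i j
      ring
    simp only [e0, Finset.sum_add_distrib, ← Finset.mul_sum]
    rw [s_Ta, s_Tb, s_Tc, s_aa, s_bb, s_cc, s_ab, s_ac, s_bc]
    ring
  have hnn : 0 ≤ (∑ l, X l ^ 2) * ((∑ l, X l ^ 2) * (∑ l, ∑ i, ∑ j, T l i j ^ 2)
      - 3 * ∑ i, ∑ j, A i j ^ 2) := by
    rw [← key]
    exact Finset.sum_nonneg fun l _ => Finset.sum_nonneg fun i _ =>
      Finset.sum_nonneg fun j _ => sq_nonneg _
  rcases hN0.eq_or_lt with h0 | hpos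
  · have hX : ∀ l, X l = 0 := by
      intro l
      have h1 := (Finset.sum_eq_zero_iff_of_nonneg (fun l _ => sq_nonneg (X l))).1 h0.symm l
        (Finset.mem_univ l)
      exact pow_eq_zero_iff (two_ne_zero) |>.1 h1
    have hA : ∀ i j, A i j = 0 := by
      intro i j
      have h1 := hTX i j
      simp only [hX, mul_zero, Finset.sum_const_zero] at h1
      linarith
    have hS : ∑ i, ∑ j, A i j ^ 2 = 0 := by
      simp [hA]
    rw [hS, ← h0]
    simp
  · by_contra hcon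
    have hlt : (∑ l, X l ^ 2) * (∑ l, ∑ i, ∑ j, T l i j ^ 2) - 3 * ∑ i, ∑ j, A i j ^ 2 < 0 := by
      linarith [not_le.1 hcon]
    have := mul_neg_of_pos_of_neg hpos hlt
    linarith

omit [FiniteDimensional ℝ E] in
theorem regthird_sum_pd_inner (b : OrthonormalBasis ι ℝ E) (f : E → ℝ) (x : E) :
    ∑ k, pd (b k) f x * ⟪x, b k⟫_ℝ = pd x f x := by
  have h : pd x f x = fderiv ℝ f x (∑ k, ⟪b k, x⟫_ℝ • b k) := by
    rw [b.sum_repr' x]
    rfl
  rw [h, map_sum]
  refine Finset.sum_congr rfl fun k _ => ?_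
  rw [map_smul, real_inner_comm]
  simp [pd, mul_comm]

omit [FiniteDimensional ℝ E] in
theorem regthird_sum_inner_sq (b : OrthonormalBasis ι ℝ E) (x : E) :
    ∑ k, ⟪x, b k⟫_ℝ ^ 2 = ‖x‖ ^ 2 := by
  rw [← real_inner_self_eq_norm_sq, ← b.sum_inner_mul_inner x x]
  refine Finset.sum_congr rfl fun k _ => ?_
  rw [real_inner_comm x (b k)]
  ring

theorem third_ge (b : OrthonormalBasis ι ℝ E) (hU : IsOpen U)
    (hcone : ∀ x ∈ U, ∀ t : ℝ, 0 < t → t • x ∈ U) (hu : ContDiffOn ℝ 4 u U)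
    (hhom : HomOn 1 u U) {x : E} (hx : x ∈ U) :
    3 * (∑ i, ∑ j, pd (b i) (pd (b j) u) x ^ 2)
      ≤ ‖x‖ ^ 2 * ∑ l, ∑ i, ∑ j, pd (b l) (pd (b i) (pd (b j) u)) x ^ 2 := by
  have hu2 : ContDiffOn ℝ 2 u U := hu.of_le (by norm_num)
  have hAs : ∀ i j, pd (b i) (pd (b j) u) x = pd (b j) (pd (b i) u) x :=
    fun i j => pd_comm hU hu2 hx (b i) (b j)
  have hT12 : ∀ l i j, pd (b l) (pd (b i) (pd (b j) u)) x
      = pd (b i) (pd (b l) (pd (b j) u)) x := fun l i j =>
    pd_comm hU ((cd_pd1 hU hu (b j)).of_le (by norm_num)) hx (b l) (b i)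
  have hT23 : ∀ l i j, pd (b l) (pd (b i) (pd (b j) u)) x
      = pd (b l) (pd (b j) (pd (b i) u)) x := fun l i j => by
    have e : Set.EqOn (pd (b i) (pd (b j) u)) (pd (b j) (pd (b i) u)) U :=
      fun x' hx' => pd_comm hU hu2 hx' (b i) (b j)
    exact pd_congr hU e (b l) hx
  have hTX : ∀ i j, ∑ l, pd (b l) (pd (b i) (pd (b j) u)) x * ⟪x, b l⟫_ℝ
      = -pd (b i) (pd (b j) u) x := fun i j => by
    rw [regthird_sum_pd_inner b (pd (b i) (pd (b j) u)) x]
    exact euler_T hU hcone hu hhom hx (b i) (b j)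
  have hAX : ∀ j, ∑ i, pd (b i) (pd (b j) u) x * ⟪x, b i⟫_ℝ = 0 := fun j => by
    rw [regthird_sum_pd_inner b (pd (b j) u) x]
    exact euler_A hU hcone hu hhom hx (b j)
  have key := regthird_alg (fun l => ⟪x, b l⟫_ℝ) (fun i j => pd (b i) (pd (b j) u) x)
    (fun l i j => pd (b l) (pd (b i) (pd (b j) u)) x) hAs hT12 hT23 hTX hAX
  rw [regthird_sum_inner_sq b x] at key
  exact key

end Vale.Agent.Lib.P098
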