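import Vale.Agent.Lib.P098.InteriorMain
import Vale.Agent.Lib.P098.RegThird

/-!
The interior differential inequality for the regularised test function
`(|D²u|² + δ |x|⁻²)^(p/2) |x|^(p - k/2)`.
-/

namespace Vale.Agent.Lib.P098

open Finset
open scoped Topology InnerProductSpace

variable {E : Type*} [NormedAddCommGroup E] [InnerProductSpace ℝ E] [FiniteDimensional ℝ E]
variable {ι : Type*} [Fintype ι]
variable {U : Set E} {u : E → ℝ}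

/-- `|D²u|²` in coordinates. -/
noncomputable def hsq (b : OrthonormalBasis ι ℝ E) (u : E → ℝ) : E → ℝ :=
  fun z => ∑ i, ∑ j, pd (b i) (pd (b j) u) z ^ 2

/-- The regularised `|D²u|² + δ |x|⁻²`. -/
noncomputable def hreg (b : OrthonormalBasis ι ℝ E) (u : E → ℝ) (δ : ℝ) : E → ℝ :=
  fun z => hsq b u z + δ * (‖z‖ ^ 2)⁻¹

/-- The regularised test function `(|D²u|² + δ |x|⁻²)^(p/2) |x|^q` in exponential form. -/
noncomputable def regFn (b : OrthonormalBasis ι ℝ E) (u : E → ℝ) (p q δ : ℝ) : E → ℝ :=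
  fun z => Real.exp (p / 2 * Real.log (hreg b u δ z) + q / 2 * Real.log (‖z‖ ^ 2))

theorem hsq_nonneg (b : OrthonormalBasis ι ℝ E) (u : E → ℝ) (z : E) : 0 ≤ hsq b u z :=
  Finset.sum_nonneg fun _ _ => Finset.sum_nonneg fun _ _ => sq_nonneg _

theorem hreg_pos (b : OrthonormalBasis ι ℝ E) (u : E → ℝ) {δ : ℝ} (hδ : 0 < δ) {z : E}
    (hz : z ≠ 0) : 0 < hreg b u δ z := by
  have h1 : 0 < ‖z‖ ^ 2 := pow_pos (norm_pos_iff.2 hz) 2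
  exact add_pos_of_nonneg_of_pos (hsq_nonneg b u z) (mul_pos hδ (inv_pos.2 h1))

theorem rinv_contDiffOn {N : Set E} (h0 : ∀ y ∈ N, y ≠ 0) :
    ContDiffOn ℝ 2 (fun z : E => (‖z‖ ^ 2)⁻¹) N :=
  ((contDiff_norm_sq ℝ).contDiffOn).inv
    (fun y hy => pow_ne_zero 2 (norm_ne_zero_iff.2 (h0 y hy)))

theorem pd_rinv (v : E) {x : E} (hx : x ≠ 0) :
    pd v (fun z : E => (‖z‖ ^ 2)⁻¹) x = -(2 * ⟪x, v⟫_ℝ) / (‖x‖ ^ 2) ^ 2 := by
  have hρ : ‖x‖ ^ 2 ≠ 0 := pow_ne_zero 2 (norm_ne_zero_iff.2 hx)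
  have hd : DifferentiableAt ℝ (fun z : E => ‖z‖ ^ 2) x :=
    ((contDiff_norm_sq ℝ).contDiffAt (n := 2)).differentiableAt (by norm_num)
  have h3 : pd v (fun z : E => (‖z‖ ^ 2)⁻¹) x
      = -((‖x‖ ^ 2) ^ 2)⁻¹ * pd v (fun z : E => ‖z‖ ^ 2) x :=
    pd_comp (f := fun z : E => ‖z‖ ^ 2) (hasDerivAt_inv hρ) hd v
  rw [h3, pd_normsq]
  field_simp

theorem lap_congr (b : OrthonormalBasis ι ℝ E) {N : Set E} (hN : IsOpen N) {f g : E → ℝ}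
    (h : Set.EqOn f g N) {x : E} (hx : x ∈ N) : lap b f x = lap b g x := by
  simp only [lap]
  refine Finset.sum_congr rfl fun k _ => ?_
  exact pd_congr hN (pd_congr hN h (b k)) (b k) hx

theorem lap_rinv (b : OrthonormalBasis ι ℝ E) {N : Set E} (hN : IsOpen N)
    (h0 : ∀ y ∈ N, y ≠ 0) {x : E} (hx : x ∈ N) :
    lap b (fun z : E => (‖z‖ ^ 2)⁻¹) x
      = (8 - 2 * (Fintype.card ι : ℝ)) / (‖x‖ ^ 2) ^ 2 := by
  have hEq : Set.EqOn (fun z : E => (‖z‖ ^ 2)⁻¹)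
      (fun z => Real.exp (0 * Real.log ((fun _ : E => (1 : ℝ)) z)
        + (-1) * Real.log (‖z‖ ^ 2))) N := by
    intro y hy
    have hρ : 0 < ‖y‖ ^ 2 := pow_pos (norm_pos_iff.2 (h0 y hy)) 2
    show (‖y‖ ^ 2)⁻¹ = Real.exp (0 * Real.log 1 + (-1) * Real.log (‖y‖ ^ 2))
    rw [zero_mul, zero_add, neg_one_mul, Real.exp_neg, Real.exp_log hρ]
  have hρ : 0 < ‖x‖ ^ 2 := pow_pos (norm_pos_iff.2 (h0 x hx)) 2
  rw [lap_congr b hN hEq hx, lap_explog b hN (a := fun _ => (1 : ℝ)) contDiffOn_const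
    (fun _ _ => one_ne_zero) h0 0 (-1) hx]
  rw [zero_mul, zero_add, neg_one_mul, Real.exp_neg, Real.exp_log hρ]
  field_simp
  ring

omit [FiniteDimensional ℝ E] in
theorem hsq_pd (b : OrthonormalBasis ι ℝ E) (hU : IsOpen U) (hu : ContDiffOn ℝ 4 u U) {x : E}
    (hx : x ∈ U) (v : E) :
    pd v (hsq b u) x
      = 2 * ∑ i, ∑ j, pd (b i) (pd (b j) u) x * pd v (pd (b i) (pd (b j) u)) x :=
  sumsq_pd (A := fun i j => pd (b i) (pd (b j) u))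
    (fun i j => diffAt hU (cd_pd2 hU hu (b i) (b j)) (by norm_num) hx) v

omit [FiniteDimensional ℝ E] in
theorem hsq_euler (b : OrthonormalBasis ι ℝ E) (hU : IsOpen U)
    (hcone : ∀ x ∈ U, ∀ t : ℝ, 0 < t → t • x ∈ U) (hu : ContDiffOn ℝ 4 u U)
    (hhom : HomOn 1 u U) {x : E} (hx : x ∈ U) : pd x (hsq b u) x = -2 * hsq b u x := by
  rw [hsq_pd b hU hu hx x]
  simp only [euler_T hU hcone hu hhom hx]
  unfold hsq
  rw [Finset.mul_sum, Finset.mul_sum]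
  refine Finset.sum_congr rfl fun i _ => ?_
  rw [Finset.mul_sum, Finset.mul_sum]
  refine Finset.sum_congr rfl fun j _ => ?_
  ring

omit [FiniteDimensional ℝ E] in
theorem hsq_lap (b : OrthonormalBasis ι ℝ E) (hU : IsOpen U) (hu : ContDiffOn ℝ 4 u U)
    (hharm : ∀ x ∈ U, 0 < u x → lap b u x = 0) {x : E} (hx : x ∈ U) (hpos : 0 < u x) :
    lap b (hsq b u) x = 2 * ∑ l, ∑ i, ∑ j, pd (b l) (pd (b i) (pd (b j) u)) x ^ 2 := by
  have hA : ∀ i j, ContDiffOn ℝ 2 (pd (b i) (pd (b j) u)) U := fun i j =>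
    cd_pd2 hU hu (b i) (b j)
  have hlap : ∀ i j, lap b (pd (b i) (pd (b j) u)) x = 0 := fun i j =>
    lap_A_zero b hU hu hharm hx hpos (b i) (b j)
  have hz : ∑ l, ∑ i, ∑ j, pd (b i) (pd (b j) u) x
      * pd (b l) (pd (b l) (pd (b i) (pd (b j) u))) x = 0 := by
    calc ∑ l, ∑ i, ∑ j, pd (b i) (pd (b j) u) x
          * pd (b l) (pd (b l) (pd (b i) (pd (b j) u))) x
        = ∑ i, ∑ l, ∑ j, pd (b i) (pd (b j) u) x
          * pd (b l) (pd (b l) (pd (b i) (pd (b j) u))) x := Finset.sum_comm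
      _ = ∑ i, ∑ j, ∑ l, pd (b i) (pd (b j) u) x
          * pd (b l) (pd (b l) (pd (b i) (pd (b j) u))) x :=
          Finset.sum_congr rfl fun i _ => Finset.sum_comm
      _ = ∑ i, ∑ j, pd (b i) (pd (b j) u) x * lap b (pd (b i) (pd (b j) u)) x := by
          refine Finset.sum_congr rfl fun i _ => Finset.sum_congr rfl fun j _ => ?_
          rw [lap, Finset.mul_sum]
      _ = 0 := by simp [hlap]
  simp only [lap]
  unfold hsq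
  rw [Finset.sum_congr rfl fun l _ => sumsq_pd2 hU hA hx (b l), ← Finset.mul_sum]
  congr 1
  simp only [Finset.sum_add_distrib]
  rw [hz, add_zero]

omit [FiniteDimensional ℝ E] in
theorem hsq_grad_sq (b : OrthonormalBasis ι ℝ E) (hU : IsOpen U) (hu : ContDiffOn ℝ 4 u U)
    {x : E} (hx : x ∈ U) :
    ∑ k, pd (b k) (hsq b u) x ^ 2
      = 4 * ∑ l, (∑ i, ∑ j, pd (b i) (pd (b j) u) x
          * pd (b l) (pd (b i) (pd (b j) u)) x) ^ 2 := by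
  rw [Finset.mul_sum]
  refine Finset.sum_congr rfl fun k _ => ?_
  rw [hsq_pd b hU hu hx (b k)]
  ring

/-- The real inequality behind the regularised interior estimate. -/
theorem reg_alg (a T G2 ρ δ p k : ℝ) (ha : 0 ≤ a) (hρ : 0 < ρ) (hδ : 0 < δ) (hp : 0 ≤ p)
    (h1 : (1 + p) * a ^ 2 / ρ ≤ a * T - (2 - p) * G2) (h2 : 3 * a ≤ ρ * T) :
    ((p * (k + 1) - k ^ 2 / 4) * a - k ^ 2 / 4 * (δ / ρ)) / (a + δ * ρ⁻¹) / ρ
      ≤ ((p / 2) ^ 2 - p / 2) * (4 * G2 + 8 * δ * a / ρ ^ 2 + 4 * δ ^ 2 / ρ ^ 3)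
            / (a + δ * ρ⁻¹) ^ 2
        + 4 * (p / 2) * ((p - k / 2) / 2) * (-2 * (a + δ * ρ⁻¹)) / ((a + δ * ρ⁻¹) * ρ)
        + p / 2 * (2 * T + δ * ((8 - 2 * (k + 2)) / ρ ^ 2)) / (a + δ * ρ⁻¹)
        + (4 * ((p - k / 2) / 2) ^ 2 + 2 * ((p - k / 2) / 2) * (k + 2)
            - 4 * ((p - k / 2) / 2)) / ρ := by
  have hs : 0 < δ * ρ⁻¹ := mul_pos hδ (inv_pos.2 hρ)
  have hf : 0 < a + δ * ρ⁻¹ := add_pos_of_nonneg_of_pos ha hs
  have hg : 0 < a * ρ + δ := add_pos_of_nonneg_of_pos (mul_nonneg ha hρ.le) hδ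
  have h1' : (1 + p) * a ^ 2 ≤ (a * T - (2 - p) * G2) * ρ := by
    rwa [div_le_iff₀ hρ] at h1
  have hnum : 0 ≤ (p * (a * (T * ρ)) - p * (2 - p) * (G2 * ρ) - p * (1 + p) * a ^ 2)
      + (p * (δ * ρ⁻¹) * (T * ρ) - 3 * p * (δ * ρ⁻¹) * a) := by
    have e1 : 0 ≤ p * ((a * T - (2 - p) * G2) * ρ - (1 + p) * a ^ 2) :=
      mul_nonneg hp (by linarith)
    have e2 : 0 ≤ p * (δ * ρ⁻¹) * (ρ * T - 3 * a) :=
      mul_nonneg (mul_nonneg hp hs.le) (by linarith)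
    nlinarith [e1, e2]
  have key : ((p / 2) ^ 2 - p / 2) * (4 * G2 + 8 * δ * a / ρ ^ 2 + 4 * δ ^ 2 / ρ ^ 3)
            / (a + δ * ρ⁻¹) ^ 2
        + 4 * (p / 2) * ((p - k / 2) / 2) * (-2 * (a + δ * ρ⁻¹)) / ((a + δ * ρ⁻¹) * ρ)
        + p / 2 * (2 * T + δ * ((8 - 2 * (k + 2)) / ρ ^ 2)) / (a + δ * ρ⁻¹)
        + (4 * ((p - k / 2) / 2) ^ 2 + 2 * ((p - k / 2) / 2) * (k + 2)
            - 4 * ((p - k / 2) / 2)) / ρ
      - ((p * (k + 1) - k ^ 2 / 4) * a - k ^ 2 / 4 * (δ / ρ)) / (a + δ * ρ⁻¹) / ρ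
      = ((p * (a * (T * ρ)) - p * (2 - p) * (G2 * ρ) - p * (1 + p) * a ^ 2)
      + (p * (δ * ρ⁻¹) * (T * ρ) - 3 * p * (δ * ρ⁻¹) * a)) / ((a + δ * ρ⁻¹) ^ 2 * ρ) := by
    have hρ' : ρ ≠ 0 := hρ.ne'
    have hg' : a * ρ + δ ≠ 0 := hg.ne'
    have hf' : a + δ * ρ⁻¹ = (a * ρ + δ) / ρ := by
      field_simp
    rw [hf']
    field_simp
    ring
  have hfin : 0 ≤ ((p * (a * (T * ρ)) - p * (2 - p) * (G2 * ρ) - p * (1 + p) * a ^ 2)
      + (p * (δ * ρ⁻¹) * (T * ρ) - 3 * p * (δ * ρ⁻¹) * a)) / ((a + δ * ρ⁻¹) ^ 2 * ρ) :=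
    div_nonneg hnum (by positivity)
  linarith [key, hfin]

theorem hreg_contDiffOn (b : OrthonormalBasis ι ℝ E) (hU : IsOpen U) (h0 : (0 : E) ∉ U)
    (hu : ContDiffOn ℝ 4 u U) (δ : ℝ) : ContDiffOn ℝ 2 (hreg b u δ) U :=
  (hessSq_contDiffOn b hU hu).add
    (contDiffOn_const.mul (rinv_contDiffOn (fun _ hy h => h0 (h ▸ hy))))

theorem regFn_contDiffOn (b : OrthonormalBasis ι ℝ E) (hU : IsOpen U) (h0 : (0 : E) ∉ U)
    (hu : ContDiffOn ℝ 4 u U) (p q : ℝ) {δ : ℝ} (hδ : 0 < δ) :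
    ContDiffOn ℝ 2 (regFn b u p q δ) U :=
  explog_contDiffOn (hreg_contDiffOn b hU h0 hu δ)
    (fun _ hy => (hreg_pos b u hδ (fun h => h0 (h ▸ hy))).ne') (fun _ hy h => h0 (h ▸ hy))
    (p / 2) (q / 2)

omit [FiniteDimensional ℝ E] in
theorem hsq_hom (b : OrthonormalBasis ι ℝ E) (hU : IsOpen U)
    (hcone : ∀ x ∈ U, ∀ t : ℝ, 0 < t → t • x ∈ U) (hu : ContDiffOn ℝ 4 u U)
    (hhom : HomOn 1 u U) {x : E} (hx : x ∈ U) {t : ℝ} (ht : 0 < t) :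
    hsq b u (t • x) = (t ^ 2)⁻¹ * hsq b u x := by
  unfold hsq
  rw [Finset.mul_sum]
  refine Finset.sum_congr rfl fun i _ => ?_
  rw [Finset.mul_sum]
  refine Finset.sum_congr rfl fun j _ => ?_
  rw [hom2 hU hcone hu hhom (b i) (b j) x hx t ht, zpow_neg_one]
  field_simp

omit [FiniteDimensional ℝ E] in
theorem hreg_hom (b : OrthonormalBasis ι ℝ E) (hU : IsOpen U)
    (hcone : ∀ x ∈ U, ∀ t : ℝ, 0 < t → t • x ∈ U) (hu : ContDiffOn ℝ 4 u U)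
    (hhom : HomOn 1 u U) (δ : ℝ) {x : E} (hx : x ∈ U) (hx0 : x ≠ 0) {t : ℝ} (ht : 0 < t) :
    hreg b u δ (t • x) = (t ^ 2)⁻¹ * hreg b u δ x := by
  have hn : ‖t • x‖ ^ 2 = t ^ 2 * ‖x‖ ^ 2 := by
    rw [norm_smul, Real.norm_eq_abs, abs_of_pos ht]
    ring
  have hxn : ‖x‖ ^ 2 ≠ 0 := pow_ne_zero 2 (norm_ne_zero_iff.2 hx0)
  unfold hreg
  rw [hsq_hom b hU hcone hu hhom hx ht, hn]
  field_simp

theorem regFn_hom (b : OrthonormalBasis ι ℝ E) (hU : IsOpen U)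
    (hcone : ∀ x ∈ U, ∀ t : ℝ, 0 < t → t • x ∈ U) (hu : ContDiffOn ℝ 4 u U)
    (hhom : HomOn 1 u U) (p q : ℝ) {δ : ℝ} (hδ : 0 < δ) {x : E} (hx : x ∈ U) (hx0 : x ≠ 0)
    {t : ℝ} (ht : 0 < t) :
    regFn b u p q δ (t • x) = regFn b u p q δ x * Real.exp ((q - p) * Real.log t) := by
  have hf := hreg_pos b u hδ hx0
  have hn : ‖t • x‖ ^ 2 = t ^ 2 * ‖x‖ ^ 2 := by
    rw [norm_smul, Real.norm_eq_abs, abs_of_pos ht]
    ring
  have ht2 : t ^ 2 ≠ 0 := pow_ne_zero 2 ht.ne'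
  have hx2 : ‖x‖ ^ 2 ≠ 0 := pow_ne_zero 2 (norm_ne_zero_iff.2 hx0)
  have e1 : Real.log ((t ^ 2)⁻¹ * hreg b u δ x) = Real.log (hreg b u δ x) - 2 * Real.log t := by
    rw [Real.log_mul (inv_ne_zero ht2) hf.ne', Real.log_inv, Real.log_pow]
    push_cast
    ring
  have e2 : Real.log (t ^ 2 * ‖x‖ ^ 2) = Real.log (‖x‖ ^ 2) + 2 * Real.log t := by
    rw [Real.log_mul ht2 hx2, Real.log_pow t]
    push_cast
    ring
  simp only [regFn]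
  rw [hreg_hom b hU hcone hu hhom δ hx hx0 ht, hn, e1, e2, ← Real.exp_add]
  congr 1
  ring

/-- The interior inequality for the regularised test function. -/
theorem interior_reg (k : ℕ) (hdim : Module.finrank ℝ E = k + 2) (b : OrthonormalBasis ι ℝ E)
    (hU : IsOpen U) (hcone : ∀ x ∈ U, ∀ t : ℝ, 0 < t → t • x ∈ U) (h0 : (0 : E) ∉ U)
    (hu : ContDiffOn ℝ 4 u U) (hhom : HomOn 1 u U)
    (hharm : ∀ x ∈ U, 0 < u x → lap b u x = 0) {x : E} (hx : x ∈ U) (hpos : 0 < u x)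
    (p : ℝ) (hp1 : 1 / 2 ≤ p) (hp2 : p ≤ 2) (hp3 : (k : ℝ) - 1 ≤ p * ((k : ℝ) + 1))
    {δ : ℝ} (hδ : 0 < δ) :
    ((p * ((k : ℝ) + 1) - (k : ℝ) ^ 2 / 4) * hsq b u x - (k : ℝ) ^ 2 / 4 * (δ / ‖x‖ ^ 2))
          / hreg b u δ x / ‖x‖ ^ 2 * regFn b u p (p - (k : ℝ) / 2) δ x
      ≤ lap b (regFn b u p (p - (k : ℝ) / 2) δ) x := by
  have hN : IsOpen {y ∈ U | 0 < u y} := posSet_open hU hu
  have hxN : x ∈ {y ∈ U | 0 < u y} := ⟨hx, hpos⟩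
  have hN0 : ∀ y ∈ {y ∈ U | 0 < u y}, y ≠ 0 := fun y hy h => h0 (h ▸ hy.1)
  have hx0 : x ≠ 0 := hN0 x hxN
  have hρ : 0 < ‖x‖ ^ 2 := pow_pos (norm_pos_iff.2 hx0) 2
  have hsqc : ContDiffOn ℝ 2 (hsq b u) {y ∈ U | 0 < u y} :=
    (hessSq_contDiffOn b hU hu).mono (fun y hy => hy.1)
  have hrc : ContDiffOn ℝ 2 (fun z : E => (‖z‖ ^ 2)⁻¹) {y ∈ U | 0 < u y} := rinv_contDiffOn hN0
  have hfc : ContDiffOn ℝ 2 (hreg b u δ) {y ∈ U | 0 < u y} :=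
    (hreg_contDiffOn b hU h0 hu δ).mono (fun y hy => hy.1)
  have hfne : ∀ y ∈ {y ∈ U | 0 < u y}, hreg b u δ y ≠ 0 :=
    fun y hy => (hreg_pos b u hδ (hN0 y hy)).ne'
  have hform : hreg b u δ = fun z => 1 * hsq b u z + δ * (fun z : E => (‖z‖ ^ 2)⁻¹) z := by
    funext z
    simp [hreg]
  have hds : DifferentiableAt ℝ (hsq b u) x := diffAt hN hsqc (by norm_num) hxN
  have hdr : DifferentiableAt ℝ (fun z : E => (‖z‖ ^ 2)⁻¹) x := diffAt hN hrc (by norm_num) hxN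
  have hpdf : ∀ v, pd v (hreg b u δ) x
      = pd v (hsq b u) x + δ * (-(2 * ⟪x, v⟫_ℝ) / (‖x‖ ^ 2) ^ 2) := by
    intro v
    rw [hform, pd_lin hds hdr 1 δ v, pd_rinv v hx0, one_mul]
  have hlapf : lap b (hreg b u δ) x
      = 2 * ∑ l, ∑ i, ∑ j, pd (b l) (pd (b i) (pd (b j) u)) x ^ 2
        + δ * ((8 - 2 * (Fintype.card ι : ℝ)) / (‖x‖ ^ 2) ^ 2) := by
    have h1 := hsq_lap b hU hu hharm hx hpos
    have h2 := lap_rinv b hN hN0 hxN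
    simp only [lap] at h1 h2 ⊢
    rw [hform, Finset.sum_congr rfl fun k _ => pd2_lin hN hsqc hrc 1 δ hxN (b k),
      Finset.sum_add_distrib, ← Finset.mul_sum, ← Finset.mul_sum, one_mul, h1, h2]
  have hcard : (Fintype.card ι : ℝ) = (k : ℝ) + 2 := by
    have h1 : Module.finrank ℝ E = Fintype.card ι := Module.finrank_eq_card_basis b.toBasis
    have h2 : Fintype.card ι = k + 2 := by omega
    rw [h2]
    push_cast
    ring
  have hL := lap_explog b hN hfc hfne hN0 (p / 2) ((p - (k : ℝ) / 2) / 2) hxN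
  have hreg_eq : regFn b u p (p - (k : ℝ) / 2) δ = fun z => Real.exp (p / 2
      * Real.log (hreg b u δ z) + (p - (k : ℝ) / 2) / 2 * Real.log (‖z‖ ^ 2)) := rfl
  have hsum : ∑ k, pd (b k) (hreg b u δ) x ^ 2
      = 4 * (∑ l, (∑ i, ∑ j, pd (b i) (pd (b j) u) x
          * pd (b l) (pd (b i) (pd (b j) u)) x) ^ 2)
        + 8 * δ * hsq b u x / (‖x‖ ^ 2) ^ 2 + 4 * δ ^ 2 / (‖x‖ ^ 2) ^ 3 := by
    simp only [hpdf]
    have e : ∀ k, (pd (b k) (hsq b u) x + δ * (-(2 * ⟪x, b k⟫_ℝ) / (‖x‖ ^ 2) ^ 2)) ^ 2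
        = pd (b k) (hsq b u) x ^ 2
          - 4 * δ / (‖x‖ ^ 2) ^ 2 * (pd (b k) (hsq b u) x * ⟪x, b k⟫_ℝ)
          + 4 * δ ^ 2 / (‖x‖ ^ 2) ^ 4 * ⟪x, b k⟫_ℝ ^ 2 := by
      intro k
      field_simp
      ring
    simp only [e]
    rw [Finset.sum_add_distrib, Finset.sum_sub_distrib, ← Finset.mul_sum, ← Finset.mul_sum,
      sum_pd_inner b (hsq b u) x, sum_inner_sq b x, hsq_euler b hU hcone hu hhom hx,
      hsq_grad_sq b hU hu hx]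
    field_simp
    ring
  have hpdx : pd x (hreg b u δ) x = -2 * hreg b u δ x := by
    rw [hpdf x, hsq_euler b hU hcone hu hhom hx, real_inner_self_eq_norm_sq]
    unfold hreg
    field_simp
    ring
  rw [hreg_eq, hL, hsum, hpdx, hlapf, hcard, mul_comm]
  refine mul_le_mul_of_nonneg_left ?_ (Real.exp_pos _).le
  have key := interior_ineq k hdim b hU hcone hu hhom hharm hx hx0 hpos p hp1 hp2 hp3
  have third := third_ge b hU hcone hu hhom hx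
  exact reg_alg (hsq b u x) _ _ (‖x‖ ^ 2) δ p (k : ℝ) (hsq_nonneg b u x) hρ hδ (by linarith)
    key third

end Vale.Agent.Lib.P098
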