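import Vale.Agent.Lib.P098.Deriv

/-!
Second derivative test: at a local maximum of a `C²` function the Laplacian is nonpositive.
-/

namespace Vale.Agent.Lib.P098

open Finset
open scoped Topology InnerProductSpace

variable {E : Type*} [NormedAddCommGroup E] [InnerProductSpace ℝ E] [FiniteDimensional ℝ E]
variable {ι : Type*} [Fintype ι]

omit [FiniteDimensional ℝ E] in
theorem regmax_line_hasDerivAt (x v : E) (t : ℝ) :
    HasDerivAt (fun s : ℝ => x + s • v) v t := by
  have h := ((hasDerivAt_id t).smul_const v).const_add x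
  simpa using h

omit [FiniteDimensional ℝ E] in
theorem regmax_comp_hasDerivAt {f : E → ℝ} {x v : E} {t : ℝ}
    (hf : DifferentiableAt ℝ f (x + t • v)) :
    HasDerivAt (fun s : ℝ => f (x + s • v)) (pd v f (x + t • v)) t :=
  hf.hasFDerivAt.comp_hasDerivAt t (regmax_line_hasDerivAt x v t)

theorem pd2_nonpos_of_isLocalMax {N : Set E} (hN : IsOpen N) {f : E → ℝ}
    (hf : ContDiffOn ℝ 2 f N) {x : E} (hx : x ∈ N) (hmax : IsLocalMax f x) (v : E) :
    pd v (pd v f) x ≤ 0 := by
  by_contra hcon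
  have hpos : 0 < pd v (pd v f) x := not_le.mp hcon
  have hL : Continuous (fun s : ℝ => x + s • v) := by fun_prop
  have hx0 : x + (0 : ℝ) • v = x := by simp
  have hNt : ∀ᶠ t : ℝ in 𝓝 0, x + t • v ∈ N := by
    have hmem : N ∈ 𝓝 (x + (0 : ℝ) • v) := by
      rw [hx0]
      exact hN.mem_nhds hx
    exact hL.continuousAt.preimage_mem_nhds hmem
  have hderiv : deriv (fun s : ℝ => f (x + s • v)) =ᶠ[𝓝 0] fun t => pd v f (x + t • v) := by
    filter_upwards [hNt] with t ht
    exact (regmax_comp_hasDerivAt (diffAt hN hf (by norm_num) ht)).deriv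
  have hpd : ContDiffOn ℝ 1 (pd v f) N := pd_contDiffOn hN hf (by norm_num) v
  have hpdx : DifferentiableAt ℝ (pd v f) (x + (0 : ℝ) • v) := by
    rw [hx0]
    exact diffAt hN hpd (by norm_num) hx
  have h2 : HasDerivAt (fun t : ℝ => pd v f (x + t • v)) (pd v (pd v f) (x + (0 : ℝ) • v)) 0 :=
    regmax_comp_hasDerivAt hpdx
  have hdd : deriv (deriv (fun s : ℝ => f (x + s • v))) 0 = pd v (pd v f) x := by
    rw [hderiv.deriv_eq, h2.deriv, hx0]
  have hfx : DifferentiableAt ℝ f (x + (0 : ℝ) • v) := by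
    rw [hx0]
    exact diffAt hN hf (by norm_num) hx
  have hg0 : HasDerivAt (fun s : ℝ => f (x + s • v)) (pd v f (x + (0 : ℝ) • v)) 0 :=
    regmax_comp_hasDerivAt hfx
  have hmaxg : IsLocalMax (fun s : ℝ => f (x + s • v)) 0 := by
    have hmax' : IsLocalMax f (x + (0 : ℝ) • v) := by
      rw [hx0]
      exact hmax
    exact hL.continuousAt.eventually hmax'
  have hd0 : deriv (fun s : ℝ => f (x + s • v)) 0 = 0 := hmaxg.deriv_eq_zero
  have hming : IsLocalMin (fun s : ℝ => f (x + s • v)) 0 :=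
    isLocalMin_of_deriv_deriv_pos (by rw [hdd]; exact hpos) hd0 hg0.continuousAt
  have hconst : (fun s : ℝ => f (x + s • v)) =ᶠ[𝓝 0] fun _ => f (x + (0 : ℝ) • v) := by
    filter_upwards [hmaxg, hming] with t h1 h2
    exact le_antisymm h1 h2
  have hderiv0 : deriv (fun s : ℝ => f (x + s • v)) =ᶠ[𝓝 0] fun _ => (0 : ℝ) := by
    filter_upwards [hconst.eventuallyEq_nhds] with t ht
    rw [ht.deriv_eq]
    simp
  have hdd0 : deriv (deriv (fun s : ℝ => f (x + s • v))) 0 = 0 := by
    rw [hderiv0.deriv_eq]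
    simp
  rw [hdd0] at hdd
  rw [← hdd] at hpos
  exact lt_irrefl _ hpos

theorem lap_nonpos_of_isLocalMax (b : OrthonormalBasis ι ℝ E) {N : Set E} (hN : IsOpen N)
    {f : E → ℝ} (hf : ContDiffOn ℝ 2 f N) {x : E} (hx : x ∈ N) (hmax : IsLocalMax f x) :
    lap b f x ≤ 0 := by
  unfold lap
  exact Finset.sum_nonpos (fun i _ => pd2_nonpos_of_isLocalMax hN hf hx hmax (b i))

end Vale.Agent.Lib.P098
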