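import Vale.Agent.Lib.P098.Stab
import Vale.Agent.Lib.P098.InteriorMain
import Vale.Agent.Lib.P098.BdryMain

/-!
Instability of nondegenerate pinched classical cones of the one-phase problem: the function
`|D²u|^p |x|^(p - k/2)` is a positive subsolution of the linearized problem of critical
homogeneity, so the subsolution criterion yields a test function with negative second variation.
-/

namespace Vale.Agent.Lib.P098

open Finset MeasureTheory
open scoped ContDiff Topology InnerProductSpace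

variable {E : Type*} [NormedAddCommGroup E] [InnerProductSpace ℝ E] [FiniteDimensional ℝ E]
variable {ι : Type*} [Fintype ι]
variable {U : Set E} {u : E → ℝ}

theorem pd_eq_inner_gradient (f : E → ℝ) (v x : E) : pd v f x = ⟪gradient f x, v⟫_ℝ :=
  (inner_gradient_left (𝕜 := ℝ)).symm

theorem gradient_expand (b : OrthonormalBasis ι ℝ E) (f : E → ℝ) (x : E) :
    gradient f x = ∑ i, pd (b i) f x • b i := by
  conv_lhs => rw [← b.sum_repr' (gradient f x)]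
  refine Finset.sum_congr rfl fun i _ => ?_
  rw [real_inner_comm, ← pd_eq_inner_gradient]

theorem fderiv_gradient (b : OrthonormalBasis ι ℝ E) (f g : E → ℝ) (x : E) :
    fderiv ℝ g x (gradient f x) = ∑ i, pd (b i) g x * pd (b i) f x := by
  rw [gradient_expand b f x, map_sum]
  refine Finset.sum_congr rfl fun i _ => ?_
  rw [map_smul, smul_eq_mul, mul_comm]
  rfl

theorem inner_gradient_gradient (b : OrthonormalBasis ι ℝ E) (f g : E → ℝ) (x : E) :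
    ⟪gradient g x, gradient f x⟫_ℝ = ∑ i, pd (b i) g x * pd (b i) f x := by
  rw [← fderiv_gradient b f g x, inner_gradient_left]

theorem norm_gradient_sq (b : OrthonormalBasis ι ℝ E) (f : E → ℝ) (x : E) :
    ‖gradient f x‖ ^ 2 = ∑ i, pd (b i) f x ^ 2 := by
  rw [← real_inner_self_eq_norm_sq, inner_gradient_gradient b f f x]
  refine Finset.sum_congr rfl fun i _ => ?_
  ring

theorem hessGrad_eq (b : OrthonormalBasis ι ℝ E) (hU : IsOpen U) (hu : ContDiffOn ℝ 2 u U)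
    {y : E} (hy : y ∈ U) :
    fderiv ℝ (fderiv ℝ u) y (gradient u y) (gradient u y)
      = ∑ i, ∑ j, pd (b i) u y * pd (b j) u y * pd (b i) (pd (b j) u) y := by
  conv_lhs => rw [gradient_expand b u y]
  simp only [map_sum, map_smul, _root_.sum_apply, smul_apply,
    smul_eq_mul, Finset.mul_sum, D2_eq hU hu hy]
  refine Finset.sum_congr rfl fun i _ => Finset.sum_congr rfl fun j _ => ?_
  rw [pd_comm hU hu hy (b j) (b i)]
  ring

/-- The function `|D²u|^p |x|^q` in exponential form. -/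
noncomputable def pinchFn (b : OrthonormalBasis ι ℝ E) (u : E → ℝ) (p q : ℝ) : E → ℝ :=
  fun z => Real.exp (p / 2 * Real.log (∑ i, ∑ j, pd (b i) (pd (b j) u) z ^ 2)
    + q / 2 * Real.log (‖z‖ ^ 2))

omit [FiniteDimensional ℝ E] in
theorem pinchFn_hom (b : OrthonormalBasis ι ℝ E) (hU : IsOpen U)
    (hcone : ∀ x ∈ U, ∀ t : ℝ, 0 < t → t • x ∈ U) (hu : ContDiffOn ℝ 4 u U)
    (hhom : HomOn 1 u U) (p q : ℝ) {x : E} (hx : x ∈ U) (hx0 : x ≠ 0)
    (hS : ∑ i, ∑ j, pd (b i) (pd (b j) u) x ^ 2 ≠ 0) {t : ℝ} (ht : 0 < t) :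
    pinchFn b u p q (t • x) = pinchFn b u p q x * Real.exp ((q - p) * Real.log t) := by
  have hS' : ∑ i, ∑ j, pd (b i) (pd (b j) u) (t • x) ^ 2
      = (t ^ 2)⁻¹ * ∑ i, ∑ j, pd (b i) (pd (b j) u) x ^ 2 := by
    rw [Finset.mul_sum]
    refine Finset.sum_congr rfl fun i _ => ?_
    rw [Finset.mul_sum]
    refine Finset.sum_congr rfl fun j _ => ?_
    rw [hom2 hU hcone hu hhom (b i) (b j) x hx t ht, zpow_neg_one]
    field_simp
  have hn : ‖t • x‖ ^ 2 = t ^ 2 * ‖x‖ ^ 2 := by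
    rw [norm_smul, Real.norm_eq_abs, abs_of_pos ht]
    ring
  have ht2 : t ^ 2 ≠ 0 := pow_ne_zero 2 ht.ne'
  have hx2 : ‖x‖ ^ 2 ≠ 0 := pow_ne_zero 2 (norm_ne_zero_iff.2 hx0)
  have e1 : Real.log ((t ^ 2)⁻¹ * ∑ i, ∑ j, pd (b i) (pd (b j) u) x ^ 2)
      = Real.log (∑ i, ∑ j, pd (b i) (pd (b j) u) x ^ 2) - 2 * Real.log t := by
    rw [Real.log_mul (inv_ne_zero ht2) hS, Real.log_inv, Real.log_pow]
    push_cast
    ring
  have e2 : Real.log (t ^ 2 * ‖x‖ ^ 2) = Real.log (‖x‖ ^ 2) + 2 * Real.log t := by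
    rw [Real.log_mul ht2 hx2, Real.log_pow t]
    push_cast
    ring
  simp only [pinchFn]
  rw [hS', hn, e1, e2, ← Real.exp_add]
  congr 1
  ring

variable [MeasurableSpace E] [BorelSpace E]

/-- Nondegenerate pinched classical cones are unstable. -/
theorem pinched_unstable (k : ℕ) (hdim : Module.finrank ℝ E = k + 2)
    (b : OrthonormalBasis ι ℝ E)
    (hU : IsOpen U) (h0 : (0 : E) ∉ U) (hcone : ∀ x ∈ U, ∀ t : ℝ, 0 < t → t • x ∈ U)
    (hu : ContDiffOn ℝ 4 u U) (hhom : ∀ x ∈ U, ∀ t : ℝ, 0 < t → u (t • x) = t * u x)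
    (hharm : ∀ x ∈ U, 0 < u x → Laplacian.laplacian u x = 0)
    (hfb : ∀ x ∈ U, u x = 0 → ‖gradient u x‖ = 1)
    (hcl : closure {x ∈ U | 0 < u x} ⊆ insert 0 U)
    (hne : {x ∈ U | 0 < u x}.Nonempty)
    (hnd : ∀ x ∈ closure {x ∈ U | 0 < u x}, x ≠ 0 →
      ∑ i, ∑ j, fderiv ℝ (fderiv ℝ u) x (b i) (b j) ^ 2 ≠ 0)
    (p : ℝ) (hp1 : 1 / 2 ≤ p) (hp2 : p ≤ 2) (hp3 : (k : ℝ) ^ 2 / 4 < p * ((k : ℝ) + 1))
    (hpinch : ∀ x ∈ U, u x = 0 →
      p * ∑ i, ∑ j, ∑ l, fderiv ℝ (fderiv ℝ u) x (b i) (b j)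
                  * fderiv ℝ (fderiv ℝ u) x (b j) (b l) * fderiv ℝ (fderiv ℝ u) x (b l) (b i)
        ≤ (1 - 2 * p) * (-(fderiv ℝ (fderiv ℝ u) x (gradient u x) (gradient u x)))
            * ∑ i, ∑ j, fderiv ℝ (fderiv ℝ u) x (b i) (b j) ^ 2) :
    ∃ φ : E → ℝ, ContDiff ℝ 2 φ ∧ HasCompactSupport φ ∧ (0 : E) ∉ tsupport φ ∧
      (∫ x in {x ∈ U | 0 < u x}, ‖gradient φ x‖ ^ 2)
        + (∫ x in {x ∈ U | 0 < u x},
            ⟪gradient (fun y => φ y ^ 2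
              * (-(fderiv ℝ (fderiv ℝ u) y (gradient u y) (gradient u y)))) x,
              gradient u x⟫_ℝ) < 0 := by
  have hu2 : ContDiffOn ℝ 2 u U := hu.of_le (by norm_num)
  have hhom' : HomOn 1 u U := fun y hy t ht => by
    rw [zpow_one]
    exact hhom y hy t ht
  have hharm' : ∀ y ∈ U, 0 < u y → lap b u y = 0 := fun y hy hp => by
    rw [← laplacian_eq_lap b hU hu2 hy]
    exact hharm y hy hp
  have hfb' : ∀ y ∈ U, u y = 0 → ∑ i, pd (b i) u y ^ 2 = 1 := fun y hy hy0 => by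
    rw [← norm_gradient_sq b u y, hfb y hy hy0]
    norm_num
  have hV : IsOpen {y ∈ U | ∑ i, ∑ j, pd (b i) (pd (b j) u) y ^ 2 ≠ 0} := nzSet_open b hU hu
  have hVU : {y ∈ U | ∑ i, ∑ j, pd (b i) (pd (b j) u) y ^ 2 ≠ 0} ⊆ U := fun y hy => hy.1
  have hclV : ∀ x ∈ closure {x ∈ U | 0 < u x}, x ≠ 0 →
      x ∈ {y ∈ U | ∑ i, ∑ j, pd (b i) (pd (b j) u) y ^ 2 ≠ 0} := by
    intro x hx hx0
    have hxU : x ∈ U := by
      rcases hcl hx with h | h
      · exact absurd h hx0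
      · exact h
    refine ⟨hxU, ?_⟩
    rw [← hessSq_eq b hU hu hxU]
    exact hnd x hx hx0
  have hcf : ContDiffOn ℝ 2 (pinchFn b u p (p - (k : ℝ) / 2))
      {y ∈ U | ∑ i, ∑ j, pd (b i) (pd (b j) u) y ^ 2 ≠ 0} :=
    explog_contDiffOn ((hessSq_contDiffOn b hU hu).mono hVU) (fun y hy => hy.2)
      (fun y hy h => h0 (h ▸ hy.1)) (p / 2) ((p - (k : ℝ) / 2) / 2)
  have hlam : 0 < p * ((k : ℝ) + 1) - (k : ℝ) ^ 2 / 4 := by linarith
  have hp3' : (k : ℝ) - 1 ≤ p * ((k : ℝ) + 1) := by nlinarith [sq_nonneg ((k : ℝ) / 2 - 1)]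
  have hHm : ContDiffOn ℝ 1
      (fun y => -(fderiv ℝ (fderiv ℝ u) y (gradient u y) (gradient u y))) U := by
    have h1 : ContDiffOn ℝ 1
        (fun y => -(∑ i, ∑ j, pd (b i) u y * pd (b j) u y * pd (b i) (pd (b j) u) y)) U := by
      refine ContDiffOn.neg (ContDiffOn.sum fun i _ => ContDiffOn.sum fun j _ => ?_)
      exact (((cd_pd1 hU hu (b i)).of_le (by norm_num)).mul
        ((cd_pd1 hU hu (b j)).of_le (by norm_num))).mul
        ((cd_pd2 hU hu (b i) (b j)).of_le (by norm_num))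
    refine h1.congr fun y hy => ?_
    rw [hessGrad_eq b hU hu2 hy]
  have hcfhom : ∀ x ∈ {x ∈ U | 0 < u x}, ∀ t : ℝ, 0 < t →
      pinchFn b u p (p - (k : ℝ) / 2) (t • x) ^ 2 / ‖t • x‖ ^ 2
        = (t ^ Module.finrank ℝ E)⁻¹
          * (pinchFn b u p (p - (k : ℝ) / 2) x ^ 2 / ‖x‖ ^ 2) := by
    intro x hx t ht
    have hx0 : x ≠ 0 := fun h => h0 (h ▸ hx.1)
    have hxV := hclV x (subset_closure hx) hx0
    rw [pinchFn_hom b hU hcone hu hhom' p _ hx.1 hx0 hxV.2 ht, hdim]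
    have hn : ‖t • x‖ ^ 2 = t ^ 2 * ‖x‖ ^ 2 := by
      rw [norm_smul, Real.norm_eq_abs, abs_of_pos ht]
      ring
    have he : Real.exp ((p - (k : ℝ) / 2 - p) * Real.log t) ^ 2 = (t ^ k)⁻¹ := by
      have h1 : Real.exp ((p - (k : ℝ) / 2 - p) * Real.log t) ^ 2
          = Real.exp (-((k : ℝ) * Real.log t)) := by
        rw [← Real.exp_nat_mul]
        congr 1
        push_cast
        ring
      rw [h1, Real.exp_neg, Real.exp_nat_mul, Real.exp_log ht]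
    have hxn : ‖x‖ ^ 2 ≠ 0 := pow_ne_zero 2 (norm_ne_zero_iff.2 hx0)
    rw [mul_pow, he, hn, pow_add]
    field_simp
  have hint : ∀ x ∈ U, 0 < u x →
      (p * ((k : ℝ) + 1) - (k : ℝ) ^ 2 / 4) / ‖x‖ ^ 2 * pinchFn b u p (p - (k : ℝ) / 2) x
        ≤ lap b (pinchFn b u p (p - (k : ℝ) / 2)) x := by
    intro x hx hpos
    have hx0 : x ≠ 0 := fun h => h0 (h ▸ hx)
    have hxV := hclV x (subset_closure ⟨hx, hpos⟩) hx0
    exact interior_main k hdim b hU hcone h0 hu hhom' hharm' hx hpos hxV.2 p hp1 hp2 hp3'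
  have hbd : ∀ x ∈ {y ∈ U | ∑ i, ∑ j, pd (b i) (pd (b j) u) y ^ 2 ≠ 0}, u x = 0 →
      0 ≤ ∑ i, pd (b i) (pinchFn b u p (p - (k : ℝ) / 2)) x * pd (b i) u x
        + (-(fderiv ℝ (fderiv ℝ u) x (gradient u x) (gradient u x)))
          * pinchFn b u p (p - (k : ℝ) / 2) x := by
    intro x hx hux
    have hax : ∑ i, ∑ j, fderiv ℝ (fderiv ℝ u) x (b i) (b j) ^ 2 ≠ 0 := by
      rw [hessSq_eq b hU hu hx.1]
      exact hx.2
    have key := bdry_final b hU h0 hu hhom hharm hfb hx.1 hux hax p (p - (k : ℝ) / 2)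
    have hform : ∀ y ∈ {y ∈ U | ∑ i, ∑ j, pd (b i) (pd (b j) u) y ^ 2 ≠ 0},
        (∑ i, ∑ j, fderiv ℝ (fderiv ℝ u) y (b i) (b j) ^ 2) ^ (p / 2)
            * ‖y‖ ^ (p - (k : ℝ) / 2)
          = pinchFn b u p (p - (k : ℝ) / 2) y :=
      fun y hy => testFn_eq b hU hu p (p - (k : ℝ) / 2) hy.1 (fun h => h0 (h ▸ hy.1)) hy.2
    have hev : (fun z => (∑ i, ∑ j, fderiv ℝ (fderiv ℝ u) z (b i) (b j) ^ 2) ^ (p / 2)
          * ‖z‖ ^ (p - (k : ℝ) / 2)) =ᶠ[𝓝 x] pinchFn b u p (p - (k : ℝ) / 2) :=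
      Filter.eventuallyEq_of_mem (hV.mem_nhds hx) hform
    rw [hev.fderiv_eq, hform x hx, fderiv_gradient b u (pinchFn b u p (p - (k : ℝ) / 2)) x]
      at key
    rw [key]
    have hS : 0 < ∑ i, ∑ j, fderiv ℝ (fderiv ℝ u) x (b i) (b j) ^ 2 :=
      lt_of_le_of_ne (Finset.sum_nonneg fun i _ => Finset.sum_nonneg fun j _ => sq_nonneg _)
        (Ne.symm hax)
    have hpin := hpinch x hx.1 hux
    have hc : 0 < pinchFn b u p (p - (k : ℝ) / 2) x := Real.exp_pos _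
    exact div_nonneg (mul_nonneg hc.le (by linarith)) hS.le
  obtain ⟨φ, hφ2, hφc, hφ0, hφneg⟩ := subsolution_unstable b hU h0 hcone hu2 hhom hharm' hfb'
    hV hVU hclV hne hcf (fun y _ => Real.exp_pos _) hcfhom hHm hlam hint hbd
  refine ⟨φ, hφ2, hφc, hφ0, ?_⟩
  have e1 : (fun x => ‖gradient φ x‖ ^ 2) = fun x => ∑ i, pd (b i) φ x ^ 2 :=
    funext fun x => norm_gradient_sq b φ x
  have e2 : (fun x => ⟪gradient (fun y => φ y ^ 2
        * (-(fderiv ℝ (fderiv ℝ u) y (gradient u y) (gradient u y)))) x, gradient u x⟫_ℝ)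
      = fun x => ∑ i, pd (b i) (fun y => φ y ^ 2
        * (-(fderiv ℝ (fderiv ℝ u) y (gradient u y) (gradient u y)))) x * pd (b i) u x :=
    funext fun x => inner_gradient_gradient b u _ x
  rw [e1, e2]
  exact hφneg

end Vale.Agent.Lib.P098
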