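import Vale.Agent.Lib.P098.StabErr
import Vale.Agent.Lib.P098.RegBdry
import Vale.Agent.Lib.P098.Unstable

/-!
Instability of nonflat pinched classical cones of the one-phase problem with mean convex free
boundary, without any nondegeneracy assumption on the Hessian: the regularised function
`(|D²u|² + δ |x|⁻²)^(p/2) |x|^(p - k/2)` is a subsolution of the linearized problem up to an
error that is small in the mean for small `δ`.
-/

namespace Vale.Agent.Lib.P098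

open Finset MeasureTheory
open scoped ContDiff Topology InnerProductSpace


theorem reg_err_alg (S Smax r τ p q c : ℝ) (hS : 0 ≤ S) (hSm : S ≤ Smax) (hr1 : 1 ≤ r)
    (hr2 : r ≤ Real.exp 1) (hτ : 0 < τ) (hτ1 : τ ≤ 1) (hp : 1 / 2 ≤ p) (hc : 0 ≤ c) :
    Real.exp (p / 2 * Real.log (S + τ ^ 2 * (r ^ 2)⁻¹) + q / 2 * Real.log (r ^ 2))
        * (c * (τ ^ 2 * (r ^ 2)⁻¹) / (S + τ ^ 2 * (r ^ 2)⁻¹) / r ^ 2
          * Real.exp (p / 2 * Real.log (S + τ ^ 2 * (r ^ 2)⁻¹) + q / 2 * Real.log (r ^ 2)))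
      ≤ c * τ * Real.exp ((p - 1 / 2) * Real.log (Smax + 1)) * Real.exp (2 * |q|) := by
  have hr0 : 0 < r := by linarith
  have hr2pos : 0 < r ^ 2 := pow_pos hr0 2
  have hs : 0 < τ ^ 2 * (r ^ 2)⁻¹ := mul_pos (pow_pos hτ 2) (inv_pos.2 hr2pos)
  have hH : 0 < S + τ ^ 2 * (r ^ 2)⁻¹ := by linarith
  obtain ⟨H, hHdef⟩ : ∃ H : ℝ, H = S + τ ^ 2 * (r ^ 2)⁻¹ := ⟨_, rfl⟩
  rw [← hHdef] at hH ⊢
  -- the square root of H
  have hroot : Real.exp (1 / 2 * Real.log H) ^ 2 = H := by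
    rw [← Real.exp_nat_mul]
    have : ((2 : ℕ) : ℝ) * (1 / 2 * Real.log H) = Real.log H := by push_cast; ring
    rw [this, Real.exp_log hH]
  have hrootpos : 0 < Real.exp (1 / 2 * Real.log H) := Real.exp_pos _
  have hge : τ / r ≤ Real.exp (1 / 2 * Real.log H) := by
    have h1 : (τ / r) ^ 2 ≤ Real.exp (1 / 2 * Real.log H) ^ 2 := by
      rw [hroot, hHdef, div_pow, div_eq_mul_inv]
      linarith
    exact (pow_le_pow_iff_left₀ (div_pos hτ hr0).le hrootpos.le (by norm_num)).1 h1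
  -- split the exponential
  have hsplit : Real.exp (p / 2 * Real.log H + q / 2 * Real.log (r ^ 2))
        * Real.exp (p / 2 * Real.log H + q / 2 * Real.log (r ^ 2))
      = Real.exp ((p - 1 / 2) * Real.log H) * Real.exp (1 / 2 * Real.log H)
        * Real.exp (q * Real.log (r ^ 2)) := by
    rw [← Real.exp_add, ← Real.exp_add, ← Real.exp_add]
    congr 1
    ring
  have hlogH : Real.log H ≤ Real.log (Smax + 1) := by
    apply Real.log_le_log hH
    rw [hHdef]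
    have h1 : τ ^ 2 * (r ^ 2)⁻¹ ≤ 1 := by
      have h2 : τ ^ 2 ≤ 1 := by nlinarith
      have h3 : (r ^ 2)⁻¹ ≤ 1 := inv_le_one_of_one_le₀ (by nlinarith)
      have h4 : 0 ≤ (r ^ 2)⁻¹ := (inv_pos.2 hr2pos).le
      nlinarith
    linarith
  have hA : Real.exp ((p - 1 / 2) * Real.log H) ≤ Real.exp ((p - 1 / 2) * Real.log (Smax + 1)) :=
    Real.exp_le_exp.2 (mul_le_mul_of_nonneg_left hlogH (by linarith))
  have hlr : 0 ≤ Real.log (r ^ 2) := Real.log_nonneg (by nlinarith)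
  have hlr2 : Real.log (r ^ 2) ≤ 2 := by
    rw [Real.log_pow]
    have h1 : Real.log r ≤ 1 := by
      rw [Real.log_le_iff_le_exp hr0]
      exact hr2
    push_cast
    linarith
  have hB : Real.exp (q * Real.log (r ^ 2)) ≤ Real.exp (2 * |q|) := by
    apply Real.exp_le_exp.2
    have h1 : q ≤ |q| := le_abs_self q
    have h2 : 0 ≤ |q| := abs_nonneg q
    nlinarith
  have hApos : 0 < Real.exp ((p - 1 / 2) * Real.log H) := Real.exp_pos _
  have hBpos : 0 < Real.exp (q * Real.log (r ^ 2)) := Real.exp_pos _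
  have e : Real.exp (p / 2 * Real.log H + q / 2 * Real.log (r ^ 2))
        * (c * (τ ^ 2 * (r ^ 2)⁻¹) / H / r ^ 2
          * Real.exp (p / 2 * Real.log H + q / 2 * Real.log (r ^ 2)))
      = c * (τ ^ 2 / r ^ 4) * (Real.exp ((p - 1 / 2) * Real.log H)
        * Real.exp (q * Real.log (r ^ 2))) / Real.exp (1 / 2 * Real.log H) := by
    have h1 : Real.exp (p / 2 * Real.log H + q / 2 * Real.log (r ^ 2))
        * (c * (τ ^ 2 * (r ^ 2)⁻¹) / H / r ^ 2
          * Real.exp (p / 2 * Real.log H + q / 2 * Real.log (r ^ 2)))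
        = c * (τ ^ 2 * (r ^ 2)⁻¹) / H / r ^ 2
          * (Real.exp (p / 2 * Real.log H + q / 2 * Real.log (r ^ 2))
            * Real.exp (p / 2 * Real.log H + q / 2 * Real.log (r ^ 2))) := by ring
    rw [h1, hsplit]
    nth_rewrite 1 [← hroot]
    field_simp
  rw [e, div_le_iff₀ hrootpos]
  have h5 : c * (τ ^ 2 / r ^ 4) * (Real.exp ((p - 1 / 2) * Real.log H)
        * Real.exp (q * Real.log (r ^ 2)))
      ≤ c * (τ ^ 2 / r ^ 4) * (Real.exp ((p - 1 / 2) * Real.log (Smax + 1))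
        * Real.exp (2 * |q|)) :=
    mul_le_mul_of_nonneg_left (mul_le_mul hA hB hBpos.le (Real.exp_pos _).le)
      (mul_nonneg hc (by positivity))
  refine h5.trans ?_
  have h6 : τ ^ 2 / r ^ 4 ≤ τ * (τ / r) := by
    rw [div_le_iff₀ (by positivity)]
    have h7 : τ * (τ / r) * r ^ 4 = τ ^ 2 * r ^ 3 := by
      field_simp
    rw [h7]
    have h8 : (1 : ℝ) ≤ r ^ 3 := one_le_pow₀ hr1
    nlinarith [pow_pos hτ 2]
  have hM : 0 ≤ Real.exp ((p - 1 / 2) * Real.log (Smax + 1)) * Real.exp (2 * |q|) := by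
    positivity
  have h9 : c * (τ ^ 2 / r ^ 4) ≤ c * τ * Real.exp (1 / 2 * Real.log H) := by
    have : c * (τ ^ 2 / r ^ 4) ≤ c * (τ * (τ / r)) := mul_le_mul_of_nonneg_left h6 hc
    have h10 : c * (τ * (τ / r)) ≤ c * (τ * Real.exp (1 / 2 * Real.log H)) :=
      mul_le_mul_of_nonneg_left (mul_le_mul_of_nonneg_left hge hτ.le) hc
    linarith
  calc c * (τ ^ 2 / r ^ 4) * (Real.exp ((p - 1 / 2) * Real.log (Smax + 1))
        * Real.exp (2 * |q|))
      ≤ c * τ * Real.exp (1 / 2 * Real.log H) * (Real.exp ((p - 1 / 2) * Real.log (Smax + 1))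
        * Real.exp (2 * |q|)) := mul_le_mul_of_nonneg_right h9 hM
    _ = c * τ * Real.exp ((p - 1 / 2) * Real.log (Smax + 1)) * Real.exp (2 * |q|)
        * Real.exp (1 / 2 * Real.log H) := by ring

theorem reg_lower_alg (S a0 r δ p q : ℝ) (ha0 : 0 < a0) (hS : a0 ≤ S) (hr1 : 1 ≤ r)
    (hr2 : r ≤ Real.exp 1) (hδ : 0 ≤ δ) (hp : 0 ≤ p) :
    Real.exp (p * Real.log a0) * Real.exp (-(2 * |q|)) * Real.exp (-2)
      ≤ Real.exp (p / 2 * Real.log (S + δ * (r ^ 2)⁻¹) + q / 2 * Real.log (r ^ 2)) ^ 2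
        / r ^ 2 := by
  have hr0 : 0 < r := by linarith
  have hr2pos : 0 < r ^ 2 := pow_pos hr0 2
  have hs : 0 ≤ δ * (r ^ 2)⁻¹ := mul_nonneg hδ (inv_pos.2 hr2pos).le
  have hlog : Real.log a0 ≤ Real.log (S + δ * (r ^ 2)⁻¹) := Real.log_le_log ha0 (by linarith)
  have hlr : 0 ≤ Real.log (r ^ 2) := Real.log_nonneg (by nlinarith)
  have hlr1 : Real.log r ≤ 1 := by
    rw [Real.log_le_iff_le_exp hr0]
    exact hr2
  have hlr2 : Real.log (r ^ 2) ≤ 2 := by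
    rw [Real.log_pow]
    push_cast
    linarith
  have e1 : Real.exp (p / 2 * Real.log (S + δ * (r ^ 2)⁻¹) + q / 2 * Real.log (r ^ 2)) ^ 2
      = Real.exp (p * Real.log (S + δ * (r ^ 2)⁻¹) + q * Real.log (r ^ 2)) := by
    rw [← Real.exp_nat_mul]
    congr 1
    push_cast
    ring
  have e3 : Real.exp (p * Real.log a0) * Real.exp (-(2 * |q|)) * Real.exp (-2) * r ^ 2
      = Real.exp (p * Real.log a0 + -(2 * |q|) + -2 + Real.log (r ^ 2)) := by
    rw [Real.exp_add, Real.exp_add, Real.exp_add, Real.exp_log hr2pos]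
  rw [e1, le_div_iff₀ hr2pos, e3]
  apply Real.exp_le_exp.2
  have h1 : -|q| ≤ q := neg_abs_le q
  have h2 : 0 ≤ |q| := abs_nonneg q
  nlinarith [mul_le_mul_of_nonneg_left hlog hp]

variable {E : Type*} [NormedAddCommGroup E] [InnerProductSpace ℝ E] [FiniteDimensional ℝ E]
variable {ι : Type*} [Fintype ι]
variable {U : Set E} {u : E → ℝ}

/-- The error term of the interior inequality for the regularised test function. -/
noncomputable def regErr (b : OrthonormalBasis ι ℝ E) (u : E → ℝ) (p q c δ : ℝ) : E → ℝ :=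
  fun x => c * (δ * (‖x‖ ^ 2)⁻¹) / hreg b u δ x / ‖x‖ ^ 2 * regFn b u p q δ x

theorem regErr_continuousOn (b : OrthonormalBasis ι ℝ E) (hU : IsOpen U) (h0 : (0 : E) ∉ U)
    (hu : ContDiffOn ℝ 4 u U) (p q c : ℝ) {δ : ℝ} (hδ : 0 < δ) :
    ContinuousOn (fun x => regFn b u p q δ x * regErr b u p q c δ x) U := by
  have h1 : ContinuousOn (regFn b u p q δ) U :=
    (regFn_contDiffOn b hU h0 hu p q hδ).continuousOn
  have h2 : ContinuousOn (hreg b u δ) U := (hreg_contDiffOn b hU h0 hu δ).continuousOn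
  have h3 : ContinuousOn (fun x : E => (‖x‖ ^ 2)⁻¹) U :=
    (rinv_contDiffOn (fun _ hy h => h0 (h ▸ hy))).continuousOn
  have h4 : ContinuousOn (fun x : E => ‖x‖ ^ 2) U := (continuous_norm.pow 2).continuousOn
  unfold regErr
  exact h1.mul ((((continuousOn_const.mul (continuousOn_const.mul h3)).div h2
    (fun x hx => (hreg_pos b u hδ (fun h => h0 (h ▸ hx))).ne')).div h4
    (fun x hx => pow_ne_zero 2 (norm_ne_zero_iff.2 (fun h => h0 (h ▸ hx))))).mul h1)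

/-! ### Compact pieces of the closed positive phase -/

theorem annK_compact (S : Set E) (a b : ℝ) :
    IsCompact (closure S ∩ {x : E | Real.exp a ≤ ‖x‖ ∧ ‖x‖ ≤ Real.exp b}) := by
  have hcl : IsClosed {x : E | Real.exp a ≤ ‖x‖ ∧ ‖x‖ ≤ Real.exp b} :=
    (isClosed_Icc (a := Real.exp a) (b := Real.exp b)).preimage (continuous_norm (E := E))
  refine (isCompact_closedBall (0 : E) (Real.exp b)).of_isClosed_subset
    (isClosed_closure.inter hcl) ?_
  intro x hx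
  rw [mem_closedBall_zero_iff]
  exact hx.2.2

omit [InnerProductSpace ℝ E] [FiniteDimensional ℝ E] in
theorem annK_subset (hcl : closure {x ∈ U | 0 < u x} ⊆ insert 0 U) (a b : ℝ) :
    closure {x ∈ U | 0 < u x} ∩ {x : E | Real.exp a ≤ ‖x‖ ∧ ‖x‖ ≤ Real.exp b} ⊆ U := by
  intro x hx
  rcases hcl hx.1 with h | h
  · exfalso
    have h1 : Real.exp a ≤ ‖x‖ := hx.2.1
    rw [h, norm_zero] at h1
    linarith [Real.exp_pos a]
  · exact h

omit [InnerProductSpace ℝ E] [FiniteDimensional ℝ E] in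
theorem ann_subset_annK (h0 : (0 : E) ∉ U) (a b : ℝ) :
    {x ∈ U | 0 < u x} ∩ Ann a b
      ⊆ closure {x ∈ U | 0 < u x} ∩ {x : E | Real.exp a ≤ ‖x‖ ∧ ‖x‖ ≤ Real.exp b} := by
  intro x hx
  refine ⟨subset_closure hx.1, ?_⟩
  have hx0 : x ≠ 0 := fun h => h0 (h ▸ hx.1.1)
  have hpos : 0 < ‖x‖ := norm_pos_iff.2 hx0
  have h1 := mem_Ann.1 hx.2
  have h2 : ‖x‖ = Real.exp (Real.log ‖x‖) := (Real.exp_log hpos).symm
  constructor
  · rw [h2]
    exact Real.exp_le_exp.2 h1.1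
  · rw [h2]
    exact (Real.exp_lt_exp.2 h1.2).le

variable [MeasurableSpace E] [BorelSpace E]

theorem annulus_integrableOn (h0 : (0 : E) ∉ U)
    (hcl : closure {x ∈ U | 0 < u x} ⊆ insert 0 U) {g : E → ℝ} (hg : ContinuousOn g U)
    (a b : ℝ) : IntegrableOn g ({x ∈ U | 0 < u x} ∩ Ann a b) :=
  ((hg.mono (annK_subset hcl a b)).integrableOn_compact (annK_compact _ a b)).mono_set
    (ann_subset_annK h0 a b)

/-! ### Smallness of the error for small regularisation -/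

theorem reg_small (b : OrthonormalBasis ι ℝ E) (hU : IsOpen U) (h0 : (0 : E) ∉ U)
    (hcone : ∀ x ∈ U, ∀ t : ℝ, 0 < t → t • x ∈ U) (hu : ContDiffOn ℝ 4 u U)
    (hhom : HomOn 1 u U) (hcl : closure {x ∈ U | 0 < u x} ⊆ insert 0 U)
    (hnf : ∃ x ∈ {x ∈ U | 0 < u x}, hsq b u x ≠ 0)
    (p q c lam : ℝ) (hp : 1 / 2 ≤ p) (hc : 0 ≤ c) (hlam : 0 < lam) :
    ∃ δ : ℝ, 0 < δ ∧
      ∫ x in {x ∈ U | 0 < u x} ∩ Ann 0 1, regFn b u p q δ x * regErr b u p q c δ x
        ≤ lam / 4 * ∫ x in {x ∈ U | 0 < u x} ∩ Ann 0 1, regFn b u p q δ x ^ 2 / ‖x‖ ^ 2 := by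
  classical
  have hΩopen : IsOpen {x ∈ U | 0 < u x} := posSet_open hU hu
  have hΩmeas : MeasurableSet {x ∈ U | 0 < u x} := hΩopen.measurableSet
  have hDmeas : MeasurableSet ({x ∈ U | 0 < u x} ∩ Ann (E := E) 0 1) :=
    hΩmeas.inter (measurableSet_Ann 0 1)
  have hKc := annK_compact {x ∈ U | 0 < u x} 0 1
  have hKU := annK_subset (U := U) (u := u) hcl 0 1
  have hDK := ann_subset_annK (U := U) (u := u) h0 0 1
  have hSc : ContinuousOn (hsq b u) U := (hessSq_contDiffOn b hU hu).continuousOn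
  obtain ⟨Smax, hSmax⟩ := hKc.exists_bound_of_continuousOn (hSc.mono hKU)
  have hDfacts : ∀ x ∈ {x ∈ U | 0 < u x} ∩ Ann (E := E) 0 1,
      x ≠ 0 ∧ 1 ≤ ‖x‖ ∧ ‖x‖ ≤ Real.exp 1 ∧ hsq b u x ≤ Smax := by
    intro x hx
    have hxK := hDK hx
    have hx0 : x ≠ 0 := fun h => h0 (h ▸ hx.1.1)
    have h1 : Real.exp 0 ≤ ‖x‖ := hxK.2.1
    rw [Real.exp_zero] at h1
    refine ⟨hx0, h1, hxK.2.2, ?_⟩
    have h2 := hSmax x hxK
    rw [Real.norm_eq_abs] at h2
    exact (le_abs_self _).trans h2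
  -- a nonflat point of norm `exp (1/2)`
  obtain ⟨x1, hx1, hS1⟩ := hnf
  have hx10 : x1 ≠ 0 := fun h => h0 (h ▸ hx1.1)
  have hn1 : 0 < ‖x1‖ := norm_pos_iff.2 hx10
  have ht : 0 < Real.exp (1 / 2) / ‖x1‖ := div_pos (Real.exp_pos _) hn1
  obtain ⟨x2, hx2def⟩ : ∃ x2 : E, x2 = (Real.exp (1 / 2) / ‖x1‖) • x1 := ⟨_, rfl⟩
  have hx2U : x2 ∈ U := hx2def ▸ hcone x1 hx1.1 _ ht
  have hx2pos : 0 < u x2 := by
    rw [hx2def, hhom x1 hx1.1 _ ht, zpow_one]
    exact mul_pos ht hx1.2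
  have hx2n : ‖x2‖ = Real.exp (1 / 2) := by
    rw [hx2def, norm_smul, Real.norm_eq_abs, abs_of_pos ht, div_mul_cancel₀ _ hn1.ne']
  have hS2 : 0 < hsq b u x2 := by
    rw [hx2def, hsq_hom b hU hcone hu hhom hx1.1 ht]
    exact mul_pos (inv_pos.2 (pow_pos ht 2))
      (lt_of_le_of_ne (hsq_nonneg b u x1) (Ne.symm hS1))
  obtain ⟨a0, ha0def⟩ : ∃ a0 : ℝ, a0 = hsq b u x2 / 2 := ⟨_, rfl⟩
  have ha0 : 0 < a0 := by
    rw [ha0def]
    linarith
  -- an open set where the Hessian is bounded below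
  obtain ⟨O, hOdef⟩ : ∃ O : Set E, O = ({x ∈ U | 0 < u x}
      ∩ (fun x : E => ‖x‖) ⁻¹' Set.Ioo 1 (Real.exp 1)) ∩ (U ∩ hsq b u ⁻¹' Set.Ioi a0) :=
    ⟨_, rfl⟩
  have hOopen : IsOpen O := by
    rw [hOdef]
    exact (hΩopen.inter (isOpen_Ioo.preimage continuous_norm)).inter
      (hSc.isOpen_inter_preimage hU isOpen_Ioi)
  have hOne : O.Nonempty := by
    refine ⟨x2, ?_⟩
    rw [hOdef]
    refine ⟨⟨⟨hx2U, hx2pos⟩, ?_⟩, hx2U, ?_⟩
    · show ‖x2‖ ∈ Set.Ioo 1 (Real.exp 1)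
      rw [hx2n]
      constructor
      · rw [← Real.exp_zero]
        exact Real.exp_lt_exp.2 (by norm_num)
      · exact Real.exp_lt_exp.2 (by norm_num)
    · show a0 < hsq b u x2
      rw [ha0def]
      linarith
  have hOD : O ⊆ {x ∈ U | 0 < u x} ∩ Ann (E := E) 0 1 := by
    intro x hx
    rw [hOdef] at hx
    have hn : (1 : ℝ) < ‖x‖ := hx.1.2.1
    have hn2 : ‖x‖ < Real.exp 1 := hx.1.2.2
    refine ⟨hx.1.1, ?_⟩
    rw [mem_Ann]
    refine ⟨Real.log_nonneg hn.le, ?_⟩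
    rw [Real.log_lt_iff_lt_exp (by linarith)]
    exact hn2
  have hOS : ∀ x ∈ O, a0 ≤ hsq b u x := by
    intro x hx
    rw [hOdef] at hx
    have h1 : a0 < hsq b u x := hx.2.2
    exact h1.le
  have hOmeas : MeasurableSet O := hOopen.measurableSet
  have hOpos : 0 < volume O := hOopen.measure_pos volume hOne
  have hDfin : volume ({x ∈ U | 0 < u x} ∩ Ann (E := E) 0 1) < ⊤ :=
    lt_of_le_of_lt (measure_mono hDK) hKc.measure_lt_top
  have hOfin : volume O < ⊤ := lt_of_le_of_lt (measure_mono hOD) hDfin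
  have hOreal : 0 < volume.real O := ENNReal.toReal_pos hOpos.ne' hOfin.ne
  -- the constants
  obtain ⟨c0, hc0def⟩ : ∃ c0 : ℝ,
      c0 = Real.exp (p * Real.log a0) * Real.exp (-(2 * |q|)) * Real.exp (-2) := ⟨_, rfl⟩
  have hc0 : 0 < c0 := by
    rw [hc0def]
    positivity
  obtain ⟨C1, hC1def⟩ : ∃ C1 : ℝ,
      C1 = c * Real.exp ((p - 1 / 2) * Real.log (Smax + 1)) * Real.exp (2 * |q|) := ⟨_, rfl⟩
  have hC1 : 0 ≤ C1 := by
    rw [hC1def]
    positivity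
  obtain ⟨vD, hvDdef⟩ : ∃ vD : ℝ,
      vD = volume.real ({x ∈ U | 0 < u x} ∩ Ann (E := E) 0 1) := ⟨_, rfl⟩
  have hvD : 0 ≤ vD := by
    rw [hvDdef]
    exact measureReal_nonneg
  obtain ⟨vO, hvOdef⟩ : ∃ vO : ℝ, vO = volume.real O := ⟨_, rfl⟩
  have hvO : 0 < vO := by
    rw [hvOdef]
    exact hOreal
  have hCv : 0 ≤ C1 * vD := mul_nonneg hC1 hvD
  have hden : 0 < 4 * (C1 * vD + 1) := by linarith
  obtain ⟨τ, hτdef⟩ : ∃ τ : ℝ, τ = min 1 (lam * (c0 * vO) / (4 * (C1 * vD + 1))) := ⟨_, rfl⟩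
  have hτ : 0 < τ := by
    rw [hτdef]
    exact lt_min one_pos (div_pos (mul_pos hlam (mul_pos hc0 hvO)) hden)
  have hτ1 : τ ≤ 1 := by
    rw [hτdef]
    exact min_le_left _ _
  have hτ2 : τ ≤ lam * (c0 * vO) / (4 * (C1 * vD + 1)) := by
    rw [hτdef]
    exact min_le_right _ _
  have hδ : 0 < τ ^ 2 := pow_pos hτ 2
  refine ⟨τ ^ 2, hδ, ?_⟩
  have hEint : IntegrableOn (fun x => regFn b u p q (τ ^ 2) x * regErr b u p q c (τ ^ 2) x)
      ({x ∈ U | 0 < u x} ∩ Ann 0 1) :=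
    annulus_integrableOn h0 hcl (regErr_continuousOn b hU h0 hu p q c hδ) 0 1
  have hWc : ContinuousOn (fun x => regFn b u p q (τ ^ 2) x ^ 2 / ‖x‖ ^ 2) U :=
    ((regFn_contDiffOn b hU h0 hu p q hδ).continuousOn.pow 2).div
      (continuous_norm.pow 2).continuousOn
      (fun x hx => pow_ne_zero 2 (norm_ne_zero_iff.2 (fun h => h0 (h ▸ hx))))
  have hWint : IntegrableOn (fun x => regFn b u p q (τ ^ 2) x ^ 2 / ‖x‖ ^ 2)
      ({x ∈ U | 0 < u x} ∩ Ann 0 1) := annulus_integrableOn h0 hcl hWc 0 1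
  -- the upper bound for the error
  have hup : ∫ x in {x ∈ U | 0 < u x} ∩ Ann 0 1,
      regFn b u p q (τ ^ 2) x * regErr b u p q c (τ ^ 2) x ≤ C1 * τ * vD := by
    have hconst : IntegrableOn (fun _ : E => C1 * τ) ({x ∈ U | 0 < u x} ∩ Ann 0 1) :=
      integrableOn_const hDfin.ne
    have hpt : ∀ x ∈ {x ∈ U | 0 < u x} ∩ Ann (E := E) 0 1,
        regFn b u p q (τ ^ 2) x * regErr b u p q c (τ ^ 2) x ≤ C1 * τ := by
      intro x hx
      obtain ⟨hx0, hr1, hr2, hSm⟩ := hDfacts x hx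
      have h1 := reg_err_alg (hsq b u x) Smax ‖x‖ τ p q c (hsq_nonneg b u x) hSm hr1 hr2
        hτ hτ1 hp hc
      rw [hC1def]
      simp only [regFn, regErr, hreg]
      linarith [h1]
    have h1 := setIntegral_mono_on hEint hconst hDmeas hpt
    rw [setIntegral_const, smul_eq_mul, ← hvDdef] at h1
    linarith
  -- the lower bound for the weight
  have hlow : c0 * vO
      ≤ ∫ x in {x ∈ U | 0 < u x} ∩ Ann 0 1, regFn b u p q (τ ^ 2) x ^ 2 / ‖x‖ ^ 2 := by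
    have h1 : ∫ x in O, regFn b u p q (τ ^ 2) x ^ 2 / ‖x‖ ^ 2
        ≤ ∫ x in {x ∈ U | 0 < u x} ∩ Ann 0 1, regFn b u p q (τ ^ 2) x ^ 2 / ‖x‖ ^ 2 :=
      setIntegral_mono_set hWint (Filter.Eventually.of_forall fun x => by positivity)
        (Filter.Eventually.of_forall hOD)
    have hconst : IntegrableOn (fun _ : E => c0) O := integrableOn_const hOfin.ne
    have h2 : ∫ _ in O, c0 ≤ ∫ x in O, regFn b u p q (τ ^ 2) x ^ 2 / ‖x‖ ^ 2 := by
      refine setIntegral_mono_on hconst (hWint.mono_set hOD) hOmeas (fun x hx => ?_)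
      obtain ⟨hx0, hr1, hr2, hSm⟩ := hDfacts x (hOD hx)
      have h3 := reg_lower_alg (hsq b u x) a0 ‖x‖ (τ ^ 2) p q ha0 (hOS x hx) hr1 hr2 hδ.le
        (by linarith)
      rw [hc0def]
      simp only [regFn, hreg]
      exact h3
    rw [setIntegral_const, smul_eq_mul, ← hvOdef] at h2
    linarith
  have h3 : C1 * vD * τ ≤ lam * (c0 * vO) / 4 := by
    have h4 : C1 * vD * τ ≤ C1 * vD * (lam * (c0 * vO) / (4 * (C1 * vD + 1))) :=
      mul_le_mul_of_nonneg_left hτ2 hCv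
    have h5 : C1 * vD * (lam * (c0 * vO) / (4 * (C1 * vD + 1))) ≤ lam * (c0 * vO) / 4 := by
      rw [mul_div_assoc', div_le_div_iff₀ hden (by norm_num)]
      have h6 : 0 ≤ lam * (c0 * vO) := by positivity
      nlinarith
    linarith
  have h6 : lam / 4 * (c0 * vO) ≤ lam / 4
      * ∫ x in {x ∈ U | 0 < u x} ∩ Ann 0 1, regFn b u p q (τ ^ 2) x ^ 2 / ‖x‖ ^ 2 :=
    mul_le_mul_of_nonneg_left hlow (by linarith)
  linarith

end Vale.Agent.Lib.P098
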