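import Vale.Agent.Lib.P098.RegSmall

/-!
Nonflat pinched classical cones of the one-phase problem with mean convex free boundary are
unstable; no nondegeneracy of the Hessian is assumed.
-/

namespace Vale.Agent.Lib.P098

open Finset MeasureTheory
open scoped ContDiff Topology InnerProductSpace

variable {E : Type*} [NormedAddCommGroup E] [InnerProductSpace ℝ E] [FiniteDimensional ℝ E]
variable {ι : Type*} [Fintype ι]
variable {U : Set E} {u : E → ℝ}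
variable [MeasurableSpace E] [BorelSpace E]

/-- Nonflat pinched classical cones with mean convex free boundary are unstable. -/
theorem pinched_unstable_reg (k : ℕ) (hdim : Module.finrank ℝ E = k + 2)
    (b : OrthonormalBasis ι ℝ E)
    (hU : IsOpen U) (h0 : (0 : E) ∉ U) (hcone : ∀ x ∈ U, ∀ t : ℝ, 0 < t → t • x ∈ U)
    (hu : ContDiffOn ℝ 4 u U) (hhom : ∀ x ∈ U, ∀ t : ℝ, 0 < t → u (t • x) = t * u x)
    (hharm : ∀ x ∈ U, 0 < u x → Laplacian.laplacian u x = 0)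
    (hfb : ∀ x ∈ U, u x = 0 → ‖gradient u x‖ = 1)
    (hcl : closure {x ∈ U | 0 < u x} ⊆ insert 0 U)
    (hnf : ∃ x ∈ {x ∈ U | 0 < u x}, ∑ i, ∑ j, fderiv ℝ (fderiv ℝ u) x (b i) (b j) ^ 2 ≠ 0)
    (hH : ∀ x ∈ U, u x = 0 → 0 ≤ hmFn u x)
    (p : ℝ) (hp1 : 1 / 2 ≤ p) (hp2 : p ≤ 2) (hp3 : (k : ℝ) ^ 2 / 4 < p * ((k : ℝ) + 1))
    (hpinch : ∀ x ∈ U, u x = 0 →
      p * ∑ i, ∑ j, ∑ l, fderiv ℝ (fderiv ℝ u) x (b i) (b j)
                  * fderiv ℝ (fderiv ℝ u) x (b j) (b l) * fderiv ℝ (fderiv ℝ u) x (b l) (b i)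
        ≤ (1 - 2 * p) * hmFn u x * ∑ i, ∑ j, fderiv ℝ (fderiv ℝ u) x (b i) (b j) ^ 2) :
    ∃ φ : E → ℝ, ContDiff ℝ 2 φ ∧ HasCompactSupport φ ∧ (0 : E) ∉ tsupport φ ∧
      (∫ x in {x ∈ U | 0 < u x}, ∑ i, pd (b i) φ x ^ 2)
        + (∫ x in {x ∈ U | 0 < u x},
            ∑ i, pd (b i) (fun y => φ y ^ 2 * hmFn u y) x * pd (b i) u x) < 0 := by
  have hu2 : ContDiffOn ℝ 2 u U := hu.of_le (by norm_num)
  have hhom' : HomOn 1 u U := fun y hy t ht => by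
    rw [zpow_one]
    exact hhom y hy t ht
  have hharm' : ∀ y ∈ U, 0 < u y → lap b u y = 0 := fun y hy hp => by
    rw [← laplacian_eq_lap b hU hu2 hy]
    exact hharm y hy hp
  have hfb' : ∀ y ∈ U, u y = 0 → ∑ i, pd (b i) u y ^ 2 = 1 := fun y hy hy0 => by
    rw [← norm_gradient_sq b u y, hfb y hy hy0]
    norm_num
  have hnf' : ∃ x ∈ {x ∈ U | 0 < u x}, hsq b u x ≠ 0 := by
    obtain ⟨x, hx, hS⟩ := hnf
    refine ⟨x, hx, ?_⟩
    rw [hessSq_eq b hU hu hx.1] at hS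
    exact hS
  have hne : {x ∈ U | 0 < u x}.Nonempty := by
    obtain ⟨x, hx, -⟩ := hnf
    exact ⟨x, hx⟩
  have hk0 : (0 : ℝ) ≤ (k : ℝ) := Nat.cast_nonneg k
  have hlam : 0 < p * ((k : ℝ) + 1) - (k : ℝ) ^ 2 / 4 := by linarith
  have hp3' : (k : ℝ) - 1 ≤ p * ((k : ℝ) + 1) := by nlinarith [sq_nonneg ((k : ℝ) / 2 - 1)]
  have hc : 0 ≤ p * ((k : ℝ) + 1) := mul_nonneg (by linarith) (by linarith)
  obtain ⟨δ, hδ, hsmall⟩ := reg_small b hU h0 hcone hu hhom' hcl hnf' p (p - (k : ℝ) / 2)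
    (p * ((k : ℝ) + 1)) (p * ((k : ℝ) + 1) - (k : ℝ) ^ 2 / 4) hp1 hc hlam
  have hclV : ∀ x ∈ closure {x ∈ U | 0 < u x}, x ≠ 0 → x ∈ U := by
    intro x hx hx0
    rcases hcl hx with h | h
    · exact absurd h hx0
    · exact h
  have hcf : ContDiffOn ℝ 2 (regFn b u p (p - (k : ℝ) / 2) δ) U :=
    regFn_contDiffOn b hU h0 hu p _ hδ
  have hHm : ContDiffOn ℝ 1 (hmFn u) U := by
    have h1 : ContDiffOn ℝ 1
        (fun y => -(∑ i, ∑ j, pd (b i) u y * pd (b j) u y * pd (b i) (pd (b j) u) y)) U := by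
      refine ContDiffOn.neg (ContDiffOn.sum fun i _ => ContDiffOn.sum fun j _ => ?_)
      exact (((cd_pd1 hU hu (b i)).of_le (by norm_num)).mul
        ((cd_pd1 hU hu (b j)).of_le (by norm_num))).mul
        ((cd_pd2 hU hu (b i) (b j)).of_le (by norm_num))
    refine h1.congr fun y hy => ?_
    exact hmFn_eq b hU hu2 hy
  have hexp : ∀ t : ℝ, 0 < t →
      Real.exp ((p - (k : ℝ) / 2 - p) * Real.log t) ^ 2 = (t ^ k)⁻¹ := by
    intro t ht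
    have h1 : Real.exp ((p - (k : ℝ) / 2 - p) * Real.log t) ^ 2
        = Real.exp (-((k : ℝ) * Real.log t)) := by
      rw [← Real.exp_nat_mul]
      congr 1
      push_cast
      ring
    rw [h1, Real.exp_neg, Real.exp_nat_mul, Real.exp_log ht]
  have hcfhom : ∀ x ∈ {x ∈ U | 0 < u x}, ∀ t : ℝ, 0 < t →
      regFn b u p (p - (k : ℝ) / 2) δ (t • x) ^ 2 / ‖t • x‖ ^ 2
        = (t ^ Module.finrank ℝ E)⁻¹
          * (regFn b u p (p - (k : ℝ) / 2) δ x ^ 2 / ‖x‖ ^ 2) := by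
    intro x hx t ht
    have hx0 : x ≠ 0 := fun h => h0 (h ▸ hx.1)
    rw [regFn_hom b hU hcone hu hhom' p _ hδ hx.1 hx0 ht, hdim]
    have hn : ‖t • x‖ ^ 2 = t ^ 2 * ‖x‖ ^ 2 := by
      rw [norm_smul, Real.norm_eq_abs, abs_of_pos ht]
      ring
    have hxn : ‖x‖ ^ 2 ≠ 0 := pow_ne_zero 2 (norm_ne_zero_iff.2 hx0)
    rw [mul_pow, hexp t ht, hn, pow_add]
    field_simp
  have her0 : ∀ x ∈ {x ∈ U | 0 < u x},
      0 ≤ regFn b u p (p - (k : ℝ) / 2) δ x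
        * regErr b u p (p - (k : ℝ) / 2) (p * ((k : ℝ) + 1)) δ x := by
    intro x hx
    have hx0 : x ≠ 0 := fun h => h0 (h ▸ hx.1)
    have hHr := hreg_pos b u hδ hx0
    have hR : 0 < regFn b u p (p - (k : ℝ) / 2) δ x := Real.exp_pos _
    have hs : 0 ≤ δ * (‖x‖ ^ 2)⁻¹ := by positivity
    simp only [regErr]
    exact mul_nonneg hR.le (mul_nonneg (div_nonneg (div_nonneg (mul_nonneg hc hs) hHr.le)
      (by positivity)) hR.le)
  have herhom : ∀ x ∈ {x ∈ U | 0 < u x}, ∀ t : ℝ, 0 < t →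
      regFn b u p (p - (k : ℝ) / 2) δ (t • x)
          * regErr b u p (p - (k : ℝ) / 2) (p * ((k : ℝ) + 1)) δ (t • x)
        = (t ^ Module.finrank ℝ E)⁻¹ * (regFn b u p (p - (k : ℝ) / 2) δ x
          * regErr b u p (p - (k : ℝ) / 2) (p * ((k : ℝ) + 1)) δ x) := by
    intro x hx t ht
    have hx0 : x ≠ 0 := fun h => h0 (h ▸ hx.1)
    have hn : ‖t • x‖ ^ 2 = t ^ 2 * ‖x‖ ^ 2 := by
      rw [norm_smul, Real.norm_eq_abs, abs_of_pos ht]
      ring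
    have hHr := hreg_pos b u hδ hx0
    have hxn : ‖x‖ ^ 2 ≠ 0 := pow_ne_zero 2 (norm_ne_zero_iff.2 hx0)
    have key : ∀ R Ex H r2 t2 tk c' : ℝ, H ≠ 0 → r2 ≠ 0 → t2 ≠ 0 → tk ≠ 0 → Ex ^ 2 = tk⁻¹ →
        R * Ex * (c' * (δ * (t2 * r2)⁻¹) / (t2⁻¹ * H) / (t2 * r2) * (R * Ex))
          = (tk * t2)⁻¹ * (R * (c' * (δ * r2⁻¹) / H / r2 * R)) := by
      intro R Ex H r2 t2 tk c' hH hr ht2 htk hE
      have e1 : R * Ex * (c' * (δ * (t2 * r2)⁻¹) / (t2⁻¹ * H) / (t2 * r2) * (R * Ex))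
          = Ex ^ 2 * (R * (c' * (δ * (t2 * r2)⁻¹) / (t2⁻¹ * H) / (t2 * r2) * R)) := by ring
      rw [e1, hE]
      field_simp
    simp only [regErr]
    rw [regFn_hom b hU hcone hu hhom' p _ hδ hx.1 hx0 ht,
      hreg_hom b hU hcone hu hhom' δ hx.1 hx0 ht, hn, hdim, pow_add]
    exact key _ _ _ _ _ _ _ hHr.ne' hxn (pow_ne_zero 2 ht.ne') (pow_ne_zero k ht.ne')
      (hexp t ht)
  have hint : ∀ x ∈ U, 0 < u x →
      (p * ((k : ℝ) + 1) - (k : ℝ) ^ 2 / 4) / ‖x‖ ^ 2 * regFn b u p (p - (k : ℝ) / 2) δ x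
          - regErr b u p (p - (k : ℝ) / 2) (p * ((k : ℝ) + 1)) δ x
        ≤ lap b (regFn b u p (p - (k : ℝ) / 2) δ) x := by
    intro x hx hpos
    have hx0 : x ≠ 0 := fun h => h0 (h ▸ hx)
    have key := interior_reg k hdim b hU hcone h0 hu hhom' hharm' hx hpos p hp1 hp2 hp3' hδ
    have hHr := hreg_pos b u hδ hx0
    have hxn : ‖x‖ ^ 2 ≠ 0 := pow_ne_zero 2 (norm_ne_zero_iff.2 hx0)
    have hS : hsq b u x = hreg b u δ x - δ * (‖x‖ ^ 2)⁻¹ := by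
      simp only [hreg]
      ring
    have e : (p * ((k : ℝ) + 1) - (k : ℝ) ^ 2 / 4) / ‖x‖ ^ 2
          * regFn b u p (p - (k : ℝ) / 2) δ x
          - regErr b u p (p - (k : ℝ) / 2) (p * ((k : ℝ) + 1)) δ x
        = ((p * ((k : ℝ) + 1) - (k : ℝ) ^ 2 / 4) * hsq b u x
            - (k : ℝ) ^ 2 / 4 * (δ / ‖x‖ ^ 2)) / hreg b u δ x / ‖x‖ ^ 2
          * regFn b u p (p - (k : ℝ) / 2) δ x := by
      simp only [regErr]
      rw [hS]
      have hH' := hHr.ne'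
      field_simp
      ring
    rw [e]
    exact key
  have hbd : ∀ x ∈ U, u x = 0 →
      0 ≤ ∑ i, pd (b i) (regFn b u p (p - (k : ℝ) / 2) δ) x * pd (b i) u x
        + hmFn u x * regFn b u p (p - (k : ℝ) / 2) δ x := by
    intro x hx hux
    have hx0 : x ≠ 0 := fun h => h0 (h ▸ hx)
    rw [bdry_reg b hU h0 hu hhom' hharm' hfb' hx hux p _ hδ]
    have hH0 : 0 ≤ hmFn u x := hH x hx hux
    have hpin := hpinch x hx hux
    simp only [D2_eq hU hu2 hx] at hpin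
    have hHr := hreg_pos b u hδ hx0
    have hR : 0 < regFn b u p (p - (k : ℝ) / 2) δ x := Real.exp_pos _
    have hs : 0 ≤ δ * (‖x‖ ^ 2)⁻¹ := by positivity
    refine mul_nonneg (div_nonneg hR.le hHr.le) ?_
    have h1 : hsq b u x = ∑ i, ∑ j, pd (b i) (pd (b j) u) x ^ 2 := rfl
    rw [h1]
    linarith [mul_nonneg hH0 hs]
  exact subsolution_unstable_err b hU h0 hcone hu2 hhom hharm' hfb' hU subset_rfl hclV hne hcf
    (fun y _ => Real.exp_pos _) hcfhom hHm hlam her0 herhom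
    (fun a b' => annulus_integrableOn h0 hcl (regErr_continuousOn b hU h0 hu p _ _ hδ) a b')
    hsmall hint hbd

end Vale.Agent.Lib.P098
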