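import Vale.Agent.Lib.P098.DivLe
import Vale.Agent.Lib.P098.Radial
import Vale.Agent.Lib.P098.Interior

/-!
The subsolution criterion for instability of one-homogeneous solutions of the one-phase
problem: a positive function `c`, homogeneous of the critical degree, with
`Δc ≥ λ c / |x|²` (`λ > 0`) in the positive phase and `∂_ν c + H c ≥ 0` on the free boundary
yields a compactly supported test function with negative second variation.
-/

namespace Vale.Agent.Lib.P098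

open Finset MeasureTheory
open scoped ContDiff Topology InnerProductSpace

variable {E : Type*} [NormedAddCommGroup E] [InnerProductSpace ℝ E]
variable {ι : Type*} [Fintype ι]

/-! ### The radial plateau cutoff -/

/-- The radial plateau cutoff `η(x) = prof N (log |x|)`. -/
noncomputable def etaFn (N : ℝ) (x : E) : ℝ := prof N (Real.log ‖x‖)

theorem etaFn_contDiff (N : ℝ) : ContDiff ℝ ∞ (etaFn (E := E) N) := by
  rw [contDiff_iff_contDiffAt]
  intro x
  by_cases hx : x = 0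
  · have h1 : etaFn (E := E) N =ᶠ[𝓝 x] fun _ => (0 : ℝ) := by
      rw [hx]
      filter_upwards [Metric.ball_mem_nhds (0 : E) one_pos] with y hy
      rw [mem_ball_zero_iff] at hy
      exact prof_zero_of_nonpos (Real.log_nonpos (norm_nonneg y) hy.le)
    exact contDiffAt_const.congr_of_eventuallyEq h1
  · exact (prof_contDiff N).contDiffAt.comp x
      ((Real.contDiffAt_log.2 (norm_ne_zero_iff.2 hx)).comp x (contDiffAt_norm ℝ hx))

omit [InnerProductSpace ℝ E] in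
theorem etaFn_tsupport (N : ℝ) :
    tsupport (etaFn (E := E) N) ⊆ {x : E | 1 ≤ ‖x‖ ∧ ‖x‖ ≤ Real.exp (N + 1)} := by
  have hcl : IsClosed {x : E | 1 ≤ ‖x‖ ∧ ‖x‖ ≤ Real.exp (N + 1)} := by
    have h := (isClosed_Icc (a := (1 : ℝ)) (b := Real.exp (N + 1))).preimage
      (continuous_norm (E := E))
    exact h
  refine closure_minimal ?_ hcl
  intro x hx
  rw [Function.mem_support] at hx
  have h1 : 0 < Real.log ‖x‖ := by
    by_contra hcon
    exact hx (prof_zero_of_nonpos (not_lt.1 hcon))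
  have h2 : Real.log ‖x‖ < N + 1 := by
    by_contra hcon
    exact hx (prof_zero_of_ge (not_lt.1 hcon))
  have h3 : 1 < ‖x‖ := by
    by_contra hcon
    have := Real.log_nonpos (norm_nonneg x) (not_lt.1 hcon)
    linarith
  have h4 : ‖x‖ = Real.exp (Real.log ‖x‖) := (Real.exp_log (by linarith)).symm
  refine ⟨h3.le, ?_⟩
  rw [h4]
  exact (Real.exp_lt_exp.2 h2).le

theorem etaFn_pd (N : ℝ) {x : E} (hx : x ≠ 0) (v : E) :
    pd v (etaFn N) x = dprof N (Real.log ‖x‖) * (⟪x, v⟫_ℝ / ‖x‖ ^ 2) := by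
  have e : etaFn (E := E) N = fun z => prof N (1 / 2 * Real.log (‖z‖ ^ 2)) := by
    funext z
    unfold etaFn
    rw [Real.log_pow]
    push_cast
    congr 1
    ring
  have hρ0 : ‖x‖ ^ 2 ≠ 0 := pow_ne_zero 2 (norm_ne_zero_iff.2 hx)
  have hdρ : DifferentiableAt ℝ (fun z : E => ‖z‖ ^ 2) x :=
    ((contDiff_norm_sq ℝ).contDiffAt (n := 2)).differentiableAt (by norm_num)
  have hdl : DifferentiableAt ℝ (fun z : E => Real.log (‖z‖ ^ 2)) x := hdρ.log hρ0
  have e1 := pd_comp (f := fun z : E => 1 / 2 * Real.log (‖z‖ ^ 2)) (φ := prof N)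
    (prof_hasDerivAt N (1 / 2 * Real.log (‖x‖ ^ 2))) (hdl.const_mul (1 / 2)) v
  have e2 := pd_const_mul hdl (1 / 2) v
  have e3 := pd_log hdρ hρ0 v
  have e4 := pd_normsq v x
  have e5 : 1 / 2 * Real.log (‖x‖ ^ 2) = Real.log ‖x‖ := by
    rw [Real.log_pow]
    push_cast
    ring
  rw [e, e1, e2, e3, e4, e5]
  field_simp

theorem etaFn_grad_sq (b : OrthonormalBasis ι ℝ E) (N : ℝ) {x : E} (hx : x ≠ 0) :
    ∑ i, pd (b i) (etaFn N) x ^ 2 = dprof N (Real.log ‖x‖) ^ 2 / ‖x‖ ^ 2 := by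
  have hρ0 : ‖x‖ ^ 2 ≠ 0 := pow_ne_zero 2 (norm_ne_zero_iff.2 hx)
  have h1 : ∀ i, pd (b i) (etaFn N) x ^ 2
      = dprof N (Real.log ‖x‖) ^ 2 / (‖x‖ ^ 2) ^ 2 * ⟪x, b i⟫_ℝ ^ 2 := by
    intro i
    rw [etaFn_pd N hx]
    field_simp
  simp only [h1]
  rw [← Finset.mul_sum, sum_inner_sq]
  field_simp

/-! ### A pointwise identity -/

theorem stab_pointwise (b : OrthonormalBasis ι ℝ E) {W : Set E} (hW : IsOpen W)
    {u cf η G : E → ℝ} (hcf : ContDiffOn ℝ 2 cf W) (hη : ContDiffOn ℝ 2 η W)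
    (hG : ContDiffOn ℝ 1 G W) (hu : ContDiffOn ℝ 2 u W) {x : E} (hx : x ∈ W)
    (hlap : lap b u x = 0) :
    ∑ i, pd (b i) (fun y => cf y * η y) x ^ 2 + ∑ i, pd (b i) G x * pd (b i) u x
      = (cf x ^ 2 * ∑ i, pd (b i) η x ^ 2 - cf x * η x ^ 2 * lap b cf x)
        + ∑ i, pd (b i) (fun y => cf y * η y ^ 2 * pd (b i) cf y + G y * pd (b i) u y) x := by
  have hcfd : DifferentiableAt ℝ cf x := diffAt hW hcf (by norm_num) hx
  have hηd : DifferentiableAt ℝ η x := diffAt hW hη (by norm_num) hx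
  have hGd : DifferentiableAt ℝ G x := diffAt hW hG (by norm_num) hx
  have hpc : ∀ i, DifferentiableAt ℝ (pd (b i) cf) x := fun i =>
    diffAt hW (pd_contDiffOn hW hcf (m := 1) (by norm_num) (b i)) (by norm_num) hx
  have hpu : ∀ i, DifferentiableAt ℝ (pd (b i) u) x := fun i =>
    diffAt hW (pd_contDiffOn hW hu (m := 1) (by norm_num) (b i)) (by norm_num) hx
  have hη2 : DifferentiableAt ℝ (fun y => η y ^ 2) x := hηd.pow 2
  have hcη2 : DifferentiableAt ℝ (fun y => cf y * η y ^ 2) x := hcfd.mul hη2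
  have hterm : ∀ i, pd (b i) (fun y => cf y * η y) x ^ 2 + pd (b i) G x * pd (b i) u x
      = cf x ^ 2 * pd (b i) η x ^ 2 - cf x * η x ^ 2 * pd (b i) (pd (b i) cf) x
        + pd (b i) (fun y => cf y * η y ^ 2 * pd (b i) cf y + G y * pd (b i) u y) x
        - G x * pd (b i) (pd (b i) u) x := by
    intro i
    have e1 := pd_mul hcfd hηd (b i)
    have hd1 : DifferentiableAt ℝ (fun y => cf y * η y ^ 2 * pd (b i) cf y) x :=
      hcη2.mul (hpc i)
    have hd2 : DifferentiableAt ℝ (fun y => G y * pd (b i) u y) x := hGd.mul (hpu i)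
    have e2 := pd_add hd1 hd2 (b i)
    have e3 := pd_mul hcη2 (hpc i) (b i)
    have e4 := pd_mul hcfd hη2 (b i)
    have e5 := pd_sq hηd (b i)
    have e6 := pd_mul hGd (hpu i) (b i)
    rw [e1, e2, e3, e4, e5, e6]
    ring
  rw [← Finset.sum_add_distrib, Finset.sum_congr rfl (fun i _ => hterm i)]
  simp only [Finset.sum_add_distrib, Finset.sum_sub_distrib, ← Finset.mul_sum]
  have hl : ∑ i, pd (b i) (pd (b i) u) x = 0 := hlap
  rw [hl]
  simp only [lap]
  ring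

/-! ### Integrals of the weight over annuli of the positive phase -/

variable [FiniteDimensional ℝ E] [MeasurableSpace E] [BorelSpace E]

theorem weight_annulus {U V : Set E} {u cf : E → ℝ} (hU : IsOpen U) (h0 : (0 : E) ∉ U)
    (hcone : ∀ x ∈ U, ∀ t : ℝ, 0 < t → t • x ∈ U) (hucont : ContinuousOn u U)
    (hhom : ∀ x ∈ U, ∀ t : ℝ, 0 < t → u (t • x) = t * u x)
    (hVU : V ⊆ U)
    (hclV : ∀ x ∈ closure {x ∈ U | 0 < u x}, x ≠ 0 → x ∈ V)
    (hne : {x ∈ U | 0 < u x}.Nonempty)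
    (hcfc : ContinuousOn cf V) (hcfpos : ∀ x ∈ V, 0 < cf x) :
    (∀ a b : ℝ, IntegrableOn (fun x => cf x ^ 2 / ‖x‖ ^ 2) ({x ∈ U | 0 < u x} ∩ Ann a b)) ∧
      0 < ∫ x in {x ∈ U | 0 < u x} ∩ Ann 0 1, cf x ^ 2 / ‖x‖ ^ 2 := by
  have hΩopen : IsOpen {x ∈ U | 0 < u x} := by
    have h := hucont.isOpen_inter_preimage hU (isOpen_Ioi (a := (0 : ℝ)))
    have e : {x ∈ U | 0 < u x} = U ∩ u ⁻¹' Set.Ioi 0 := by
      ext x
      simp
    rw [e]
    exact h
  have hΩV : {x ∈ U | 0 < u x} ⊆ V := fun x hx =>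
    hclV x (subset_closure hx) (fun h => h0 (h ▸ hx.1))
  have hV0 : ∀ x ∈ V, x ≠ 0 := fun x hx h => h0 (h ▸ hVU hx)
  have hwc : ContinuousOn (fun x : E => cf x ^ 2 / ‖x‖ ^ 2) V :=
    (hcfc.pow 2).div ((continuous_norm.pow 2).continuousOn)
      (fun x hx => pow_ne_zero 2 (norm_ne_zero_iff.2 (hV0 x hx)))
  have hint : ∀ a b : ℝ, IntegrableOn (fun x => cf x ^ 2 / ‖x‖ ^ 2)
      ({x ∈ U | 0 < u x} ∩ Ann a b) := by
    intro a b
    have hKc : IsCompact (closure {x ∈ U | 0 < u x}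
        ∩ {x : E | Real.exp a ≤ ‖x‖ ∧ ‖x‖ ≤ Real.exp b}) := by
      have hcl : IsClosed {x : E | Real.exp a ≤ ‖x‖ ∧ ‖x‖ ≤ Real.exp b} :=
        (isClosed_Icc (a := Real.exp a) (b := Real.exp b)).preimage (continuous_norm (E := E))
      refine (isCompact_closedBall (0 : E) (Real.exp b)).of_isClosed_subset
        (isClosed_closure.inter hcl) ?_
      intro x hx
      rw [mem_closedBall_zero_iff]
      exact hx.2.2
    have hKV : closure {x ∈ U | 0 < u x}
        ∩ {x : E | Real.exp a ≤ ‖x‖ ∧ ‖x‖ ≤ Real.exp b} ⊆ V := by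
      intro x hx
      refine hclV x hx.1 ?_
      intro h
      have h1 : Real.exp a ≤ ‖x‖ := hx.2.1
      rw [h, norm_zero] at h1
      linarith [Real.exp_pos a]
    have hsub : {x ∈ U | 0 < u x} ∩ Ann a b ⊆ closure {x ∈ U | 0 < u x}
        ∩ {x : E | Real.exp a ≤ ‖x‖ ∧ ‖x‖ ≤ Real.exp b} := by
      intro x hx
      refine ⟨subset_closure hx.1, ?_⟩
      have hx0 : x ≠ 0 := fun h => h0 (h ▸ hx.1.1)
      have hpos : 0 < ‖x‖ := norm_pos_iff.2 hx0
      have h1 := mem_Ann.1 hx.2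
      have h2 : ‖x‖ = Real.exp (Real.log ‖x‖) := (Real.exp_log hpos).symm
      constructor
      · rw [h2]
        exact Real.exp_le_exp.2 h1.1
      · rw [h2]
        exact (Real.exp_lt_exp.2 h1.2).le
    exact ((hwc.mono hKV).integrableOn_compact hKc).mono_set hsub
  refine ⟨hint, ?_⟩
  rw [setIntegral_pos_iff_support_of_nonneg_ae
    (Filter.Eventually.of_forall fun x => by positivity) (hint 0 1)]
  have hOopen : IsOpen ({x ∈ U | 0 < u x} ∩ (fun x : E => ‖x‖) ⁻¹' Set.Ioo 1 (Real.exp 1)) :=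
    hΩopen.inter (isOpen_Ioo.preimage continuous_norm)
  have hOne : ({x ∈ U | 0 < u x} ∩ (fun x : E => ‖x‖) ⁻¹' Set.Ioo 1 (Real.exp 1)).Nonempty := by
    obtain ⟨x1, hx1⟩ := hne
    have hx10 : x1 ≠ 0 := fun h => h0 (h ▸ hx1.1)
    have hn : 0 < ‖x1‖ := norm_pos_iff.2 hx10
    have ht : 0 < Real.exp (1 / 2) / ‖x1‖ := div_pos (Real.exp_pos _) hn
    refine ⟨(Real.exp (1 / 2) / ‖x1‖) • x1, ⟨hcone x1 hx1.1 _ ht, ?_⟩, ?_⟩
    · rw [hhom x1 hx1.1 _ ht]
      exact mul_pos ht hx1.2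
    · show ‖(Real.exp (1 / 2) / ‖x1‖) • x1‖ ∈ Set.Ioo 1 (Real.exp 1)
      rw [norm_smul, Real.norm_eq_abs, abs_of_pos ht, div_mul_cancel₀ _ hn.ne']
      constructor
      · rw [← Real.exp_zero]
        exact Real.exp_lt_exp.2 (by norm_num)
      · exact Real.exp_lt_exp.2 (by norm_num)
  refine lt_of_lt_of_le (hOopen.measure_pos volume hOne) (measure_mono ?_)
  intro x hx
  have hn : (1 : ℝ) < ‖x‖ := hx.2.1
  have hn2 : ‖x‖ < Real.exp 1 := hx.2.2
  have hcpos := hcfpos x (hΩV hx.1)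
  refine ⟨?_, hx.1, ?_⟩
  · rw [Function.mem_support]
    have : 0 < cf x ^ 2 / ‖x‖ ^ 2 := by positivity
    exact this.ne'
  · rw [mem_Ann]
    refine ⟨Real.log_nonneg hn.le, ?_⟩
    rw [Real.log_lt_iff_lt_exp (by linarith)]
    exact hn2

/-! ### The subsolution criterion -/

/-- The auxiliary function `c² η² H`. -/
noncomputable def stabG (cf η Hm : E → ℝ) : E → ℝ := fun y => cf y ^ 2 * η y ^ 2 * Hm y

/-- The components of the vector field `c η² ∇c + c² η² H ∇u`. -/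
noncomputable def stabZ (b : OrthonormalBasis ι ℝ E) (u cf η Hm : E → ℝ) (i : ι) : E → ℝ :=
  fun y => cf y * η y ^ 2 * pd (b i) cf y + stabG cf η Hm y * pd (b i) u y

theorem subsolution_unstable (b : OrthonormalBasis ι ℝ E) {U V : Set E} {u cf Hm : E → ℝ}
    {lam : ℝ} (hU : IsOpen U) (h0 : (0 : E) ∉ U)
    (hcone : ∀ x ∈ U, ∀ t : ℝ, 0 < t → t • x ∈ U)
    (hu : ContDiffOn ℝ 2 u U) (hhom : ∀ x ∈ U, ∀ t : ℝ, 0 < t → u (t • x) = t * u x)
    (hharm : ∀ x ∈ U, 0 < u x → lap b u x = 0)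
    (hfb : ∀ x ∈ U, u x = 0 → ∑ i, pd (b i) u x ^ 2 = 1)
    (hV : IsOpen V) (hVU : V ⊆ U)
    (hclV : ∀ x ∈ closure {x ∈ U | 0 < u x}, x ≠ 0 → x ∈ V)
    (hne : {x ∈ U | 0 < u x}.Nonempty)
    (hcf : ContDiffOn ℝ 2 cf V) (hcfpos : ∀ x ∈ V, 0 < cf x)
    (hcfhom : ∀ x ∈ {x ∈ U | 0 < u x}, ∀ t : ℝ, 0 < t →
      cf (t • x) ^ 2 / ‖t • x‖ ^ 2 = (t ^ Module.finrank ℝ E)⁻¹ * (cf x ^ 2 / ‖x‖ ^ 2))
    (hHm : ContDiffOn ℝ 1 Hm U) (hlam : 0 < lam)
    (hint : ∀ x ∈ U, 0 < u x → lam / ‖x‖ ^ 2 * cf x ≤ lap b cf x)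
    (hbd : ∀ x ∈ V, u x = 0 → 0 ≤ ∑ i, pd (b i) cf x * pd (b i) u x + Hm x * cf x) :
    ∃ φ : E → ℝ, ContDiff ℝ 2 φ ∧ HasCompactSupport φ ∧ (0 : E) ∉ tsupport φ ∧
      (∫ x in {x ∈ U | 0 < u x}, ∑ i, pd (b i) φ x ^ 2)
        + (∫ x in {x ∈ U | 0 < u x},
            ∑ i, pd (b i) (fun y => φ y ^ 2 * Hm y) x * pd (b i) u x) < 0 := by
  classical
  have hΩopen : IsOpen {x ∈ U | 0 < u x} := by
    have h := hu.continuousOn.isOpen_inter_preimage hU (isOpen_Ioi (a := (0 : ℝ)))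
    have e : {x ∈ U | 0 < u x} = U ∩ u ⁻¹' Set.Ioi 0 := by
      ext x
      simp
    rw [e]
    exact h
  have hΩmeas : MeasurableSet {x ∈ U | 0 < u x} := hΩopen.measurableSet
  have hΩV : {x ∈ U | 0 < u x} ⊆ V := fun x hx =>
    hclV x (subset_closure hx) (fun h => h0 (h ▸ hx.1))
  have hΩ0 : (0 : E) ∉ {x ∈ U | 0 < u x} := fun h => h0 h.1
  have hΩcone : ∀ x ∈ {x ∈ U | 0 < u x}, ∀ t : ℝ, 0 < t → t • x ∈ {x ∈ U | 0 < u x} :=
    fun x hx t ht => ⟨hcone x hx.1 t ht, by rw [hhom x hx.1 t ht]; exact mul_pos ht hx.2⟩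
  obtain ⟨hwint, hA1⟩ := weight_annulus hU h0 hcone hu.continuousOn hhom hVU hclV hne
    hcf.continuousOn hcfpos
  obtain ⟨M, hM0, hM⟩ := smoothT_deriv_bound
  obtain ⟨m, hm⟩ := exists_nat_gt (2 * M ^ 2 / lam)
  have hm' : 2 * M ^ 2 < lam * m := by
    rw [div_lt_iff₀ hlam] at hm
    linarith
  obtain ⟨hPint, hPval⟩ := plateau_integral hΩmeas hΩcone hΩ0
    (w := fun x => cf x ^ 2 / ‖x‖ ^ 2) hcfhom hwint M lam m
  -- the radial cutoff
  obtain ⟨η, hηdef⟩ : ∃ η : E → ℝ, η = etaFn ((m : ℝ) + 1) := ⟨_, rfl⟩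
  have hηs : ContDiff ℝ ∞ η := by
    rw [hηdef]
    exact etaFn_contDiff _
  have hηsupp : tsupport η ⊆ {x : E | 1 ≤ ‖x‖ ∧ ‖x‖ ≤ Real.exp ((m : ℝ) + 1 + 1)} := by
    rw [hηdef]
    exact etaFn_tsupport _
  have hηgrad : ∀ x : E, x ≠ 0 →
      ∑ i, pd (b i) η x ^ 2 = dprof ((m : ℝ) + 1) (Real.log ‖x‖) ^ 2 / ‖x‖ ^ 2 := by
    rw [hηdef]
    exact fun x hx => etaFn_grad_sq b _ hx
  have hηval : ∀ x : E, η x = prof ((m : ℝ) + 1) (Real.log ‖x‖) := by
    rw [hηdef]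
    exact fun x => rfl
  have hη1 : ContDiff ℝ 1 η := hηs.of_le (WithTop.coe_le_coe.2 le_top)
  have hη2 : ContDiff ℝ 2 η := hηs.of_le (WithTop.coe_le_coe.2 le_top)
  -- the angular cutoff
  have hAnnc : IsCompact {x : E | 1 ≤ ‖x‖ ∧ ‖x‖ ≤ Real.exp ((m : ℝ) + 1 + 1)} := by
    have hcl : IsClosed {x : E | 1 ≤ ‖x‖ ∧ ‖x‖ ≤ Real.exp ((m : ℝ) + 1 + 1)} :=
      (isClosed_Icc (a := (1 : ℝ)) (b := Real.exp ((m : ℝ) + 1 + 1))).preimage
        (continuous_norm (E := E))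
    refine (isCompact_closedBall (0 : E) (Real.exp ((m : ℝ) + 1 + 1))).of_isClosed_subset
      hcl ?_
    intro x hx
    rw [mem_closedBall_zero_iff]
    exact hx.2
  have hK0c : IsCompact (closure {x ∈ U | 0 < u x}
      ∩ {x : E | 1 ≤ ‖x‖ ∧ ‖x‖ ≤ Real.exp ((m : ℝ) + 1 + 1)}) :=
    hAnnc.inter_left isClosed_closure
  have hK0V : closure {x ∈ U | 0 < u x}
      ∩ {x : E | 1 ≤ ‖x‖ ∧ ‖x‖ ≤ Real.exp ((m : ℝ) + 1 + 1)} ⊆ V := by
    intro x hx
    refine hclV x hx.1 ?_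
    intro h
    have h1 : (1 : ℝ) ≤ ‖x‖ := hx.2.1
    rw [h, norm_zero] at h1
    linarith
  obtain ⟨χ, hχs, hχc, hχV, hχ0, hχ1, hχK⟩ := exists_cutoff hK0c hV hK0V
  have hχ1' : ContDiff ℝ 1 χ := hχs.of_le (WithTop.coe_le_coe.2 le_top)
  have hχΩ : ∀ x ∈ {x ∈ U | 0 < u x}, η x ≠ 0 → χ x = 1 := by
    intro x hx hηx
    exact hχK x ⟨subset_closure hx, hηsupp (subset_tsupport _ hηx)⟩
  have hηχs : ContDiff ℝ 2 (fun x => η x * χ x) :=
    hη2.mul (hχs.of_le (WithTop.coe_le_coe.2 le_top))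
  have hηχc : HasCompactSupport (fun x => η x * χ x) := hasCompactSupport_mul_of_right _ hχc
  have hηχV : tsupport (fun x => η x * χ x) ⊆ V := (tsupport_mul_subset_right' _ _).trans hχV
  have hηχ0 : (0 : E) ∉ tsupport (fun x => η x * χ x) := by
    intro h
    have h1 : (0 : E) ∈ tsupport η := tsupport_mul_subset_left h
    have h2 : (1 : ℝ) ≤ ‖(0 : E)‖ := (hηsupp h1).1
    rw [norm_zero] at h2
    linarith
  -- the test function
  obtain ⟨φ, hφdef⟩ : ∃ φ : E → ℝ, φ = fun x => cf x * (η x * χ x) := ⟨_, rfl⟩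
  have hφs : ContDiff ℝ 2 φ := by
    rw [hφdef]
    exact contDiff_mul_of_tsupport hV hcf hηχs hηχV
  have hφc : HasCompactSupport φ := by
    rw [hφdef]
    exact hasCompactSupport_mul_of_right _ hηχc
  have hφV : tsupport φ ⊆ V := by
    rw [hφdef]
    exact (tsupport_mul_subset_right' _ _).trans hηχV
  have hφ0 : (0 : E) ∉ tsupport φ := by
    rw [hφdef]
    exact fun h => hηχ0 (tsupport_mul_subset_right' _ _ h)
  have hφΩ : ∀ x ∈ {x ∈ U | 0 < u x}, φ x = cf x * η x := by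
    intro x hx
    rw [hφdef]
    by_cases hηx : η x = 0
    · simp [hηx]
    · show cf x * (η x * χ x) = cf x * η x
      rw [hχΩ x hx hηx, mul_one]
  have hφ1 : ContDiff ℝ 1 φ := hφs.of_le (by norm_num)
  refine ⟨φ, hφs, hφc, hφ0, ?_⟩
  -- the vector field
  have hcf1 : ContDiffOn ℝ 1 cf V := hcf.of_le (by norm_num)
  have hG : ContDiffOn ℝ 1 (stabG cf η Hm) V := by
    unfold stabG
    exact ((hcf1.pow 2).mul (hη1.contDiffOn.pow 2)).mul (hHm.mono hVU)
  have hZ : ∀ i, ContDiffOn ℝ 1 (stabZ b u cf η Hm i) V := by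
    intro i
    unfold stabZ
    exact ((hcf1.mul (hη1.contDiffOn.pow 2)).mul (pd_contDiffOn hV hcf (by norm_num) (b i))).add
      (hG.mul ((pd_contDiffOn hU hu (by norm_num) (b i)).mono hVU))
  have hF : ∀ i, ContDiff ℝ 1 (fun y => stabZ b u cf η Hm i y * χ y) :=
    fun i => contDiff_mul_of_tsupport hV (hZ i) hχ1' hχV
  have hFc : ∀ i, HasCompactSupport (fun y => stabZ b u cf η Hm i y * χ y) :=
    fun i => hasCompactSupport_mul_of_right _ hχc
  have hFV : ∀ i, tsupport (fun y => stabZ b u cf η Hm i y * χ y) ⊆ V :=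
    fun i => (tsupport_mul_subset_right' _ _).trans hχV
  have hgrad : ∀ x ∈ V, u x = 0 → 0 < ∑ i, pd (b i) u x ^ 2 := by
    intro x hx hux
    rw [hfb x (hVU hx) hux]
    exact one_pos
  have hsign : ∀ x ∈ V, u x = 0 →
      0 ≤ ∑ i, (fun i y => stabZ b u cf η Hm i y * χ y) i x * pd (b i) u x := by
    intro x hx hux
    have h1 := hfb x (hVU hx) hux
    have e1 : ∀ i, stabZ b u cf η Hm i x * χ x * pd (b i) u x
        = χ x * (cf x * η x ^ 2) * (pd (b i) cf x * pd (b i) u x)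
          + χ x * (cf x ^ 2 * η x ^ 2 * Hm x) * pd (b i) u x ^ 2 := by
      intro i
      unfold stabZ stabG
      ring
    have e : ∑ i, stabZ b u cf η Hm i x * χ x * pd (b i) u x
        = χ x * (cf x * η x ^ 2) * (∑ i, pd (b i) cf x * pd (b i) u x + Hm x * cf x) := by
      simp only [e1]
      rw [Finset.sum_add_distrib, ← Finset.mul_sum, ← Finset.mul_sum, h1]
      ring
    show 0 ≤ ∑ i, stabZ b u cf η Hm i x * χ x * pd (b i) u x
    rw [e]
    exact mul_nonneg (mul_nonneg (hχ0 x) (mul_nonneg (hcfpos x hx).le (sq_nonneg _)))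
      (hbd x hx hux)
  have hcore := div_integral_le hV (hu.mono hVU) b
    (fun i y => stabZ b u cf η Hm i y * χ y) hF hFc hFV hgrad hsign
  have hset : {x ∈ V | 0 < u x} = {x ∈ U | 0 < u x} := by
    ext x
    exact ⟨fun h => ⟨hVU h.1, h.2⟩, fun h => ⟨hΩV h, h.2⟩⟩
  rw [hset] at hcore
  -- the pointwise identity on the positive phase
  have hpt : ∀ x ∈ {x ∈ U | 0 < u x},
      ∑ i, pd (b i) φ x ^ 2 + ∑ i, pd (b i) (fun y => φ y ^ 2 * Hm y) x * pd (b i) u x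
        = (cf x ^ 2 * ∑ i, pd (b i) η x ^ 2 - cf x * η x ^ 2 * lap b cf x)
          + ∑ i, pd (b i) (fun y => stabZ b u cf η Hm i y * χ y) x := by
    intro x hx
    have e1 : Set.EqOn φ (fun y => cf y * η y) {x ∈ U | 0 < u x} := hφΩ
    have e2 : Set.EqOn (fun y => φ y ^ 2 * Hm y) (stabG cf η Hm) {x ∈ U | 0 < u x} := by
      intro y hy
      show φ y ^ 2 * Hm y = cf y ^ 2 * η y ^ 2 * Hm y
      rw [hφΩ y hy]
      ring
    have e3 : ∀ i, Set.EqOn (fun y => stabZ b u cf η Hm i y * χ y) (stabZ b u cf η Hm i)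
        {x ∈ U | 0 < u x} := by
      intro i y hy
      show stabZ b u cf η Hm i y * χ y = stabZ b u cf η Hm i y
      by_cases hηy : η y = 0
      · have hz : stabZ b u cf η Hm i y = 0 := by
          unfold stabZ stabG
          rw [hηy]
          ring
        rw [hz, zero_mul]
      · rw [hχΩ y hy hηy, mul_one]
    have r1 : ∀ i, pd (b i) φ x = pd (b i) (fun y => cf y * η y) x :=
      fun i => pd_congr hΩopen e1 (b i) hx
    have r2 : ∀ i, pd (b i) (fun y => φ y ^ 2 * Hm y) x = pd (b i) (stabG cf η Hm) x :=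
      fun i => pd_congr hΩopen e2 (b i) hx
    have r3 : ∀ i, pd (b i) (fun y => stabZ b u cf η Hm i y * χ y) x
        = pd (b i) (stabZ b u cf η Hm i) x := fun i => pd_congr hΩopen (e3 i) (b i) hx
    simp only [r1, r2, r3]
    exact stab_pointwise b hΩopen (hcf.mono hΩV) hη2.contDiffOn (hG.mono hΩV)
      (hu.mono (fun y hy => hy.1)) hx (hharm x hx.1 hx.2)
  -- integrability
  have hAcont : Continuous (fun x => ∑ i, pd (b i) φ x ^ 2) :=
    continuous_finsetSum _ fun i _ => (pd_continuous hφ1 (b i)).pow 2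
  have hAsupp : tsupport (fun x => ∑ i, pd (b i) φ x ^ 2) ⊆ tsupport φ := by
    refine closure_minimal ?_ (isClosed_tsupport _)
    intro x hx
    by_contra hxs
    apply hx
    refine Finset.sum_eq_zero fun i _ => ?_
    have hz : pd (b i) φ x = 0 :=
      image_eq_zero_of_notMem_tsupport (fun h => hxs (tsupport_pd_subset (b i) φ h))
    rw [hz]
    norm_num
  have hAint : Integrable (fun x => ∑ i, pd (b i) φ x ^ 2) :=
    hAcont.integrable_of_hasCompactSupport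
      (hφc.of_isClosed_subset (isClosed_tsupport _) hAsupp)
  have hφ2supp : tsupport (fun y => φ y ^ 2) ⊆ tsupport φ := by
    apply closure_mono
    intro y hy
    rw [Function.mem_support] at hy ⊢
    intro h
    apply hy
    rw [h]
    norm_num
  have hψsupp : tsupport (fun y => φ y ^ 2 * Hm y) ⊆ tsupport φ := by
    apply closure_mono
    intro y hy
    rw [Function.mem_support] at hy ⊢
    intro h
    apply hy
    rw [h]
    ring
  have hψs : ContDiff ℝ 1 (fun y => φ y ^ 2 * Hm y) := by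
    have h := contDiff_mul_of_tsupport hU hHm (hφ1.pow 2) (hφ2supp.trans (hφV.trans hVU))
    have e : (fun y => φ y ^ 2 * Hm y) = fun y => Hm y * φ y ^ 2 :=
      funext fun y => mul_comm _ _
    rw [e]
    exact h
  have hψc : HasCompactSupport (fun y => φ y ^ 2 * Hm y) :=
    hφc.of_isClosed_subset (isClosed_tsupport _) hψsupp
  have hBint : Integrable
      (fun x => ∑ i, pd (b i) (fun y => φ y ^ 2 * Hm y) x * pd (b i) u x) := by
    refine integrable_finsetSum _ fun i _ => ?_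
    have h := integrable_mul_of_tsupport hU
      (pd_contDiffOn hU hu (m := 1) (by norm_num) (b i)).continuousOn
      (pd_continuous hψs (b i)) (pd_hasCompactSupport hψc (b i))
      ((tsupport_pd_subset (b i) _).trans (hψsupp.trans (hφV.trans hVU)))
    have e : (fun x => pd (b i) (fun y => φ y ^ 2 * Hm y) x * pd (b i) u x)
        = fun x => pd (b i) u x * pd (b i) (fun y => φ y ^ 2 * Hm y) x :=
      funext fun x => mul_comm _ _
    rw [e]
    exact h
  have hDcont : Continuous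
      (fun x => ∑ i, pd (b i) (fun y => stabZ b u cf η Hm i y * χ y) x) :=
    continuous_finsetSum _ fun i _ => pd_continuous (hF i) (b i)
  have hDsupp : tsupport (fun x => ∑ i, pd (b i) (fun y => stabZ b u cf η Hm i y * χ y) x)
      ⊆ tsupport χ := by
    refine closure_minimal ?_ (isClosed_tsupport _)
    intro x hx
    by_contra hxs
    apply hx
    refine Finset.sum_eq_zero fun i _ => ?_
    exact image_eq_zero_of_notMem_tsupport (fun h => hxs
      (tsupport_mul_subset_right' _ _ (tsupport_pd_subset (b i) _ h)))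
  have hDint : Integrable
      (fun x => ∑ i, pd (b i) (fun y => stabZ b u cf η Hm i y * χ y) x) :=
    hDcont.integrable_of_hasCompactSupport
      (hχc.of_isClosed_subset (isClosed_tsupport _) hDsupp)
  have hDdint : IntegrableOn
      (fun x => cf x ^ 2 * ∑ i, pd (b i) η x ^ 2 - cf x * η x ^ 2 * lap b cf x)
      {x ∈ U | 0 < u x} := by
    refine IntegrableOn.congr_fun
      ((hAint.integrableOn.add hBint.integrableOn).sub hDint.integrableOn) ?_ hΩmeas
    intro x hx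
    have h := hpt x hx
    show (∑ i, pd (b i) φ x ^ 2
        + ∑ i, pd (b i) (fun y => φ y ^ 2 * Hm y) x * pd (b i) u x)
        - ∑ i, pd (b i) (fun y => stabZ b u cf η Hm i y * χ y) x
      = cf x ^ 2 * ∑ i, pd (b i) η x ^ 2 - cf x * η x ^ 2 * lap b cf x
    linarith
  have hsum : (∫ x in {x ∈ U | 0 < u x}, ∑ i, pd (b i) φ x ^ 2)
      + (∫ x in {x ∈ U | 0 < u x},
          ∑ i, pd (b i) (fun y => φ y ^ 2 * Hm y) x * pd (b i) u x)
      = (∫ x in {x ∈ U | 0 < u x},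
          (cf x ^ 2 * ∑ i, pd (b i) η x ^ 2 - cf x * η x ^ 2 * lap b cf x))
        + ∫ x in {x ∈ U | 0 < u x},
          ∑ i, pd (b i) (fun y => stabZ b u cf η Hm i y * χ y) x := by
    rw [← integral_add hAint.integrableOn hBint.integrableOn,
      ← integral_add hDdint hDint.integrableOn]
    exact setIntegral_congr_fun hΩmeas hpt
  have hDle : ∫ x in {x ∈ U | 0 < u x},
        (cf x ^ 2 * ∑ i, pd (b i) η x ^ 2 - cf x * η x ^ 2 * lap b cf x)
      ≤ ∫ x in {x ∈ U | 0 < u x}, plateauBound M lam m (fun x => cf x ^ 2 / ‖x‖ ^ 2) x := by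
    refine setIntegral_mono_on hDdint hPint hΩmeas ?_
    intro x hx
    have hx0 : x ≠ 0 := fun h => h0 (h ▸ hx.1)
    have hn : 0 < ‖x‖ := norm_pos_iff.2 hx0
    have hc := hcfpos x (hΩV hx)
    have hl := hint x hx.1 hx.2
    have hpw := plateau_pointwise hM hlam.le m (fun x => cf x ^ 2 / ‖x‖ ^ 2) x (by positivity)
    refine le_trans ?_ hpw
    show cf x ^ 2 * ∑ i, pd (b i) η x ^ 2 - cf x * η x ^ 2 * lap b cf x
      ≤ cf x ^ 2 / ‖x‖ ^ 2 * (dprof ((m : ℝ) + 1) (Real.log ‖x‖) ^ 2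
        - lam * prof ((m : ℝ) + 1) (Real.log ‖x‖) ^ 2)
    rw [hηgrad x hx0, hηval x]
    have h1 : cf x * prof ((m : ℝ) + 1) (Real.log ‖x‖) ^ 2 * (lam / ‖x‖ ^ 2 * cf x)
        ≤ cf x * prof ((m : ℝ) + 1) (Real.log ‖x‖) ^ 2 * lap b cf x :=
      mul_le_mul_of_nonneg_left hl (mul_nonneg hc.le (sq_nonneg _))
    have h2 : cf x ^ 2 / ‖x‖ ^ 2 * (dprof ((m : ℝ) + 1) (Real.log ‖x‖) ^ 2
          - lam * prof ((m : ℝ) + 1) (Real.log ‖x‖) ^ 2)
        = cf x ^ 2 * (dprof ((m : ℝ) + 1) (Real.log ‖x‖) ^ 2 / ‖x‖ ^ 2)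
          - cf x * prof ((m : ℝ) + 1) (Real.log ‖x‖) ^ 2 * (lam / ‖x‖ ^ 2 * cf x) := by
      field_simp
    rw [h2]
    linarith
  rw [hsum]
  have hneg : (2 * M ^ 2 - lam * m)
      * ∫ x in {x ∈ U | 0 < u x} ∩ Ann 0 1, cf x ^ 2 / ‖x‖ ^ 2 < 0 :=
    mul_neg_of_neg_of_pos (by linarith) hA1
  rw [hPval] at hDle
  linarith [hcore, hDle, hneg]

end Vale.Agent.Lib.P098
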