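import Vale.Agent.Lib.P098.Stab

/-!
The subsolution criterion for instability with an error term: a positive function `c`,
homogeneous of the critical degree, with `Δc ≥ λ c / |x|² - e` in the positive phase, where
the error `c e` is nonnegative, homogeneous of degree `-dim` and small in the mean compared
to `c² / |x|²` on one annulus, and `∂_ν c + H c ≥ 0` on the free boundary, still yields a
compactly supported test function with negative second variation.
-/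

namespace Vale.Agent.Lib.P098

open Finset MeasureTheory
open scoped ContDiff Topology InnerProductSpace

variable {E : Type*} [NormedAddCommGroup E] [InnerProductSpace ℝ E]
variable {ι : Type*} [Fintype ι]

theorem prof_sq_le_one (N t : ℝ) : prof N t ^ 2 ≤ 1 := by
  unfold prof
  have h1 := Real.smoothTransition.nonneg t
  have h2 := Real.smoothTransition.le_one t
  have h3 := Real.smoothTransition.nonneg (N + 1 - t)
  have h4 := Real.smoothTransition.le_one (N + 1 - t)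
  have h5 : Real.smoothTransition t * Real.smoothTransition (N + 1 - t) ≤ 1 := by nlinarith
  have h6 : 0 ≤ Real.smoothTransition t * Real.smoothTransition (N + 1 - t) := mul_nonneg h1 h3
  nlinarith

omit [InnerProductSpace ℝ E] in
theorem prof_err_pointwise (m : ℕ) (w : E → ℝ) (x : E) (hwx : 0 ≤ w x) :
    prof ((m : ℝ) + 1) (Real.log ‖x‖) ^ 2 * w x
      ≤ (Ann 0 1).indicator w x + plateauBound 0 (-1) (m + 1) w x := by
  unfold plateauBound
  simp only [Ann_indicator]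
  have hc : ((m + 1 : ℕ) : ℝ) = (m : ℝ) + 1 := by push_cast; ring
  rw [hc]
  have hm0 : (0 : ℝ) ≤ (m : ℝ) := Nat.cast_nonneg m
  have hP := prof_sq_le_one ((m : ℝ) + 1) (Real.log ‖x‖)
  have hP0 := sq_nonneg (prof ((m : ℝ) + 1) (Real.log ‖x‖))
  rcases lt_or_ge (Real.log ‖x‖) 0 with h | h
  · rw [prof_zero_of_nonpos h.le]
    have h1 : ¬ (0 ≤ Real.log ‖x‖ ∧ Real.log ‖x‖ < 1) := fun hh => by linarith [hh.1]
    have h2 : ¬ (1 ≤ Real.log ‖x‖ ∧ Real.log ‖x‖ < (m : ℝ) + 1 + 1) :=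
      fun hh => by linarith [hh.1]
    rw [if_neg h1, if_neg h2]
    simp
  rcases lt_or_ge (Real.log ‖x‖) 1 with h1 | h1
  · have h2 : ¬ (1 ≤ Real.log ‖x‖ ∧ Real.log ‖x‖ < (m : ℝ) + 1 + 1) :=
      fun hh => by linarith [hh.1]
    rw [if_pos (⟨h, h1⟩ : 0 ≤ Real.log ‖x‖ ∧ Real.log ‖x‖ < 1), if_neg h2]
    have h3 : ¬ ((m : ℝ) + 1 + 1 ≤ Real.log ‖x‖ ∧ Real.log ‖x‖ < (m : ℝ) + 1 + 1 + 1) :=
      fun hh => by linarith [hh.1]
    rw [if_neg h3]
    nlinarith
  rcases lt_or_ge (Real.log ‖x‖) ((m : ℝ) + 1 + 1) with h2 | h2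
  · have h3 : ¬ (0 ≤ Real.log ‖x‖ ∧ Real.log ‖x‖ < 1) := fun hh => by linarith [hh.2]
    rw [if_neg h3, if_pos (⟨h1, h2⟩ : 1 ≤ Real.log ‖x‖ ∧ Real.log ‖x‖ < (m : ℝ) + 1 + 1)]
    have h4 : ¬ ((m : ℝ) + 1 + 1 ≤ Real.log ‖x‖ ∧ Real.log ‖x‖ < (m : ℝ) + 1 + 1 + 1) :=
      fun hh => by linarith [hh.1]
    rw [if_neg h4]
    nlinarith
  · rw [prof_zero_of_ge h2]
    have h3 : ¬ (0 ≤ Real.log ‖x‖ ∧ Real.log ‖x‖ < 1) := fun hh => by linarith [hh.2]
    have h4 : ¬ (1 ≤ Real.log ‖x‖ ∧ Real.log ‖x‖ < (m : ℝ) + 1 + 1) :=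
      fun hh => by linarith [hh.2]
    rw [if_neg h3, if_neg h4]
    split_ifs <;> simp

variable [FiniteDimensional ℝ E] [MeasurableSpace E] [BorelSpace E]

theorem subsolution_unstable_err (b : OrthonormalBasis ι ℝ E) {U V : Set E}
    {u cf Hm er : E → ℝ}
    {lam : ℝ} (hU : IsOpen U) (h0 : (0 : E) ∉ U)
    (hcone : ∀ x ∈ U, ∀ t : ℝ, 0 < t → t • x ∈ U)
    (hu : ContDiffOn ℝ 2 u U) (hhom : ∀ x ∈ U, ∀ t : ℝ, 0 < t → u (t • x) = t * u x)
    (hharm : ∀ x ∈ U, 0 < u x → lap b u x = 0)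
    (hfb : ∀ x ∈ U, u x = 0 → ∑ i, pd (b i) u x ^ 2 = 1)
    (hV : IsOpen V) (hVU : V ⊆ U)
    (hclV : ∀ x ∈ closure {x ∈ U | 0 < u x}, x ≠ 0 → x ∈ V)
    (hne : {x ∈ U | 0 < u x}.Nonempty)
    (hcf : ContDiffOn ℝ 2 cf V) (hcfpos : ∀ x ∈ V, 0 < cf x)
    (hcfhom : ∀ x ∈ {x ∈ U | 0 < u x}, ∀ t : ℝ, 0 < t →
      cf (t • x) ^ 2 / ‖t • x‖ ^ 2 = (t ^ Module.finrank ℝ E)⁻¹ * (cf x ^ 2 / ‖x‖ ^ 2))
    (hHm : ContDiffOn ℝ 1 Hm U) (hlam : 0 < lam)
    (her0 : ∀ x ∈ {x ∈ U | 0 < u x}, 0 ≤ cf x * er x)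
    (herhom : ∀ x ∈ {x ∈ U | 0 < u x}, ∀ t : ℝ, 0 < t →
      cf (t • x) * er (t • x) = (t ^ Module.finrank ℝ E)⁻¹ * (cf x * er x))
    (herint : ∀ a b : ℝ, IntegrableOn (fun x => cf x * er x) ({x ∈ U | 0 < u x} ∩ Ann a b))
    (hersmall : ∫ x in {x ∈ U | 0 < u x} ∩ Ann 0 1, cf x * er x
      ≤ lam / 4 * ∫ x in {x ∈ U | 0 < u x} ∩ Ann 0 1, cf x ^ 2 / ‖x‖ ^ 2)
    (hint : ∀ x ∈ U, 0 < u x → lam / ‖x‖ ^ 2 * cf x - er x ≤ lap b cf x)
    (hbd : ∀ x ∈ V, u x = 0 → 0 ≤ ∑ i, pd (b i) cf x * pd (b i) u x + Hm x * cf x) :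
    ∃ φ : E → ℝ, ContDiff ℝ 2 φ ∧ HasCompactSupport φ ∧ (0 : E) ∉ tsupport φ ∧
      (∫ x in {x ∈ U | 0 < u x}, ∑ i, pd (b i) φ x ^ 2)
        + (∫ x in {x ∈ U | 0 < u x},
            ∑ i, pd (b i) (fun y => φ y ^ 2 * Hm y) x * pd (b i) u x) < 0 := by
  classical
  have hΩopen : IsOpen {x ∈ U | 0 < u x} := by
    have h := hu.continuousOn.isOpen_inter_preimage hU (isOpen_Ioi (a := (0 : ℝ)))
    have e : {x ∈ U | 0 < u x} = U ∩ u ⁻¹' Set.Ioi 0 := by
      ext x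
      simp
    rw [e]
    exact h
  have hΩmeas : MeasurableSet {x ∈ U | 0 < u x} := hΩopen.measurableSet
  have hΩV : {x ∈ U | 0 < u x} ⊆ V := fun x hx =>
    hclV x (subset_closure hx) (fun h => h0 (h ▸ hx.1))
  have hΩ0 : (0 : E) ∉ {x ∈ U | 0 < u x} := fun h => h0 h.1
  have hΩcone : ∀ x ∈ {x ∈ U | 0 < u x}, ∀ t : ℝ, 0 < t → t • x ∈ {x ∈ U | 0 < u x} :=
    fun x hx t ht => ⟨hcone x hx.1 t ht, by rw [hhom x hx.1 t ht]; exact mul_pos ht hx.2⟩
  obtain ⟨hwint, hA1⟩ := weight_annulus hU h0 hcone hu.continuousOn hhom hVU hclV hne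
    hcf.continuousOn hcfpos
  obtain ⟨M, hM0, hM⟩ := smoothT_deriv_bound
  obtain ⟨m, hm⟩ := exists_nat_gt ((8 * M ^ 2 + 2 * lam) / (3 * lam))
  have hm' : 8 * M ^ 2 + 2 * lam < 3 * lam * m := by
    rw [div_lt_iff₀ (by linarith)] at hm
    linarith
  obtain ⟨hPint, hPval⟩ := plateau_integral hΩmeas hΩcone hΩ0
    (w := fun x => cf x ^ 2 / ‖x‖ ^ 2) hcfhom hwint M lam m
  obtain ⟨hQint, hQval⟩ := plateau_integral hΩmeas hΩcone hΩ0
    (w := fun x => cf x * er x) herhom herint 0 (-1) (m + 1)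
  have hRint : IntegrableOn ((Ann 0 1).indicator (fun x => cf x * er x)) {x ∈ U | 0 < u x} := by
    rw [IntegrableOn, integrable_indicator_iff (measurableSet_Ann 0 1), IntegrableOn,
      Measure.restrict_restrict (measurableSet_Ann 0 1), Set.inter_comm]
    exact herint 0 1
  have hRval : ∫ x in {x ∈ U | 0 < u x}, (Ann 0 1).indicator (fun x => cf x * er x) x
      = ∫ x in {x ∈ U | 0 < u x} ∩ Ann 0 1, cf x * er x :=
    setIntegral_indicator (measurableSet_Ann 0 1)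
  -- the radial cutoff
  obtain ⟨η, hηdef⟩ : ∃ η : E → ℝ, η = etaFn ((m : ℝ) + 1) := ⟨_, rfl⟩
  have hηs : ContDiff ℝ ∞ η := by
    rw [hηdef]
    exact etaFn_contDiff _
  have hηsupp : tsupport η ⊆ {x : E | 1 ≤ ‖x‖ ∧ ‖x‖ ≤ Real.exp ((m : ℝ) + 1 + 1)} := by
    rw [hηdef]
    exact etaFn_tsupport _
  have hηgrad : ∀ x : E, x ≠ 0 →
      ∑ i, pd (b i) η x ^ 2 = dprof ((m : ℝ) + 1) (Real.log ‖x‖) ^ 2 / ‖x‖ ^ 2 := by
    rw [hηdef]
    exact fun x hx => etaFn_grad_sq b _ hx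
  have hηval : ∀ x : E, η x = prof ((m : ℝ) + 1) (Real.log ‖x‖) := by
    rw [hηdef]
    exact fun x => rfl
  have hη1 : ContDiff ℝ 1 η := hηs.of_le (WithTop.coe_le_coe.2 le_top)
  have hη2 : ContDiff ℝ 2 η := hηs.of_le (WithTop.coe_le_coe.2 le_top)
  -- the angular cutoff
  have hAnnc : IsCompact {x : E | 1 ≤ ‖x‖ ∧ ‖x‖ ≤ Real.exp ((m : ℝ) + 1 + 1)} := by
    have hcl : IsClosed {x : E | 1 ≤ ‖x‖ ∧ ‖x‖ ≤ Real.exp ((m : ℝ) + 1 + 1)} :=
      (isClosed_Icc (a := (1 : ℝ)) (b := Real.exp ((m : ℝ) + 1 + 1))).preimage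
        (continuous_norm (E := E))
    refine (isCompact_closedBall (0 : E) (Real.exp ((m : ℝ) + 1 + 1))).of_isClosed_subset
      hcl ?_
    intro x hx
    rw [mem_closedBall_zero_iff]
    exact hx.2
  have hK0c : IsCompact (closure {x ∈ U | 0 < u x}
      ∩ {x : E | 1 ≤ ‖x‖ ∧ ‖x‖ ≤ Real.exp ((m : ℝ) + 1 + 1)}) :=
    hAnnc.inter_left isClosed_closure
  have hK0V : closure {x ∈ U | 0 < u x}
      ∩ {x : E | 1 ≤ ‖x‖ ∧ ‖x‖ ≤ Real.exp ((m : ℝ) + 1 + 1)} ⊆ V := by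
    intro x hx
    refine hclV x hx.1 ?_
    intro h
    have h1 : (1 : ℝ) ≤ ‖x‖ := hx.2.1
    rw [h, norm_zero] at h1
    linarith
  obtain ⟨χ, hχs, hχc, hχV, hχ0, hχ1, hχK⟩ := exists_cutoff hK0c hV hK0V
  have hχ1' : ContDiff ℝ 1 χ := hχs.of_le (WithTop.coe_le_coe.2 le_top)
  have hχΩ : ∀ x ∈ {x ∈ U | 0 < u x}, η x ≠ 0 → χ x = 1 := by
    intro x hx hηx
    exact hχK x ⟨subset_closure hx, hηsupp (subset_tsupport _ hηx)⟩
  have hηχs : ContDiff ℝ 2 (fun x => η x * χ x) :=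
    hη2.mul (hχs.of_le (WithTop.coe_le_coe.2 le_top))
  have hηχc : HasCompactSupport (fun x => η x * χ x) := hasCompactSupport_mul_of_right _ hχc
  have hηχV : tsupport (fun x => η x * χ x) ⊆ V := (tsupport_mul_subset_right' _ _).trans hχV
  have hηχ0 : (0 : E) ∉ tsupport (fun x => η x * χ x) := by
    intro h
    have h1 : (0 : E) ∈ tsupport η := tsupport_mul_subset_left h
    have h2 : (1 : ℝ) ≤ ‖(0 : E)‖ := (hηsupp h1).1
    rw [norm_zero] at h2
    linarith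
  -- the test function
  obtain ⟨φ, hφdef⟩ : ∃ φ : E → ℝ, φ = fun x => cf x * (η x * χ x) := ⟨_, rfl⟩
  have hφs : ContDiff ℝ 2 φ := by
    rw [hφdef]
    exact contDiff_mul_of_tsupport hV hcf hηχs hηχV
  have hφc : HasCompactSupport φ := by
    rw [hφdef]
    exact hasCompactSupport_mul_of_right _ hηχc
  have hφV : tsupport φ ⊆ V := by
    rw [hφdef]
    exact (tsupport_mul_subset_right' _ _).trans hηχV
  have hφ0 : (0 : E) ∉ tsupport φ := by
    rw [hφdef]
    exact fun h => hηχ0 (tsupport_mul_subset_right' _ _ h)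
  have hφΩ : ∀ x ∈ {x ∈ U | 0 < u x}, φ x = cf x * η x := by
    intro x hx
    rw [hφdef]
    by_cases hηx : η x = 0
    · simp [hηx]
    · show cf x * (η x * χ x) = cf x * η x
      rw [hχΩ x hx hηx, mul_one]
  have hφ1 : ContDiff ℝ 1 φ := hφs.of_le (by norm_num)
  refine ⟨φ, hφs, hφc, hφ0, ?_⟩
  -- the vector field
  have hcf1 : ContDiffOn ℝ 1 cf V := hcf.of_le (by norm_num)
  have hG : ContDiffOn ℝ 1 (stabG cf η Hm) V := by
    unfold stabG
    exact ((hcf1.pow 2).mul (hη1.contDiffOn.pow 2)).mul (hHm.mono hVU)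
  have hZ : ∀ i, ContDiffOn ℝ 1 (stabZ b u cf η Hm i) V := by
    intro i
    unfold stabZ
    exact ((hcf1.mul (hη1.contDiffOn.pow 2)).mul (pd_contDiffOn hV hcf (by norm_num) (b i))).add
      (hG.mul ((pd_contDiffOn hU hu (by norm_num) (b i)).mono hVU))
  have hF : ∀ i, ContDiff ℝ 1 (fun y => stabZ b u cf η Hm i y * χ y) :=
    fun i => contDiff_mul_of_tsupport hV (hZ i) hχ1' hχV
  have hFc : ∀ i, HasCompactSupport (fun y => stabZ b u cf η Hm i y * χ y) :=
    fun i => hasCompactSupport_mul_of_right _ hχc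
  have hFV : ∀ i, tsupport (fun y => stabZ b u cf η Hm i y * χ y) ⊆ V :=
    fun i => (tsupport_mul_subset_right' _ _).trans hχV
  have hgrad : ∀ x ∈ V, u x = 0 → 0 < ∑ i, pd (b i) u x ^ 2 := by
    intro x hx hux
    rw [hfb x (hVU hx) hux]
    exact one_pos
  have hsign : ∀ x ∈ V, u x = 0 →
      0 ≤ ∑ i, (fun i y => stabZ b u cf η Hm i y * χ y) i x * pd (b i) u x := by
    intro x hx hux
    have h1 := hfb x (hVU hx) hux
    have e1 : ∀ i, stabZ b u cf η Hm i x * χ x * pd (b i) u x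
        = χ x * (cf x * η x ^ 2) * (pd (b i) cf x * pd (b i) u x)
          + χ x * (cf x ^ 2 * η x ^ 2 * Hm x) * pd (b i) u x ^ 2 := by
      intro i
      unfold stabZ stabG
      ring
    have e : ∑ i, stabZ b u cf η Hm i x * χ x * pd (b i) u x
        = χ x * (cf x * η x ^ 2) * (∑ i, pd (b i) cf x * pd (b i) u x + Hm x * cf x) := by
      simp only [e1]
      rw [Finset.sum_add_distrib, ← Finset.mul_sum, ← Finset.mul_sum, h1]
      ring
    show 0 ≤ ∑ i, stabZ b u cf η Hm i x * χ x * pd (b i) u x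
    rw [e]
    exact mul_nonneg (mul_nonneg (hχ0 x) (mul_nonneg (hcfpos x hx).le (sq_nonneg _)))
      (hbd x hx hux)
  have hcore := div_integral_le hV (hu.mono hVU) b
    (fun i y => stabZ b u cf η Hm i y * χ y) hF hFc hFV hgrad hsign
  have hset : {x ∈ V | 0 < u x} = {x ∈ U | 0 < u x} := by
    ext x
    exact ⟨fun h => ⟨hVU h.1, h.2⟩, fun h => ⟨hΩV h, h.2⟩⟩
  rw [hset] at hcore
  -- the pointwise identity on the positive phase
  have hpt : ∀ x ∈ {x ∈ U | 0 < u x},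
      ∑ i, pd (b i) φ x ^ 2 + ∑ i, pd (b i) (fun y => φ y ^ 2 * Hm y) x * pd (b i) u x
        = (cf x ^ 2 * ∑ i, pd (b i) η x ^ 2 - cf x * η x ^ 2 * lap b cf x)
          + ∑ i, pd (b i) (fun y => stabZ b u cf η Hm i y * χ y) x := by
    intro x hx
    have e1 : Set.EqOn φ (fun y => cf y * η y) {x ∈ U | 0 < u x} := hφΩ
    have e2 : Set.EqOn (fun y => φ y ^ 2 * Hm y) (stabG cf η Hm) {x ∈ U | 0 < u x} := by
      intro y hy
      show φ y ^ 2 * Hm y = cf y ^ 2 * η y ^ 2 * Hm y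
      rw [hφΩ y hy]
      ring
    have e3 : ∀ i, Set.EqOn (fun y => stabZ b u cf η Hm i y * χ y) (stabZ b u cf η Hm i)
        {x ∈ U | 0 < u x} := by
      intro i y hy
      show stabZ b u cf η Hm i y * χ y = stabZ b u cf η Hm i y
      by_cases hηy : η y = 0
      · have hz : stabZ b u cf η Hm i y = 0 := by
          unfold stabZ stabG
          rw [hηy]
          ring
        rw [hz, zero_mul]
      · rw [hχΩ y hy hηy, mul_one]
    have r1 : ∀ i, pd (b i) φ x = pd (b i) (fun y => cf y * η y) x :=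
      fun i => pd_congr hΩopen e1 (b i) hx
    have r2 : ∀ i, pd (b i) (fun y => φ y ^ 2 * Hm y) x = pd (b i) (stabG cf η Hm) x :=
      fun i => pd_congr hΩopen e2 (b i) hx
    have r3 : ∀ i, pd (b i) (fun y => stabZ b u cf η Hm i y * χ y) x
        = pd (b i) (stabZ b u cf η Hm i) x := fun i => pd_congr hΩopen (e3 i) (b i) hx
    simp only [r1, r2, r3]
    exact stab_pointwise b hΩopen (hcf.mono hΩV) hη2.contDiffOn (hG.mono hΩV)
      (hu.mono (fun y hy => hy.1)) hx (hharm x hx.1 hx.2)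
  -- integrability
  have hAcont : Continuous (fun x => ∑ i, pd (b i) φ x ^ 2) :=
    continuous_finsetSum _ fun i _ => (pd_continuous hφ1 (b i)).pow 2
  have hAsupp : tsupport (fun x => ∑ i, pd (b i) φ x ^ 2) ⊆ tsupport φ := by
    refine closure_minimal ?_ (isClosed_tsupport _)
    intro x hx
    by_contra hxs
    apply hx
    refine Finset.sum_eq_zero fun i _ => ?_
    have hz : pd (b i) φ x = 0 :=
      image_eq_zero_of_notMem_tsupport (fun h => hxs (tsupport_pd_subset (b i) φ h))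
    rw [hz]
    norm_num
  have hAint : Integrable (fun x => ∑ i, pd (b i) φ x ^ 2) :=
    hAcont.integrable_of_hasCompactSupport
      (hφc.of_isClosed_subset (isClosed_tsupport _) hAsupp)
  have hφ2supp : tsupport (fun y => φ y ^ 2) ⊆ tsupport φ := by
    apply closure_mono
    intro y hy
    rw [Function.mem_support] at hy ⊢
    intro h
    apply hy
    rw [h]
    norm_num
  have hψsupp : tsupport (fun y => φ y ^ 2 * Hm y) ⊆ tsupport φ := by
    apply closure_mono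
    intro y hy
    rw [Function.mem_support] at hy ⊢
    intro h
    apply hy
    rw [h]
    ring
  have hψs : ContDiff ℝ 1 (fun y => φ y ^ 2 * Hm y) := by
    have h := contDiff_mul_of_tsupport hU hHm (hφ1.pow 2) (hφ2supp.trans (hφV.trans hVU))
    have e : (fun y => φ y ^ 2 * Hm y) = fun y => Hm y * φ y ^ 2 :=
      funext fun y => mul_comm _ _
    rw [e]
    exact h
  have hψc : HasCompactSupport (fun y => φ y ^ 2 * Hm y) :=
    hφc.of_isClosed_subset (isClosed_tsupport _) hψsupp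
  have hBint : Integrable
      (fun x => ∑ i, pd (b i) (fun y => φ y ^ 2 * Hm y) x * pd (b i) u x) := by
    refine integrable_finsetSum _ fun i _ => ?_
    have h := integrable_mul_of_tsupport hU
      (pd_contDiffOn hU hu (m := 1) (by norm_num) (b i)).continuousOn
      (pd_continuous hψs (b i)) (pd_hasCompactSupport hψc (b i))
      ((tsupport_pd_subset (b i) _).trans (hψsupp.trans (hφV.trans hVU)))
    have e : (fun x => pd (b i) (fun y => φ y ^ 2 * Hm y) x * pd (b i) u x)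
        = fun x => pd (b i) u x * pd (b i) (fun y => φ y ^ 2 * Hm y) x :=
      funext fun x => mul_comm _ _
    rw [e]
    exact h
  have hDcont : Continuous
      (fun x => ∑ i, pd (b i) (fun y => stabZ b u cf η Hm i y * χ y) x) :=
    continuous_finsetSum _ fun i _ => pd_continuous (hF i) (b i)
  have hDsupp : tsupport (fun x => ∑ i, pd (b i) (fun y => stabZ b u cf η Hm i y * χ y) x)
      ⊆ tsupport χ := by
    refine closure_minimal ?_ (isClosed_tsupport _)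
    intro x hx
    by_contra hxs
    apply hx
    refine Finset.sum_eq_zero fun i _ => ?_
    exact image_eq_zero_of_notMem_tsupport (fun h => hxs
      (tsupport_mul_subset_right' _ _ (tsupport_pd_subset (b i) _ h)))
  have hDint : Integrable
      (fun x => ∑ i, pd (b i) (fun y => stabZ b u cf η Hm i y * χ y) x) :=
    hDcont.integrable_of_hasCompactSupport
      (hχc.of_isClosed_subset (isClosed_tsupport _) hDsupp)
  have hDdint : IntegrableOn
      (fun x => cf x ^ 2 * ∑ i, pd (b i) η x ^ 2 - cf x * η x ^ 2 * lap b cf x)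
      {x ∈ U | 0 < u x} := by
    refine IntegrableOn.congr_fun
      ((hAint.integrableOn.add hBint.integrableOn).sub hDint.integrableOn) ?_ hΩmeas
    intro x hx
    have h := hpt x hx
    show (∑ i, pd (b i) φ x ^ 2
        + ∑ i, pd (b i) (fun y => φ y ^ 2 * Hm y) x * pd (b i) u x)
        - ∑ i, pd (b i) (fun y => stabZ b u cf η Hm i y * χ y) x
      = cf x ^ 2 * ∑ i, pd (b i) η x ^ 2 - cf x * η x ^ 2 * lap b cf x
    linarith
  have hsum : (∫ x in {x ∈ U | 0 < u x}, ∑ i, pd (b i) φ x ^ 2)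
      + (∫ x in {x ∈ U | 0 < u x},
          ∑ i, pd (b i) (fun y => φ y ^ 2 * Hm y) x * pd (b i) u x)
      = (∫ x in {x ∈ U | 0 < u x},
          (cf x ^ 2 * ∑ i, pd (b i) η x ^ 2 - cf x * η x ^ 2 * lap b cf x))
        + ∫ x in {x ∈ U | 0 < u x},
          ∑ i, pd (b i) (fun y => stabZ b u cf η Hm i y * χ y) x := by
    rw [← integral_add hAint.integrableOn hBint.integrableOn,
      ← integral_add hDdint hDint.integrableOn]
    exact setIntegral_congr_fun hΩmeas hpt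
  have hTint : IntegrableOn (fun x => plateauBound M lam m (fun x => cf x ^ 2 / ‖x‖ ^ 2) x
      + ((Ann 0 1).indicator (fun x => cf x * er x) x
        + plateauBound 0 (-1) (m + 1) (fun x => cf x * er x) x)) {x ∈ U | 0 < u x} :=
    hPint.add (hRint.add hQint)
  have hDle : ∫ x in {x ∈ U | 0 < u x},
        (cf x ^ 2 * ∑ i, pd (b i) η x ^ 2 - cf x * η x ^ 2 * lap b cf x)
      ≤ ∫ x in {x ∈ U | 0 < u x}, (plateauBound M lam m (fun x => cf x ^ 2 / ‖x‖ ^ 2) x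
      + ((Ann 0 1).indicator (fun x => cf x * er x) x
        + plateauBound 0 (-1) (m + 1) (fun x => cf x * er x) x)) := by
    refine setIntegral_mono_on hDdint hTint hΩmeas ?_
    intro x hx
    have hx0 : x ≠ 0 := fun h => h0 (h ▸ hx.1)
    have hn : 0 < ‖x‖ := norm_pos_iff.2 hx0
    have hc := hcfpos x (hΩV hx)
    have hl := hint x hx.1 hx.2
    have hpw := plateau_pointwise hM hlam.le m (fun x => cf x ^ 2 / ‖x‖ ^ 2) x (by positivity)
    have hpe := prof_err_pointwise m (fun x => cf x * er x) x (her0 x hx)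
    refine le_trans ?_ (add_le_add hpw hpe)
    show cf x ^ 2 * ∑ i, pd (b i) η x ^ 2 - cf x * η x ^ 2 * lap b cf x
      ≤ cf x ^ 2 / ‖x‖ ^ 2 * (dprof ((m : ℝ) + 1) (Real.log ‖x‖) ^ 2
        - lam * prof ((m : ℝ) + 1) (Real.log ‖x‖) ^ 2)
        + prof ((m : ℝ) + 1) (Real.log ‖x‖) ^ 2 * (cf x * er x)
    rw [hηgrad x hx0, hηval x]
    have h1 : cf x * prof ((m : ℝ) + 1) (Real.log ‖x‖) ^ 2 * (lam / ‖x‖ ^ 2 * cf x - er x)
        ≤ cf x * prof ((m : ℝ) + 1) (Real.log ‖x‖) ^ 2 * lap b cf x :=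
      mul_le_mul_of_nonneg_left hl (mul_nonneg hc.le (sq_nonneg _))
    have h2 : cf x ^ 2 / ‖x‖ ^ 2 * (dprof ((m : ℝ) + 1) (Real.log ‖x‖) ^ 2
          - lam * prof ((m : ℝ) + 1) (Real.log ‖x‖) ^ 2)
          + prof ((m : ℝ) + 1) (Real.log ‖x‖) ^ 2 * (cf x * er x)
        = cf x ^ 2 * (dprof ((m : ℝ) + 1) (Real.log ‖x‖) ^ 2 / ‖x‖ ^ 2)
          - cf x * prof ((m : ℝ) + 1) (Real.log ‖x‖) ^ 2 * (lam / ‖x‖ ^ 2 * cf x - er x) := by
      field_simp
      ring
    rw [h2]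
    linarith
  rw [hsum]
  have hI1 : Integrable (fun x => plateauBound M lam m (fun x => cf x ^ 2 / ‖x‖ ^ 2) x)
      (volume.restrict {x ∈ U | 0 < u x}) := hPint
  have hI2 : Integrable (fun x => (Ann 0 1).indicator (fun x => cf x * er x) x
        + plateauBound 0 (-1) (m + 1) (fun x => cf x * er x) x)
      (volume.restrict {x ∈ U | 0 < u x}) := hRint.add hQint
  have hI3 : Integrable (fun x => (Ann 0 1).indicator (fun x => cf x * er x) x)
      (volume.restrict {x ∈ U | 0 < u x}) := hRint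
  have hI4 : Integrable (fun x => plateauBound 0 (-1) (m + 1) (fun x => cf x * er x) x)
      (volume.restrict {x ∈ U | 0 < u x}) := hQint
  rw [integral_add hI1 hI2, integral_add hI3 hI4, hPval, hQval, hRval] at hDle
  have hc : ((m + 1 : ℕ) : ℝ) = (m : ℝ) + 1 := by push_cast; ring
  rw [hc] at hDle
  have hm0 : (0 : ℝ) ≤ (m : ℝ) := Nat.cast_nonneg m
  have hE := mul_le_mul_of_nonneg_left hersmall (by linarith : (0 : ℝ) ≤ (m : ℝ) + 2)
  have hneg : (8 * M ^ 2 + 2 * lam - 3 * lam * m)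
      * ∫ x in {x ∈ U | 0 < u x} ∩ Ann 0 1, cf x ^ 2 / ‖x‖ ^ 2 < 0 :=
    mul_neg_of_neg_of_pos (by linarith) hA1
  nlinarith [hcore, hDle, hneg, hE]

end Vale.Agent.Lib.P098
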