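import Mathlib

/-!
Traces of powers of `a η ⊗ η + b P` where `P` is a symmetric idempotent matrix with `P η = 0`.
-/

namespace Vale.Agent.Lib.P098

open Finset

variable {n : Type*} [Fintype n]

/-- The matrix `M = a η ⊗ η + b P` and the traces of its square and of its cube. -/
private lemma w5_core (η : n → ℝ) (P : n → n → ℝ) (N m a b : ℝ)
    (hN : ∑ i, η i ^ 2 = N) (hsymm : ∀ i j, P i j = P j i)
    (hPη : ∀ i, ∑ j, P i j * η j = 0) (hPP : ∀ i l, ∑ j, P i j * P j l = P i l)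
    (htr : ∑ i, P i i = m) :
    ∃ M : Matrix n n ℝ, (∀ i j, M i j = a * (η i * η j) + b * P i j) ∧
      (M * M).trace = a ^ 2 * N ^ 2 + b ^ 2 * m ∧
      (M * M * M).trace = a ^ 3 * N ^ 3 + b ^ 3 * m := by
  obtain ⟨E, hE⟩ : ∃ E : Matrix n n ℝ, ∀ i j, E i j = η i * η j :=
    ⟨Matrix.of (fun i j => η i * η j), fun _ _ => rfl⟩
  obtain ⟨Q, hQ⟩ : ∃ Q : Matrix n n ℝ, ∀ i j, Q i j = P i j := ⟨Matrix.of P, fun _ _ => rfl⟩
  have hEE : E * E = N • E := by
    ext i l
    rw [Matrix.mul_apply, Matrix.smul_apply, smul_eq_mul, hE, ← hN, Finset.sum_mul]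
    refine Finset.sum_congr rfl (fun j _ => ?_)
    rw [hE, hE]
    ring
  have hEQ : E * Q = 0 := by
    ext i l
    rw [Matrix.mul_apply, Matrix.zero_apply]
    have h1 : ∑ j, E i j * Q j l = η i * ∑ j, P l j * η j := by
      rw [Finset.mul_sum]
      refine Finset.sum_congr rfl (fun j _ => ?_)
      rw [hE, hQ, hsymm j l]
      ring
    rw [h1, hPη, mul_zero]
  have hQE : Q * E = 0 := by
    ext i l
    rw [Matrix.mul_apply, Matrix.zero_apply]
    have h1 : ∑ j, Q i j * E j l = (∑ j, P i j * η j) * η l := by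
      rw [Finset.sum_mul]
      refine Finset.sum_congr rfl (fun j _ => ?_)
      rw [hE, hQ]
      ring
    rw [h1, hPη, zero_mul]
  have hQQ : Q * Q = Q := by
    ext i l
    rw [Matrix.mul_apply, hQ i l, ← hPP i l]
    refine Finset.sum_congr rfl (fun j _ => ?_)
    rw [hQ, hQ]
  have htE : E.trace = N := by
    rw [Matrix.trace, ← hN]
    refine Finset.sum_congr rfl (fun i _ => ?_)
    rw [Matrix.diag_apply, hE]
    ring
  have htQ : Q.trace = m := by
    rw [Matrix.trace, ← htr]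
    refine Finset.sum_congr rfl (fun i _ => ?_)
    rw [Matrix.diag_apply, hQ]
  have hMM : (a • E + b • Q) * (a • E + b • Q) = (a ^ 2 * N) • E + b ^ 2 • Q := by
    simp only [Matrix.add_mul, Matrix.mul_add, Matrix.smul_mul, Matrix.mul_smul, hEE, hEQ, hQE,
      hQQ]
    ext i j
    simp only [Matrix.add_apply, Matrix.smul_apply, smul_eq_mul, Matrix.zero_apply]
    ring
  have hMMM : (a • E + b • Q) * (a • E + b • Q) * (a • E + b • Q)
      = (a ^ 3 * N ^ 2) • E + b ^ 3 • Q := by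
    rw [hMM]
    simp only [Matrix.add_mul, Matrix.mul_add, Matrix.smul_mul, Matrix.mul_smul, hEE, hEQ, hQE,
      hQQ]
    ext i j
    simp only [Matrix.add_apply, Matrix.smul_apply, smul_eq_mul, Matrix.zero_apply]
    ring
  refine ⟨a • E + b • Q, ?_, ?_, ?_⟩
  · intro i j
    rw [Matrix.add_apply, Matrix.smul_apply, Matrix.smul_apply, smul_eq_mul, smul_eq_mul, hE, hQ]
  · rw [hMM, Matrix.trace_add, Matrix.trace_smul, Matrix.trace_smul, htE, htQ, smul_eq_mul,
      smul_eq_mul]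
    ring
  · rw [hMMM, Matrix.trace_add, Matrix.trace_smul, Matrix.trace_smul, htE, htQ, smul_eq_mul,
      smul_eq_mul]
    ring

theorem w5_alg_sq (η : n → ℝ) (P : n → n → ℝ) (N m a b : ℝ)
    (hN : ∑ i, η i ^ 2 = N) (hsymm : ∀ i j, P i j = P j i)
    (hPη : ∀ i, ∑ j, P i j * η j = 0) (hPP : ∀ i l, ∑ j, P i j * P j l = P i l)
    (htr : ∑ i, P i i = m) :
    ∑ i, ∑ j, (a * (η i * η j) + b * P i j) ^ 2 = a ^ 2 * N ^ 2 + b ^ 2 * m := by
  obtain ⟨M, hM, h2, _⟩ := w5_core η P N m a b hN hsymm hPη hPP htr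
  rw [← h2, Matrix.trace]
  refine Finset.sum_congr rfl (fun i _ => ?_)
  rw [Matrix.diag_apply, Matrix.mul_apply]
  refine Finset.sum_congr rfl (fun j _ => ?_)
  rw [hM i j, hM j i, hsymm j i]
  ring

theorem w5_alg_cube (η : n → ℝ) (P : n → n → ℝ) (N m a b : ℝ)
    (hN : ∑ i, η i ^ 2 = N) (hsymm : ∀ i j, P i j = P j i)
    (hPη : ∀ i, ∑ j, P i j * η j = 0) (hPP : ∀ i l, ∑ j, P i j * P j l = P i l)
    (htr : ∑ i, P i i = m) :
    ∑ i, ∑ j, ∑ l, (a * (η i * η j) + b * P i j) * (a * (η j * η l) + b * P j l)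
        * (a * (η l * η i) + b * P l i)
      = a ^ 3 * N ^ 3 + b ^ 3 * m := by
  obtain ⟨M, hM, _, h3⟩ := w5_core η P N m a b hN hsymm hPη hPP htr
  rw [← h3, Matrix.trace]
  refine Finset.sum_congr rfl (fun i _ => ?_)
  rw [Matrix.diag_apply, Matrix.mul_apply, Finset.sum_comm]
  refine Finset.sum_congr rfl (fun l _ => ?_)
  rw [Matrix.mul_apply, Finset.sum_mul]
  refine Finset.sum_congr rfl (fun j _ => ?_)
  rw [hM i j, hM j l, hM l i]

theorem w5_alg_quad (η : n → ℝ) (P : n → n → ℝ) (N a b g : ℝ)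
    (hN : ∑ i, η i ^ 2 = N) (hPη : ∀ i, ∑ j, P i j * η j = 0) :
    ∑ i, ∑ j, (g * η i) * (g * η j) * (a * (η i * η j) + b * P i j) = a * g ^ 2 * N ^ 2 := by
  have h1 : ∀ i, ∑ j, (g * η i) * (g * η j) * (a * (η i * η j) + b * P i j)
      = a * g ^ 2 * N * η i ^ 2 := by
    intro i
    have e : ∀ j, (g * η i) * (g * η j) * (a * (η i * η j) + b * P i j)
        = a * g ^ 2 * η i ^ 2 * η j ^ 2 + b * g ^ 2 * η i * (P i j * η j) := by
      intro j
      ring
    rw [Finset.sum_congr rfl (fun j _ => e j), Finset.sum_add_distrib, ← Finset.mul_sum,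
      ← Finset.mul_sum, hN, hPη]
    ring
  rw [Finset.sum_congr rfl (fun i _ => h1 i), ← Finset.mul_sum, hN]
  ring

end Vale.Agent.Lib.P098
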