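import Vale.Agent.Lib.P098.InteriorMain

/-!
Calculus for rotationally symmetric one-homogeneous functions `c |x'| g(x₄ / |x'|)` on
`ℝ^5 = ℝ^4 × ℝ`, away from the axis `x' = 0`: first and second directional derivatives for a
general profile `g`.
-/

namespace Vale.Agent.Lib.P098

open Finset
open scoped Topology InnerProductSpace

/-- `x₀² + x₁² + x₂² + x₃²`. -/
noncomputable def w5S (x : EuclideanSpace ℝ (Fin 5)) : ℝ :=
  x 0 ^ 2 + x 1 ^ 2 + x 2 ^ 2 + x 3 ^ 2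

/-- The open cone `{x₀² + x₁² + x₂² + x₃² > 0}` (the complement of the axis). -/
def w5U : Set (EuclideanSpace ℝ (Fin 5)) := {x | 0 < w5S x}

/-- `|x'| = √(x₀² + x₁² + x₂² + x₃²)`. -/
noncomputable def w5s (x : EuclideanSpace ℝ (Fin 5)) : ℝ := Real.sqrt (w5S x)

/-- `y₀ v₀ + y₁ v₁ + y₂ v₂ + y₃ v₃`. -/
noncomputable def w5L (v y : EuclideanSpace ℝ (Fin 5)) : ℝ :=
  y 0 * v 0 + y 1 * v 1 + y 2 * v 2 + y 3 * v 3

/-- `v₀ w₀ + v₁ w₁ + v₂ w₂ + v₃ w₃`. -/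
noncomputable def w5D (v w : EuclideanSpace ℝ (Fin 5)) : ℝ :=
  v 0 * w 0 + v 1 * w 1 + v 2 * w 2 + v 3 * w 3

/-- The rotationally symmetric one-homogeneous function `c |x'| g(x₄ / |x'|)`. -/
noncomputable def w5u (g : ℝ → ℝ) (c : ℝ) (x : EuclideanSpace ℝ (Fin 5)) : ℝ :=
  c * (w5s x * g (x 4 * (w5s x)⁻¹))

theorem w5U_open : IsOpen w5U := by
  have hc : Continuous w5S := by
    unfold w5S
    fun_prop
  exact isOpen_lt continuous_const hc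

theorem w5U_zero : (0 : EuclideanSpace ℝ (Fin 5)) ∉ w5U := by
  simp [w5U, w5S]

theorem w5S_smul (t : ℝ) (x : EuclideanSpace ℝ (Fin 5)) : w5S (t • x) = t ^ 2 * w5S x := by
  simp [w5S]
  ring

theorem w5U_cone : ∀ x ∈ w5U, ∀ t : ℝ, 0 < t → t • x ∈ w5U := by
  intro x hx t ht
  have hx' : 0 < w5S x := hx
  show 0 < w5S (t • x)
  rw [w5S_smul]
  positivity

theorem w5s_pos {x : EuclideanSpace ℝ (Fin 5)} (hx : x ∈ w5U) : 0 < w5s x :=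
  Real.sqrt_pos.2 hx

theorem w5s_sq {x : EuclideanSpace ℝ (Fin 5)} (hx : x ∈ w5U) : w5s x ^ 2 = w5S x :=
  Real.sq_sqrt (le_of_lt hx)

theorem w5u_hom (g : ℝ → ℝ) (c : ℝ) :
    ∀ x ∈ w5U, ∀ t : ℝ, 0 < t → w5u g c (t • x) = t * w5u g c x := by
  intro x hx t ht
  have e2 : w5s (t • x) = t * w5s x := by
    unfold w5s
    rw [w5S_smul, Real.sqrt_mul (sq_nonneg t), Real.sqrt_sq ht.le]
  have hs := w5s_pos hx
  have e3 : (t • x) 4 * (w5s (t • x))⁻¹ = x 4 * (w5s x)⁻¹ := by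
    rw [e2]
    simp
    field_simp
  unfold w5u
  rw [e3, e2]
  ring

theorem w5u_contDiffOn {g : ℝ → ℝ} (hg : ContDiff ℝ 4 g) (c : ℝ) :
    ContDiffOn ℝ 4 (w5u g c) w5U := by
  have hS : ContDiff ℝ 4 w5S := by
    unfold w5S
    fun_prop
  have hs : ContDiffOn ℝ 4 w5s w5U := hS.contDiffOn.sqrt (fun x hx => ne_of_gt hx)
  have hi : ContDiffOn ℝ 4 (fun x => (w5s x)⁻¹) w5U :=
    hs.inv (fun x hx => ne_of_gt (w5s_pos hx))
  have hz : ContDiff ℝ 4 (fun x : EuclideanSpace ℝ (Fin 5) => x 4) := by fun_prop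
  have hτ : ContDiffOn ℝ 4 (fun x => x 4 * (w5s x)⁻¹) w5U := hz.contDiffOn.mul hi
  have hgτ : ContDiffOn ℝ 4 (fun x => g (x 4 * (w5s x)⁻¹)) w5U := hg.comp_contDiffOn hτ
  exact contDiffOn_const.mul (hs.mul hgτ)

/-- The coordinate functional `x ↦ x i`. -/
noncomputable def w5P (i : Fin 5) : EuclideanSpace ℝ (Fin 5) →L[ℝ] ℝ := EuclideanSpace.proj i

@[simp] theorem w5P_apply (i : Fin 5) (v : EuclideanSpace ℝ (Fin 5)) : w5P i v = v i := rfl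

/-- The functional `v ↦ y₀ v₀ + y₁ v₁ + y₂ v₂ + y₃ v₃`. -/
noncomputable def w5A (y : EuclideanSpace ℝ (Fin 5)) : EuclideanSpace ℝ (Fin 5) →L[ℝ] ℝ :=
  y 0 • w5P 0 + y 1 • w5P 1 + y 2 • w5P 2 + y 3 • w5P 3

@[simp] theorem w5A_apply (y v : EuclideanSpace ℝ (Fin 5)) :
    w5A y v = y 0 * v 0 + y 1 * v 1 + y 2 * v 2 + y 3 * v 3 := by
  simp [w5A]

theorem w5_hasFDerivAt_crd (i : Fin 5) (y : EuclideanSpace ℝ (Fin 5)) :
    HasFDerivAt (fun x : EuclideanSpace ℝ (Fin 5) => x i) (w5P i) y :=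
  (w5P i).hasFDerivAt

theorem w5_hasFDerivAt_S (y : EuclideanSpace ℝ (Fin 5)) :
    HasFDerivAt w5S ((2 : ℝ) • w5A y) y := by
  have h0 := (w5_hasFDerivAt_crd 0 y).pow 2
  have h1 := (w5_hasFDerivAt_crd 1 y).pow 2
  have h2 := (w5_hasFDerivAt_crd 2 y).pow 2
  have h3 := (w5_hasFDerivAt_crd 3 y).pow 2
  have h := ((h0.add h1).add h2).add h3
  refine h.congr_fderiv ?_
  ext v
  simp
  ring

theorem w5_hasFDerivAt_s {y : EuclideanSpace ℝ (Fin 5)} (hy : y ∈ w5U) :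
    HasFDerivAt w5s ((w5s y)⁻¹ • w5A y) y := by
  have hS : w5S y ≠ 0 := ne_of_gt hy
  have h := (Real.hasDerivAt_sqrt hS).comp_hasFDerivAt y (w5_hasFDerivAt_S y)
  refine h.congr_fderiv ?_
  ext v
  have hs := w5s_pos hy
  simp [w5s]
  field_simp

theorem w5_hasFDerivAt_sinv {y : EuclideanSpace ℝ (Fin 5)} (hy : y ∈ w5U) :
    HasFDerivAt (fun x => (w5s x)⁻¹) (-((w5s y)⁻¹ ^ 3) • w5A y) y := by
  have h := (hasDerivAt_inv (ne_of_gt (w5s_pos hy))).comp_hasFDerivAt y (w5_hasFDerivAt_s hy)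
  refine h.congr_fderiv ?_
  ext v
  simp
  ring

theorem w5_hasFDerivAt_L (v y : EuclideanSpace ℝ (Fin 5)) :
    HasFDerivAt (w5L v) (w5A v) y := by
  have h0 := (w5_hasFDerivAt_crd 0 y).mul_const (v 0)
  have h1 := (w5_hasFDerivAt_crd 1 y).mul_const (v 1)
  have h2 := (w5_hasFDerivAt_crd 2 y).mul_const (v 2)
  have h3 := (w5_hasFDerivAt_crd 3 y).mul_const (v 3)
  exact ((h0.add h1).add h2).add h3

/-- The derivative of the ratio `x₄ / |x'|`. -/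
theorem w5_hasFDerivAt_τ {y : EuclideanSpace ℝ (Fin 5)} (hy : y ∈ w5U) :
    HasFDerivAt (fun x : EuclideanSpace ℝ (Fin 5) => x 4 * (w5s x)⁻¹)
      (y 4 • (-((w5s y)⁻¹ ^ 3) • w5A y) + (w5s y)⁻¹ • w5P 4) y :=
  (w5_hasFDerivAt_crd 4 y).mul (w5_hasFDerivAt_sinv hy)

/-- First directional derivatives. -/
theorem w5u_pd {g g1 : ℝ → ℝ} (hg : ∀ τ, HasDerivAt g (g1 τ) τ) (c : ℝ)
    {y : EuclideanSpace ℝ (Fin 5)} (hy : y ∈ w5U) (v : EuclideanSpace ℝ (Fin 5)) :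
    pd v (w5u g c) y
      = c * ((g (y 4 * (w5s y)⁻¹) - y 4 * (w5s y)⁻¹ * g1 (y 4 * (w5s y)⁻¹))
          * (w5L v y * (w5s y)⁻¹) + g1 (y 4 * (w5s y)⁻¹) * v 4) := by
  have hs := w5s_pos hy
  have hτ := w5_hasFDerivAt_τ hy
  have hgτ := (hg (y 4 * (w5s y)⁻¹)).comp_hasFDerivAt y hτ
  have h : HasFDerivAt (w5u g c) _ y := ((w5_hasFDerivAt_s hy).mul hgτ).const_mul c
  simp only [pd, h.fderiv]
  simp [w5L]
  field_simp
  ring

/-- Second (mixed) directional derivatives. -/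
theorem w5u_pd2 {g g1 g2 : ℝ → ℝ} (hg : ∀ τ, HasDerivAt g (g1 τ) τ)
    (hg1 : ∀ τ, HasDerivAt g1 (g2 τ) τ) (c : ℝ)
    {y : EuclideanSpace ℝ (Fin 5)} (hy : y ∈ w5U) (v w : EuclideanSpace ℝ (Fin 5)) :
    pd w (pd v (w5u g c)) y
      = c * (w5s y)⁻¹ * (g2 (y 4 * (w5s y)⁻¹)
            * (v 4 - y 4 * (w5s y)⁻¹ * (w5L v y * (w5s y)⁻¹))
            * (w 4 - y 4 * (w5s y)⁻¹ * (w5L w y * (w5s y)⁻¹))
          + (g (y 4 * (w5s y)⁻¹) - y 4 * (w5s y)⁻¹ * g1 (y 4 * (w5s y)⁻¹))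
            * (w5D v w - (w5L v y * (w5s y)⁻¹) * (w5L w y * (w5s y)⁻¹))) := by
  have e : Set.EqOn (pd v (w5u g c))
      (fun x => c * ((g (x 4 * (w5s x)⁻¹) - x 4 * (w5s x)⁻¹ * g1 (x 4 * (w5s x)⁻¹))
          * (w5L v x * (w5s x)⁻¹) + g1 (x 4 * (w5s x)⁻¹) * v 4)) w5U :=
    fun x hx => w5u_pd hg c hx v
  rw [pd_congr w5U_open e w hy]
  have hs := w5s_pos hy
  have hτ := w5_hasFDerivAt_τ hy
  have hgτ := (hg (y 4 * (w5s y)⁻¹)).comp_hasFDerivAt y hτ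
  have hg1τ := (hg1 (y 4 * (w5s y)⁻¹)).comp_hasFDerivAt y hτ
  have hL := w5_hasFDerivAt_L v y
  have hsi := w5_hasFDerivAt_sinv hy
  have hA := hgτ.sub (hτ.mul hg1τ)
  have hB := hL.mul hsi
  have hC := hg1τ.mul_const (v 4)
  have h : HasFDerivAt
      (fun x => c * ((g (x 4 * (w5s x)⁻¹) - x 4 * (w5s x)⁻¹ * g1 (x 4 * (w5s x)⁻¹))
          * (w5L v x * (w5s x)⁻¹) + g1 (x 4 * (w5s x)⁻¹) * v 4)) _ y :=
    ((hA.mul hB).add hC).const_mul c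
  simp only [pd, h.fderiv]
  simp [w5L, w5D]
  field_simp
  ring

end Vale.Agent.Lib.P098
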