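import Vale.Agent.Lib.P098.W5Prof
import Vale.Agent.Lib.P098.W5Alg
import Vale.Agent.Lib.P098.W5Calc
import Vale.Agent.Lib.P098.Unstable

/-!
An explicit classical one-homogeneous solution of the one-phase problem in `ℝ^5`: the
rotationally symmetric cone `u = c |x'| G(x₄ / |x'|)` on `{x' ≠ 0}`, where
`G(τ) = √(1 + τ²) (1 - τ²/2) - (3/2) τ arsinh τ`.  Its free boundary is umbilic in the link
directions, and the pinching inequality of the instability theorem holds with `p = 3/4`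
(with equality).
-/

namespace Vale.Agent.Lib.P098

open Finset
open scoped Topology InnerProductSpace

/-! ### Algebra of `δ - ξ ⊗ ξ` and `ε - τ ξ` -/

theorem w5_proj_alg {n : Type*} [Fintype n] (D : n → n → ℝ) (ξ ε : n → ℝ) (τ d : ℝ)
    (hD : ∀ i j, D i j = D j i) (hDD : ∀ i l, ∑ j, D i j * D j l = D i l)
    (hDξ : ∀ i, ∑ j, D i j * ξ j = ξ i) (hDε : ∀ i, ∑ j, D i j * ε j = 0)
    (hξ : ∑ i, ξ i ^ 2 = 1) (hε : ∑ i, ε i ^ 2 = 1) (hεξ : ∑ i, ε i * ξ i = 0)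
    (hDtr : ∑ i, D i i = d) :
    (∑ i, (ε i - τ * ξ i) ^ 2 = 1 + τ ^ 2) ∧
    (∀ i j, D i j - ξ i * ξ j = D j i - ξ j * ξ i) ∧
    (∀ i, ∑ j, (D i j - ξ i * ξ j) * (ε j - τ * ξ j) = 0) ∧
    (∀ i l, ∑ j, (D i j - ξ i * ξ j) * (D j l - ξ j * ξ l) = D i l - ξ i * ξ l) ∧
    (∑ i, (D i i - ξ i * ξ i) = d - 1) := by
  have hξ' : ∑ i, ξ i * ξ i = 1 := by
    rw [← hξ]
    exact Finset.sum_congr rfl fun i _ => by ring
  have hξD : ∀ l, ∑ j, ξ j * D j l = ξ l := by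
    intro l
    rw [← hDξ l]
    exact Finset.sum_congr rfl fun j _ => by rw [hD l j]; ring
  refine ⟨?_, ?_, ?_, ?_, ?_⟩
  · have e : ∀ i, (ε i - τ * ξ i) ^ 2 = ε i ^ 2 - 2 * τ * (ε i * ξ i) + τ ^ 2 * ξ i ^ 2 :=
      fun i => by ring
    simp only [e, Finset.sum_add_distrib, Finset.sum_sub_distrib, ← Finset.mul_sum]
    rw [hε, hεξ, hξ]
    ring
  · intro i j
    rw [hD i j]
    ring
  · intro i
    have e : ∀ j, (D i j - ξ i * ξ j) * (ε j - τ * ξ j)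
        = D i j * ε j - τ * (D i j * ξ j) - ξ i * (ε j * ξ j) + τ * ξ i * (ξ j * ξ j) :=
      fun j => by ring
    simp only [e, Finset.sum_add_distrib, Finset.sum_sub_distrib, ← Finset.mul_sum]
    rw [hDε i, hDξ i, hεξ, hξ']
    ring
  · intro i l
    have e : ∀ j, (D i j - ξ i * ξ j) * (D j l - ξ j * ξ l)
        = D i j * D j l - (D i j * ξ j) * ξ l - ξ i * (ξ j * D j l) + ξ i * ξ l * (ξ j * ξ j) :=
      fun j => by ring
    simp only [e, Finset.sum_add_distrib, Finset.sum_sub_distrib, ← Finset.mul_sum,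
      ← Finset.sum_mul]
    rw [hDD i l, hDξ i, hξD l, hξ']
    ring
  · rw [Finset.sum_sub_distrib, hDtr, hξ']

/-! ### Coordinates -/

/-- `(e_i · x') / |x'|`. -/
noncomputable def w5ξ (y : EuclideanSpace ℝ (Fin 5)) (i : Fin 5) : ℝ :=
  w5L (EuclideanSpace.single i 1) y * (w5s y)⁻¹

/-- The last coordinate of `e_i`. -/
noncomputable def w5ε (i : Fin 5) : ℝ :=
  (EuclideanSpace.single i (1 : ℝ) : EuclideanSpace ℝ (Fin 5)) 4

/-- The Kronecker delta on the first four coordinates. -/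
noncomputable def w5δ (i j : Fin 5) : ℝ :=
  w5D (EuclideanSpace.single i 1) (EuclideanSpace.single j 1)

theorem w5_coords {y : EuclideanSpace ℝ (Fin 5)} (hy : y ∈ w5U) (τ : ℝ) :
    (∑ i, (w5ε i - τ * w5ξ y i) ^ 2 = 1 + τ ^ 2) ∧
    (∀ i j, w5δ i j - w5ξ y i * w5ξ y j = w5δ j i - w5ξ y j * w5ξ y i) ∧
    (∀ i, ∑ j, (w5δ i j - w5ξ y i * w5ξ y j) * (w5ε j - τ * w5ξ y j) = 0) ∧
    (∀ i l, ∑ j, (w5δ i j - w5ξ y i * w5ξ y j) * (w5δ j l - w5ξ y j * w5ξ y l)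
      = w5δ i l - w5ξ y i * w5ξ y l) ∧
    (∑ i, (w5δ i i - w5ξ y i * w5ξ y i) = 4 - 1) := by
  have hs := w5s_pos hy
  have hS : y 0 ^ 2 + y 1 ^ 2 + y 2 ^ 2 + y 3 ^ 2 = w5s y ^ 2 := (w5s_sq hy).symm
  refine w5_proj_alg w5δ (w5ξ y) w5ε τ 4 ?_ ?_ ?_ ?_ ?_ ?_ ?_ ?_
  · intro i j
    unfold w5δ w5D
    ring
  · intro i l
    fin_cases i <;> fin_cases l <;> simp [w5δ, w5D]
  · intro i
    fin_cases i <;> simp [w5δ, w5D, w5ξ, w5L]
  · intro i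
    fin_cases i <;> simp [w5δ, w5D, w5ε]
  · simp only [w5ξ, w5L, Fin.sum_univ_five]
    simp
    field_simp
    linarith
  · simp [w5ε]
  · simp [w5ε, w5ξ, w5L]
  · simp [w5δ, w5D, Fin.sum_univ_five]
    norm_num

/-! ### Derivatives of the cone function in coordinates -/

theorem w5_pd1 (c : ℝ) {y : EuclideanSpace ℝ (Fin 5)} (hy : y ∈ w5U) (i : Fin 5) :
    pd (EuclideanSpace.single i 1) (w5u w5G c) y
      = c * ((w5G (y 4 * (w5s y)⁻¹) - y 4 * (w5s y)⁻¹ * w5G1 (y 4 * (w5s y)⁻¹)) * w5ξ y i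
          + w5G1 (y 4 * (w5s y)⁻¹) * w5ε i) := by
  rw [w5u_pd w5G_hasDerivAt c hy]
  rfl

theorem w5_pd2 (c : ℝ) {y : EuclideanSpace ℝ (Fin 5)} (hy : y ∈ w5U) (i j : Fin 5) :
    pd (EuclideanSpace.single i 1) (pd (EuclideanSpace.single j 1) (w5u w5G c)) y
      = c * (w5s y)⁻¹ * w5G2 (y 4 * (w5s y)⁻¹)
          * ((w5ε i - y 4 * (w5s y)⁻¹ * w5ξ y i) * (w5ε j - y 4 * (w5s y)⁻¹ * w5ξ y j))
        + c * (w5s y)⁻¹
          * (w5G (y 4 * (w5s y)⁻¹) - y 4 * (w5s y)⁻¹ * w5G1 (y 4 * (w5s y)⁻¹))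
          * (w5δ i j - w5ξ y i * w5ξ y j) := by
  rw [w5u_pd2 w5G_hasDerivAt w5G1_hasDerivAt c hy]
  simp only [w5ξ, w5ε, w5δ, w5D]
  ring

theorem w5_contDiffOn (c : ℝ) : ContDiffOn ℝ 4 (w5u w5G c) w5U :=
  w5u_contDiffOn w5G_contDiff c

theorem w5_hess (c : ℝ) {y : EuclideanSpace ℝ (Fin 5)} (hy : y ∈ w5U) (i j : Fin 5) :
    fderiv ℝ (fderiv ℝ (w5u w5G c)) y (EuclideanSpace.single i 1) (EuclideanSpace.single j 1)
      = c * (w5s y)⁻¹ * w5G2 (y 4 * (w5s y)⁻¹)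
          * ((w5ε i - y 4 * (w5s y)⁻¹ * w5ξ y i) * (w5ε j - y 4 * (w5s y)⁻¹ * w5ξ y j))
        + c * (w5s y)⁻¹
          * (w5G (y 4 * (w5s y)⁻¹) - y 4 * (w5s y)⁻¹ * w5G1 (y 4 * (w5s y)⁻¹))
          * (w5δ i j - w5ξ y i * w5ξ y j) := by
  rw [D2_eq w5U_open ((w5_contDiffOn c).of_le (by norm_num)) hy, w5_pd2 c hy]

/-- The cone function is harmonic away from the axis. -/
theorem w5_laplacian (c : ℝ) {y : EuclideanSpace ℝ (Fin 5)} (hy : y ∈ w5U) :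
    Laplacian.laplacian (w5u w5G c) y = 0 := by
  rw [laplacian_eq_lap (EuclideanSpace.basisFun (Fin 5) ℝ) w5U_open
    ((w5_contDiffOn c).of_le (by norm_num)) hy]
  obtain ⟨h1, -, -, -, h5⟩ := w5_coords hy (y 4 * (w5s y)⁻¹)
  simp only [lap, EuclideanSpace.basisFun_apply, w5_pd2 c hy]
  have e : ∀ i : Fin 5, (w5ε i - y 4 * (w5s y)⁻¹ * w5ξ y i)
      * (w5ε i - y 4 * (w5s y)⁻¹ * w5ξ y i) = (w5ε i - y 4 * (w5s y)⁻¹ * w5ξ y i) ^ 2 :=
    fun i => by ring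
  simp only [e]
  rw [Finset.sum_add_distrib, ← Finset.mul_sum, ← Finset.mul_sum, h1, h5]
  have hode := w5_ode (y 4 * (w5s y)⁻¹)
  linear_combination c * (w5s y)⁻¹ * hode

/-! ### The zero set and the gradient on it -/

theorem w5_zero_iff {c : ℝ} (hc : 0 < c) {y : EuclideanSpace ℝ (Fin 5)} (hy : y ∈ w5U) :
    w5u w5G c y = 0 ↔ w5G (y 4 * (w5s y)⁻¹) = 0 := by
  have hs := w5s_pos hy
  unfold w5u
  constructor
  · intro h
    rcases mul_eq_zero.1 h with h | h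
    · exact absurd h hc.ne'
    · rcases mul_eq_zero.1 h with h | h
      · exact absurd h hs.ne'
      · exact h
  · intro h
    rw [h]
    ring

theorem w5_pos_iff {c : ℝ} (hc : 0 < c) {y : EuclideanSpace ℝ (Fin 5)} (hy : y ∈ w5U) :
    0 < w5u w5G c y ↔ 0 < w5G (y 4 * (w5s y)⁻¹) := by
  have hs := w5s_pos hy
  unfold w5u
  constructor
  · intro h
    by_contra hcon
    have h1 : w5G (y 4 * (w5s y)⁻¹) ≤ 0 := not_lt.1 hcon
    have h2 : c * (w5s y * w5G (y 4 * (w5s y)⁻¹)) ≤ 0 :=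
      mul_nonpos_of_nonneg_of_nonpos hc.le (mul_nonpos_of_nonneg_of_nonpos hs.le h1)
    linarith
  · intro h
    positivity

theorem w5_gradSq {c : ℝ} {y : EuclideanSpace ℝ (Fin 5)} (hy : y ∈ w5U)
    (h0 : w5G (y 4 * (w5s y)⁻¹) = 0) :
    ‖gradient (w5u w5G c) y‖ ^ 2
      = c ^ 2 * w5G1 (y 4 * (w5s y)⁻¹) ^ 2 * (1 + (y 4 * (w5s y)⁻¹) ^ 2) := by
  obtain ⟨h1, -, -, -, -⟩ := w5_coords hy (y 4 * (w5s y)⁻¹)
  rw [norm_gradient_sq (EuclideanSpace.basisFun (Fin 5) ℝ)]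
  simp only [EuclideanSpace.basisFun_apply, w5_pd1 c hy, h0]
  have e : ∀ i : Fin 5, (c * ((0 - y 4 * (w5s y)⁻¹ * w5G1 (y 4 * (w5s y)⁻¹)) * w5ξ y i
      + w5G1 (y 4 * (w5s y)⁻¹) * w5ε i)) ^ 2
      = c ^ 2 * w5G1 (y 4 * (w5s y)⁻¹) ^ 2 * (w5ε i - y 4 * (w5s y)⁻¹ * w5ξ y i) ^ 2 :=
    fun i => by ring
  simp only [e]
  rw [← Finset.mul_sum, h1]

/-! ### The closed positive phase -/

theorem w5s_continuous : Continuous w5s := by
  unfold w5s w5S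
  fun_prop

theorem w5_closure {c τ0 : ℝ} (hc : 0 < c)
    (hpos : ∀ τ : ℝ, 0 < w5G τ ↔ |τ| < τ0) :
    closure {x ∈ w5U | 0 < w5u w5G c x} ⊆ insert 0 w5U := by
  have hcl : IsClosed {x : EuclideanSpace ℝ (Fin 5) | |x 4| ≤ τ0 * w5s x} := by
    have hc4 : Continuous (fun x : EuclideanSpace ℝ (Fin 5) => |x 4|) := by fun_prop
    exact isClosed_le hc4 (continuous_const.mul w5s_continuous)
  have hsub : {x ∈ w5U | 0 < w5u w5G c x}
      ⊆ {x : EuclideanSpace ℝ (Fin 5) | |x 4| ≤ τ0 * w5s x} := by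
    intro x hx
    have hs := w5s_pos hx.1
    have h1 := (hpos _).1 ((w5_pos_iff hc hx.1).1 hx.2)
    rw [abs_mul, abs_inv, abs_of_pos hs] at h1
    have h2 := mul_lt_mul_of_pos_right h1 hs
    rw [mul_assoc, inv_mul_cancel₀ hs.ne', mul_one] at h2
    exact h2.le
  intro x hx
  have hx' : |x 4| ≤ τ0 * w5s x := (closure_minimal hsub hcl) hx
  by_cases h : 0 < w5S x
  · exact Or.inr h
  · left
    have hS : w5S x = 0 := le_antisymm (not_lt.1 h) (by unfold w5S; positivity)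
    have hs0 : w5s x = 0 := by
      unfold w5s
      rw [hS, Real.sqrt_zero]
    rw [hs0, mul_zero] at hx'
    have h4 : x 4 = 0 := abs_eq_zero.1 (le_antisymm hx' (abs_nonneg _))
    unfold w5S at hS
    have h0 : x 0 = 0 := by
      have : x 0 ^ 2 = 0 := le_antisymm
        (by linarith [sq_nonneg (x 1), sq_nonneg (x 2), sq_nonneg (x 3)]) (sq_nonneg _)
      exact (pow_eq_zero_iff two_ne_zero).1 this
    have h1 : x 1 = 0 := by
      have : x 1 ^ 2 = 0 := le_antisymm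
        (by linarith [sq_nonneg (x 0), sq_nonneg (x 2), sq_nonneg (x 3)]) (sq_nonneg _)
      exact (pow_eq_zero_iff two_ne_zero).1 this
    have h2 : x 2 = 0 := by
      have : x 2 ^ 2 = 0 := le_antisymm
        (by linarith [sq_nonneg (x 0), sq_nonneg (x 1), sq_nonneg (x 3)]) (sq_nonneg _)
      exact (pow_eq_zero_iff two_ne_zero).1 this
    have h3 : x 3 = 0 := by
      have : x 3 ^ 2 = 0 := le_antisymm
        (by linarith [sq_nonneg (x 0), sq_nonneg (x 1), sq_nonneg (x 2)]) (sq_nonneg _)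
      exact (pow_eq_zero_iff two_ne_zero).1 this
    ext i
    fin_cases i <;> simp [h0, h1, h2, h3, h4]

/-! ### Special points -/

/-- The point `(1, 0, 0, 0, z)`. -/
noncomputable def w5pt (z : ℝ) : EuclideanSpace ℝ (Fin 5) :=
  EuclideanSpace.single 0 1 + z • EuclideanSpace.single 4 1

theorem w5pt_mem (z : ℝ) : w5pt z ∈ w5U := by
  show 0 < w5S (w5pt z)
  simp [w5S, w5pt]

theorem w5s_w5pt (z : ℝ) : w5s (w5pt z) = 1 := by
  simp [w5s, w5S, w5pt]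

theorem w5pt_four (z : ℝ) : (w5pt z) 4 = z := by
  simp [w5pt]

theorem w5u_w5pt (c z : ℝ) : w5u w5G c (w5pt z) = c * w5G z := by
  unfold w5u
  rw [w5s_w5pt, w5pt_four]
  simp

/-- The Hessian of the cone function does not vanish at the point `(1, 0, 0, 0, 0)`. -/
theorem w5_hess_ne {c : ℝ} (hc : 0 < c) :
    ∑ i, ∑ j, fderiv ℝ (fderiv ℝ (w5u w5G c)) (w5pt 0) (EuclideanSpace.single i 1)
      (EuclideanSpace.single j 1) ^ 2 ≠ 0 := by
  have hy := w5pt_mem 0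
  have hterm : fderiv ℝ (fderiv ℝ (w5u w5G c)) (w5pt 0) (EuclideanSpace.single 4 1)
      (EuclideanSpace.single 4 1) = -3 * c := by
    rw [w5_hess c hy, w5s_w5pt, w5pt_four]
    simp [w5ε, w5ξ, w5δ, w5L, w5D, w5G2_zero, w5G_zero, w5G1_zero]
    ring
  have hpos : 0 < ∑ i, ∑ j, fderiv ℝ (fderiv ℝ (w5u w5G c)) (w5pt 0)
      (EuclideanSpace.single i 1) (EuclideanSpace.single j 1) ^ 2 := by
    have h1 : ∀ i ∈ (Finset.univ : Finset (Fin 5)), 0 ≤ ∑ j, fderiv ℝ (fderiv ℝ (w5u w5G c))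
        (w5pt 0) (EuclideanSpace.single i 1) (EuclideanSpace.single j 1) ^ 2 :=
      fun i _ => Finset.sum_nonneg fun j _ => sq_nonneg _
    have h3 : 0 < ∑ j, fderiv ℝ (fderiv ℝ (w5u w5G c)) (w5pt 0)
        (EuclideanSpace.single 4 1) (EuclideanSpace.single j 1) ^ 2 := by
      refine lt_of_lt_of_le ?_ (Finset.single_le_sum (fun j _ => sq_nonneg _)
        (Finset.mem_univ (4 : Fin 5)))
      rw [hterm]
      positivity
    exact lt_of_lt_of_le h3 (Finset.single_le_sum h1 (Finset.mem_univ (4 : Fin 5)))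
  exact ne_of_gt hpos

/-! ### The pinching on the free boundary -/

theorem w5_pinch {c : ℝ} {y : EuclideanSpace ℝ (Fin 5)} (hy : y ∈ w5U)
    (h0 : w5G (y 4 * (w5s y)⁻¹) = 0)
    (hnorm : c ^ 2 * w5G1 (y 4 * (w5s y)⁻¹) ^ 2 * (1 + (y 4 * (w5s y)⁻¹) ^ 2) = 1) :
    3 / 4 * ∑ i, ∑ j, ∑ l, fderiv ℝ (fderiv ℝ (w5u w5G c)) y (EuclideanSpace.single i 1)
          (EuclideanSpace.single j 1)
        * fderiv ℝ (fderiv ℝ (w5u w5G c)) y (EuclideanSpace.single j 1)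
          (EuclideanSpace.single l 1)
        * fderiv ℝ (fderiv ℝ (w5u w5G c)) y (EuclideanSpace.single l 1)
          (EuclideanSpace.single i 1)
      ≤ (1 - 2 * (3 / 4))
          * (-(fderiv ℝ (fderiv ℝ (w5u w5G c)) y (gradient (w5u w5G c) y)
            (gradient (w5u w5G c) y)))
          * ∑ i, ∑ j, fderiv ℝ (fderiv ℝ (w5u w5G c)) y (EuclideanSpace.single i 1)
            (EuclideanSpace.single j 1) ^ 2 := by
  obtain ⟨τ, hτ⟩ : ∃ τ : ℝ, τ = y 4 * (w5s y)⁻¹ := ⟨_, rfl⟩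
  rw [← hτ] at h0 hnorm
  obtain ⟨h1, h2, h3, h4, h5⟩ := w5_coords hy τ
  obtain ⟨a, ha⟩ : ∃ a : ℝ, a = c * (w5s y)⁻¹ * w5G2 τ := ⟨_, rfl⟩
  obtain ⟨b, hb⟩ : ∃ b : ℝ, b = c * (w5s y)⁻¹ * (w5G τ - τ * w5G1 τ) := ⟨_, rfl⟩
  have hH : ∀ i j, fderiv ℝ (fderiv ℝ (w5u w5G c)) y (EuclideanSpace.single i 1)
      (EuclideanSpace.single j 1)
      = a * ((w5ε i - τ * w5ξ y i) * (w5ε j - τ * w5ξ y j))
        + b * (w5δ i j - w5ξ y i * w5ξ y j) := by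
    intro i j
    rw [w5_hess c hy, ← hτ, ha, hb]
  have e1 : ∀ i, pd (EuclideanSpace.single i 1) (w5u w5G c) y
      = (c * w5G1 τ) * (w5ε i - τ * w5ξ y i) := by
    intro i
    rw [w5_pd1 c hy, ← hτ, h0]
    ring
  have e2 : ∀ i j, pd (EuclideanSpace.single i 1) (pd (EuclideanSpace.single j 1)
      (w5u w5G c)) y
      = a * ((w5ε i - τ * w5ξ y i) * (w5ε j - τ * w5ξ y j))
        + b * (w5δ i j - w5ξ y i * w5ξ y j) := by
    intro i j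
    rw [w5_pd2 c hy, ← hτ, ha, hb]
  have hsq := w5_alg_sq (fun i => w5ε i - τ * w5ξ y i)
    (fun i j => w5δ i j - w5ξ y i * w5ξ y j) (1 + τ ^ 2) (4 - 1) a b h1 h2 h3 h4 h5
  have hcube := w5_alg_cube (fun i => w5ε i - τ * w5ξ y i)
    (fun i j => w5δ i j - w5ξ y i * w5ξ y j) (1 + τ ^ 2) (4 - 1) a b h1 h2 h3 h4 h5
  have hquad := w5_alg_quad (fun i => w5ε i - τ * w5ξ y i)
    (fun i j => w5δ i j - w5ξ y i * w5ξ y j) (1 + τ ^ 2) a b (c * w5G1 τ) h1 h3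
  have hgrad : fderiv ℝ (fderiv ℝ (w5u w5G c)) y (gradient (w5u w5G c) y)
      (gradient (w5u w5G c) y) = a * (c * w5G1 τ) ^ 2 * (1 + τ ^ 2) ^ 2 := by
    rw [hessGrad_eq (EuclideanSpace.basisFun (Fin 5) ℝ) w5U_open
      ((w5_contDiffOn c).of_le (by norm_num)) hy]
    simp only [EuclideanSpace.basisFun_apply, e1, e2]
    exact hquad
  simp only [hH]
  rw [hgrad]
  have hsq' : ∑ i, ∑ j, (a * ((w5ε i - τ * w5ξ y i) * (w5ε j - τ * w5ξ y j))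
      + b * (w5δ i j - w5ξ y i * w5ξ y j)) ^ 2 = a ^ 2 * (1 + τ ^ 2) ^ 2 + b ^ 2 * (4 - 1) :=
    hsq
  have hcube' : ∑ i, ∑ j, ∑ l, (a * ((w5ε i - τ * w5ξ y i) * (w5ε j - τ * w5ξ y j))
        + b * (w5δ i j - w5ξ y i * w5ξ y j))
      * (a * ((w5ε j - τ * w5ξ y j) * (w5ε l - τ * w5ξ y l))
        + b * (w5δ j l - w5ξ y j * w5ξ y l))
      * (a * ((w5ε l - τ * w5ξ y l) * (w5ε i - τ * w5ξ y i))
        + b * (w5δ l i - w5ξ y l * w5ξ y i))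
      = a ^ 3 * (1 + τ ^ 2) ^ 3 + b ^ 3 * (4 - 1) := hcube
  rw [hsq', hcube']
  have hode := w5_ode τ
  rw [h0] at hode
  have haN : a * (1 + τ ^ 2) = -3 * b := by
    rw [ha, hb, h0]
    linear_combination c * (w5s y)⁻¹ * hode
  have e3 : a ^ 3 * (1 + τ ^ 2) ^ 3 = (-3 * b) ^ 3 := by
    rw [← haN]
    ring
  have e4 : a ^ 2 * (1 + τ ^ 2) ^ 2 = (-3 * b) ^ 2 := by
    rw [← haN]
    ring
  have e5 : a * (c * w5G1 τ) ^ 2 * (1 + τ ^ 2) ^ 2 = -3 * b := by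
    have e6 : a * (c * w5G1 τ) ^ 2 * (1 + τ ^ 2) ^ 2
        = (a * (1 + τ ^ 2)) * (c ^ 2 * w5G1 τ ^ 2 * (1 + τ ^ 2)) := by ring
    rw [e6, haN, hnorm]
    ring
  rw [e3, e4, e5]
  apply le_of_eq
  ring

/-! ### The witness -/

/-- The rotationally symmetric cone in `ℝ^5`: a classical cone solution whose closed positive
phase lies in its domain away from the origin, which is not flat, has nonempty free boundary,
and satisfies the pinching inequality with `p = 3/4` along the free boundary. -/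
theorem witness5_closed :
    ∃ (U : Set (EuclideanSpace ℝ (Fin 5))) (u : EuclideanSpace ℝ (Fin 5) → ℝ),
      (IsOpen U ∧ (0 : EuclideanSpace ℝ (Fin 5)) ∉ U ∧
        (∀ x ∈ U, ∀ t : ℝ, 0 < t → t • x ∈ U) ∧
        ContDiffOn ℝ 4 u U ∧
        (∀ x ∈ U, ∀ t : ℝ, 0 < t → u (t • x) = t * u x) ∧
        (∀ x ∈ U, 0 < u x → Laplacian.laplacian u x = 0) ∧
        (∀ x ∈ U, u x = 0 → ‖gradient u x‖ = 1)) ∧
      closure {x ∈ U | 0 < u x} ⊆ insert 0 U ∧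
      (∃ x ∈ {x ∈ U | 0 < u x}, ∑ i, ∑ j, fderiv ℝ (fderiv ℝ u) x
        (EuclideanSpace.single i 1) (EuclideanSpace.single j 1) ^ 2 ≠ 0) ∧
      (∃ x ∈ U, u x = 0) ∧
      (∀ x ∈ U, u x = 0 →
        3 / 4 * ∑ i, ∑ j, ∑ l, fderiv ℝ (fderiv ℝ u) x (EuclideanSpace.single i 1)
              (EuclideanSpace.single j 1)
            * fderiv ℝ (fderiv ℝ u) x (EuclideanSpace.single j 1) (EuclideanSpace.single l 1)
            * fderiv ℝ (fderiv ℝ u) x (EuclideanSpace.single l 1) (EuclideanSpace.single i 1)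
          ≤ (1 - 2 * (3 / 4)) * (-(fderiv ℝ (fderiv ℝ u) x (gradient u x) (gradient u x)))
              * ∑ i, ∑ j, fderiv ℝ (fderiv ℝ u) x (EuclideanSpace.single i 1)
                (EuclideanSpace.single j 1) ^ 2) := by
  obtain ⟨τ0, hτ0, hroot, hpos, hzero⟩ := w5_root
  have hG1 : w5G1 τ0 < 0 := w5G1_neg hτ0
  obtain ⟨c, hcdef⟩ : ∃ c : ℝ, c = (Real.sqrt (1 + τ0 ^ 2) * (-(w5G1 τ0)))⁻¹ := ⟨_, rfl⟩
  have hw : 0 < Real.sqrt (1 + τ0 ^ 2) := Real.sqrt_pos.2 (by positivity)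
  have hc : 0 < c := by
    rw [hcdef]
    exact inv_pos.2 (mul_pos hw (by linarith))
  have hcn : c ^ 2 * w5G1 τ0 ^ 2 * (1 + τ0 ^ 2) = 1 := by
    have hw2 : Real.sqrt (1 + τ0 ^ 2) ^ 2 = 1 + τ0 ^ 2 := Real.sq_sqrt (by positivity)
    have hne : w5G1 τ0 ≠ 0 := hG1.ne
    have hwne : Real.sqrt (1 + τ0 ^ 2) ≠ 0 := hw.ne'
    have e : c ^ 2 * w5G1 τ0 ^ 2 * (1 + τ0 ^ 2)
        = c ^ 2 * w5G1 τ0 ^ 2 * Real.sqrt (1 + τ0 ^ 2) ^ 2 := by rw [hw2]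
    rw [e, hcdef]
    field_simp
  have hnorm : ∀ y ∈ w5U, w5G (y 4 * (w5s y)⁻¹) = 0 →
      c ^ 2 * w5G1 (y 4 * (w5s y)⁻¹) ^ 2 * (1 + (y 4 * (w5s y)⁻¹) ^ 2) = 1 := by
    intro y hy h0
    have habs := (hzero _).1 h0
    rcases (abs_eq hτ0.le).1 habs with h | h
    · rw [h]
      exact hcn
    · rw [h, w5G1_odd, neg_sq, neg_sq]
      exact hcn
  refine ⟨w5U, w5u w5G c, ⟨w5U_open, w5U_zero, w5U_cone, w5_contDiffOn c, w5u_hom w5G c,
    fun x hx _ => w5_laplacian c hx, ?_⟩, w5_closure hc hpos, ?_, ?_, ?_⟩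
  · intro x hx h0
    have hG0 := (w5_zero_iff hc hx).1 h0
    have hsq : ‖gradient (w5u w5G c) x‖ ^ 2 = 1 := by
      rw [w5_gradSq hx hG0]
      exact hnorm x hx hG0
    exact (pow_eq_one_iff_of_nonneg (norm_nonneg _) two_ne_zero).1 hsq
  · refine ⟨w5pt 0, ⟨w5pt_mem 0, ?_⟩, w5_hess_ne hc⟩
    rw [w5u_w5pt, w5G_zero]
    linarith
  · refine ⟨w5pt τ0, w5pt_mem τ0, ?_⟩
    rw [w5u_w5pt, hroot, mul_zero]
  · intro x hx h0
    have hG0 := (w5_zero_iff hc hx).1 h0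
    exact w5_pinch hx hG0 (hnorm x hx hG0)

end Vale.Agent.Lib.P098
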