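import Mathlib

/-!
The profile `G(τ) = √(1 + τ²) (1 - τ²/2) - (3/2) τ arsinh τ` of the rotationally symmetric
one-homogeneous harmonic function `|x'| G(t / |x'|)` on `ℝ^4 × ℝ`: derivatives, the ordinary
differential equation `(1 + τ²) G'' - 3 τ G' + 3 G = 0`, and its unique positive zero.
-/

namespace Vale.Agent.Lib.P098

/-- The profile of the rotationally symmetric cone in `ℝ^5`. -/
noncomputable def w5G (τ : ℝ) : ℝ :=
  Real.sqrt (1 + τ ^ 2) * (1 - τ ^ 2 / 2) - 3 / 2 * τ * Real.arsinh τ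

/-- The derivative of the profile. -/
noncomputable def w5G1 (τ : ℝ) : ℝ := -(3 / 2) * (τ * Real.sqrt (1 + τ ^ 2) + Real.arsinh τ)

/-- The second derivative of the profile. -/
noncomputable def w5G2 (τ : ℝ) : ℝ := -3 * Real.sqrt (1 + τ ^ 2)

theorem w5_sqrt_pos (τ : ℝ) : 0 < Real.sqrt (1 + τ ^ 2) := Real.sqrt_pos.mpr (by positivity)

theorem w5_sqrt_mul_self (τ : ℝ) :
    Real.sqrt (1 + τ ^ 2) * Real.sqrt (1 + τ ^ 2) = 1 + τ ^ 2 :=
  Real.mul_self_sqrt (by positivity)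

theorem w5_inv_mul_sqrt (τ : ℝ) : (Real.sqrt (1 + τ ^ 2))⁻¹ * Real.sqrt (1 + τ ^ 2) = 1 :=
  inv_mul_cancel₀ (w5_sqrt_pos τ).ne'

theorem w5_alg1 (τ w u A : ℝ) (h1 : u * w = 1) (h2 : w * w = 1 + τ ^ 2) :
    τ * u * (1 - τ ^ 2 / 2) + w * (-τ) - (3 / 2 * A + 3 / 2 * τ * u)
      = -(3 / 2) * (τ * w + A) := by
  linear_combination (-(τ * w / 2)) * h1 + (τ * u / 2) * h2

theorem w5_alg2 (τ w u : ℝ) (h1 : u * w = 1) (h2 : w * w = 1 + τ ^ 2) :
    -(3 / 2) * (w + τ * (τ * u) + u) = -3 * w := by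
  linear_combination (-(3 * w / 2)) * h1 + (3 * u / 2) * h2

theorem w5_hasDerivAt_sq (τ : ℝ) : HasDerivAt (fun t : ℝ => t ^ 2) (2 * τ) τ := by
  simpa using hasDerivAt_pow 2 τ

theorem w5_hasDerivAt_sqrt (τ : ℝ) :
    HasDerivAt (fun t : ℝ => Real.sqrt (1 + t ^ 2)) (τ * (Real.sqrt (1 + τ ^ 2))⁻¹) τ := by
  have h := ((w5_hasDerivAt_sq τ).const_add 1).sqrt (by positivity)
  refine h.congr_deriv ?_
  ring

theorem w5G_hasDerivAt (τ : ℝ) : HasDerivAt w5G (w5G1 τ) τ := by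
  have hw := w5_hasDerivAt_sqrt τ
  have hp : HasDerivAt (fun t : ℝ => 1 - t ^ 2 / 2) (-(2 * τ / 2)) τ :=
    ((w5_hasDerivAt_sq τ).div_const 2).const_sub 1
  have hA : HasDerivAt (fun t : ℝ => 3 / 2 * t * Real.arsinh t)
      (3 / 2 * 1 * Real.arsinh τ + 3 / 2 * τ * (Real.sqrt (1 + τ ^ 2))⁻¹) τ :=
    ((hasDerivAt_id' τ).const_mul (3 / 2 : ℝ)).mul (Real.hasDerivAt_arsinh τ)
  have hfin := (hw.mul hp).sub hA
  refine hfin.congr_deriv ?_
  rw [show w5G1 τ = -(3 / 2) * (τ * Real.sqrt (1 + τ ^ 2) + Real.arsinh τ) from rfl,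
    ← w5_alg1 τ _ _ (Real.arsinh τ) (w5_inv_mul_sqrt τ) (w5_sqrt_mul_self τ)]
  ring

theorem w5G1_hasDerivAt (τ : ℝ) : HasDerivAt w5G1 (w5G2 τ) τ := by
  have hw := w5_hasDerivAt_sqrt τ
  have h1 : HasDerivAt (fun t : ℝ => t * Real.sqrt (1 + t ^ 2))
      (1 * Real.sqrt (1 + τ ^ 2) + τ * (τ * (Real.sqrt (1 + τ ^ 2))⁻¹)) τ :=
    (hasDerivAt_id' τ).mul hw
  have hfin := (h1.add (Real.hasDerivAt_arsinh τ)).const_mul (-(3 / 2 : ℝ))
  refine hfin.congr_deriv ?_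
  rw [show w5G2 τ = -3 * Real.sqrt (1 + τ ^ 2) from rfl,
    ← w5_alg2 τ _ _ (w5_inv_mul_sqrt τ) (w5_sqrt_mul_self τ)]
  ring

theorem w5G_contDiff : ContDiff ℝ 4 w5G := by
  have hs : ContDiff ℝ 4 (fun t : ℝ => Real.sqrt (1 + t ^ 2)) :=
    (contDiff_const.add (contDiff_id.pow 2)).sqrt (fun t => by positivity)
  have hp : ContDiff ℝ 4 (fun t : ℝ => 1 - t ^ 2 / 2) :=
    contDiff_const.sub ((contDiff_id.pow 2).div_const 2)
  have ha : ContDiff ℝ 4 (fun t : ℝ => 3 / 2 * t * Real.arsinh t) :=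
    (contDiff_const.mul contDiff_id).mul Real.contDiff_arsinh
  exact (hs.mul hp).sub ha

theorem w5_ode (τ : ℝ) : (1 + τ ^ 2) * w5G2 τ - 3 * τ * w5G1 τ + 3 * w5G τ = 0 := by
  unfold w5G w5G1 w5G2
  ring

theorem w5G_zero : w5G 0 = 1 := by
  simp [w5G]

theorem w5G1_zero : w5G1 0 = 0 := by
  simp [w5G1]

theorem w5G2_zero : w5G2 0 = -3 := by
  simp [w5G2]

theorem w5G_even (τ : ℝ) : w5G (-τ) = w5G τ := by
  unfold w5G
  rw [Real.arsinh_neg, neg_sq]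
  ring

theorem w5G1_odd (τ : ℝ) : w5G1 (-τ) = -w5G1 τ := by
  unfold w5G1
  rw [Real.arsinh_neg, neg_sq]
  ring

theorem w5G1_neg {τ : ℝ} (hτ : 0 < τ) : w5G1 τ < 0 := by
  unfold w5G1
  have h1 : 0 < τ * Real.sqrt (1 + τ ^ 2) := mul_pos hτ (w5_sqrt_pos τ)
  have h2 : 0 < Real.arsinh τ := Real.arsinh_pos_iff.mpr hτ
  linarith

theorem w5G_one_neg : w5G 1 < 0 := by
  have hs1 : (1 : ℝ) ≤ Real.sqrt (1 + 1 ^ 2) := (Real.le_sqrt' one_pos).mpr (by norm_num)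
  have hs2 : Real.sqrt (1 + 1 ^ 2) < 1.42 := (Real.sqrt_lt' (by norm_num)).mpr (by norm_num)
  have hlog : Real.log 2 ≤ Real.arsinh 1 := by
    unfold Real.arsinh
    exact Real.log_le_log (by norm_num) (by linarith)
  have hl2 := Real.log_two_gt_d9
  have e : w5G 1 = Real.sqrt (1 + 1 ^ 2) * (1 / 2) - 3 / 2 * Real.arsinh 1 := by
    unfold w5G
    ring
  rw [e]
  norm_num at hl2 hs2
  linarith

theorem w5G_strictAntiOn : StrictAntiOn w5G (Set.Ici 0) := by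
  refine strictAntiOn_of_deriv_neg (convex_Ici 0) w5G_contDiff.continuous.continuousOn ?_
  intro x hx
  rw [interior_Ici] at hx
  rw [(w5G_hasDerivAt x).deriv]
  exact w5G1_neg hx

theorem w5G_abs (τ : ℝ) : w5G |τ| = w5G τ := by
  rcases le_or_gt 0 τ with h | h
  · rw [abs_of_nonneg h]
  · rw [abs_of_neg h, w5G_even]

/-- The profile has a unique positive zero `τ0`; it is positive exactly on `(-τ0, τ0)`. -/
theorem w5_root : ∃ τ0 : ℝ, 0 < τ0 ∧ w5G τ0 = 0 ∧ (∀ τ : ℝ, 0 < w5G τ ↔ |τ| < τ0) ∧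
    (∀ τ : ℝ, w5G τ = 0 ↔ |τ| = τ0) := by
  have hcont : Continuous w5G := w5G_contDiff.continuous
  have hmem : (0 : ℝ) ∈ Set.Icc (w5G 1) (w5G 0) := by
    rw [w5G_zero]
    exact ⟨w5G_one_neg.le, zero_le_one⟩
  obtain ⟨τ0, hτ0, hG0⟩ := intermediate_value_Icc' zero_le_one hcont.continuousOn hmem
  have hτ0pos : 0 < τ0 := by
    rcases hτ0.1.eq_or_lt with h | h
    · rw [← h, w5G_zero] at hG0
      exact absurd hG0 one_ne_zero
    · exact h
  have hanti := w5G_strictAntiOn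
  have hτ0mem : τ0 ∈ Set.Ici (0 : ℝ) := hτ0pos.le
  have hlt : ∀ s : ℝ, 0 ≤ s → s < τ0 → 0 < w5G s := by
    intro s hs hlt
    have h := hanti hs hτ0mem hlt
    rw [hG0] at h
    exact h
  have hgt : ∀ s : ℝ, τ0 < s → w5G s < 0 := by
    intro s hgt
    have h := hanti hτ0mem (hτ0pos.le.trans hgt.le) hgt
    rw [hG0] at h
    exact h
  refine ⟨τ0, hτ0pos, hG0, fun τ => ?_, fun τ => ?_⟩
  · rw [← w5G_abs τ]
    constructor
    · intro hpos
      by_contra hcon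
      push Not at hcon
      rcases hcon.eq_or_lt with h | h
      · rw [← h, hG0] at hpos
        exact lt_irrefl _ hpos
      · exact lt_asymm hpos (hgt _ h)
    · intro h
      exact hlt _ (abs_nonneg τ) h
  · rw [← w5G_abs τ]
    constructor
    · intro hz
      rcases lt_trichotomy |τ| τ0 with h | h | h
      · have h1 := hlt _ (abs_nonneg τ) h
        rw [hz] at h1
        exact absurd h1 (lt_irrefl _)
      · exact h
      · have h1 := hgt _ h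
        rw [hz] at h1
        exact absurd h1 (lt_irrefl _)
    · intro h
      rw [h]
      exact hG0

end Vale.Agent.Lib.P098
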