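import Vale.Agent.Lib.P098.InteriorMain

/-!
An explicit classical one-homogeneous solution in `ℝ^4`: the rotationally symmetric cone
`u = (ρ - z² / ρ) / (2 √2)` with `ρ = |(x₀, x₁, x₂)|`, `z = x₃`, on `{ρ > 0}`.
-/

namespace Vale.Agent.Lib.P098

open Finset
open scoped Topology InnerProductSpace

/-- `x₀² + x₁² + x₂²`. -/
noncomputable def wS (x : EuclideanSpace ℝ (Fin 4)) : ℝ := x 0 ^ 2 + x 1 ^ 2 + x 2 ^ 2

/-- The open cone `{x₀² + x₁² + x₂² > 0}`. -/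
def wU : Set (EuclideanSpace ℝ (Fin 4)) := {x | 0 < wS x}

/-- `ρ = √(x₀² + x₁² + x₂²)`. -/
noncomputable def wρ (x : EuclideanSpace ℝ (Fin 4)) : ℝ := Real.sqrt (wS x)

/-- The rotationally symmetric cone solution in `ℝ^4`. -/
noncomputable def wu (x : EuclideanSpace ℝ (Fin 4)) : ℝ :=
  Real.sqrt 2 / 4 * (wρ x - x 3 ^ 2 * (wρ x)⁻¹)

/-- `y₀ v₀ + y₁ v₁ + y₂ v₂`. -/
noncomputable def wL (v y : EuclideanSpace ℝ (Fin 4)) : ℝ := y 0 * v 0 + y 1 * v 1 + y 2 * v 2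

theorem wU_open : IsOpen wU := by
  have hc : Continuous wS := by
    unfold wS
    fun_prop
  exact isOpen_lt continuous_const hc

theorem wU_zero : (0 : EuclideanSpace ℝ (Fin 4)) ∉ wU := by
  simp [wU, wS]

theorem wU_cone : ∀ x ∈ wU, ∀ t : ℝ, 0 < t → t • x ∈ wU := by
  intro x hx t ht
  have hx' : 0 < wS x := hx
  have e : wS (t • x) = t ^ 2 * wS x := by
    simp [wS]
    ring
  show 0 < wS (t • x)
  rw [e]
  positivity

theorem wρ_pos {x : EuclideanSpace ℝ (Fin 4)} (hx : x ∈ wU) : 0 < wρ x :=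
  Real.sqrt_pos.2 hx

theorem wρ_sq {x : EuclideanSpace ℝ (Fin 4)} (hx : x ∈ wU) : wρ x ^ 2 = wS x :=
  Real.sq_sqrt (le_of_lt hx)

theorem wu_hom : ∀ x ∈ wU, ∀ t : ℝ, 0 < t → wu (t • x) = t * wu x := by
  intro x hx t ht
  have hx' : 0 < wS x := hx
  have e : wS (t • x) = t ^ 2 * wS x := by
    simp [wS]
    ring
  have e2 : wρ (t • x) = t * wρ x := by
    unfold wρ
    rw [e, Real.sqrt_mul (sq_nonneg t), Real.sqrt_sq ht.le]
  have hρ := wρ_pos hx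
  unfold wu
  rw [e2]
  simp
  field_simp

/-- The coordinate functional `x ↦ x i`. -/
noncomputable def wP (i : Fin 4) : EuclideanSpace ℝ (Fin 4) →L[ℝ] ℝ := EuclideanSpace.proj i

@[simp] theorem wP_apply (i : Fin 4) (v : EuclideanSpace ℝ (Fin 4)) : wP i v = v i := rfl

theorem hasFDerivAt_crd (i : Fin 4) (y : EuclideanSpace ℝ (Fin 4)) :
    HasFDerivAt (fun x : EuclideanSpace ℝ (Fin 4) => x i) (wP i) y :=
  (wP i).hasFDerivAt

theorem hasFDerivAt_wS (y : EuclideanSpace ℝ (Fin 4)) :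
    HasFDerivAt wS ((2 * y 0) • wP 0 + (2 * y 1) • wP 1 + (2 * y 2) • wP 2) y := by
  have h0 := (hasFDerivAt_crd 0 y).pow 2
  have h1 := (hasFDerivAt_crd 1 y).pow 2
  have h2 := (hasFDerivAt_crd 2 y).pow 2
  have h := (h0.add h1).add h2
  refine h.congr_fderiv ?_
  ext v
  simp

theorem hasFDerivAt_wρ {y : EuclideanSpace ℝ (Fin 4)} (hy : y ∈ wU) :
    HasFDerivAt wρ ((wρ y)⁻¹ • (y 0 • wP 0 + y 1 • wP 1 + y 2 • wP 2)) y := by
  have hS : wS y ≠ 0 := ne_of_gt hy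
  have h := (Real.hasDerivAt_sqrt hS).comp_hasFDerivAt y (hasFDerivAt_wS y)
  refine h.congr_fderiv ?_
  ext v
  have hρ := wρ_pos hy
  simp [wρ]
  field_simp

theorem hasFDerivAt_wρinv {y : EuclideanSpace ℝ (Fin 4)} (hy : y ∈ wU) :
    HasFDerivAt (fun x => (wρ x)⁻¹)
      (-((wρ y)⁻¹ ^ 3) • (y 0 • wP 0 + y 1 • wP 1 + y 2 • wP 2)) y := by
  have h := (hasDerivAt_inv (ne_of_gt (wρ_pos hy))).comp_hasFDerivAt y (hasFDerivAt_wρ hy)
  refine h.congr_fderiv ?_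
  ext v
  simp
  ring

theorem hasFDerivAt_wL (v y : EuclideanSpace ℝ (Fin 4)) :
    HasFDerivAt (wL v) (v 0 • wP 0 + v 1 • wP 1 + v 2 • wP 2) y := by
  have h0 := (hasFDerivAt_crd 0 y).mul_const (v 0)
  have h1 := (hasFDerivAt_crd 1 y).mul_const (v 1)
  have h2 := (hasFDerivAt_crd 2 y).mul_const (v 2)
  exact (h0.add h1).add h2

theorem hasFDerivAt_wu {y : EuclideanSpace ℝ (Fin 4)} (hy : y ∈ wU) :
    HasFDerivAt wu ((Real.sqrt 2 / 4) • ((wρ y)⁻¹ • (y 0 • wP 0 + y 1 • wP 1 + y 2 • wP 2)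
      - (y 3 ^ 2 • (-((wρ y)⁻¹ ^ 3) • (y 0 • wP 0 + y 1 • wP 1 + y 2 • wP 2))
        + (wρ y)⁻¹ • ((2 * y 3) • wP 3)))) y := by
  have hz := (hasFDerivAt_crd 3 y).pow 2
  have h1 := hz.mul (hasFDerivAt_wρinv hy)
  have h2 := ((hasFDerivAt_wρ hy).sub h1).const_mul (Real.sqrt 2 / 4)
  refine h2.congr_fderiv ?_
  ext v
  simp

/-- First directional derivatives of the cone solution. -/
theorem wu_pd {y : EuclideanSpace ℝ (Fin 4)} (hy : y ∈ wU) (v : EuclideanSpace ℝ (Fin 4)) :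
    pd v wu y = Real.sqrt 2 / 4 * (wL v y * (wρ y)⁻¹ - 2 * y 3 * v 3 * (wρ y)⁻¹
      + y 3 ^ 2 * wL v y * (wρ y)⁻¹ ^ 3) := by
  simp only [pd, (hasFDerivAt_wu hy).fderiv, wL]
  simp
  ring

/-- Second pure directional derivatives of the cone solution. -/
theorem wu_pd2 {y : EuclideanSpace ℝ (Fin 4)} (hy : y ∈ wU) (v : EuclideanSpace ℝ (Fin 4)) :
    pd v (pd v wu) y = Real.sqrt 2 / 4 * ((v 0 ^ 2 + v 1 ^ 2 + v 2 ^ 2) * (wρ y)⁻¹
      - wL v y ^ 2 * (wρ y)⁻¹ ^ 3 - 2 * v 3 ^ 2 * (wρ y)⁻¹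
      + 4 * y 3 * v 3 * wL v y * (wρ y)⁻¹ ^ 3
      + y 3 ^ 2 * (v 0 ^ 2 + v 1 ^ 2 + v 2 ^ 2) * (wρ y)⁻¹ ^ 3
      - 3 * y 3 ^ 2 * wL v y ^ 2 * (wρ y)⁻¹ ^ 5) := by
  have e : Set.EqOn (pd v wu) (fun x => Real.sqrt 2 / 4 * (wL v x * (wρ x)⁻¹
      - 2 * x 3 * v 3 * (wρ x)⁻¹ + x 3 ^ 2 * wL v x * (wρ x)⁻¹ ^ 3)) wU :=
    fun x hx => wu_pd hx v
  rw [pd_congr wU_open e v hy]
  have hL := hasFDerivAt_wL v y
  have hz := hasFDerivAt_crd 3 y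
  have hri := hasFDerivAt_wρinv hy
  have h1 := hL.mul hri
  have h2 := ((hz.const_mul 2).mul_const (v 3)).mul hri
  have h3 := ((hz.pow 2).mul hL).mul (hri.pow 3)
  have h : HasFDerivAt (fun x => Real.sqrt 2 / 4 * (wL v x * (wρ x)⁻¹
      - 2 * x 3 * v 3 * (wρ x)⁻¹ + x 3 ^ 2 * wL v x * (wρ x)⁻¹ ^ 3)) _ y :=
    ((h1.sub h2).add h3).const_mul (Real.sqrt 2 / 4)
  simp only [pd, h.fderiv]
  simp [wL]
  ring

theorem wu_contDiffOn : ContDiffOn ℝ 4 wu wU := by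
  have hS : ContDiff ℝ 4 wS := by
    unfold wS
    fun_prop
  have hρ : ContDiffOn ℝ 4 wρ wU := hS.contDiffOn.sqrt (fun x hx => ne_of_gt hx)
  have hz : ContDiff ℝ 4 (fun x : EuclideanSpace ℝ (Fin 4) => x 3 ^ 2) := by fun_prop
  have hi : ContDiffOn ℝ 4 (fun x => (wρ x)⁻¹) wU := hρ.inv (fun x hx => ne_of_gt (wρ_pos hx))
  exact contDiffOn_const.mul (hρ.sub (hz.contDiffOn.mul hi))

theorem wu_lap {y : EuclideanSpace ℝ (Fin 4)} (hy : y ∈ wU) :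
    lap (EuclideanSpace.basisFun (Fin 4) ℝ) wu y = 0 := by
  have hρ := wρ_pos hy
  have hS : y 0 ^ 2 + y 1 ^ 2 + y 2 ^ 2 = wρ y ^ 2 := (wρ_sq hy).symm
  simp only [lap, EuclideanSpace.basisFun_apply, Fin.sum_univ_four]
  rw [wu_pd2 hy, wu_pd2 hy, wu_pd2 hy, wu_pd2 hy]
  simp [wL]
  field_simp
  linear_combination (-(Real.sqrt 2) * (wρ y ^ 2 + 3 * y 3 ^ 2)) * hS

theorem wu_laplacian {y : EuclideanSpace ℝ (Fin 4)} (hy : y ∈ wU) :
    Laplacian.laplacian wu y = 0 := by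
  rw [laplacian_eq_lap (EuclideanSpace.basisFun (Fin 4) ℝ) wU_open
    (wu_contDiffOn.of_le (by norm_num)) hy]
  exact wu_lap hy

theorem wu_zero_iff {y : EuclideanSpace ℝ (Fin 4)} (hy : y ∈ wU) :
    wu y = 0 ↔ y 3 ^ 2 = wρ y ^ 2 := by
  have hρ := wρ_pos hy
  have h2 : (0 : ℝ) < Real.sqrt 2 := Real.sqrt_pos.2 (by norm_num)
  unfold wu
  constructor
  · intro h
    have h' : wρ y - y 3 ^ 2 * (wρ y)⁻¹ = 0 := by
      rcases mul_eq_zero.1 h with h | h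
      · exfalso
        linarith
      · exact h
    field_simp at h'
    linarith
  · intro h
    rw [h]
    field_simp
    ring

theorem wu_grad {y : EuclideanSpace ℝ (Fin 4)} (hy : y ∈ wU) (h0 : wu y = 0) :
    ‖gradient wu y‖ = 1 := by
  have hρ := wρ_pos hy
  have hS : y 0 ^ 2 + y 1 ^ 2 + y 2 ^ 2 = wρ y ^ 2 := (wρ_sq hy).symm
  have hz : y 3 ^ 2 = wρ y ^ 2 := (wu_zero_iff hy).1 h0
  have h2 : Real.sqrt 2 ^ 2 = 2 := Real.sq_sqrt (by norm_num)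
  have hsq : ‖gradient wu y‖ ^ 2 = 1 := by
    rw [← sum_inner_sq (EuclideanSpace.basisFun (Fin 4) ℝ) (gradient wu y)]
    have e : ∀ j, ⟪gradient wu y, EuclideanSpace.basisFun (Fin 4) ℝ j⟫_ℝ
        = pd (EuclideanSpace.single j 1) wu y := fun j => by
      rw [inner_gradient_left, EuclideanSpace.basisFun_apply]
      rfl
    simp only [e, Fin.sum_univ_four]
    rw [wu_pd hy, wu_pd hy, wu_pd hy, wu_pd hy]
    simp [wL]
    field_simp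
    rw [h2, hS, hz]
    ring
  exact (pow_eq_one_iff_of_nonneg (norm_nonneg _) two_ne_zero).1 hsq

/-- The point `(1, 0, 0, z)`. -/
noncomputable def wpt (z : ℝ) : EuclideanSpace ℝ (Fin 4) :=
  EuclideanSpace.single 0 1 + z • EuclideanSpace.single 3 1

theorem wpt_mem (z : ℝ) : wpt z ∈ wU := by
  show 0 < wS (wpt z)
  simp [wS, wpt]

theorem wρ_wpt (z : ℝ) : wρ (wpt z) = 1 := by
  simp [wρ, wS, wpt]

theorem wu_wpt (z : ℝ) : wu (wpt z) = Real.sqrt 2 / 4 * (1 - z ^ 2) := by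
  unfold wu
  rw [wρ_wpt]
  simp [wpt]

/-- The Hessian of the cone solution does not vanish at the points `(1, 0, 0, z)`. -/
theorem wu_hess_ne (z : ℝ) :
    ∑ i, ∑ j, fderiv ℝ (fderiv ℝ wu) (wpt z) (EuclideanSpace.basisFun (Fin 4) ℝ i)
      (EuclideanSpace.basisFun (Fin 4) ℝ j) ^ 2 ≠ 0 := by
  have hy := wpt_mem z
  have h2 : (0 : ℝ) < Real.sqrt 2 := Real.sqrt_pos.2 (by norm_num)
  have hterm : fderiv ℝ (fderiv ℝ wu) (wpt z) (EuclideanSpace.basisFun (Fin 4) ℝ 3)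
      (EuclideanSpace.basisFun (Fin 4) ℝ 3) = -(Real.sqrt 2 / 2) := by
    rw [D2_eq wU_open (wu_contDiffOn.of_le (by norm_num)) hy, EuclideanSpace.basisFun_apply,
      wu_pd2 hy, wρ_wpt]
    simp [wL]
    ring
  have hpos : 0 < ∑ i, ∑ j, fderiv ℝ (fderiv ℝ wu) (wpt z)
      (EuclideanSpace.basisFun (Fin 4) ℝ i) (EuclideanSpace.basisFun (Fin 4) ℝ j) ^ 2 := by
    have h1 : ∀ i ∈ (Finset.univ : Finset (Fin 4)), 0 ≤ ∑ j, fderiv ℝ (fderiv ℝ wu) (wpt z)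
        (EuclideanSpace.basisFun (Fin 4) ℝ i) (EuclideanSpace.basisFun (Fin 4) ℝ j) ^ 2 :=
      fun i _ => Finset.sum_nonneg fun j _ => sq_nonneg _
    have h3 : 0 < ∑ j, fderiv ℝ (fderiv ℝ wu) (wpt z)
        (EuclideanSpace.basisFun (Fin 4) ℝ 3) (EuclideanSpace.basisFun (Fin 4) ℝ j) ^ 2 := by
      refine lt_of_lt_of_le ?_ (Finset.single_le_sum (fun j _ => sq_nonneg _)
        (Finset.mem_univ (3 : Fin 4)))
      rw [hterm, neg_sq]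
      positivity
    exact lt_of_lt_of_le h3 (Finset.single_le_sum h1 (Finset.mem_univ (3 : Fin 4)))
  exact ne_of_gt hpos

/-- An explicit classical cone solution in `ℝ^4` with nonvanishing Hessian at a free boundary
point and at a point of the positive phase. -/
theorem witness_exists :
    ∃ (U : Set (EuclideanSpace ℝ (Fin 4))) (u : EuclideanSpace ℝ (Fin 4) → ℝ),
      (IsOpen U ∧ (0 : EuclideanSpace ℝ (Fin 4)) ∉ U ∧
        (∀ x ∈ U, ∀ t : ℝ, 0 < t → t • x ∈ U) ∧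
        ContDiffOn ℝ 4 u U ∧
        (∀ x ∈ U, ∀ t : ℝ, 0 < t → u (t • x) = t * u x) ∧
        (∀ x ∈ U, 0 < u x → Laplacian.laplacian u x = 0) ∧
        (∀ x ∈ U, u x = 0 → ‖gradient u x‖ = 1)) ∧
      (∃ x ∈ U, u x = 0 ∧ ∑ i, ∑ j, fderiv ℝ (fderiv ℝ u) x
        (EuclideanSpace.single i 1) (EuclideanSpace.single j 1) ^ 2 ≠ 0) ∧
      (∃ x ∈ U, 0 < u x ∧ ∑ i, ∑ j, fderiv ℝ (fderiv ℝ u) x
        (EuclideanSpace.single i 1) (EuclideanSpace.single j 1) ^ 2 ≠ 0) := by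
  have h2 : (0 : ℝ) < Real.sqrt 2 := Real.sqrt_pos.2 (by norm_num)
  refine ⟨wU, wu, ⟨wU_open, wU_zero, wU_cone, wu_contDiffOn, wu_hom,
    fun x hx _ => wu_laplacian hx, fun x hx h0 => wu_grad hx h0⟩, ?_, ?_⟩
  · refine ⟨wpt 1, wpt_mem 1, ?_, ?_⟩
    · rw [wu_wpt]
      norm_num
    · have h := wu_hess_ne 1
      simp only [EuclideanSpace.basisFun_apply] at h
      exact h
  · refine ⟨wpt 0, wpt_mem 0, ?_, ?_⟩
    · rw [wu_wpt]
      norm_num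
    · have h := wu_hess_ne 0
      simp only [EuclideanSpace.basisFun_apply] at h
      exact h

end Vale.Agent.Lib.P098
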