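import Vale.Agent.Lib.P098.WitnessPinch

/-!
The closed positive phase of the explicit cone in `ℝ^4` stays inside the domain `{ρ > 0}`
away from the origin.
-/

namespace Vale.Agent.Lib.P098

open Finset
open scoped Topology InnerProductSpace

theorem wu_pos_imp {y : EuclideanSpace ℝ (Fin 4)} (hy : y ∈ wU) (h : 0 < wu y) :
    y 3 ^ 2 ≤ wS y := by
  have hρ := wρ_pos hy
  have h2 : (0 : ℝ) < Real.sqrt 2 / 4 := by positivity
  unfold wu at h
  have h' : 0 < wρ y - y 3 ^ 2 * (wρ y)⁻¹ := (mul_pos_iff_of_pos_left h2).1 h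
  have h3 : y 3 ^ 2 * (wρ y)⁻¹ * wρ y = y 3 ^ 2 := by field_simp
  have h4 : y 3 ^ 2 * (wρ y)⁻¹ < wρ y := by linarith
  have h5 : y 3 ^ 2 * (wρ y)⁻¹ * wρ y < wρ y * wρ y := mul_lt_mul_of_pos_right h4 hρ
  rw [h3] at h5
  rw [← wρ_sq hy, pow_two (wρ y)]
  exact h5.le

theorem wu_closure : closure {x ∈ wU | 0 < wu x} ⊆ insert 0 wU := by
  have hcl : IsClosed {x : EuclideanSpace ℝ (Fin 4) | x 3 ^ 2 ≤ wS x} := by
    have hc : Continuous wS := by
      unfold wS
      fun_prop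
    have hc3 : Continuous (fun x : EuclideanSpace ℝ (Fin 4) => x 3 ^ 2) := by fun_prop
    exact isClosed_le hc3 hc
  have hsub : {x ∈ wU | 0 < wu x} ⊆ {x : EuclideanSpace ℝ (Fin 4) | x 3 ^ 2 ≤ wS x} :=
    fun x hx => wu_pos_imp hx.1 hx.2
  intro x hx
  have hx' : x 3 ^ 2 ≤ wS x := (closure_minimal hsub hcl) hx
  by_cases h : 0 < wS x
  · exact Or.inr h
  · left
    have hS : wS x = 0 := le_antisymm (not_lt.1 h) (by unfold wS; positivity)
    have h3 : x 3 = 0 := by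
      have : x 3 ^ 2 = 0 := le_antisymm (by linarith) (sq_nonneg _)
      exact (pow_eq_zero_iff two_ne_zero).1 this
    unfold wS at hS
    have h0 : x 0 = 0 := by
      have : x 0 ^ 2 = 0 :=
        le_antisymm (by linarith [sq_nonneg (x 1), sq_nonneg (x 2)]) (sq_nonneg _)
      exact (pow_eq_zero_iff two_ne_zero).1 this
    have h1 : x 1 = 0 := by
      have : x 1 ^ 2 = 0 :=
        le_antisymm (by linarith [sq_nonneg (x 0), sq_nonneg (x 2)]) (sq_nonneg _)
      exact (pow_eq_zero_iff two_ne_zero).1 this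
    have h2 : x 2 = 0 := by
      have : x 2 ^ 2 = 0 :=
        le_antisymm (by linarith [sq_nonneg (x 0), sq_nonneg (x 1)]) (sq_nonneg _)
      exact (pow_eq_zero_iff two_ne_zero).1 this
    ext i
    fin_cases i <;> simp [h0, h1, h2, h3]

/-- The explicit cone in `ℝ^4`: a classical cone solution whose closed positive phase lies in
its domain away from the origin, with nonempty positive phase and free boundary, nowhere
vanishing Hessian, and negative trace of the cube of the Hessian along the free boundary. -/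
theorem witness_closed :
    ∃ (U : Set (EuclideanSpace ℝ (Fin 4))) (u : EuclideanSpace ℝ (Fin 4) → ℝ),
      (IsOpen U ∧ (0 : EuclideanSpace ℝ (Fin 4)) ∉ U ∧
        (∀ x ∈ U, ∀ t : ℝ, 0 < t → t • x ∈ U) ∧
        ContDiffOn ℝ 4 u U ∧
        (∀ x ∈ U, ∀ t : ℝ, 0 < t → u (t • x) = t * u x) ∧
        (∀ x ∈ U, 0 < u x → Laplacian.laplacian u x = 0) ∧
        (∀ x ∈ U, u x = 0 → ‖gradient u x‖ = 1)) ∧
      closure {x ∈ U | 0 < u x} ⊆ insert 0 U ∧
      {x ∈ U | 0 < u x}.Nonempty ∧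
      (∃ x ∈ U, u x = 0) ∧
      (∀ x ∈ U, ∑ i, ∑ j, fderiv ℝ (fderiv ℝ u) x
        (EuclideanSpace.single i 1) (EuclideanSpace.single j 1) ^ 2 ≠ 0) ∧
      (∀ x ∈ U, u x = 0 → ∑ i, ∑ j, ∑ l, fderiv ℝ (fderiv ℝ u) x (EuclideanSpace.single i 1)
          (EuclideanSpace.single j 1)
        * fderiv ℝ (fderiv ℝ u) x (EuclideanSpace.single j 1) (EuclideanSpace.single l 1)
        * fderiv ℝ (fderiv ℝ u) x (EuclideanSpace.single l 1) (EuclideanSpace.single i 1)
          < 0) := by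
  have h2 : (0 : ℝ) < Real.sqrt 2 := Real.sqrt_pos.2 (by norm_num)
  refine ⟨wU, wu, ⟨wU_open, wU_zero, wU_cone, wu_contDiffOn, wu_hom,
    fun x hx _ => wu_laplacian hx, fun x hx h0 => wu_grad hx h0⟩, wu_closure, ?_, ?_, ?_, ?_⟩
  · refine ⟨wpt 0, wpt_mem 0, ?_⟩
    rw [wu_wpt]
    norm_num
  · refine ⟨wpt 1, wpt_mem 1, ?_⟩
    rw [wu_wpt]
    norm_num
  · intro x hx
    exact wu_hessSq_ne hx
  · intro x hx h0
    rw [wu_hessCube_fb hx h0]
    have hρ := wρ_pos hx
    have hpos : 0 < (Real.sqrt 2 / 4 * (wρ x)⁻¹) ^ 3 := by positivity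
    linarith

end Vale.Agent.Lib.P098
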