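import Vale.Agent.Lib.P098.Witness

/-!
The explicit cone solution `u = (√2/4)(ρ - z²/ρ)` in `ℝ^4`: its full Hessian on the free
boundary, the trace of the cube of the Hessian there (negative), and nonvanishing of the Hessian
everywhere.
-/

namespace Vale.Agent.Lib.P098

open Finset

/-- `v₀ w₀ + v₁ w₁ + v₂ w₂`. -/
noncomputable def wD (v w : EuclideanSpace ℝ (Fin 4)) : ℝ := v 0 * w 0 + v 1 * w 1 + v 2 * w 2

/-- Mixed second directional derivatives of the cone solution. -/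
theorem wu_pd2m {y : EuclideanSpace ℝ (Fin 4)} (hy : y ∈ wU)
    (v w : EuclideanSpace ℝ (Fin 4)) :
    pd w (pd v wu) y = Real.sqrt 2 / 4 * (wD v w * (wρ y)⁻¹
      - wL v y * wL w y * (wρ y)⁻¹ ^ 3 - 2 * v 3 * w 3 * (wρ y)⁻¹
      + 2 * y 3 * (v 3 * wL w y + w 3 * wL v y) * (wρ y)⁻¹ ^ 3
      + y 3 ^ 2 * wD v w * (wρ y)⁻¹ ^ 3
      - 3 * y 3 ^ 2 * wL v y * wL w y * (wρ y)⁻¹ ^ 5) := by
  have e : Set.EqOn (pd v wu) (fun x => Real.sqrt 2 / 4 * (wL v x * (wρ x)⁻¹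
      - 2 * x 3 * v 3 * (wρ x)⁻¹ + x 3 ^ 2 * wL v x * (wρ x)⁻¹ ^ 3)) wU :=
    fun x hx => wu_pd hx v
  rw [pd_congr wU_open e w hy]
  have hL := hasFDerivAt_wL v y
  have hz := hasFDerivAt_crd 3 y
  have hri := hasFDerivAt_wρinv hy
  have h1 := hL.mul hri
  have h2 := ((hz.const_mul 2).mul_const (v 3)).mul hri
  have h3 := ((hz.pow 2).mul hL).mul (hri.pow 3)
  have h : HasFDerivAt (fun x => Real.sqrt 2 / 4 * (wL v x * (wρ x)⁻¹
      - 2 * x 3 * v 3 * (wρ x)⁻¹ + x 3 ^ 2 * wL v x * (wρ x)⁻¹ ^ 3)) _ y :=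
    ((h1.sub h2).add h3).const_mul (Real.sqrt 2 / 4)
  simp only [pd, h.fderiv]
  simp [wL, wD]
  ring

theorem wz_rel {y : EuclideanSpace ℝ (Fin 4)} (hy : y ∈ wU) (h0 : wu y = 0) :
    y 3 ^ 2 * (wρ y)⁻¹ ^ 2 = 1 := by
  have hρ := wρ_pos hy
  rw [(wu_zero_iff hy).1 h0]
  field_simp

theorem wS_rel {y : EuclideanSpace ℝ (Fin 4)} (hy : y ∈ wU) :
    (y 0 ^ 2 + y 1 ^ 2 + y 2 ^ 2) * (wρ y)⁻¹ ^ 2 = 1 := by
  have hρ := wρ_pos hy
  have hS : y 0 ^ 2 + y 1 ^ 2 + y 2 ^ 2 = wρ y ^ 2 := (wρ_sq hy).symm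
  rw [hS]
  field_simp

/-- The Hessian of the cone solution at a free boundary point. -/
theorem wu_hess_fb {y : EuclideanSpace ℝ (Fin 4)} (hy : y ∈ wU) (h0 : wu y = 0)
    (v w : EuclideanSpace ℝ (Fin 4)) :
    fderiv ℝ (fderiv ℝ wu) y v w = Real.sqrt 2 / 4 * (wρ y)⁻¹ * (2 * wD v w
      - 4 * (wL v y * (wρ y)⁻¹) * (wL w y * (wρ y)⁻¹) - 2 * v 3 * w 3
      + 2 * (y 3 * (wρ y)⁻¹) * (v 3 * (wL w y * (wρ y)⁻¹) + w 3 * (wL v y * (wρ y)⁻¹))) := by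
  rw [D2_eq wU_open (wu_contDiffOn.of_le (by norm_num)) hy, wu_pd2m hy w v]
  have hz := wz_rel hy h0
  simp only [wD]
  linear_combination (Real.sqrt 2 / 4 * (wρ y)⁻¹ * ((w 0 * v 0 + w 1 * v 1 + w 2 * v 2)
    - 3 * wL w y * wL v y * (wρ y)⁻¹ ^ 2)) * hz

/-- The trace of the cube of the Hessian of the cone solution on the free boundary. -/
theorem wu_hessCube_fb {y : EuclideanSpace ℝ (Fin 4)} (hy : y ∈ wU) (h0 : wu y = 0) :
    ∑ i, ∑ j, ∑ l, fderiv ℝ (fderiv ℝ wu) y (EuclideanSpace.single i 1)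
        (EuclideanSpace.single j 1)
      * fderiv ℝ (fderiv ℝ wu) y (EuclideanSpace.single j 1) (EuclideanSpace.single l 1)
      * fderiv ℝ (fderiv ℝ wu) y (EuclideanSpace.single l 1) (EuclideanSpace.single i 1)
      = -48 * (Real.sqrt 2 / 4 * (wρ y)⁻¹) ^ 3 := by
  have hz := wz_rel hy h0
  have hS := wS_rel hy
  simp only [wu_hess_fb hy h0]
  simp [Fin.sum_univ_four, wL, wD]
  linear_combination ((Real.sqrt 2 / 4 * (wρ y)⁻¹) ^ 3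
      * (-48 * ((y 0 ^ 2 + y 1 ^ 2 + y 2 ^ 2) * (wρ y)⁻¹ ^ 2) ^ 2)) * hz
    + ((Real.sqrt 2 / 4 * (wρ y)⁻¹) ^ 3
      * (-16 * (4 * ((y 0 ^ 2 + y 1 ^ 2 + y 2 ^ 2) * (wρ y)⁻¹ ^ 2) ^ 2
        + (y 0 ^ 2 + y 1 ^ 2 + y 2 ^ 2) * (wρ y)⁻¹ ^ 2 + 4))) * hS

/-- The Hessian of the cone solution vanishes nowhere. -/
theorem wu_hessSq_ne {y : EuclideanSpace ℝ (Fin 4)} (hy : y ∈ wU) :
    ∑ i, ∑ j, fderiv ℝ (fderiv ℝ wu) y (EuclideanSpace.single i 1)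
      (EuclideanSpace.single j 1) ^ 2 ≠ 0 := by
  have hρ := wρ_pos hy
  have h2 : (0 : ℝ) < Real.sqrt 2 := Real.sqrt_pos.2 (by norm_num)
  have hterm : fderiv ℝ (fderiv ℝ wu) y (EuclideanSpace.single 3 1)
      (EuclideanSpace.single 3 1) = -(Real.sqrt 2 / 2 * (wρ y)⁻¹) := by
    rw [D2_eq wU_open (wu_contDiffOn.of_le (by norm_num)) hy, wu_pd2 hy]
    simp [wL]
    ring
  have hpos : 0 < ∑ i, ∑ j, fderiv ℝ (fderiv ℝ wu) y
      (EuclideanSpace.single i 1) (EuclideanSpace.single j 1) ^ 2 := by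
    have h1 : ∀ i ∈ (Finset.univ : Finset (Fin 4)), 0 ≤ ∑ j, fderiv ℝ (fderiv ℝ wu) y
        (EuclideanSpace.single i 1) (EuclideanSpace.single j 1) ^ 2 :=
      fun i _ => Finset.sum_nonneg fun j _ => sq_nonneg _
    have h3 : 0 < ∑ j, fderiv ℝ (fderiv ℝ wu) y
        (EuclideanSpace.single 3 1) (EuclideanSpace.single j 1) ^ 2 := by
      refine lt_of_lt_of_le ?_ (Finset.single_le_sum (fun j _ => sq_nonneg _)
        (Finset.mem_univ (3 : Fin 4)))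
      rw [hterm, neg_sq]
      positivity
    exact lt_of_lt_of_le h3 (Finset.single_le_sum h1 (Finset.mem_univ (3 : Fin 4)))
  exact ne_of_gt hpos

/-- An explicit classical cone solution in `ℝ^4` (not flat: its Hessian vanishes nowhere) with
nonempty free boundary and positive phase, on whose free boundary the trace of the cube of the
Hessian is negative. -/
theorem witness_pinched :
    ∃ (U : Set (EuclideanSpace ℝ (Fin 4))) (u : EuclideanSpace ℝ (Fin 4) → ℝ),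
      (IsOpen U ∧ (0 : EuclideanSpace ℝ (Fin 4)) ∉ U ∧
        (∀ x ∈ U, ∀ t : ℝ, 0 < t → t • x ∈ U) ∧
        ContDiffOn ℝ 4 u U ∧
        (∀ x ∈ U, ∀ t : ℝ, 0 < t → u (t • x) = t * u x) ∧
        (∀ x ∈ U, 0 < u x → Laplacian.laplacian u x = 0) ∧
        (∀ x ∈ U, u x = 0 → ‖gradient u x‖ = 1)) ∧
      (∃ x ∈ U, u x = 0) ∧ (∃ x ∈ U, 0 < u x) ∧
      (∀ x ∈ U, ∑ i, ∑ j, fderiv ℝ (fderiv ℝ u) x
        (EuclideanSpace.single i 1) (EuclideanSpace.single j 1) ^ 2 ≠ 0) ∧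
      (∀ x ∈ U, u x = 0 → ∑ i, ∑ j, ∑ l, fderiv ℝ (fderiv ℝ u) x (EuclideanSpace.single i 1)
          (EuclideanSpace.single j 1)
        * fderiv ℝ (fderiv ℝ u) x (EuclideanSpace.single j 1) (EuclideanSpace.single l 1)
        * fderiv ℝ (fderiv ℝ u) x (EuclideanSpace.single l 1) (EuclideanSpace.single i 1)
          < 0) := by
  have h2 : (0 : ℝ) < Real.sqrt 2 := Real.sqrt_pos.2 (by norm_num)
  refine ⟨wU, wu, ⟨wU_open, wU_zero, wU_cone, wu_contDiffOn, wu_hom,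
    fun x hx _ => wu_laplacian hx, fun x hx h0 => wu_grad hx h0⟩, ?_, ?_, ?_, ?_⟩
  · refine ⟨wpt 1, wpt_mem 1, ?_⟩
    rw [wu_wpt]
    norm_num
  · refine ⟨wpt 0, wpt_mem 0, ?_⟩
    rw [wu_wpt]
    norm_num
  · intro x hx
    exact wu_hessSq_ne hx
  · intro x hx h0
    rw [wu_hessCube_fb hx h0]
    have hρ := wρ_pos hx
    have hpos : 0 < (Real.sqrt 2 / 4 * (wρ x)⁻¹) ^ 3 := by positivity
    linarith

end Vale.Agent.Lib.P098
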